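import Mathlib

/-! Smooth functions of time and an angle, even at `0` and at `π / 2`. -/

open scoped ContDiff Topology Real
open Set Real

noncomputable section

namespace Vale.Agent.P264

section HadInt

open Filter

variable {E Y : Type} [NormedAddCommGroup E] [NormedSpace ℝ E] [NormedAddCommGroup Y]
  [NormedSpace ℝ Y]

/-- derivative in the parameter -/
def hadD (f : E × ℝ → Y) (p : E × ℝ) : E →L[ℝ] Y :=
  (ContinuousLinearMap.compL ℝ E (E × ℝ) Y).flip (ContinuousLinearMap.inl ℝ E ℝ) (fderiv ℝ f p)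

theorem had_ev {f : E × ℝ → Y} {z : E} {c : ℝ} {n : ℕ}
    (hf : ∀ t ∈ Icc 0 c, ContDiffAt ℝ n f (z, t)) :
    ∀ᶠ x in 𝓝 z, ∀ t ∈ Icc 0 c, ContDiffAt ℝ n f (x, t) :=
  isCompact_Icc.eventually_forall_of_forall_eventually (P := fun x t => ContDiffAt ℝ n f (x, t))
    fun t ht => (hf t ht).eventually (by simp)

omit [NormedSpace ℝ E] [NormedSpace ℝ Y] in
theorem had_cont {f : E × ℝ → Y} {z : E} {c : ℝ} (hf : ∀ t ∈ Icc 0 c, ContinuousAt f (z, t)) :
    ContinuousOn (fun t => f (z, t)) (Icc 0 c) := fun t ht =>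
  (ContinuousAt.comp (f := Prod.mk z) (hf t ht) (by fun_prop)).continuousWithinAt

theorem had_D {f : E × ℝ → Y} {p : E × ℝ} {n : ℕ∞ω} (hf : ContDiffAt ℝ (n + 1) f p) :
    ContDiffAt ℝ n (hadD f) p :=
  (ContinuousLinearMap.contDiff _).contDiffAt.comp p hf.fderiv_right_succ

theorem had_has {f : E × ℝ → Y} {z : E} {c : ℝ} (hc : 0 ≤ c)
    (hf : ∀ t ∈ Icc 0 c, ContDiffAt ℝ ((0 + 1 : ℕ) : ℕ∞ω) f (z, t)) :
    HasFDerivAt (fun x => ∫ t in (0 : ℝ)..c, f (x, t)) (∫ t in (0 : ℝ)..c, hadD f (z, t)) z := by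
  have hD : ∀ t ∈ Icc 0 c, ContinuousAt (hadD f) (z, t) := fun t ht =>
    (had_D (n := 0) (hf t ht)).continuousAt
  obtain ⟨M, hM⟩ := isCompact_Icc.exists_bound_of_continuousOn (had_cont hD)
  have h1 := isCompact_Icc.eventually_forall_of_forall_eventually (x₀ := z)
    (P := fun x t => ‖hadD f (x, t)‖ < M + 1) fun t ht =>
      (hD t ht).norm.eventually (gt_mem_nhds ((hM t ht).trans_lt (lt_add_one M)))
  have hI : uIoc 0 c ⊆ Icc 0 c := by
    rw [uIoc_of_le hc]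
    exact Ioc_subset_Icc_self
  refine intervalIntegral.hasFDerivAt_integral_of_dominated_of_fderiv_le
    (F := fun x t => f (x, t)) (F' := fun x t => hadD f (x, t)) (bound := fun _ => M + 1)
    ((had_ev hf).and h1) ((had_ev hf).mono fun x hx => ((had_cont fun t ht =>
      (hx t ht).continuousAt).mono hI).aestronglyMeasurable measurableSet_uIoc)
    ((had_cont fun t ht => (hf t ht).continuousAt).intervalIntegrable_of_Icc hc)
    (((had_cont hD).mono hI).aestronglyMeasurable measurableSet_uIoc)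
    (Eventually.of_forall fun t ht x hx => (hx.2 t (hI ht)).le) intervalIntegrable_const
    (Eventually.of_forall fun t ht x hx => ?_)
  exact ((hx.1 t (hI ht)).differentiableAt (by simp)).hasFDerivAt.comp x
    (hasFDerivAt_prodMk_left x t)

theorem had_cd {z : E} {c : ℝ} (hc : 0 ≤ c) (n : ℕ) {f : E × ℝ → Y}
    (hf : ∀ t ∈ Icc 0 c, ContDiffAt ℝ ((n + 1 : ℕ) : ℕ∞ω) f (z, t)) :
    ContDiffAt ℝ n (fun x => ∫ t in (0 : ℝ)..c, f (x, t)) z := by
  induction n generalizing Y with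
  | zero =>
    exact contDiffAt_zero.2 ⟨_, had_ev hf, fun x hx =>
      (had_has hc hx).continuousAt.continuousWithinAt⟩
  | succ n ih =>
    exact contDiffAt_succ_iff_hasFDerivAt.2 ⟨fun x => ∫ t in (0 : ℝ)..c, hadD f (x, t),
      ⟨_, had_ev hf, fun x hx => had_has hc fun t ht => (hx t ht).of_le (by simp)⟩,
      ih fun t ht => had_D (hf t ht)⟩

theorem had_integral {f : E × ℝ → Y} {z : E} {c : ℝ} (hc : 0 ≤ c)
    (hf : ∀ t ∈ Icc 0 c, ContDiffAt ℝ ∞ f (z, t)) :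
    ContDiffAt ℝ ∞ (fun x => ∫ t in (0 : ℝ)..c, f (x, t)) z :=
  contDiffAt_infty.2 fun n => had_cd hc n fun t ht =>
    (hf t ht).of_le (by exact_mod_cast le_top)

end HadInt

theorem had_snd {F : ℝ × ℝ → ℝ} (hF : ContDiff ℝ ∞ F) (s θ : ℝ) :
    HasDerivAt (fun x => F (s, x)) (fderiv ℝ F (s, θ) (0, 1)) θ :=
  (hF.differentiable (by simp) (s, θ)).hasFDerivAt.comp_hasDerivAt θ
    ((hasDerivAt_const θ s).prodMk (hasDerivAt_id θ))

theorem had_fst {F : ℝ × ℝ → ℝ} (hF : ContDiff ℝ ∞ F) (s θ : ℝ) :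
    HasDerivAt (fun r => F (r, θ)) (fderiv ℝ F (s, θ) (1, 0)) s :=
  (hF.differentiable (by simp) (s, θ)).hasFDerivAt.comp_hasDerivAt s
    ((hasDerivAt_id s).prodMk (hasDerivAt_const s θ))

theorem had_dir {F : ℝ × ℝ → ℝ} (hF : ContDiff ℝ ∞ F) (v : ℝ × ℝ) :
    ContDiff ℝ ∞ fun p => fderiv ℝ F p v :=
  (hF.fderiv_right (m := ∞) le_rfl).clm_apply contDiff_const

theorem had_symm {F : ℝ × ℝ → ℝ} (hF : ContDiff ℝ ∞ F) (s θ : ℝ) : ∃ c : ℝ,
    HasDerivAt (fun r => fderiv ℝ F (r, θ) (0, 1)) c s ∧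
      HasDerivAt (fun x => fderiv ℝ F (s, x) (1, 0)) c θ := by
  have h1 : ∀ p, HasFDerivAt F (fderiv ℝ F p) p := fun p =>
    (hF.differentiable (by simp) p).hasFDerivAt
  have h2 : HasFDerivAt (fderiv ℝ F) (fderiv ℝ (fderiv ℝ F) (s, θ)) (s, θ) :=
    ((hF.fderiv_right (m := ∞) le_rfl).differentiable (by simp) (s, θ)).hasFDerivAt
  have l1 : HasDerivAt (fun r : ℝ => (r, θ)) (1, 0) s :=
    (hasDerivAt_id s).prodMk (hasDerivAt_const s θ)
  have l2 : HasDerivAt (fun x : ℝ => (s, x)) (0, 1) θ :=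
    (hasDerivAt_const θ s).prodMk (hasDerivAt_id θ)
  have h3 := (HasFDerivAt.comp_hasDerivAt (f := fun r : ℝ => (r, θ)) s h2 l1).clm_apply
    (hasDerivAt_const s ((0, 1) : ℝ × ℝ))
  have h4 := (HasFDerivAt.comp_hasDerivAt (f := fun x : ℝ => (s, x)) θ h2 l2).clm_apply
    (hasDerivAt_const θ ((1, 0) : ℝ × ℝ))
  rw [map_zero, add_zero] at h3 h4
  rw [second_derivative_symmetric h1 h2] at h4
  exact ⟨_, h3, h4⟩

theorem had_val {F H : ℝ × ℝ → ℝ} (hH : ContDiff ℝ ∞ H) {a : ℝ}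
    (h : ∀ s θ, F (s, θ) = (θ - a) * H (s, θ)) (s : ℝ) :
    HasDerivAt (fun x => F (s, x)) (H (s, a)) a := by
  have h1 := ((hasDerivAt_id a).sub_const a).mul (had_snd hH s a)
  simp only [h]
  refine h1.congr_deriv ?_
  simp

theorem had_cancel {u : ℝ → ℝ} (hu : Continuous u) (h : ∀ θ, sin (2 * θ) * u θ = 0) (θ : ℝ) :
    u θ = 0 := by
  have hc : ({x : ℝ | sin (2 * x) = 0}).Countable := by
    refine (countable_range fun n : ℤ => (n : ℝ) * π / 2).mono fun x hx => ?_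
    obtain ⟨n, hn⟩ := sin_eq_zero_iff.1 hx
    exact ⟨n, by
      show (n : ℝ) * π / 2 = x
      linarith⟩
  exact congrFun (hu.ext_on (hc.dense_compl ℝ) continuous_const fun x hx =>
    (mul_eq_zero.1 (h x)).resolve_left hx) θ

/-- Hadamard's lemma with a parameter. -/
theorem hadamard {F : ℝ × ℝ → ℝ} (hF : ContDiff ℝ ∞ F) (a : ℝ) (h0 : ∀ s, F (s, a) = 0) :
    ∃ H : ℝ × ℝ → ℝ, ContDiff ℝ ∞ H ∧ ∀ s θ, F (s, θ) = (θ - a) * H (s, θ) := by
  refine ⟨fun p => ∫ r in (0 : ℝ)..1, fderiv ℝ F (p.1, a + r * (p.2 - a)) (0, 1),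
    contDiff_iff_contDiffAt.2 fun p => had_integral
      (f := fun q : (ℝ × ℝ) × ℝ => fderiv ℝ F (q.1.1, a + q.2 * (q.1.2 - a)) (0, 1)) zero_le_one
      fun t _ => ((had_dir hF (0, 1)).comp (by fun_prop)).contDiffAt, fun s θ => ?_⟩
  have h1 : ∀ r : ℝ, HasDerivAt (fun r => F (s, a + r * (θ - a)))
      ((θ - a) * fderiv ℝ F (s, a + r * (θ - a)) (0, 1)) r := fun r => by
    have h2 := (had_snd hF s (a + r * (θ - a))).comp r
      (((hasDerivAt_id r).mul_const (θ - a)).const_add a)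
    refine h2.congr_deriv ?_
    ring
  have h3 : Continuous fun r : ℝ => (θ - a) * fderiv ℝ F (s, a + r * (θ - a)) (0, 1) :=
    continuous_const.mul ((had_dir hF (0, 1)).continuous.comp (by fun_prop))
  have h4 := intervalIntegral.integral_eq_sub_of_hasDerivAt (a := 0) (b := 1) (fun r _ => h1 r)
    (h3.intervalIntegrable _ _)
  rw [intervalIntegral.integral_const_mul] at h4
  simp only [one_mul, zero_mul, add_zero, add_sub_cancel, h0, sub_zero] at h4
  exact h4.symm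

/-- Division by `sin (2 θ)`. -/
theorem div_sin {F : ℝ × ℝ → ℝ} (hF : ContDiff ℝ ∞ F)
    (h0 : ∀ s θ, sin (2 * θ) = 0 → F (s, θ) = 0) :
    ∃ H : ℝ × ℝ → ℝ, ContDiff ℝ ∞ H ∧ ∀ s θ, F (s, θ) = sin (2 * θ) * H (s, θ) := by
  classical
  refine ⟨fun p => if sin (2 * p.2) = 0 then fderiv ℝ F p (0, 1) / (2 * cos (2 * p.2))
    else F p / sin (2 * p.2), contDiff_iff_contDiffAt.2 fun p => ?_, fun s θ => ?_⟩
  · obtain ⟨s, a⟩ := p
    have hs : ContDiff ℝ ∞ fun p : ℝ × ℝ => sin (2 * p.2) := by fun_prop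
    by_cases ha : sin (2 * a) = 0
    · obtain ⟨H, hH, h1⟩ := hadamard hF a fun r => h0 r a ha
      obtain ⟨K, hK, h2⟩ := hadamard hs a fun _ => ha
      have hKa : ∀ r, K (r, a) = 2 * cos (2 * a) := fun r => by
        have h3 := ((hasDerivAt_id a).const_mul 2).sin
        have h4 := (had_val (F := fun p : ℝ × ℝ => sin (2 * p.2)) hK h2 r).unique h3
        simp only [id, mul_one] at h4
        rw [h4, mul_comm]
      have hc : cos (2 * a) ≠ 0 := fun h => by
        have h3 := sin_sq_add_cos_sq (2 * a)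
        rw [ha, h] at h3
        norm_num at h3
      have hK0 : K (s, a) ≠ 0 := by
        rw [hKa]
        exact mul_ne_zero two_ne_zero hc
      refine (hH.contDiffAt.div hK.contDiffAt hK0).congr_of_eventuallyEq ?_
      filter_upwards [hK.continuous.continuousAt.eventually_ne hK0] with q hq
      obtain ⟨r, x⟩ := q
      by_cases hx : x = a
      · rw [hx]
        simp only [ha, if_true, Pi.div_apply]
        rw [hKa, (had_snd hF r a).unique (had_val hH h1 r)]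
      · have h5 : sin (2 * x) = (x - a) * K (r, x) := h2 r x
        have h6 : x - a ≠ 0 := sub_ne_zero.2 hx
        have h7 : sin (2 * x) ≠ 0 := h5 ▸ mul_ne_zero h6 hq
        simp only [h7, if_false, Pi.div_apply]
        rw [h1, h5, mul_div_mul_left _ _ h6]
    · have h9 : ContDiffAt ℝ ∞ (fun q : ℝ × ℝ => F q / sin (2 * q.2)) (s, a) :=
        ContDiffAt.div (g := fun q : ℝ × ℝ => sin (2 * q.2)) hF.contDiffAt hs.contDiffAt ha
      refine h9.congr_of_eventuallyEq ?_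
      have h8 : ∀ᶠ q : ℝ × ℝ in 𝓝 (s, a), sin (2 * q.2) ≠ 0 :=
        ContinuousAt.eventually_ne (g := fun q : ℝ × ℝ => sin (2 * q.2))
          hs.continuous.continuousAt ha
      filter_upwards [h8] with q hq
      simp only [hq, if_false]
  · by_cases ha : sin (2 * θ) = 0
    · rw [h0 s θ ha, ha, zero_mul]
    · simp only [ha, if_false]
      field_simp

/-- the even smooth functions, as a subalgebra -/
def EvA : Subalgebra ℝ (ℝ × ℝ → ℝ) where
  carrier := {f | ContDiff ℝ ∞ f ∧ (∀ s θ, f (s, -θ) = f (s, θ)) ∧ ∀ s θ, f (s, π - θ) = f (s, θ)}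
  mul_mem' {a b} ha hb := ⟨ha.1.mul hb.1, fun s θ => by simp [ha.2.1, hb.2.1],
    fun s θ => by simp [ha.2.2, hb.2.2]⟩
  add_mem' {a b} ha hb := ⟨ha.1.add hb.1, fun s θ => by simp [ha.2.1, hb.2.1],
    fun s θ => by simp [ha.2.2, hb.2.2]⟩
  algebraMap_mem' c := ⟨contDiff_const (c := c), fun _ _ => rfl, fun _ _ => rfl⟩

/-- the even smooth functions -/
def Ev : Type := EvA

instance : CommRing Ev := inferInstanceAs (CommRing EvA)

instance : Algebra ℝ Ev := inferInstanceAs (Algebra ℝ EvA)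

namespace Ev

/-- evaluation -/
def ev (p : ℝ × ℝ) : Ev →ₐ[ℝ] ℝ := (Pi.evalAlgHom ℝ (fun _ => ℝ) p).comp EvA.val

/-- constructor -/
def mk (f : ℝ × ℝ → ℝ) (h1 : ContDiff ℝ ∞ f) (h2 : ∀ s θ, f (s, -θ) = f (s, θ))
    (h3 : ∀ s θ, f (s, π - θ) = f (s, θ)) : Ev := ⟨f, h1, h2, h3⟩

@[simp] theorem ev_mk (f h1 h2 h3) (p : ℝ × ℝ) : ev p (mk f h1 h2 h3) = f p := rfl

theorem smooth (f : Ev) : ContDiff ℝ ∞ fun p => ev p f := (Subtype.property f).1

theorem even (f : Ev) (s θ : ℝ) : ev (s, -θ) f = ev (s, θ) f := (Subtype.property f).2.1 s θ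

theorem refl (f : Ev) (s θ : ℝ) : ev (s, π - θ) f = ev (s, θ) f := (Subtype.property f).2.2 s θ

theorem ext_ev {f g : Ev} (h : ∀ p, ev p f = ev p g) : f = g := Subtype.ext (funext h)

theorem had_per (f : Ev) (s : ℝ) : Function.Periodic (fun x => ev (s, x) f) π := fun x => by
  have h := refl f s (-x)
  rw [even, sub_neg_eq_add, add_comm] at h
  exact h

theorem had_line (f : Ev) (s : ℝ) : Continuous fun x => ev (s, x) f :=
  (smooth f).continuous.comp (Continuous.prodMk_right s)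

/-- Every value is taken in the fundamental interval. -/
theorem exists_mem (θ : ℝ) : ∃ θ' ∈ Icc 0 (π / 2), ∀ (f : Ev) (s : ℝ), ev (s, θ) f = ev (s, θ') f := by
  have h := toIcoMod_mem_Ico pi_pos (-(π / 2)) θ
  refine ⟨|toIcoMod pi_pos (-(π / 2)) θ|, ⟨abs_nonneg _, abs_le.2 ⟨h.1, by linarith [h.2]⟩⟩,
    fun f s => ?_⟩
  have h1 : ev (s, toIcoMod pi_pos (-(π / 2)) θ) f = ev (s, θ) f := by
    rw [← self_sub_toIcoDiv_zsmul]
    exact (had_per f s).sub_zsmul_eq _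
  rw [← h1]
  rcases abs_choice (toIcoMod pi_pos (-(π / 2)) θ) with h2 | h2
  · rw [h2]
  · rw [h2, even]

theorem ext_open {f g : Ev} (h : ∀ s, ∀ θ ∈ Ioo 0 (π / 2), ev (s, θ) f = ev (s, θ) g) : f = g := by
  refine ext_ev fun p => ?_
  obtain ⟨s, θ⟩ := p
  obtain ⟨x, hx, h1⟩ := exists_mem θ
  rw [h1, h1]
  rw [← closure_Ioo (by positivity : (0 : ℝ) < π / 2).ne] at hx
  exact Set.EqOn.closure (h s) (had_line f s) (had_line g s) hx

theorem isUnit_of_ne {f : Ev} (h : ∀ s, ∀ θ ∈ Icc 0 (π / 2), ev (s, θ) f ≠ 0) : IsUnit f := by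
  have h0 : ∀ p, ev p f ≠ 0 := fun p => by
    obtain ⟨s, θ⟩ := p
    obtain ⟨x, hx, h1⟩ := exists_mem θ
    rw [h1]
    exact h s x hx
  refine IsUnit.of_mul_eq_one (mk (fun p => (ev p f)⁻¹) ((smooth f).inv h0)
    (fun s θ => by rw [even]) fun s θ => by rw [refl]) (ext_ev fun p => ?_)
  rw [map_mul, ev_mk, map_one, mul_inv_cancel₀ (h0 p)]

theorem had_sin {θ : ℝ} (hθ : θ ∈ Ioo 0 (π / 2)) : 0 < sin (2 * θ) :=
  sin_pos_of_pos_of_lt_pi (by linarith [hθ.1]) (by linarith [hθ.2])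

theorem had_der (γ : ℝ × ℝ → ℝ → ℝ × ℝ) (t w : ℝ × ℝ → ℝ) (hγ : ∀ p, γ p (t p) = p)
    (hw : ∀ s, ∀ θ ∈ Ioo 0 (π / 2), w (s, θ) ≠ 0)
    (h : ∀ f : Ev, ∃ g : Ev, ∀ p, HasDerivAt (fun x => ev (γ p x) f) (w p * ev p g) (t p)) :
    ∃ D : Derivation ℝ Ev Ev, ∀ (f : Ev) p,
      HasDerivAt (fun x => ev (γ p x) f) (w p * ev p (D f)) (t p) := by
  choose D hD using h
  have hu : ∀ f g : Ev, (∀ p, HasDerivAt (fun x => ev (γ p x) f) (w p * ev p g) (t p)) →
      D f = g := fun f g hg => ext_open fun s θ hθ =>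
    mul_left_cancel₀ (hw s θ hθ) ((hD f (s, θ)).unique (hg (s, θ)))
  refine ⟨Derivation.mk' ⟨⟨D, fun a b => hu _ _ fun p => ?_⟩, fun c a => hu _ _ fun p => ?_⟩
    fun a b => hu _ _ fun p => ?_, hD⟩
  · simp only [map_add, mul_add]
    exact (hD a p).add (hD b p)
  · simp only [map_smul, smul_eq_mul, RingHom.id_apply]
    exact ((hD a p).const_mul c).congr_deriv (by ring)
  · simp only [map_mul, map_add, smul_eq_mul, LinearMap.coe_mk, AddHom.coe_mk]
    refine ((hD a p).mul (hD b p)).congr_deriv ?_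
    rw [hγ]
    ring

theorem exists_dX : ∃ D : Derivation ℝ Ev Ev, ∀ (f : Ev) (s θ : ℝ),
    HasDerivAt (fun x => ev (s, x) f) (sin (2 * θ) * ev (s, θ) (D f)) θ := by
  have key : ∀ f : Ev, ∃ g : Ev, ∀ p : ℝ × ℝ,
      HasDerivAt (fun x => ev (p.1, x) f) (sin (2 * p.2) * ev p g) p.2 := fun f => by
    have hd := had_snd (smooth f)
    have hr : ∀ (c : ℝ), (∀ s x, ev (s, c - x) f = ev (s, x) f) → ∀ s θ,
        fderiv ℝ (fun p => ev p f) (s, c - θ) (0, 1) = -fderiv ℝ (fun p => ev p f) (s, θ) (0, 1) :=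
      fun c hc s θ => by
        have h1 := (hd s (c - θ)).comp θ ((hasDerivAt_id θ).const_sub c)
        have h2 : ((fun x => ev (s, x) f) ∘ HSub.hSub c) = fun x => ev (s, x) f :=
          funext fun x => hc s x
        rw [h2] at h1
        rw [← h1.unique (hd s θ)]
        ring
    obtain ⟨H, hH, h1⟩ := div_sin (had_dir (smooth f) (0, 1)) fun s θ hθ => by
      obtain ⟨n, hn⟩ := sin_eq_zero_iff.1 hθ
      have h2 := hr (2 * θ) (fun r x => by
        rw [← hn, ← even f r x]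
        have h3 := (had_per f r).int_mul n (-x)
        rw [add_comm, ← sub_eq_add_neg] at h3
        exact h3) s θ
      rw [show 2 * θ - θ = θ by ring] at h2
      linarith
    have hs : ∀ (c : ℝ), (∀ s x, ev (s, c - x) f = ev (s, x) f) →
        (∀ x, sin (2 * (c - x)) = -sin (2 * x)) → ∀ s θ, H (s, c - θ) = H (s, θ) :=
      fun c hc hc' s θ => by
        refine sub_eq_zero.1 (had_cancel (u := fun x => H (s, c - x) - H (s, x))
          ((hH.continuous.comp (by fun_prop)).sub (hH.continuous.comp (by fun_prop)))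
          (fun x => ?_) θ)
        have h2 := hr c hc s x
        rw [h1, h1, hc'] at h2
        linarith
    refine ⟨mk H hH (fun s θ => ?_) (hs π (refl f) fun x => ?_), fun p => ?_⟩
    · have h2 := hs 0 (fun r x => by rw [zero_sub, even]) (fun x => by simp) s θ
      rwa [zero_sub] at h2
    · rw [mul_sub, sin_two_pi_sub]
    · rw [ev_mk, ← h1]
      exact hd p.1 p.2
  obtain ⟨D, hD⟩ := had_der (fun p x => (p.1, x)) (fun p => p.2) (fun p => sin (2 * p.2))
    (fun _ => rfl) (fun _ _ hθ => (had_sin hθ).ne') key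
  exact ⟨D, fun f s θ => hD f (s, θ)⟩

theorem exists_ds : ∃ D : Derivation ℝ Ev Ev, ∀ (f : Ev) (s θ : ℝ),
    HasDerivAt (fun r => ev (r, θ) f) (ev (s, θ) (D f)) s := by
  have key : ∀ f : Ev, ∃ g : Ev, ∀ p : ℝ × ℝ,
      HasDerivAt (fun r => ev (r, p.2) f) (1 * ev p g) p.1 := fun f => by
    have hd := had_fst (smooth f)
    refine ⟨mk _ (had_dir (smooth f) (1, 0)) (fun s θ => ?_) fun s θ => ?_, fun p => ?_⟩
    · refine (hd s (-θ)).unique ?_
      simp only [even]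
      exact hd s θ
    · refine (hd s (π - θ)).unique ?_
      simp only [refl]
      exact hd s θ
    · rw [ev_mk, one_mul]
      exact hd p.1 p.2
  obtain ⟨D, hD⟩ := had_der (fun p r => (r, p.2)) (fun p => p.1) (fun _ => 1)
    (fun _ => rfl) (fun _ _ _ => one_ne_zero) key
  exact ⟨D, fun f s θ => by simpa only [one_mul] using hD f (s, θ)⟩

/-- derivative in `X = sin θ ^ 2` -/
def dX : Derivation ℝ Ev Ev := exists_dX.choose

/-- time derivative -/
def ds : Derivation ℝ Ev Ev := exists_ds.choose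

theorem hasDerivAt_dX (f : Ev) (s θ : ℝ) :
    HasDerivAt (fun x => ev (s, x) f) (sin (2 * θ) * ev (s, θ) (dX f)) θ :=
  exists_dX.choose_spec f s θ

theorem hasDerivAt_ds (f : Ev) (s θ : ℝ) :
    HasDerivAt (fun r => ev (r, θ) f) (ev (s, θ) (ds f)) s :=
  exists_ds.choose_spec f s θ

theorem hasFDerivAt (f : Ev) (s θ : ℝ) :
    HasFDerivAt (fun p => ev p f) (ev (s, θ) (ds f) • ContinuousLinearMap.fst ℝ ℝ ℝ +
      (sin (2 * θ) * ev (s, θ) (dX f)) • ContinuousLinearMap.snd ℝ ℝ ℝ) (s, θ) := by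
  rw [← (had_fst (smooth f) s θ).unique (hasDerivAt_ds f s θ),
    ← (had_snd (smooth f) s θ).unique (hasDerivAt_dX f s θ)]
  refine ((smooth f).differentiable (by simp) (s, θ)).hasFDerivAt.congr_fderiv ?_
  refine ContinuousLinearMap.ext fun v => ?_
  have e : v = v.1 • ((1, 0) : ℝ × ℝ) + v.2 • ((0, 1) : ℝ × ℝ) := by
    ext <;> simp
  conv_lhs => rw [e]
  simp only [map_add, map_smul, smul_eq_mul, add_apply,
    smul_apply, ContinuousLinearMap.coe_fst', ContinuousLinearMap.coe_snd']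
  ring

theorem ds_dX (f : Ev) : ds (dX f) = dX (ds f) := by
  refine ext_open fun s θ hθ => mul_left_cancel₀ (had_sin hθ).ne' ?_
  obtain ⟨c, h3, h4⟩ := had_symm (smooth f) s θ
  have e3 : (fun r => fderiv ℝ (fun p => ev p f) (r, θ) (0, 1)) =
      fun r => sin (2 * θ) * ev (r, θ) (dX f) :=
    funext fun r => (had_snd (smooth f) r θ).unique (hasDerivAt_dX f r θ)
  have e4 : (fun x => fderiv ℝ (fun p => ev p f) (s, x) (1, 0)) = fun x => ev (s, x) (ds f) :=
    funext fun x => (had_fst (smooth f) s x).unique (hasDerivAt_ds f s x)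
  rw [e3] at h3
  rw [e4] at h4
  rw [← h3.unique ((hasDerivAt_ds (dX f) s θ).const_mul _),
    ← h4.unique (hasDerivAt_dX (ds f) s θ)]

/-- the coordinate `X` -/
def X : Ev := mk (fun p => sin p.2 ^ 2) (by fun_prop) (fun _ _ => by simp) (fun _ _ => by simp)

/-- the time coordinate -/
def S : Ev := mk (fun p => p.1) contDiff_fst (fun _ _ => rfl) (fun _ _ => rfl)

@[simp] theorem ev_X (p : ℝ × ℝ) : ev p X = sin p.2 ^ 2 := rfl

@[simp] theorem ev_S (p : ℝ × ℝ) : ev p S = p.1 := rfl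

theorem dX_X : dX X = 1 := by
  refine ext_open fun s θ hθ => mul_left_cancel₀ (had_sin hθ).ne' ?_
  rw [(hasDerivAt_dX X s θ).unique ((hasDerivAt_sin θ).pow 2), map_one, sin_two_mul]
  simp

theorem ds_X : ds X = 0 := by
  refine ext_ev fun p => ?_
  rw [(hasDerivAt_ds X p.1 p.2).unique (hasDerivAt_const p.1 (sin p.2 ^ 2)), map_zero]

theorem dX_S : dX S = 0 := by
  refine ext_open fun s θ hθ => mul_left_cancel₀ (had_sin hθ).ne' ?_
  rw [(hasDerivAt_dX S s θ).unique (hasDerivAt_const θ s), map_zero, mul_zero]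

theorem ds_S : ds S = 1 := by
  refine ext_ev fun p => ?_
  rw [(hasDerivAt_ds S p.1 p.2).unique (hasDerivAt_id p.1), map_one]

end Ev

end Vale.Agent.P264
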