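import Vale.Agent.P264.Lyap

/-! Evolution of the unstable functionals. -/

open Set Polynomial

noncomputable section

namespace Vale.Agent.P264

open Fl

theorem adj_dot_y (a τ m : ℝ) : ev a τ m (dot y) = -(a * ev a τ m y / 2) := by
  simp [dot, y, map_ofNat]
  ring

theorem adj_dot_zeta (d : Data) (k : ℕ) (a τ m : ℝ) :
    ev a τ m (dot (d.zeta k)) = ev a τ m (D (d.zeta k)) / 2 := by
  have h1 : pd 1 (d.zeta k) = 0 := by simp [Data.zeta, Derivation.leibniz_pow]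
  have h2 : pd 2 (d.zeta k) = 0 := by simp [Data.zeta, Derivation.leibniz_pow]
  simp only [dot, D, Derivation.add_apply, Derivation.sub_apply, Derivation.smul_apply,
    smul_eq_mul, h1, h2, mul_zero, map_mul, sub_zero, add_zero, ev_c]
  ring

theorem adj_dot_Zl (d : Data) (k : ℕ) (l τ : ℝ) :
    evc l τ (dot (15 * y * d.zeta k)) =
      15 * evc l τ y * (evc l τ (D (d.zeta k)) / 2 - xx l τ * evc l τ (d.zeta k) / 2) := by
  have h15 : dot (15 : Fl) = 0 := dot.map_natCast 15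
  simp only [Derivation.leibniz, smul_eq_mul, h15, mul_zero, add_zero, map_add, map_mul,
    map_ofNat, evc, adj_dot_y, adj_dot_zeta]
  ring

/-- Cauchy-Schwarz with a bounded weight -/
theorem adj_cs {l b : ℝ} (hl : 0 < l) {F : Fl} (hF : ∀ τ ∈ Icc (0 : ℝ) 1, |evc l τ F| ≤ b)
    {u w : ℝ → ℝ} (hu : ContinuousOn u (Icc 0 1)) (hw : ContinuousOn w (Icc 0 1))
    (huw : ∀ τ, u τ ^ 2 ≤ w τ) :
    av l (fun τ => evc l τ y * (evc l τ F * u τ)) ^ 2 ≤ b ^ 2 * av l w / 15 := by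
  have hc := (continuousOn_evc_slice F hl).mul hu
  refine (av_cs hl hc).trans (div_le_div_of_nonneg_right ?_ (by norm_num))
  rw [← av_const_mul]
  refine av_mono hl (hc.pow 2) (continuousOn_const.mul hw) fun τ hτ => ?_
  have h1 : evc l τ F ^ 2 ≤ b ^ 2 := sq_le_sq' (abs_le.1 (hF τ (Ioo_subset_Icc_self hτ))).1
    (abs_le.1 (hF τ (Ioo_subset_Icc_self hτ))).2
  simp only [Pi.mul_apply, mul_pow]
  exact mul_le_mul h1 (huw τ) (sq_nonneg _) (sq_nonneg _)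

/-- pointwise form of the adjoint equation -/
theorem Tr.adj_point {l0 : ℝ} (T : Tr l0) (d : Data) (hl : 0 < l0) (k : ℕ) {σ : ℝ} (hσ : 0 ≤ σ)
    {τ : ℝ} (hτ : τ ∈ Icc (0 : ℝ) 1) :
    evc (lam l0 σ) τ y * (evc (lam l0 σ) τ (15 * y * d.zeta k) * T.G 0 σ τ) / 2 +
      (evc (lam l0 σ) τ (dot y) * (evc (lam l0 σ) τ (15 * y * d.zeta k) * T.G 0 σ τ) +
        evc (lam l0 σ) τ y * (evc (lam l0 σ) τ (dot (15 * y * d.zeta k)) * T.G 0 σ τ +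
          evc (lam l0 σ) τ (15 * y * d.zeta k) * T.E 0 σ τ)) =
    d.eig k * (evc (lam l0 σ) τ y * (evc (lam l0 σ) τ (15 * y * d.zeta k) * T.G 0 σ τ)) +
      (evc (lam l0 σ) τ y * (evc (lam l0 σ) τ (d.Ad k) * T.G 0 σ τ) +
        evc (lam l0 σ) τ y * (evc (lam l0 σ) τ (d.Zf k) * T.f0 d σ τ)) +
      ((evc (lam l0 σ) τ (y * Tadj (d.wt k * cK 1)) * T.G 0 σ τ +
          -1 * (evc (lam l0 σ) τ (y * (d.wt k * cK 1)) * T.G 1 σ τ)) +
        (evc (lam l0 σ) τ (y * Tadj (Tadj (d.wt k * cK 2))) * T.G 0 σ τ +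
          -1 * (evc (lam l0 σ) τ (y * (d.wt k * cK 2)) * T.G 2 σ τ)) +
        (evc (lam l0 σ) τ (y * Tadj (Tadj (Tadj (d.wt k * cK 3)))) * T.G 0 σ τ +
          -1 * (evc (lam l0 σ) τ (y * (d.wt k * cK 3)) * T.G 3 σ τ)) +
        (evc (lam l0 σ) τ (y * Tadj (Tadj (Tadj (Tadj (d.wt k * cK 4))))) * T.G 0 σ τ +
          -1 * (evc (lam l0 σ) τ (y * (d.wt k * cK 4)) * T.G 4 σ τ))) := by
  have hp := lam_pos hl σ
  have h3 := t_mul_y hp hτ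
  have h4 := one_sub_xx hp hτ
  have hM : ∀ j, xx (lam l0 σ) τ * (1 - xx (lam l0 σ) τ) * T.M (j + 1) σ τ =
      15 * evc (lam l0 σ) τ y ^ 2 * T.G (j + 1) σ τ := by
    intro j
    refine mul_left_cancel₀ hp.ne' ?_
    rw [h4]
    linear_combination (-(15 * evc (lam l0 σ) τ y ^ 2)) * T.GM j σ hσ τ hτ -
      15 * evc (lam l0 σ) τ y * (1 - τ) * T.M (j + 1) σ τ * h3
  have hdy : evc (lam l0 σ) τ (dot y) = -(xx (lam l0 σ) τ * evc (lam l0 σ) τ y / 2) :=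
    adj_dot_y _ _ _
  have hz : evc (lam l0 σ) τ (d.zeta k) = xx (lam l0 σ) τ ^ 2 * (1 - xx (lam l0 σ) τ) *
      (15 * evc (lam l0 σ) τ y * (1 - τ)) * (d.ct k).eval (xx (lam l0 σ) τ) := by
    rw [← h4]
    simp only [Data.zeta, map_mul, map_pow, map_sub, map_one, evc_x, evc_px]
    ring
  have hw : evc (lam l0 σ) τ (d.wt k) = 3375 * evc (lam l0 σ) τ y ^ 5 *
      (d.ct k).eval (xx (lam l0 σ) τ) * evc (lam l0 σ) τ d.chi ^ 2 := by
    simp only [Data.wt, map_mul, map_pow, map_ofNat, evc_px]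
  have m1 := hM 0
  have m2 := hM 1
  have m3 := hM 2
  have m4 := hM 3
  rw [hdy, adj_dot_Zl]
  simp only [Data.Ad, Data.Zf, Tr.f0, Data.L0, YK, Tr.g, Tr.m, map_mul, map_add, map_sub, map_pow,
    map_ofNat, map_one, evc_x, evc_t, evc_l, evc_c, evc_px, hz, hw]
  simp only [zero_add, Nat.reduceAdd] at m1 m2 m3 m4
  linear_combination (-(225 * evc (lam l0 σ) τ y ^ 4 * (d.ct k).eval (xx (lam l0 σ) τ) *
    evc (lam l0 σ) τ d.chi ^ 2)) * (evc (lam l0 σ) τ (cK 1) * m1 + evc (lam l0 σ) τ (cK 2) * m2 +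
      evc (lam l0 σ) τ (cK 3) * m3 + evc (lam l0 σ) τ (cK 4) * m4)

theorem Tr.ell_deriv {l0 : ℝ} (T : Tr l0) {d : Data} (h : d.Good l0) {k : ℕ} (hk : k ≤ 1) {σ : ℝ}
    (hσ : 0 < σ) : ∃ r, HasDerivAt (T.ell d k) (d.eig k * T.ell d k σ + r) σ ∧
      r ^ 2 ≤ 1 / 10 ^ 30 / 2 * T.N σ + 50 * T.Phi d σ := by
  have hl := h.pos
  have hp := lam_pos hl σ
  have hv : ∀ F : Fl, ContinuousOn (fun p : ℝ × ℝ => evc (lam l0 p.1) p.2 F)
      (Ici 0 ×ˢ Icc 0 1) := fun F =>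
    (continuousOn_evc_lam F hl).mono (prod_mono (subset_univ _) subset_rfl)
  have hD := av_hasDerivAt hl
    (h := fun σ τ => evc (lam l0 σ) τ y * (evc (lam l0 σ) τ (15 * y * d.zeta k) * T.G 0 σ τ))
    (h' := fun σ τ => evc (lam l0 σ) τ (dot y) *
      (evc (lam l0 σ) τ (15 * y * d.zeta k) * T.G 0 σ τ) +
        evc (lam l0 σ) τ y * (evc (lam l0 σ) τ (dot (15 * y * d.zeta k)) * T.G 0 σ τ +
          evc (lam l0 σ) τ (15 * y * d.zeta k) * T.E 0 σ τ))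
    ((hv _).mul ((hv _).mul (T.cG 0)))
    (((hv _).mul ((hv _).mul (T.cG 0))).add
      ((hv _).mul (((hv _).mul (T.cG 0)).add ((hv _).mul (T.cE 0)))))
    (fun s hs τ hτ => (hasDerivAt_dot y hl s (Ioo_subset_Icc_self hτ)).mul
      ((hasDerivAt_dot _ hl s (Ioo_subset_Icc_self hτ)).mul (T.dt 0 s hs τ hτ))) hσ
  have hw := Tr.ibp_v hl σ
  have hG := fun j => T.cG' j hσ.le
  have sl : ∀ {f : ℝ → ℝ → ℝ}, ContinuousOn (fun p : ℝ × ℝ => f p.1 p.2) (Ici 0 ×ˢ Icc 0 1) →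
      ContinuousOn (f σ) (Icc 0 1) := fun hf =>
    hf.comp (f := fun τ : ℝ => (σ, τ)) (by fun_prop) fun τ hτ => ⟨hσ.le, hτ⟩
  have c0 := sl (T.f0_cont d hl)
  have c1 := sl (T.f1_cont d hl)
  have base : ∀ (F : Fl) (j : ℕ), IbpAv (lam l0 σ) (fun τ => evc (lam l0 σ) τ F * T.G j σ τ)
      (av (lam l0 σ) fun τ => evc (lam l0 σ) τ F * T.G j σ τ) :=
    fun F j => ⟨(hw _).mul (hG _), rfl⟩
  have a0 : IbpAv (lam l0 σ) (fun τ => evc (lam l0 σ) τ y *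
      (evc (lam l0 σ) τ (15 * y * d.zeta k) * T.G 0 σ τ)) (T.ell d k σ) :=
    ⟨(hw _).mul ((hw _).mul (hG _)), rfl⟩
  have a1 : IbpAv (lam l0 σ) (fun τ => evc (lam l0 σ) τ y *
      (evc (lam l0 σ) τ (d.Ad k) * T.G 0 σ τ)) _ := ⟨(hw _).mul ((hw _).mul (hG _)), rfl⟩
  have a2 : IbpAv (lam l0 σ) (fun τ => evc (lam l0 σ) τ y *
      (evc (lam l0 σ) τ (d.Zf k) * T.f0 d σ τ)) _ := ⟨(hw _).mul ((hw _).mul c0), rfl⟩
  have tot := (((a0.cmul (d.eig k)).add (a1.add a2)).add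
    (((((base (y * Tadj (d.wt k * cK 1)) 0).add ((base (y * (d.wt k * cK 1)) 1).cmul (-1))).add
      ((base (y * Tadj (Tadj (d.wt k * cK 2))) 0).add
        ((base (y * (d.wt k * cK 2)) 2).cmul (-1)))).add
      ((base (y * Tadj (Tadj (Tadj (d.wt k * cK 3)))) 0).add
        ((base (y * (d.wt k * cK 3)) 3).cmul (-1)))).add
      ((base (y * Tadj (Tadj (Tadj (Tadj (d.wt k * cK 4))))) 0).add
        ((base (y * (d.wt k * cK 4)) 4).cmul (-1))))).2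
  have e1 := T.int_Tadj hl hσ.le (d.wt k * cK 1) 0
  have e2 := (T.int_Tadj hl hσ.le (d.wt k * cK 2) 1).trans (T.int_Tadj hl hσ.le _ 0)
  have e3 := ((T.int_Tadj hl hσ.le (d.wt k * cK 3) 2).trans (T.int_Tadj hl hσ.le _ 1)).trans
    (T.int_Tadj hl hσ.le _ 0)
  have e4 := (((T.int_Tadj hl hσ.le (d.wt k * cK 4) 3).trans (T.int_Tadj hl hσ.le _ 2)).trans
    (T.int_Tadj hl hσ.le _ 1)).trans (T.int_Tadj hl hσ.le _ 0)
  refine ⟨av (lam l0 σ) (fun τ => evc (lam l0 σ) τ y * (evc (lam l0 σ) τ (d.Ad k) * T.G 0 σ τ)) +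
    av (lam l0 σ) (fun τ => evc (lam l0 σ) τ y * (evc (lam l0 σ) τ (d.Zf k) * T.f0 d σ τ)),
    hD.congr_deriv ?_, ?_⟩
  · rw [av_congr fun τ hτ => T.adj_point d hl k hσ.le (Ioo_subset_Icc_self hτ), tot]
    simp only [zero_add, Nat.reduceAdd] at e1 e2 e3 e4
    rw [e1, e2, e3, e4]
    ring
  · have hlm : lam l0 σ ∈ Ioc 0 l0 := ⟨hp, lam_le hl hσ.le⟩
    have bA : ∀ τ ∈ Icc (0 : ℝ) 1, |evc (lam l0 σ) τ (d.Ad k)| ≤ 1 / 10 ^ 15 := by
      obtain rfl | rfl : k = 0 ∨ k = 1 := by omega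
      · exact h.bd (d.Ad 0, 1 / 10 ^ 15) (by simp [Data.bounds]) _ hlm
      · exact h.bd (d.Ad 1, 1 / 10 ^ 15) (by simp [Data.bounds]) _ hlm
    have bZ : ∀ τ ∈ Icc (0 : ℝ) 1, |evc (lam l0 σ) τ (d.Zf k)| ≤ 10 := by
      obtain rfl | rfl : k = 0 ∨ k = 1 := by omega
      · exact h.bd (d.Zf 0, 10) (by simp [Data.bounds]) _ hlm
      · exact h.bd (d.Zf 1, 10) (by simp [Data.bounds]) _ hlm
    have r1 := adj_cs hp bA (hG 0) (w := fun τ => nG (T.g σ τ))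
      (((((hG 0).pow 2).add ((hG 1).pow 2)).add ((hG 2).pow 2)).add ((hG 3).pow 2))
      fun τ => by
        simp only [nG, Tr.g]
        nlinarith [sq_nonneg (T.G 1 σ τ), sq_nonneg (T.G 2 σ τ), sq_nonneg (T.G 3 σ τ)]
    have r2 := adj_cs hp bZ c0 (w := fun τ => T.f0 d σ τ ^ 2 + T.f1 d σ τ ^ 2)
      ((c0.pow 2).add (c1.pow 2)) fun τ => le_add_of_nonneg_right (sq_nonneg _)
    have hN := T.N_nonneg hl σ
    have hP := T.Phi_nonneg d hl σ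
    change _ ≤ _ * T.N σ / 15 at r1
    change _ ≤ _ * T.Phi d σ / 15 at r2
    generalize av (lam l0 σ) (fun τ => evc (lam l0 σ) τ y *
      (evc (lam l0 σ) τ (d.Ad k) * T.G 0 σ τ)) = u at r1 ⊢
    generalize av (lam l0 σ) (fun τ => evc (lam l0 σ) τ y *
      (evc (lam l0 σ) τ (d.Zf k) * T.f0 d σ τ)) = w at r2 ⊢
    nlinarith [sq_nonneg (u - w)]

end Vale.Agent.P264
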