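import Mathlib

/-! Pure algebra of complex Hessians on a cone, in a commutative ring with derivations. -/

open Matrix

noncomputable section

namespace Vale.Agent.P264

variable {R : Type} [CommRing R] [Algebra ℂ R] {ι : Type} [Fintype ι] [DecidableEq ι]

theorem alg_mul (D : Derivation ℂ R R) (a b : R) : D (a * b) = a * D b + b * D a :=
  D.leibniz a b

omit [Fintype ι] in
theorem alg_prod (D : Derivation ℂ R R) (f : ι → R) (s : Finset ι) :
    D (∏ i ∈ s, f i) = ∑ i ∈ s, D (f i) * ∏ j ∈ s.erase i, f j := by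
  induction s using Finset.induction_on with
  | empty => simp
  | insert a s ha ih =>
    rw [Finset.prod_insert ha, Finset.sum_insert ha, alg_mul, ih, Finset.erase_insert ha, add_comm,
      mul_comm, Finset.mul_sum]
    refine congrArg _ (Finset.sum_congr rfl fun i hi => ?_)
    rw [Finset.erase_insert_of_ne (ne_of_mem_of_not_mem hi ha).symm,
      Finset.prod_insert fun h => ha (Finset.mem_of_mem_erase h), mul_left_comm]

omit [DecidableEq ι] in
theorem alg_map_mul (D : Derivation ℂ R R) (M N : Matrix ι ι R) :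
    (M * N).map D = M.map D * N + M * N.map D := by
  ext i j
  simp only [map_apply, Matrix.add_apply, mul_apply, map_sum, alg_mul, ← Finset.sum_add_distrib]
  exact Finset.sum_congr rfl fun _ _ => by ring

omit [Algebra ℂ R] in
theorem alg_adj {M : Matrix ι ι R} (h : IsUnit M.det) : M.adjugate = M.det • M⁻¹ := by
  rw [Matrix.inv_def, smul_smul, Ring.mul_inverse_cancel _ h, one_smul]

/-- Jacobi's formula. -/
theorem jacobi (D : Derivation ℂ R R) (M : Matrix ι ι R) :
    D M.det = (M.adjugate * M.map D).trace := by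
  have h : ∀ i, (M.adjugate * M.map D) i i = ∑ σ : Equiv.Perm ι, ((Equiv.Perm.sign σ : ℤ) : R) *
      (D (M (σ i) i) * ∏ j ∈ Finset.univ.erase i, M (σ j) j) := fun i => by
    refine (congrFun (cramer_eq_adjugate_mulVec M fun k => D (M k i)) i).symm.trans ?_
    rw [cramer_apply, det_apply']
    refine Finset.sum_congr rfl fun σ _ => congrArg _ ?_
    rw [← Finset.mul_prod_erase _ _ (Finset.mem_univ i), updateCol_self]
    exact congrArg _ (Finset.prod_congr rfl fun j hj => updateCol_ne (Finset.ne_of_mem_erase hj))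
  rw [det_apply', map_sum, trace]
  simp only [diag_apply, h]
  rw [Finset.sum_comm]
  refine Finset.sum_congr rfl fun σ _ => ?_
  rw [alg_mul, D.map_intCast, mul_zero, add_zero, alg_prod, Finset.mul_sum]

theorem deriv_inv (D : Derivation ℂ R R) (M : Matrix ι ι R) (h : IsUnit M.det) :
    (M⁻¹).map D = -(M⁻¹ * M.map D * M⁻¹) := by
  have h1 := alg_map_mul D M⁻¹ M
  have h2 : (1 : Matrix ι ι R).map D = 0 := by
    ext i j
    rw [map_apply, Matrix.one_apply]
    split_ifs
    · exact D.map_one_eq_zero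
    · exact D.map_zero
  rw [nonsing_inv_mul _ h, h2] at h1
  rw [← Matrix.neg_mul, neg_eq_of_add_eq_zero_left h1.symm, Matrix.mul_assoc, mul_nonsing_inv _ h,
    Matrix.mul_one]

/-- Commuting Wirtinger derivations, coordinates and a homogeneous potential. -/
structure Cone (R : Type) [CommRing R] [Algebra ℂ R] (ι : Type) [Fintype ι] [DecidableEq ι] where
  /-- holomorphic derivatives -/
  d : ι → Derivation ℂ R R
  /-- antiholomorphic derivatives -/
  db : ι → Derivation ℂ R R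
  /-- coordinates -/
  z : ι → R
  /-- conjugate coordinates -/
  zb : ι → R
  /-- the potential -/
  ρ : R
  d_d : ∀ a b f, d a (d b f) = d b (d a f)
  d_db : ∀ a b f, d a (db b f) = db b (d a f)
  db_db : ∀ a b f, db a (db b f) = db b (db a f)
  d_z : ∀ a b, d a (z b) = if a = b then 1 else 0
  db_z : ∀ a b, db a (z b) = 0
  d_zb : ∀ a b, d a (zb b) = 0
  db_zb : ∀ a b, db a (zb b) = if a = b then 1 else 0
  euler : ∑ a, z a * d a ρ = ρ
  eulerb : ∑ a, zb a * db a ρ = ρ
  unit : IsUnit (Matrix.of fun a b => d a (db b ρ) : Matrix ι ι R).det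

namespace Cone

variable (C : Cone R ι)

/-- exchange of the holomorphic and antiholomorphic data -/
def swap : Cone R ι where
  d := C.db
  db := C.d
  z := C.zb
  zb := C.z
  ρ := C.ρ
  d_d := C.db_db
  d_db a b f := (C.d_db b a f).symm
  db_db := C.d_d
  d_z := C.db_zb
  db_z := C.d_zb
  d_zb := C.db_z
  db_zb := C.d_z
  euler := C.eulerb
  eulerb := C.euler
  unit := by
    rw [← det_transpose]
    refine Eq.mpr (congrArg (fun M : Matrix ι ι R => IsUnit M.det) ?_) C.unit
    ext a b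
    exact (C.d_db a b _).symm

/-- complex Hessian -/
def H (f : R) : Matrix ι ι R := Matrix.of fun a b => C.d a (C.db b f)

/-- the cone metric -/
def G : Matrix ι ι R := C.H C.ρ

/-- the Laplacian on invariant functions -/
def L (f : R) : R := C.ρ * (C.G⁻¹ * C.H f).trace

/-- infinitesimal invariance -/
def Inv (f : R) : Prop := ∑ a, C.z a * C.d a f = 0 ∧ ∑ a, C.zb a * C.db a f = 0

/-- the gradient pairing -/
def B (f g : R) : R := ∑ b, ∑ a, C.G.adjugate b a * C.d a f * C.db b g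

/-- `δ` commutes with the Wirtinger derivatives up to constant matrices. -/
def Comm (δ : Derivation ℂ R R) (A A' : Matrix ι ι ℂ) : Prop :=
  (∀ a f, C.d a (δ f) = δ (C.d a f) + ∑ c, A c a • C.d c f) ∧
    ∀ b f, C.db b (δ f) = δ (C.db b f) + ∑ c, A' c b • C.db c f

theorem swap_H (f : R) : C.swap.H f = (C.H f)ᵀ := by
  ext a b
  exact (C.d_db b a f).symm

theorem swap_G : C.swap.G = C.Gᵀ := C.swap_H _

theorem swap_L (f : R) : C.swap.L f = C.L f := by
  rw [L, swap_G, swap_H, ← transpose_nonsing_inv, trace_transpose_mul]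
  rfl

theorem unit_G : IsUnit C.G.det := C.unit

theorem KG : C.G⁻¹ * C.G = 1 := nonsing_inv_mul _ C.unit_G

theorem GK : C.G * C.G⁻¹ = 1 := mul_nonsing_inv _ C.unit_G

theorem H_zb (f : R) : C.H f *ᵥ C.zb = fun a => C.d a (∑ b, C.zb b * C.db b f) := by
  funext a
  simp only [mulVec, dotProduct, H, of_apply, map_sum, alg_mul, C.d_zb, mul_zero, add_zero]
  exact Finset.sum_congr rfl fun _ _ => mul_comm _ _

theorem z_H (f : R) : C.z ᵥ* C.H f = fun b => C.db b (∑ a, C.z a * C.d a f) := by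
  rw [← mulVec_transpose, ← swap_H]
  exact C.swap.H_zb f

theorem Inv.H_zb {C : Cone R ι} {f : R} (h : C.Inv f) : C.H f *ᵥ C.zb = 0 := by
  rw [C.H_zb, h.2]
  exact funext fun _ => map_zero _

theorem Inv.z_H {C : Cone R ι} {f : R} (h : C.Inv f) : C.z ᵥ* C.H f = 0 := by
  rw [C.z_H, h.1]
  exact funext fun _ => map_zero _

theorem K_d : C.G⁻¹ *ᵥ (fun a => C.d a C.ρ) = C.zb := by
  have h := C.H_zb C.ρ
  rw [C.eulerb] at h
  rw [← h, mulVec_mulVec]
  exact (congrArg (· *ᵥ C.zb) C.KG).trans (one_mulVec _)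

theorem db_K : (fun b => C.db b C.ρ) ᵥ* C.G⁻¹ = C.z := by
  rw [← mulVec_transpose, transpose_nonsing_inv, ← swap_G]
  exact C.swap.K_d

theorem H_map {δ : Derivation ℂ R R} {A A' : Matrix ι ι ℂ} (hδ : C.Comm δ A A') (f : R) :
    (C.H f).map δ = C.H (δ f) - (A.map (algebraMap ℂ R))ᵀ * C.H f -
      C.H f * A'.map (algebraMap ℂ R) := by
  ext a b
  simp only [map_apply, Matrix.sub_apply, mul_apply, transpose_apply, H, of_apply, hδ.2, map_add, map_sum,
    Derivation.map_smul, hδ.1]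
  simp only [Algebra.smul_def, mul_comm]
  ring

theorem H_mul (v : R) : C.H (C.ρ * v) = v • C.G +
    vecMulVec (fun a => C.d a C.ρ) (fun b => C.db b v) +
      vecMulVec (fun a => C.d a v) (fun b => C.db b C.ρ) + C.ρ • C.H v := by
  ext a b
  simp only [Matrix.add_apply, Matrix.smul_apply, vecMulVec_apply, G, H, of_apply, alg_mul, map_add, smul_eq_mul]
  ring

/-- the Euler field -/
def E : Derivation ℂ R R := ∑ a, C.z a • C.d a

theorem E_apply (f : R) : C.E f = ∑ a, C.z a * C.d a f := by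
  have h := map_sum Derivation.coeFnAddMonoidHom (fun a => C.z a • C.d a) Finset.univ
  exact (congrFun h f).trans (Finset.sum_apply _ _ _)

theorem H_E (f : R) : (C.H f).map C.E = C.H (C.E f) - C.H f := by
  ext a b
  simp only [map_apply, Matrix.sub_apply, H, of_apply, E_apply, map_sum, alg_mul, C.db_z, mul_zero,
    add_zero, C.d_z, mul_ite, mul_one, Finset.sum_add_distrib, Finset.sum_ite_eq, Finset.mem_univ,
    if_true, ← C.d_db, add_sub_cancel_right]
  exact Finset.sum_congr rfl fun c _ => congrArg _ (C.d_d c a _)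

theorem G_E : C.G.map C.E = 0 := by
  rw [G, H_E, E_apply, C.euler, sub_self]

theorem div_gen (W : Matrix ι ι R) (u g : R) :
    ∑ a, C.d a (u * ∑ b, W b a * C.db b g) = u * (W * C.H g).trace +
      ∑ b, (∑ a, W b a * C.d a u) * C.db b g + u * ∑ b, (∑ a, C.d a (W b a)) * C.db b g := by
  simp only [alg_mul, map_sum, trace, diag_apply, mul_apply, H, of_apply, Finset.mul_sum,
    Finset.sum_mul, ← Finset.sum_add_distrib]
  rw [Finset.sum_comm]
  exact Finset.sum_congr rfl fun _ _ => Finset.sum_congr rfl fun _ _ => by ring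

theorem piola (b : ι) : ∑ a, C.d a (C.G.adjugate b a) = 0 := by
  have h1 : ∀ a, C.d a (C.G.adjugate b a) = C.G.det * (∑ c, ∑ e, C.G⁻¹ b a * C.G⁻¹ e c *
      C.d a (C.G c e) - ∑ c, ∑ e, C.G⁻¹ b c * C.G⁻¹ e a * C.d a (C.G c e)) := fun a => by
    have h2 := congrFun (congrFun (deriv_inv (C.d a) C.G C.unit_G) b) a
    rw [map_apply] at h2
    rw [alg_adj C.unit_G, Matrix.smul_apply, smul_eq_mul, alg_mul, h2, jacobi, alg_adj C.unit_G, smul_mul,
      trace_smul, smul_eq_mul, trace_mul_comm]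
    simp only [trace, diag_apply, Matrix.neg_apply, mul_apply, map_apply, Finset.sum_mul]
    rw [Finset.sum_comm (f := fun e c => C.G⁻¹ b c * C.d a (C.G c e) * C.G⁻¹ e a)]
    simp only [mul_neg, mul_sub, Finset.mul_sum]
    rw [neg_add_eq_sub]
    refine congrArg₂ _ ?_ ?_ <;>
      exact Finset.sum_congr rfl fun _ _ => Finset.sum_congr rfl fun _ _ => by ring
  simp only [h1]
  rw [← Finset.mul_sum, Finset.sum_sub_distrib, Finset.sum_comm]
  exact mul_eq_zero_of_right _ (sub_eq_zero.2 (Finset.sum_congr rfl fun a _ =>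
    Finset.sum_congr rfl fun c _ => Finset.sum_congr rfl fun e _ => congrArg _ (C.d_d c a _)))

theorem piolab (a : ι) : ∑ b, C.db b (C.G.adjugate b a) = 0 := by
  have h := C.swap.piola a
  rw [swap_G, ← adjugate_transpose] at h
  exact h

theorem inv_d (b : ι) : ∑ a, C.G⁻¹ b a * C.d a C.ρ = C.zb b := by
  exact congrFun C.K_d b

theorem inv_db (a : ι) : ∑ b, C.G⁻¹ b a * C.db b C.ρ = C.z a := by
  simpa only [vecMul, dotProduct, mul_comm] using congrFun C.db_K a

theorem E_L {v : R} (hv : C.E v = 0) : C.E (C.L v) = 0 := by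
  have h0 : C.H 0 = 0 := by
    ext a b
    simp only [H, of_apply, map_zero, Matrix.zero_apply]
  rw [L, alg_mul, AddMonoidHom.map_trace, alg_map_mul, deriv_inv _ _ C.unit_G, G_E, H_E, hv, h0,
    E_apply, C.euler, Matrix.mul_zero, Matrix.zero_mul, neg_zero, Matrix.zero_mul, zero_add, zero_sub,
    Matrix.mul_neg, trace_neg]
  ring

theorem E_det : C.E C.G.det = 0 := by
  rw [jacobi, G_E, Matrix.mul_zero, trace_zero]

theorem inv_iff {f : R} : C.Inv f ↔ C.E f = 0 ∧ C.swap.E f = 0 := by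
  rw [E_apply, E_apply]
  rfl

theorem inv_L {v : R} (hv : C.Inv v) : C.Inv (C.L v) := by
  rw [inv_iff] at hv ⊢
  exact ⟨C.E_L hv.1, C.swap_L v ▸ C.swap.E_L hv.2⟩

theorem inv_det : C.Inv C.G.det := by
  have h := C.swap.E_det
  rw [swap_G, det_transpose] at h
  exact C.inv_iff.2 ⟨C.E_det, h⟩

theorem Inv.mul {C : Cone R ι} {f g : R} (hf : C.Inv f) (hg : C.Inv g) : C.Inv (f * g) := by
  rw [inv_iff] at hf hg ⊢
  rw [alg_mul, alg_mul, hf.1, hf.2, hg.1, hg.2, mul_zero, mul_zero, add_zero]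
  exact ⟨rfl, rfl⟩

/-- variation of the volume form -/
theorem lin_det {δ : Derivation ℂ R R} {A A' : Matrix ι ι ℂ} (hδ : C.Comm δ A A')
    (htr : A.trace + A'.trace = 0) {v : R} (hρ : δ C.ρ = C.ρ * v) (hv : C.Inv v) :
    δ C.G.det = C.G.det * (C.L v + (Fintype.card ι : R) * v) := by
  have h1 : ((A.map (algebraMap ℂ R))ᵀ).trace + (A'.map (algebraMap ℂ R)).trace = 0 := by
    rw [trace_transpose, ← AddMonoidHom.map_trace, ← AddMonoidHom.map_trace, ← map_add, htr,
      map_zero]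
  have h2 : C.zb ⬝ᵥ (fun b => C.db b v) = 0 := hv.2
  have h3 : (fun a => C.d a v) ⬝ᵥ C.z = 0 := (dotProduct_comm _ _).trans hv.1
  rw [jacobi, alg_adj C.unit_G, smul_mul, trace_smul, smul_eq_mul, G, C.H_map hδ, hρ, H_mul, ← G]
  simp only [Matrix.mul_sub, Matrix.mul_add, Matrix.mul_smul, trace_sub, trace_add, trace_smul,
    smul_eq_mul]
  rw [KG, trace_one, mul_vecMulVec, K_d, trace_vecMulVec, h2, trace_mul_comm _ (vecMulVec _ _),
    vecMulVec_mul, db_K, trace_vecMulVec, h3, trace_mul_cycle', ← Matrix.mul_assoc, GK,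
    Matrix.one_mul, ← Matrix.mul_assoc, KG, Matrix.one_mul, L]
  linear_combination -C.G.det * h1

/-- linearisation of the scalar curvature -/
theorem lin_scal {δ : Derivation ℂ R R} {A A' : Matrix ι ι ℂ} (hδ : C.Comm δ A A')
    (htr : A.trace + A'.trace = 0) {v Λ : R} (hρ : δ C.ρ = C.ρ * v) (hv : C.Inv v)
    (hΛ : C.Inv Λ) (hδΛ : δ Λ * C.G.det = δ C.G.det) :
    δ (C.L Λ) = C.L (C.L v) + (Fintype.card ι : R) * C.L v -
      C.ρ ^ 2 * (C.G⁻¹ * C.H Λ * C.G⁻¹ * C.H v).trace := by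
  have h1 : δ Λ = C.L v + (Fintype.card ι : R) * v :=
    C.unit_G.mul_right_cancel (by rw [hδΛ, C.lin_det hδ htr hρ hv, mul_comm])
  have h2 : C.H (C.L v + (Fintype.card ι : R) * v) = C.H (C.L v) + (Fintype.card ι : R) • C.H v := by
    ext a b
    simp only [H, of_apply, Matrix.add_apply, Matrix.smul_apply, map_add, alg_mul, Derivation.map_natCast,
      mul_zero, add_zero, smul_eq_mul]
  have h3 : (C.G⁻¹ * vecMulVec (fun a => C.d a C.ρ) (fun b => C.db b v) * C.G⁻¹ * C.H Λ).trace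
      = 0 := by
    rw [trace_mul_cycle, ← Matrix.mul_assoc, Matrix.mul_assoc (C.H Λ), mul_vecMulVec, K_d,
      mul_vecMulVec, hΛ.H_zb, zero_vecMulVec, Matrix.zero_mul, trace_zero]
  have h4 : C.G⁻¹ * vecMulVec (fun a => C.d a v) (fun b => C.db b C.ρ) * C.G⁻¹ * C.H Λ = 0 := by
    rw [Matrix.mul_assoc C.G⁻¹, vecMulVec_mul, db_K, Matrix.mul_assoc, vecMulVec_mul, hΛ.z_H,
      vecMulVec_zero, Matrix.mul_zero]
  have h5 : ∀ a : Matrix ι ι R, C.G⁻¹ * (a * C.G) * C.G⁻¹ * C.H Λ = C.G⁻¹ * (a * C.H Λ) :=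
    fun a => by rw [Matrix.mul_assoc C.G⁻¹, Matrix.mul_assoc a, GK, Matrix.mul_one, Matrix.mul_assoc]
  have h6 : ∀ a : Matrix ι ι R, (C.G⁻¹ * (C.G * a) * C.G⁻¹ * C.H Λ).trace =
      (C.G⁻¹ * (C.H Λ * a)).trace := fun a => by
    rw [← Matrix.mul_assoc C.G⁻¹, KG, Matrix.one_mul, trace_mul_cycle', Matrix.mul_assoc]
  have h7 : (C.G⁻¹ * C.H v * C.G⁻¹ * C.H Λ).trace = (C.G⁻¹ * C.H Λ * C.G⁻¹ * C.H v).trace := by
    rw [Matrix.mul_assoc, trace_mul_comm, ← Matrix.mul_assoc]
  rw [L, alg_mul, AddMonoidHom.map_trace, alg_map_mul, deriv_inv _ _ C.unit_G, C.H_map hδ Λ, h1, h2,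
    show C.G.map δ = _ from C.H_map hδ C.ρ, hρ, H_mul, ← G]
  simp only [Matrix.mul_sub, Matrix.mul_add, Matrix.mul_smul, Matrix.sub_mul, Matrix.add_mul,
    Matrix.smul_mul, Matrix.neg_mul, trace_neg, trace_sub, trace_add, trace_smul, smul_eq_mul, h3, h4,
    h5, h6, h7, KG, Matrix.one_mul, trace_zero]
  rw [L, L]
  ring

/-- divergence form of the Laplacian, holomorphic version -/
theorem div_L {β β' f g : R} (hβ : ∀ a, C.d a β = β' * C.d a C.ρ) (hg : C.Inv g) :
    ∑ a, C.d a (β * C.ρ * f * ∑ b, C.G.adjugate b a * C.db b g) =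
      β * C.G.det * f * C.L g + β * C.ρ * C.B f g := by
  have h1 : ∀ b, ∑ a, C.G.adjugate b a * C.d a (β * C.ρ * f) = (β' * C.ρ * f + β * f) * C.G.det *
      C.zb b + β * C.ρ * ∑ a, C.G.adjugate b a * C.d a f := fun b => by
    rw [← C.inv_d b, alg_adj C.unit_G, Finset.mul_sum, Finset.mul_sum, ← Finset.sum_add_distrib]
    refine Finset.sum_congr rfl fun a _ => ?_
    rw [alg_mul, alg_mul, hβ, Matrix.smul_apply, smul_eq_mul]
    ring
  rw [div_gen]
  simp only [h1]
  simp only [piola, zero_mul, Finset.sum_const_zero, add_mul, Finset.sum_add_distrib, mul_assoc,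
    ← Finset.mul_sum, hg.2]
  rw [B, L, alg_adj C.unit_G, smul_mul, trace_smul, smul_eq_mul, ← alg_adj C.unit_G]
  simp only [Finset.sum_mul]
  ring

/-- divergence form of the Laplacian, antiholomorphic version -/
theorem div_Lb {β β' f g : R} (hβ : ∀ b, C.db b β = β' * C.db b C.ρ) (hf : C.Inv f) :
    ∑ b, C.db b (β * C.ρ * g * ∑ a, C.G.adjugate b a * C.d a f) =
      β * C.G.det * g * C.L f + β * C.ρ * C.B f g := by
  have h := C.swap.div_L (f := g) (g := f) hβ ⟨hf.2, hf.1⟩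
  rw [swap_L, B, swap_G, ← adjugate_transpose, det_transpose, Finset.sum_comm (γ := ι)
    (f := fun b a => C.G.adjugateᵀ b a * C.swap.d a g * C.swap.db b f)] at h
  refine h.trans (congrArg _ (congrArg _ (Finset.sum_congr rfl fun _ _ =>
    Finset.sum_congr rfl fun _ _ => mul_right_comm _ _ _)))

/-- Euler's identity for the weight -/
theorem div_euler {β β' h : R} (hβ : ∀ a, C.d a β = β' * C.d a C.ρ) (hh : C.Inv h) :
    ∑ a, C.d a (C.z a * β * h) = (Fintype.card ι : R) * β * h + β' * C.ρ * h := by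
  have h1 : ∀ a, C.d a (C.z a * β * h) =
      β * h + β' * h * (C.z a * C.d a C.ρ) + β * (C.z a * C.d a h) := fun a => by
    rw [alg_mul, alg_mul, hβ, C.d_z, if_pos rfl]
    ring
  simp only [h1, Finset.sum_add_distrib, ← Finset.mul_sum, C.euler, hh.1, Finset.sum_const,
    Finset.card_univ, nsmul_eq_mul]
  ring

/-- the coefficient of the Hessian term -/
def W (Λ : R) : Matrix ι ι R := (C.ρ ^ 2 * C.G.det) • (C.G⁻¹ * C.H Λ * C.G⁻¹)

/-- one integration by parts in the Hessian term -/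
theorem div_hess {β β' v Λ : R} (hβ : ∀ a, C.d a β = β' * C.d a C.ρ) (hΛ : C.Inv Λ) :
    ∑ a, C.d a (β * v * ∑ b, C.W Λ b a * C.db b v) =
      β * C.G.det * v * (C.ρ ^ 2 * (C.G⁻¹ * C.H Λ * C.G⁻¹ * C.H v).trace) +
        β * ∑ b, ∑ a, C.W Λ b a * C.d a v * C.db b v +
        β * v * ∑ b, (∑ a, C.d a (C.W Λ b a)) * C.db b v := by
  have h0 : C.W Λ *ᵥ (fun a => C.d a C.ρ) = 0 := by
    rw [W, smul_mulVec, ← mulVec_mulVec, K_d, ← mulVec_mulVec, hΛ.H_zb, mulVec_zero, smul_zero]
  have h1 : ∀ b, ∑ a, C.W Λ b a * C.d a (β * v) = β * ∑ a, C.W Λ b a * C.d a v := fun b => by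
    have h2 : ∑ a, C.W Λ b a * C.d a C.ρ = 0 := congrFun h0 b
    rw [← add_zero (β * ∑ _, _), ← mul_zero (v * β'), ← h2, Finset.mul_sum, Finset.mul_sum,
      ← Finset.sum_add_distrib]
    refine Finset.sum_congr rfl fun a _ => ?_
    rw [alg_mul, hβ]
    ring
  rw [div_gen]
  simp only [h1, mul_assoc β, ← Finset.mul_sum]
  rw [W, smul_mul, trace_smul, smul_eq_mul, ← W]
  simp only [Finset.sum_mul]
  ring

end Cone

end Vale.Agent.P264
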