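import Vale.Agent.P264.DU
import Vale.Agent.P264.DB

/-! The profile: computation. -/

namespace Vale.Agent.P264.Ck

/-- steps -/
noncomputable def stA : List (E × Nat) :=
  [(eU, 0),
  ((.dx (.v 0)), 0),
  ((.add (.add (.mul (.mul .x (.add (.c (Int.ofNat 1)) (.neg .x))) (.v 0)) (.neg (.mul .x (.v 1)))) (.mul (.c (Int.ofNat 11)) (.v 1))), 0),
  ((.neg (.add (.add (.mul (.mul .x (.add (.c (Int.ofNat 1)) (.neg .x))) (.dx (.v 0))) (.neg (.mul .x (.v 0)))) (.mul (.c (Int.ofNat 10)) (.v 0)))), 0),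
  ((.add (.mul (.add (.c (Int.ofNat 1)) (.neg .x)) (.dx (.v 0))) (.neg (.v 0))), 0),
  ((.tight (.add (.mul (.add (.c (Int.ofNat 1)) (.neg .x)) (.dx (.v 0))) (.neg (.mul (.c (Int.ofNat 2)) (.v 0))))), 0),
  ((.add (.c (Int.ofNat 1)) (.neg (.mul .x (.v 5)))), 0),
  ((.neg (.mul .x (.v 1))), 0),
  ((.mul (.mul .x (.add (.c (Int.ofNat 1)) (.neg .x))) (.dx (.v 1))), 0),
  ((.mul (.add (.c (Int.ofNat 1)) (.neg .x)) (.v 1)), 0),
  ((.mul (.add (.c (Int.ofNat 1)) (.neg .x)) (.add (.mul (.mul .x (.add (.c (Int.ofNat 1)) (.neg .x))) (.dx (.v 2))) (.neg (.mul (.mul (.c (Int.ofNat 2)) .x) (.v 2))))), 0),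
  ((.tight (.add (.half 1 (.mul (.c (Int.ofNat 225)) (.add (.v 10) (.mul .x (.v 9))))) (.neg (.mul (.mul (.v 4) (.v 4)) (.mul (.add (.c (Int.ofNat 1)) (.neg .x)) (.v 5)))))), 0)]

/-- bounds -/
noncomputable def bdA : List (E × Nat × Nat) :=
  [((.v 5), 2, 1),
  ((.v 3), 10, 1),
  ((.v 2), 150000, 1),
  ((.v 1), 150000, 1),
  ((.v 0), 15, 100000000000000000000000000000000000000000000000000000000000000000000000000000000000000),
  ((.add (.mul (.mul .x (.add (.c (Int.ofNat 1)) (.neg .x))) (.dx (.v 0))) (.neg (.mul (.mul (.c (Int.ofNat 2)) .x) (.v 0)))), 15, 10000000000000000000000000000000000000000000000000000000000000000000000000000000000000),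
  ((.add (.mul (.c (Int.ofNat 20)) (.at1 (.v 11))) (.c (Int.negSucc 6))), 3, 1),
  ((.add (.mul (.v 5) (.v 5)) (.neg eB0)), 1, 35184372088832),
  ((.add (.mul (.mul (.c (Int.ofNat 2)) (.v 5)) (.v 3)) (.neg eB1)), 1, 35184372088832),
  ((.add (.mul (.mul (.c (Int.ofNat 2)) (.v 5)) (.v 2)) (.neg (.mul (.c (Int.ofNat 15)) eB2))), 15, 68719476736),
  ((.add (.mul (.c (Int.ofNat 2)) (.add (.mul (.v 3) (.v 2)) (.mul (.v 5) (.v 1)))) (.neg (.mul (.c (Int.ofNat 15)) eB3))), 15, 4294967296)]

/-- data -/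
noncomputable def eM : E :=
  (.half 16 (.seg 17 6 0 1658091909330833944078981838373726335929069096208002746296001000651937460160361146213669867679041022336858380577819180445283764209863614449073153430900859625337507834574376550221136575917857122993017161077582712128523919722501420325960749934379234322301418386979681614748462170851711978285838053877007255480462726358372700243388))

/-- the approximate solution minus `1 / 8` -/
def tabA : List (List E) := [[(.add (.v 5) (.neg (.half 3 (.c (Int.ofNat 1)))))]]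

set_option maxRecDepth 100000 in
theorem chkA : lets 1100 stA [] (fun env => and (bnds 1100 env bdA)
    (lmi 1100 1 env tabA [[eM]] [[36518]] [10000] 1048576)) = true := by decide +kernel

end Vale.Agent.P264.Ck
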