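import Vale.Agent.P264.Dat
import Vale.Agent.P264.KA

/-! The profile: what the computation shows. -/

open Set Polynomial

noncomputable section

namespace Vale.Agent.P264.Ck

open Fl

attribute [-simp] mul_eq_mul_left_iff mul_eq_mul_right_iff

attribute [local simp] map_ofNat den

/-- the polynomials computed -/
def psA (d : Data) : List ℝ[X] :=
  [d.U, derivative d.U, inn d.Z2, inn d.Zt, inn d.F2, inn d.F3, inn d.chi, inn d.V2, inn (D d.chi),
    15 * inn (y * d.V2), 15 * inn (y * Dy 2 d.V2), 15 * inn d.A]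

theorem stepsA : Steps stA (psA dat) [] := by
  simp only [stA, psA, Steps, StepOK, c_eU, true_and, and_true]
  refine ⟨rfl, ?_, ?_, ?_, ?_, ?_, ?_, ?_, ?_, ?_, ?_⟩ <;> refine Polynomial.funext fun r => ?_
  · simp [Data.Z2, DtY] <;> ring
  · simp [Data.Zt, DtY] <;> ring
  · simp [Data.F2] <;> ring
  · simp [Data.F3] <;> ring
  · simp [Data.chi] <;> ring
  · simp [Data.V2]
  · simp <;> ring
  · simp <;> ring
  · simp [Dy] <;> ring
  · simp [Data.A] <;> ring

theorem certA (a : ℝ) (ha : a ∈ Icc (0 : ℝ) 1) :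
    |ev a 0 0 (dat.chi - c (21 / 20))| < 19 / 20 ∧ |ev a 0 0 (D dat.chi)| < 10 ∧
    |ev a 0 0 (y * dat.V2)| < 10 ^ 4 ∧ |ev a 0 0 (y * Dy 2 dat.V2)| < 10 ^ 4 ∧
    |ev a 0 0 dat.A| < 1 / 10 ^ 86 ∧ |ev a 0 0 (Dy 2 dat.A)| < 1 / 10 ^ 85 ∧
    |dat.U.eval 1 - 7 / 20| < 3 / 20 ∧
    |(inn (dat.chi ^ 2)).eval a - (den [] eB0).eval a| < 1 / 2 ^ 45 ∧
    |(inn (D (dat.chi ^ 2))).eval a - (den [] eB1).eval a| < 1 / 2 ^ 45 ∧
    |(inn (y * dat.V)).eval a - (den [] eB2).eval a| < 1 / 2 ^ 36 ∧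
    |(inn (y * Dy 2 dat.V)).eval a - (den [] eB3).eval a| < 1 / 2 ^ 32 := by
  obtain ⟨env, he, hk⟩ := lets_sound (by norm_num) stepsA semEnv_nil chkA
  rw [Bool.and_eq_true] at hk
  have hb := bnds_sound (by norm_num) he hk.1
  have hl := lmi_sound (by norm_num) he hk.2 a ha fun _ => 1
  have hρ : (psA dat).reverse ++ [] = [15 * inn dat.A, 15 * inn (y * Dy 2 dat.V2),
    15 * inn (y * dat.V2), inn (D dat.chi), inn dat.V2, inn dat.chi, inn dat.F3, inn dat.F2,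
    inn dat.Zt, inn dat.Z2, derivative dat.U, dat.U] := rfl
  rw [hρ] at hb hl
  simp only [bdA, List.forall_mem_cons] at hb
  obtain ⟨h0, h1, h2, h3, h4, h5, h6, h7, h8, h9, h10, -⟩ := hb
  have e0 : |ev a 0 0 dat.chi| < 2 := bd_of (h0 a ha) one_pos (by simp [ev_inn]) (by norm_num)
  have e1 : 1 / 8 ≤ ev a 0 0 dat.chi := by
    simp [sy_eq, nth2, tabA] at hl
    rw [ev_inn]
    linarith
  refine ⟨?_, bd_of (h1 a ha) one_pos (by simp [ev_inn]) (by norm_num),
    bd_of (c := 15) (h2 a ha) (by norm_num) (by simp [ev_inn]) (by norm_num),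
    bd_of (c := 15) (h3 a ha) (by norm_num) (by simp [ev_inn]) (by norm_num),
    bd_of (c := 15) (h4 a ha) (by norm_num) (by simp [ev_inn]) (by norm_num),
    bd_of (c := 15) (h5 a ha) (by norm_num) ?_ (by norm_num),
    bd_of (c := 20) (h6 a ha) (by norm_num) ?_ (by norm_num),
    bd_of (h7 a ha) one_pos ?_ (by norm_num), bd_of (h8 a ha) one_pos ?_ (by norm_num),
    bd_of (c := 15) (h9 a ha) (by norm_num) ?_ (by norm_num),
    bd_of (c := 15) (h10 a ha) (by norm_num) ?_ (by norm_num)⟩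
  · rw [map_sub, ev_c, abs_lt]
    rw [abs_lt] at e0
    constructor <;> linarith [e0.2]
  · simp [ev_inn, Dy] <;> ring
  · simp <;> ring
  · simp [c_eB0] <;> ring
  · simp [c_eB1] <;> ring
  · simp [c_eB2, Data.V] <;> ring
  · simp [c_eB3, Data.V, Dy] <;> ring

end Vale.Agent.P264.Ck
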