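import Vale.Agent.P264.Dat
import Vale.Agent.P264.KB0
import Vale.Agent.P264.KB1

/-! The adjoint equation: what the computation shows. -/

open Set Polynomial

noncomputable section

namespace Vale.Agent.P264.Ck

open Fl

attribute [-simp] mul_eq_mul_left_iff mul_eq_mul_right_iff

attribute [local simp] map_ofNat den

/-- the polynomials computed -/
def psB (d : Data) (k : ℕ) : List ℝ[X] :=
  [d.U, derivative d.U, inn d.Z2, inn d.Zt, inn d.F2, inn d.F3, inn d.chi, inn d.V2, d.ct k,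
    C (d.eig k), inn (d.zeta k), 225 * inn (d.wt k), 225 * inn (Tadj (d.wt k)),
    225 * inn (Tadj (Tadj (d.wt k))), 225 * inn (Tadj (Tadj (Tadj (d.wt k)))),
    225 * inn (Tadj (Tadj (Tadj (Tadj (d.wt k)))))]

theorem inn_Tadj {F G : Fl} {c : ℝ} (h : inn F = C c * inn G) :
    inn (Tadj F) = C c * inn (Tadj G) := by
  simp [Tadj, Dy, h]; ring

theorem inn_Ad (d : Data) (k : ℕ) : inn (d.Ad k) = inn (15 * y * (c (1 / 2) * (D (d.zeta k) -
    2 * x * d.zeta k) - c (d.eig k) * d.zeta k + y ^ 2 * d.V * d.zeta k)) -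
    (C (-110) * inn (Tadj (d.wt k)) + C 89 * inn (Tadj (Tadj (d.wt k))) +
      C 20 * inn (Tadj (Tadj (Tadj (d.wt k)))) +
      C 1 * inn (Tadj (Tadj (Tadj (Tadj (d.wt k)))))) := by
  rw [← inn_Tadj (F := d.wt k * cK 1) (by simp [cK]; ring),
    ← inn_Tadj (inn_Tadj (F := d.wt k * cK 2) (by simp [cK]; ring)),
    ← inn_Tadj (inn_Tadj (inn_Tadj (F := d.wt k * cK 3) (by simp [cK]; ring))),
    ← inn_Tadj (inn_Tadj (inn_Tadj (inn_Tadj (F := d.wt k * cK 4) (by simp [cK]))))]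
  simp [Data.Ad]

theorem moment {F g : ℝ[X]} {b : ℝ}
    (h : ∀ a ∈ Icc (0 : ℝ) 1, |(derivative (X * F)).eval a - g.eval a| < 1 / 20)
    (h' : |F.eval 1 - b| < 1 / 20) : |(∫ a in (0 : ℝ)..1, g.eval a) - b| ≤ 1 / 10 := by
  have h1 : ∫ a in (0 : ℝ)..1, (derivative (X * F)).eval a = F.eval 1 := by
    rw [intervalIntegral.integral_eq_sub_of_hasDerivAt (fun a _ => (X * F).hasDerivAt a)
      ((derivative (X * F)).continuous.intervalIntegrable 0 1)]
    simp
  have h2 := intervalIntegral.norm_integral_le_of_norm_le_const (a := 0) (b := 1) (C := 1 / 20)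
    (f := fun a => (derivative (X * F)).eval a - g.eval a) fun a ha => by
      rw [uIoc_of_le zero_le_one] at ha
      exact (h a (Ioc_subset_Icc_self ha)).le
  rw [intervalIntegral.integral_sub ((derivative (X * F)).continuous.intervalIntegrable 0 1)
    (g.continuous.intervalIntegrable 0 1), h1, Real.norm_eq_abs] at h2
  rw [abs_lt] at h'
  rw [abs_le] at h2 ⊢
  norm_num at h2
  constructor <;> linarith [h2.1, h2.2, h'.1, h'.2]

theorem stepT (F : Fl) (ρ : List ℝ[X]) : den (225 * inn F :: ρ) (.neg (.add (.add (.mul (.mul .x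
    (.add (.c (Int.ofNat 1)) (.neg .x))) (.dx (.v 0))) (.neg (.mul .x (.v 0)))) (.v 0))) =
    225 * inn (Tadj F) := by
  simp [Tadj, Dy]; ring

theorem stepsB0 : Steps stB0 (psB dat 0) [] := by
  simp only [stB0, psB, Steps, StepOK, c_eU, c_eZ0, c_eL0, stepT, true_and, and_true]
  refine ⟨rfl, ?_, ?_, ?_, ?_, ?_, ?_, ?_, ?_⟩ <;> refine Polynomial.funext fun r => ?_
  · simp [Data.Z2, DtY]; ring
  · simp [Data.Zt, DtY]; ring
  · simp [Data.F2]; ring
  · simp [Data.F3]; ring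
  · simp [Data.chi]; ring
  · simp [Data.V2]
  · simp [Data.zeta]; ring
  · simp [Data.wt]; ring

theorem certB0 : (∀ a ∈ Icc (0 : ℝ) 1, |ev a 0 0 (dat.Ad 0)| < 1 / 10 ^ 15 ∧
    |ev a 0 0 (dat.Zf 0)| < 10 ∧ |ev a 0 0 (dat.Zl 0)| < 10) ∧
    ∀ i ≤ 1, |(∫ a in (0 : ℝ)..1, (X ^ 2 * (1 - X) ^ 2 * dat.ct 0 * ((1 - X) * dat.dir i)).eval a) -
      if 0 = i then 1 else 0| ≤ 1 / 10 := by
  obtain ⟨env, he, hk⟩ := lets_sound (by norm_num) stepsB0 semEnv_nil chkB0
  have hb := bnds_sound (by norm_num) he hk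
  simp only [bdB0, List.forall_mem_cons, psB, List.reverse_cons, List.reverse_nil, List.nil_append,
    List.cons_append, List.append_nil] at hb
  obtain ⟨h0, h1, h2, h3, h4, h5, h6, -⟩ := hb
  have c0 : ∀ ρ, den ρ eF00 = den [] eF00 := fun ρ => den_closed ρ (by decide +kernel)
  have c1 : ∀ ρ, den ρ eF01 = den [] eF01 := fun ρ => den_closed ρ (by decide +kernel)
  have d0 : dat.dir 0 = 30 - 160 * X := rfl
  have d1 : dat.dir 1 = -328 + 966 * X := rfl
  refine ⟨fun a ha => ⟨bd_of (c := 450) (h0 a ha) (by norm_num) ?_ (by norm_num),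
    bd_of (h1 a ha) one_pos ?_ (by norm_num), bd_of (h2 a ha) one_pos ?_ (by norm_num)⟩,
    fun i hi => ?_⟩
  · rw [ev_inn, inn_Ad]; simp [Data.V]; ring
  · simp [ev_inn, Data.Zf]; ring
  · simp [ev_inn, Data.Zl]; ring
  · obtain rfl | rfl : i = 0 ∨ i = 1 := by omega
    · refine moment (F := den [] eF00) (fun a ha => bd_of (h3 a ha) one_pos ?_ (by norm_num))
        (bd_of (h4 0 (by simp)) one_pos ?_ (by norm_num))
      · simp [c0, d0, Data.zeta]; ring
      · simp [c0] <;> ring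
    · refine moment (F := den [] eF01) (fun a ha => bd_of (h5 a ha) one_pos ?_ (by norm_num))
        (bd_of (h6 0 (by simp)) one_pos ?_ (by norm_num))
      · simp [c1, d1, Data.zeta]; ring
      · simp [c1] <;> ring

theorem stepsB1 : Steps stB1 (psB dat 1) [] := by
  simp only [stB1, psB, Steps, StepOK, c_eU, c_eZ1, c_eL1, stepT, true_and, and_true]
  refine ⟨rfl, ?_, ?_, ?_, ?_, ?_, ?_, ?_, ?_⟩ <;> refine Polynomial.funext fun r => ?_
  · simp [Data.Z2, DtY]; ring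
  · simp [Data.Zt, DtY]; ring
  · simp [Data.F2]; ring
  · simp [Data.F3]; ring
  · simp [Data.chi]; ring
  · simp [Data.V2]
  · simp [Data.zeta]; ring
  · simp [Data.wt]; ring

theorem certB1 : (∀ a ∈ Icc (0 : ℝ) 1, |ev a 0 0 (dat.Ad 1)| < 1 / 10 ^ 15 ∧
    |ev a 0 0 (dat.Zf 1)| < 10 ∧ |ev a 0 0 (dat.Zl 1)| < 10) ∧
    ∀ i ≤ 1, |(∫ a in (0 : ℝ)..1, (X ^ 2 * (1 - X) ^ 2 * dat.ct 1 * ((1 - X) * dat.dir i)).eval a) -
      if 1 = i then 1 else 0| ≤ 1 / 10 := by
  obtain ⟨env, he, hk⟩ := lets_sound (by norm_num) stepsB1 semEnv_nil chkB1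
  have hb := bnds_sound (by norm_num) he hk
  simp only [bdB1, List.forall_mem_cons, psB, List.reverse_cons, List.reverse_nil, List.nil_append,
    List.cons_append, List.append_nil] at hb
  obtain ⟨h0, h1, h2, h3, h4, h5, h6, -⟩ := hb
  have c0 : ∀ ρ, den ρ eF10 = den [] eF10 := fun ρ => den_closed ρ (by decide +kernel)
  have c1 : ∀ ρ, den ρ eF11 = den [] eF11 := fun ρ => den_closed ρ (by decide +kernel)
  have d0 : dat.dir 0 = 30 - 160 * X := rfl
  have d1 : dat.dir 1 = -328 + 966 * X := rfl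
  refine ⟨fun a ha => ⟨bd_of (c := 450) (h0 a ha) (by norm_num) ?_ (by norm_num),
    bd_of (h1 a ha) one_pos ?_ (by norm_num), bd_of (h2 a ha) one_pos ?_ (by norm_num)⟩,
    fun i hi => ?_⟩
  · rw [ev_inn, inn_Ad]; simp [Data.V]; ring
  · simp [ev_inn, Data.Zf]; ring
  · simp [ev_inn, Data.Zl]; ring
  · obtain rfl | rfl : i = 0 ∨ i = 1 := by omega
    · refine moment (F := den [] eF10) (fun a ha => bd_of (h3 a ha) one_pos ?_ (by norm_num))
        (bd_of (h4 0 (by simp)) one_pos ?_ (by norm_num))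
      · simp [c0, d0, Data.zeta]; ring
      · simp [c0] <;> ring
    · refine moment (F := den [] eF11) (fun a ha => bd_of (h5 a ha) one_pos ?_ (by norm_num))
        (bd_of (h6 0 (by simp)) one_pos ?_ (by norm_num))
      · simp [c1, d1, Data.zeta]; ring
      · simp [c1] <;> ring

end Vale.Agent.P264.Ck
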