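import Vale.Agent.P264.DS

/-! The weights: computation. -/

namespace Vale.Agent.P264.Ck

/-- steps -/
noncomputable def stS : List (E × Nat) :=
  [(em0, 0),
  (em1, 0),
  (em2, 0),
  (em3, 0),
  (eP00, 0),
  (eP01, 0),
  (eP11, 0),
  (ep00, 0),
  (ep01, 0),
  (ep11, 0),
  ((.add (.mul (.mul .x (.add (.c (Int.ofNat 1)) (.neg .x))) (.dx (.v 6))) (.v 6)), 0),
  ((.add (.c (Int.ofNat 30)) (.neg (.mul (.c (Int.ofNat 160)) .x))), 0),
  ((.add (.mul (.mul .x (.add (.c (Int.ofNat 1)) (.neg .x))) (.dx (.v 0))) (.neg (.mul .x (.v 0)))), 0),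
  ((.add (.mul (.mul .x (.add (.c (Int.ofNat 1)) (.neg .x))) (.dx (.v 0))) (.neg (.mul .x (.v 0)))), 0),
  ((.add (.mul (.mul .x (.add (.c (Int.ofNat 1)) (.neg .x))) (.dx (.v 0))) (.neg (.mul .x (.v 0)))), 0),
  ((.add (.c (Int.negSucc 327)) (.mul (.c (Int.ofNat 966)) .x)), 0),
  ((.add (.mul (.mul .x (.add (.c (Int.ofNat 1)) (.neg .x))) (.dx (.v 0))) (.neg (.mul .x (.v 0)))), 0),
  ((.add (.mul (.mul .x (.add (.c (Int.ofNat 1)) (.neg .x))) (.dx (.v 0))) (.neg (.mul .x (.v 0)))), 0),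
  ((.add (.mul (.mul .x (.add (.c (Int.ofNat 1)) (.neg .x))) (.dx (.v 0))) (.neg (.mul .x (.v 0)))), 0)]

/-- bounds -/
noncomputable def bdS : List (E × Nat × Nat) :=
  [((.v 18), 1000000, 1),
  ((.v 17), 1000000, 1),
  ((.v 16), 1000000, 1),
  ((.v 15), 1000000, 1),
  ((.add (.mul (.mul .x (.add (.c (Int.ofNat 1)) (.neg .x))) (.dx (.v 16))) (.v 16)), 1000000, 1),
  ((.add (.add (.mul (.mul .x (.add (.c (Int.ofNat 1)) (.neg .x))) (.dx (.v 8))) (.v 8)) (.neg (.v 16))), 1000000, 1),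
  ((.mul (.c (Int.ofNat 2)) (.v 8)), 1000000, 1),
  ((.add (.at1 (.v 18)) (.c (Int.negSucc 499999))), 499992, 1),
  ((.add (.at1 (.v 17)) (.c (Int.negSucc 5001))), 4998, 1),
  ((.add (.at1 (.v 16)) (.c (Int.negSucc 4999))), 4999, 1),
  ((.add (.mul (.c (Int.ofNat 10)) (.at1 (.v 15))) (.c (Int.negSucc 49999))), 49999, 1),
  ((.at1 (.v 14)), 50000000000, 1),
  ((.at1 (.v 13)), 50000000000, 1),
  ((.at1 (.v 12)), 50000000000, 1),
  ((.at1 (.v 11)), 50000000000, 1),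
  ((.at1 (.v 10)), 50000000000, 1),
  ((.at1 (.v 9)), 50000000000, 1),
  ((.v 7), 10000, 1),
  ((.v 6), 10000, 1),
  ((.v 5), 10000, 1),
  ((.v 4), 10000, 1),
  ((.v 3), 10000, 1),
  ((.v 2), 10000, 1),
  ((.v 1), 10000, 1),
  ((.v 0), 10000, 1)]

set_option maxRecDepth 100000 in
theorem chkS : lets 128 stS [] (fun env => bnds 128 env bdS) = true := by decide +kernel

end Vale.Agent.P264.Ck
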