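import Vale.Agent.P264.Dat
import Vale.Agent.P264.KS

/-! The weights: what the computation shows. -/

open Set Polynomial

noncomputable section

namespace Vale.Agent.P264.Ck

open Fl

attribute [-simp] mul_eq_mul_left_iff mul_eq_mul_right_iff

attribute [local simp] map_ofNat den

/-- the operator on the directions -/
def opD (p : ℝ[X]) : ℝ[X] := X * (1 - X) * derivative p - X * p

/-- the polynomials computed -/
def psS (d : Data) : List ℝ[X] :=
  [d.m 0, d.m 1, d.m 2, d.m 3, d.P 0 0, d.P 0 1, d.P 1 1, d.P2 0 0, d.P2 0 1, d.P2 1 1,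
    inn (sh (d.mm 3)), d.dir 0, opD (d.dir 0), opD (opD (d.dir 0)), opD (opD (opD (d.dir 0))),
    d.dir 1, opD (d.dir 1), opD (opD (d.dir 1)), opD (opD (opD (d.dir 1)))]

theorem stepD (p : ℝ[X]) (ρ : List ℝ[X]) : den (p :: ρ) (.add (.mul (.mul .x (.add (.c (Int.ofNat 1))
    (.neg .x))) (.dx (.v 0))) (.neg (.mul .x (.v 0)))) = opD p := by
  simp [opD]; ring

theorem stepsS : Steps stS (psS dat) [] := by
  have d0 : dat.dir 0 = 30 - 160 * X := rfl
  have d1 : dat.dir 1 = -328 + 966 * X := rfl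
  simp only [stS, psS, Steps, StepOK, c_em0, c_em1, c_em2, c_em3, c_eP00, c_eP01, c_eP11, c_ep00,
    c_ep01, c_ep11, stepD, true_and, and_true]
  refine ⟨?_, ?_, ?_⟩ <;> refine Polynomial.funext fun r => ?_
  · simp [sh, Data.mm]; ring
  · simp [d0]; ring
  · simp [d1]

theorem form_le {p q r : ℝ} (hp : |p| < 5 * 10 ^ 10) (hq : |q| < 5 * 10 ^ 10)
    (hr : |r| < 5 * 10 ^ 10) (a b : ℝ) :
    p * a ^ 2 + 2 * q * a * b + r * b ^ 2 ≤ 10 ^ 11 * (a ^ 2 + b ^ 2) := by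
  rw [abs_lt] at hp hq hr
  nlinarith [mul_nonneg (sub_pos.2 hp.2).le (sq_nonneg a), mul_nonneg (sub_pos.2 hr.2).le (sq_nonneg b),
    mul_nonneg (sub_pos.2 hq.2).le (sq_nonneg (a + b)),
    mul_nonneg (sub_pos.2 hq.1).le (sq_nonneg (a - b))]

theorem certS : (∀ a ∈ Icc (0 : ℝ) 1, |ev a 0 0 (px (dat.m 0))| < 10 ^ 6 ∧
    |ev a 0 0 (dat.mm 1)| < 10 ^ 6 ∧ |ev a 0 0 (dat.mm 2)| < 10 ^ 6 ∧
    |ev a 0 0 (dat.mm 3)| < 10 ^ 6 ∧ |ev a 0 0 (sh (dat.mm 2))| < 10 ^ 6 ∧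
    |ev a 0 0 (sh (sh (dat.mm 3)) - dat.mm 2)| < 10 ^ 6 ∧
    |ev a 0 0 (2 * sh (dat.mm 3))| < 10 ^ 6) ∧
    (|(dat.m 0).eval 1 - 500000| < 499992 ∧ |(dat.m 1).eval 1 - 5002| < 4998 ∧
      |(dat.m 2).eval 1 - 5000| < 4999 ∧ |10 * (dat.m 3).eval 1 - 50000| < 49999) ∧
    (∀ a b : ℝ, (dat.P 0 0).eval 1 * a ^ 2 + 2 * (dat.P 0 1).eval 1 * a * b +
      (dat.P 1 1).eval 1 * b ^ 2 ≤ 10 ^ 11 * (a ^ 2 + b ^ 2)) ∧
    (∀ a b : ℝ, (dat.P2 0 0).eval 1 * a ^ 2 + 2 * (dat.P2 0 1).eval 1 * a * b +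
      (dat.P2 1 1).eval 1 * b ^ 2 ≤ 10 ^ 11 * (a ^ 2 + b ^ 2)) ∧
    ∀ k ≤ 1, ∀ j ≤ 3, ∀ a ∈ Icc (0 : ℝ) 1, |(opD^[j] (dat.dir k)).eval a| ≤ 10 ^ 4 := by
  obtain ⟨env, he, hk⟩ := lets_sound (by norm_num) stepsS semEnv_nil chkS
  have hb := bnds_sound (by norm_num) he hk
  simp only [bdS, List.forall_mem_cons, psS, List.reverse_cons, List.reverse_nil, List.nil_append,
    List.cons_append, List.append_nil] at hb
  obtain ⟨h0, h1, h2, h3, h4, h5, h6, h7, h8, h9, h10, h11, h12, h13, h14, h15, h16, h17, h18, h19,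
    h20, h21, h22, h23, h24, -⟩ := hb
  have z : (0 : ℝ) ∈ Icc (0 : ℝ) 1 := by simp
  refine ⟨fun a ha => ⟨bd_of (h0 a ha) one_pos (by simp) (by norm_num),
    bd_of (h1 a ha) one_pos (by simp [Data.mm]) (by norm_num),
    bd_of (h2 a ha) one_pos (by simp [Data.mm]) (by norm_num),
    bd_of (h3 a ha) one_pos (by simp [Data.mm]) (by norm_num),
    bd_of (h4 a ha) one_pos (by simp [Data.mm, ev_inn, sh]; ring) (by norm_num),
    bd_of (h5 a ha) one_pos (by simp [Data.mm, ev_inn, sh]; ring) (by norm_num),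
    bd_of (h6 a ha) one_pos (by simp [ev_inn]) (by norm_num)⟩,
    ⟨bd_of (h7 0 z) one_pos (by simp; ring) (by norm_num),
    bd_of (h8 0 z) one_pos (by simp; ring) (by norm_num),
    bd_of (h9 0 z) one_pos (by simp; ring) (by norm_num),
    bd_of (h10 0 z) one_pos (by simp; ring) (by norm_num)⟩,
    form_le (bd_of (h11 0 z) one_pos (by simp) (by norm_num))
      (bd_of (h12 0 z) one_pos (by simp) (by norm_num))
      (bd_of (h13 0 z) one_pos (by simp) (by norm_num)),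
    form_le (bd_of (h14 0 z) one_pos (by simp) (by norm_num))
      (bd_of (h15 0 z) one_pos (by simp) (by norm_num))
      (bd_of (h16 0 z) one_pos (by simp) (by norm_num)), fun k hk j hj a ha => le_of_lt ?_⟩
  obtain rfl | rfl : k = 0 ∨ k = 1 := by omega
  all_goals obtain rfl | rfl | rfl | rfl : j = 0 ∨ j = 1 ∨ j = 2 ∨ j = 3 := by omega
  · exact bd_of (h17 a ha) one_pos (by simp) (by norm_num)
  · exact bd_of (h18 a ha) one_pos (by simp) (by norm_num)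
  · exact bd_of (h19 a ha) one_pos (by simp) (by norm_num)
  · exact bd_of (h20 a ha) one_pos (by simp) (by norm_num)
  · exact bd_of (h21 a ha) one_pos (by simp) (by norm_num)
  · exact bd_of (h22 a ha) one_pos (by simp) (by norm_num)
  · exact bd_of (h23 a ha) one_pos (by simp) (by norm_num)
  · exact bd_of (h24 a ha) one_pos (by simp) (by norm_num)

end Vale.Agent.P264.Ck
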