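import Vale.Agent.P264.CertA
import Vale.Agent.P264.CertB
import Vale.Agent.P264.CertS
import Vale.Agent.P264.CkLink
import Vale.Agent.P264.KL1
import Vale.Agent.P264.KL2

/-! The computer-checked certificate. -/

open Set Polynomial

noncomputable section

namespace Vale.Agent.P264

namespace Ck

open Fl

attribute [-simp] mul_eq_mul_left_iff mul_eq_mul_right_iff

attribute [local simp] map_ofNat den

theorem steps1 : Steps st1 (ps1 dat) [] := by
  simp only [st1, ps1, Steps, StepOK, true_and, and_true,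
    c_eC1, c_eC2, c_eD11, c_eD12, c_eD13, c_eD14, c_eD22, c_eD23, c_eD24, c_eD33, c_eD34, c_eD44, c_eP00, c_eP01, c_eP11, c_eR00, c_eR01, c_eR02, c_eR10, c_eR11, c_eR12, c_em0, c_em1, c_em2, c_em3, c_eq00, c_eB0, c_eB1, c_eB2, c_eB3]
  refine ⟨rfl, rfl, rfl, rfl, rfl, rfl, rfl, rfl, rfl, rfl, rfl, rfl, rfl, rfl, rfl, rfl, rfl, rfl, rfl, rfl, rfl, rfl, rfl, rfl, rfl, rfl, rfl, fun a ha => (certA a ha).2.2.2.2.2.2.2.1.le, fun a ha => (certA a ha).2.2.2.2.2.2.2.2.1.le, fun a ha => (certA a ha).2.2.2.2.2.2.2.2.2.1.le, fun a ha => (certA a ha).2.2.2.2.2.2.2.2.2.2.le, ?_, ?_, ?_, ?_⟩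
  · simp [c_eZ0, Data.zeta]; ring
  · simp [c_eZ1, Data.zeta]; ring
  · simp; ring
  · simp; ring

theorem steps2 : Steps st2 (ps2 dat) [] := by
  simp only [st2, ps2, Steps, StepOK, true_and, and_true,
    c_em0, c_em1, c_em2, c_em3, c_ep00, c_ep01, c_ep11, c_er00, c_er01, c_er02, c_er10, c_er11, c_er12, c_et00, c_et01, c_et02, c_et11, c_et12, c_et22]
  refine ⟨rfl, rfl, rfl, rfl, rfl, rfl, rfl, rfl, rfl, rfl, rfl, rfl, rfl, rfl, rfl, ?_, ?_, ?_, ?_⟩
  · simp [c_eZ0, Data.zeta]; ring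
  · simp [c_eZ1, Data.zeta]; ring
  · simp; ring
  · simp; ring

theorem cert : dat.Cert where
  eig := dat_eig
  P1 := certS.2.2.1
  P2 := certS.2.2.2.1
  cone := by
    have := abs_lt.1 (certA 0 (by simp)).2.2.2.2.2.2.1
    constructor <;> linarith [this.1, this.2]
  dir := certS.2.2.2.2
  mom := fun k hk => by
    obtain rfl | rfl : k = 0 ∨ k = 1 := by omega
    exacts [certB0.2, certB1.2]
  bd := by
    have key : ∀ a ∈ Icc (0 : ℝ) 1, ∀ p ∈ dat.bounds, |ev a 0 0 p.1| < p.2 := fun a ha => by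
      obtain ⟨a0, a1, a2, a3, a4, a5, -⟩ := certA a ha
      obtain ⟨b0, b1, b2⟩ := certB0.1 a ha
      obtain ⟨b3, b4, b5⟩ := certB1.1 a ha
      obtain ⟨s0, s1, s2, s3, s4, s5, s6⟩ := certS.1 a ha
      simp only [Data.bounds, List.forall_mem_cons]
      exact ⟨a0, a1, a2, a3, a4.trans (by norm_num), a5, s0, s1, s2, s3, s4, s5, s6, b0, b3, b1, b4,
        b2, b5, by simp⟩
    exact fun p hp a ha => key a ha p hp
  resid := (certA 1 (by simp)).2.2.2.2.1
  m0 := by linarith [(abs_lt.1 certS.2.1.1).1]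
  m1 := by
    have := abs_lt.1 certS.2.1.2.1
    constructor <;> linarith [this.1, this.2]
  m2 := by
    have := abs_lt.1 certS.2.1.2.2.1
    constructor <;> linarith [this.1, this.2]
  m3 := by
    have := abs_lt.1 certS.2.1.2.2.2
    constructor <;> linarith [this.1, this.2]
  lmi1 := by
    obtain ⟨env, he, hk⟩ := lets_sound (by norm_num) steps1 semEnv_nil chkL1
    refine ⟨1 / 2 ^ 40, by norm_num, fun a ha G M J z h => ?_⟩
    have := lmi_sound (by norm_num) he hk a ha (nth 0 [M 5, M 4, z 3, z 2, z 1, G 0, J 0, J 1])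
    rw [link1 dat a G M J z h] at this
    linarith
  lmi2 := by
    obtain ⟨env, he, hk⟩ := lets_sound (by norm_num) steps2 semEnv_nil chkL2
    refine ⟨1 / 2 ^ 40, by norm_num, fun a ha G J => ?_⟩
    have := lmi_sound (by norm_num) he hk a ha (nth 0 [G 3, G 2, G 1, G 0, J 0, J 1])
    rw [link2 dat a G J] at this
    linarith

end Ck

theorem exists_cert : ∃ d : Data, d.Cert := ⟨Ck.dat, Ck.cert⟩

end Vale.Agent.P264
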