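import Vale.Agent.P264.CkL

/-! The ring operations on packed values. -/

open Set Polynomial

noncomputable section

namespace Vale.Agent.P264.Ck

variable {B : ℕ} {p q : ℝ[X]} {a b : PV}

theorem sem_bad : Sem B p bad := by
  intro h
  simp [bad] at h

theorem sem_cst (z : ℤ) : Sem B (C (z : ℝ)) (cst z) := by
  intro _
  refine ⟨C z, by simp [cst], le_of_eq (l1_C z), fun θ => ?_⟩
  simp [cst]

theorem sem_varX : Sem B X (varX B) := by
  intro _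
  refine ⟨C 1 + X ^ 1 * C 2 + X ^ 2 * C 1, ?_, ?_, fun θ => ?_⟩
  · change _ = ((1 + p2 (B + 1) + p2 (B + B) : ℕ) : ℤ)
    rw [p2_eq, p2_eq]
    simp only [eval_add, eval_mul, eval_pow, eval_X, eval_C]
    push_cast
    ring
  · have h1 := l1_add (C 1 + X ^ 1 * C 2) (X ^ 2 * C 1)
    have h2 := l1_add (C 1) (X ^ 1 * C 2)
    rw [l1_X_pow_mul, l1_C] at h1
    rw [l1_X_pow_mul, l1_C, l1_C] at h2
    change _ ≤ 4
    have e1 : (1 : ℤ).natAbs = 1 := rfl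
    have e2 : (2 : ℤ).natAbs = 2 := rfl
    omega
  · have h := cx_cw θ
    have e : ((X.eval (cx θ) : ℝ) : ℂ) * cw θ ^ (varX B).d * 2 ^ (varX B).e -
        aeval (cw θ) (C 1 + X ^ 1 * C 2 + X ^ 2 * C 1 : ℤ[X]) = 0 := by
      change _ * cw θ ^ 1 * 2 ^ 2 - _ = 0
      rw [map_add, map_add, map_mul, map_mul, aeval_C, aeval_C, aeval_X_pow, aeval_X_pow, eval_X,
        eq_intCast, eq_intCast]
      push_cast
      linear_combination h
    rw [e, norm_zero]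
    positivity

theorem CkA.scale {F A w : ℂ} {r : ℕ} (hw : ‖w‖ = 1) (h : ‖F - A‖ ≤ r) (i j : ℕ) :
    ‖w ^ i * 2 ^ j * (F - A)‖ ≤ r * 2 ^ j := by
  rw [norm_mul, norm_mul, norm_pow, norm_pow, hw, one_pow, one_mul, mul_comm]
  have e : ‖(2 : ℂ)‖ = 2 := by simp
  rw [e]
  gcongr

theorem Sem.add (ha : Sem B p a) (hb : Sem B q b) : Sem B (p + q) (add B a b) := by
  intro hok
  simp only [Ck.add, fP_eq, Bool.and_eq_true] at hok
  obtain ⟨qa, ha1, ha2, ha3⟩ := ha hok.1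
  obtain ⟨qb, hb1, hb2, hb3⟩ := hb hok.2
  simp only [Ck.add, fP_eq]
  refine ⟨X ^ (b.d - a.d) * (C (2 ^ (b.e - a.e)) * qa) +
    X ^ (a.d - b.d) * (C (2 ^ (a.e - b.e)) * qb), ?_, ?_, fun θ => ?_⟩
  · change _ = shl a.v (B * (b.d - a.d) + (b.e - a.e)) + shl b.v (B * (a.d - b.d) + (a.e - b.e))
    rw [shl_eq, shl_eq]
    simp only [eval_add, eval_mul, eval_pow, eval_X, eval_C, ha1, hb1]
    rw [pow_add, pow_add, pow_mul, pow_mul]
    ring
  · change _ ≤ Nat.shiftLeft a.n (b.e - a.e) + Nat.shiftLeft b.n (a.e - b.e)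
    rw [shiftLeft_eq, shiftLeft_eq]
    refine (l1_add _ _).trans ?_
    rw [l1_X_pow_mul, l1_X_pow_mul, l1_C_mul, l1_C_mul, Int.natAbs_pow, Int.natAbs_pow]
    have e2 : (2 : ℤ).natAbs = 2 := rfl
    rw [e2, mul_comm a.n, mul_comm b.n]
    gcongr
  · change ‖_ * cw θ ^ (a.d + (b.d - a.d)) * 2 ^ (a.e + (b.e - a.e)) - _‖ ≤
      ((Nat.shiftLeft a.r (b.e - a.e) + Nat.shiftLeft b.r (a.e - b.e) : ℕ) : ℝ)
    rw [shiftLeft_eq, shiftLeft_eq]
    have h1 := CkA.scale (norm_cw θ) (ha3 θ) (b.d - a.d) (b.e - a.e)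
    have h2 := CkA.scale (norm_cw θ) (hb3 θ) (a.d - b.d) (a.e - b.e)
    have ed : cw θ ^ (a.d + (b.d - a.d)) = cw θ ^ b.d * cw θ ^ (a.d - b.d) := by
      rw [← pow_add]; congr 1; omega
    have ee : (2 : ℂ) ^ (a.e + (b.e - a.e)) = 2 ^ b.e * 2 ^ (a.e - b.e) := by
      rw [← pow_add]; congr 1; omega
    have ed' : cw θ ^ (a.d + (b.d - a.d)) = cw θ ^ a.d * cw θ ^ (b.d - a.d) := pow_add _ _ _
    have ee' : (2 : ℂ) ^ (a.e + (b.e - a.e)) = 2 ^ a.e * 2 ^ (b.e - a.e) := pow_add _ _ _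
    push_cast
    refine le_trans (le_of_eq ?_) ((norm_add_le _ _).trans (add_le_add h1 h2))
    congr 1
    rw [eval_add, map_add, map_mul, map_mul, map_mul, map_mul, aeval_C, aeval_C, aeval_X_pow,
      aeval_X_pow, eq_intCast, eq_intCast]
    push_cast
    have k1 : ((p.eval (cx θ) : ℝ) : ℂ) * cw θ ^ (a.d + (b.d - a.d)) * 2 ^ (a.e + (b.e - a.e)) =
        cw θ ^ (b.d - a.d) * 2 ^ (b.e - a.e) * (((p.eval (cx θ) : ℝ) : ℂ) * cw θ ^ a.d * 2 ^ a.e) := by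
      rw [ed', ee']; ring
    have k2 : ((q.eval (cx θ) : ℝ) : ℂ) * cw θ ^ (a.d + (b.d - a.d)) * 2 ^ (a.e + (b.e - a.e)) =
        cw θ ^ (a.d - b.d) * 2 ^ (a.e - b.e) * (((q.eval (cx θ) : ℝ) : ℂ) * cw θ ^ b.d * 2 ^ b.e) := by
      rw [ed, ee]; ring
    linear_combination k1 + k2

theorem Sem.mul (ha : Sem B p a) (hb : Sem B q b) : Sem B (p * q) (mul a b) := by
  intro hok
  simp only [Ck.mul, fP_eq, Bool.and_eq_true] at hok
  obtain ⟨qa, ha1, ha2, ha3⟩ := ha hok.1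
  obtain ⟨qb, hb1, hb2, hb3⟩ := hb hok.2
  simp only [Ck.mul, fP_eq]
  refine ⟨qa * qb, ?_, ?_, fun θ => ?_⟩
  · change _ = a.v * b.v
    rw [eval_mul, ha1, hb1]
  · change _ ≤ a.n * b.n
    exact (l1_mul _ _).trans (Nat.mul_le_mul ha2 hb2)
  · change ‖_ * cw θ ^ (a.d + b.d) * 2 ^ (a.e + b.e) - _‖ ≤
      ((a.r * (b.n + b.r) + a.n * b.r : ℕ) : ℝ)
    have h1 := ha3 θ
    have h2 := hb3 θ
    have h3 : ‖aeval (cw θ) qa‖ ≤ a.n :=
      (norm_aeval_le qa (norm_cw θ)).trans (by exact_mod_cast ha2)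
    have h4 : ‖aeval (cw θ) qb‖ ≤ b.n :=
      (norm_aeval_le qb (norm_cw θ)).trans (by exact_mod_cast hb2)
    set Fa := ((p.eval (cx θ) : ℝ) : ℂ) * cw θ ^ a.d * 2 ^ a.e with hFa
    set Fb := ((q.eval (cx θ) : ℝ) : ℂ) * cw θ ^ b.d * 2 ^ b.e with hFb
    set Ga := aeval (cw θ) qa
    set Gb := aeval (cw θ) qb
    have e : (((p * q).eval (cx θ) : ℝ) : ℂ) * cw θ ^ (a.d + b.d) * 2 ^ (a.e + b.e) -
        aeval (cw θ) (qa * qb) = (Fa - Ga) * (Gb + (Fb - Gb)) + Ga * (Fb - Gb) := by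
      rw [map_mul, eval_mul, hFa, hFb]
      push_cast
      ring
    rw [e]
    push_cast
    refine (norm_add_le _ _).trans (add_le_add ?_ ?_)
    · rw [norm_mul]
      exact mul_le_mul h1 ((norm_add_le _ _).trans (add_le_add h4 h2)) (norm_nonneg _)
        (Nat.cast_nonneg _)
    · rw [norm_mul]
      exact mul_le_mul h3 h2 (norm_nonneg _) (Nat.cast_nonneg _)

theorem Sem.neg (ha : Sem B p a) : Sem B (-p) (neg a) := by
  intro hok
  simp only [Ck.neg, fP_eq] at hok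
  obtain ⟨qa, ha1, ha2, ha3⟩ := ha hok
  simp only [Ck.neg, fP_eq]
  refine ⟨-qa, ?_, by rwa [l1_neg], fun θ => ?_⟩
  · change _ = -a.v
    rw [eval_neg, ha1]
  · refine le_trans (le_of_eq ?_) (ha3 θ)
    rw [← norm_neg]
    congr 1
    rw [eval_neg, map_neg]
    push_cast
    ring

theorem Sem.half (s : ℕ) (ha : Sem B p a) : Sem B (C (1 / 2 ^ s) * p) (half s a) := by
  intro hok
  simp only [Ck.half, fP_eq] at hok
  obtain ⟨qa, ha1, ha2, ha3⟩ := ha hok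
  simp only [Ck.half, fP_eq]
  refine ⟨qa, ha1, ha2, fun θ => ?_⟩
  refine le_trans (le_of_eq ?_) (ha3 θ)
  change ‖_ * _ * 2 ^ (a.e + s) - _‖ = _
  congr 2
  rw [eval_mul, eval_C, pow_add]
  push_cast
  have : (2 : ℂ) ^ s ≠ 0 := pow_ne_zero _ two_ne_zero
  field_simp

theorem Sem.addErr (s : ℕ) (ha : Sem B p a)
    (h : ∀ x ∈ Icc (0 : ℝ) 1, |q.eval x - p.eval x| ≤ 1 / 2 ^ s) : Sem B q (addErr s a) := by
  intro hok
  simp only [Ck.addErr, fP_eq] at hok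
  obtain ⟨qa, ha1, ha2, ha3⟩ := ha hok
  simp only [Ck.addErr, fP_eq]
  refine ⟨qa, ha1, ha2, fun θ => ?_⟩
  change _ ≤ ((a.r + p2 (a.e - s) : ℕ) : ℝ)
  rw [p2_eq]
  push_cast
  have h1 := h _ (cx_mem θ)
  have e : ((q.eval (cx θ) : ℝ) : ℂ) * cw θ ^ a.d * 2 ^ a.e - aeval (cw θ) qa =
      (((p.eval (cx θ) : ℝ) : ℂ) * cw θ ^ a.d * 2 ^ a.e - aeval (cw θ) qa) +
        ((q.eval (cx θ) - p.eval (cx θ) : ℝ) : ℂ) * cw θ ^ a.d * 2 ^ a.e := by
    push_cast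
    ring
  rw [e]
  refine (norm_add_le _ _).trans (add_le_add (ha3 θ) ?_)
  rw [norm_mul, norm_mul, norm_pow, norm_pow, norm_cw, one_pow, mul_one, Complex.norm_real,
    Real.norm_eq_abs]
  have e2 : ‖(2 : ℂ)‖ = 2 := by simp
  rw [e2]
  have h2 : (2 : ℝ) ^ a.e ≤ 2 ^ s * 2 ^ (a.e - s) := by
    rw [← pow_add]
    exact pow_le_pow_right₀ (by norm_num) (by omega)
  have h3 : (0 : ℝ) < 2 ^ s := by positivity
  calc _ ≤ 1 / 2 ^ s * (2 ^ s * 2 ^ (a.e - s)) :=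
        mul_le_mul h1 h2 (by positivity) (by positivity)
    _ = _ := by field_simp

theorem Sem.at1 (ha : Sem B p a) : Sem B (C (p.eval 1)) (at1 B a) := by
  intro hok
  simp only [Ck.at1, fP_eq, forceZ_eq, Bool.and_eq_true] at hok
  obtain ⟨qa, ha1, ha2, ha3⟩ := ha hok.1
  have hn : a.n + a.n + 2 ≤ 2 ^ B := by
    have := Nat.le_of_ble_eq_true hok.2
    rwa [p2_eq] at this
  have h1 := (natAbs_eval_one_le qa).trans ha2
  have hs : (a.v + (a.n : ℤ)) % ((p2 B - 1 : ℕ) : ℤ) - a.n = qa.eval 1 := by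
    have hB : 1 ≤ 2 ^ B := Nat.one_le_two_pow
    have hz : (a.n : ℤ) + a.n + 2 ≤ 2 ^ B := by exact_mod_cast hn
    rw [p2_eq]
    push_cast [hB]
    obtain ⟨c, hc⟩ := Polynomial.sub_dvd_eval_sub ((2 : ℤ) ^ B) 1 qa
    have e : a.v + a.n = (qa.eval 1 + a.n) + (2 ^ B - 1) * c := by
      rw [← ha1, ← hc]; ring
    rw [e, Int.add_mul_emod_self_left, Int.emod_eq_of_lt (by omega) (by omega)]
    ring
  simp only [Ck.at1, fP_eq, forceZ_eq]
  refine ⟨C (qa.eval 1), ?_, ?_, fun θ => ?_⟩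
  · rw [eval_C]
    exact hs.symm
  · rw [l1_C]
    exact le_of_eq (congrArg Int.natAbs hs.symm)
  · have h0 := ha3 0
    have e1 : cx 0 = 1 := by simp [cx]
    have e2 : cw 0 = 1 := by simp [cw]
    have e3 : aeval (1 : ℂ) qa = ((qa.eval 1 : ℤ) : ℂ) := by
      have := Polynomial.aeval_algebraMap_apply_eq_algebraMap_eval (A := ℂ) (1 : ℤ) qa
      simpa using this
    rw [e1, e2, e3, one_pow] at h0
    rw [eval_C, aeval_C, pow_zero]
    exact h0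

theorem Sem.below (ha : Sem B p a) {m n : ℕ} (h : below a m n = true) :
    ∀ x ∈ Icc (0 : ℝ) 1, |p.eval x| * n < m := by
  intro x hx
  simp only [Ck.below, fP_eq, Bool.and_eq_true] at h
  obtain ⟨qa, -, ha2, ha3⟩ := ha h.1
  have h1 : (a.n + a.r) * n + 1 ≤ m * 2 ^ a.e := by
    have := Nat.le_of_ble_eq_true h.2
    rwa [shiftLeft_eq] at this
  obtain ⟨θ, rfl⟩ := exists_cx hx
  have h3 : ‖aeval (cw θ) qa‖ ≤ a.n :=
    (norm_aeval_le qa (norm_cw θ)).trans (by exact_mod_cast ha2)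
  have h4 : ‖((p.eval (cx θ) : ℝ) : ℂ) * cw θ ^ a.d * 2 ^ a.e‖ ≤ a.n + a.r := by
    have := norm_le_norm_add_norm_sub' (((p.eval (cx θ) : ℝ) : ℂ) * cw θ ^ a.d * 2 ^ a.e)
      (aeval (cw θ) qa)
    linarith [ha3 θ]
  have e2 : ‖(2 : ℂ)‖ = 2 := by simp
  rw [norm_mul, norm_mul, norm_pow, norm_pow, norm_cw, one_pow, mul_one, Complex.norm_real,
    Real.norm_eq_abs, e2] at h4
  have h5 : ((a.n : ℝ) + a.r) * n + 1 ≤ m * 2 ^ a.e := by exact_mod_cast h1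
  have h6 : (0 : ℝ) < 2 ^ a.e := by positivity
  have h7 := mul_le_mul_of_nonneg_right h4 (Nat.cast_nonneg (α := ℝ) n)
  refine lt_of_mul_lt_mul_right ?_ h6.le
  linarith

end Vale.Agent.P264.Ck
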