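import Vale.Agent.P264.CkD

/-! The operations that read the digits. -/

open Set Polynomial

noncomputable section

namespace Vale.Agent.P264.Ck

variable {B : ℕ} {p : ℝ[X]} {a : PV}

theorem CkB.bad : Sem B p bad := fun h => absurd h Bool.false_ne_true

theorem CkB.l1 (b k N : ℕ) : l1 (dig b (2 ^ (b - 1)) k N) ≤ l1P b (p2 (Nat.sub b 1)) k N := by
  have := l1_dig b (2 ^ (b - 1)) k N
  rw [Nat.cast_pow, Nat.cast_ofNat] at this
  rw [p2_eq]
  exact this

theorem CkB.l1R (b k N : ℕ) : Ck.l1 (digR b (2 ^ (b - 1)) k N) ≤ l1P b (p2 (Nat.sub b 1)) k N := by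
  have := l1_digR b (2 ^ (b - 1)) k N
  rw [Nat.cast_pow, Nat.cast_ofNat] at this
  rw [p2_eq]
  exact this

theorem Sem.tight (hB : 0 < B) (ha : Sem B p a) : Sem B p (tight B a) := by
  unfold Ck.tight
  rw [fP_eq, force_eq]
  rcases dec_cases B (lev a.d) a.v _ with h | ⟨N, hN, h0, h⟩
  · rw [h]; exact CkB.bad
  · rw [h]
    intro hok
    obtain ⟨h1, h2⟩ := Bool.and_eq_true_iff.1 hok
    obtain ⟨q, e1, e2, e3⟩ := ha h1
    have h3 : a.n < 2 ^ (B - 1) := by
      have := Nat.ble_eq.mp h2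
      rwa [p2_eq] at this
    refine ⟨q, e1, ?_, e3⟩
    rw [eq_dig hB (e2.trans_lt h3) (by rw [e1]; exact hN) h0]
    exact CkB.l1 B _ N

theorem sem_seg (b k o N : ℕ) : Sem B (segP b k o N) (seg B b k o N) := by
  unfold seg
  rw [force_eq]
  intro _
  have hd : Nat.sub (Nat.add o (p2 k)) 1 = o + (2 ^ k - 1) := by
    have : 1 ≤ 2 ^ k := Nat.one_le_two_pow
    rw [p2_eq, Nat.add_eq, Nat.sub_eq]
    omega
  rw [hd]
  refine ⟨X ^ (o + (2 ^ k - 1) + o) * dig b (2 ^ (b - 1)) k N + digR b (2 ^ (b - 1)) k N, ?_, ?_,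
    fun θ => ?_⟩
  · show _ = shl _ (B * (o + (2 ^ k - 1) + o)) + _
    rw [eval_add, eval_mul, eval_pow, eval_X, eval_dig, eval_digR, shl_eq, Int.subNatNat_eq_coe,
      Int.subNatNat_eq_coe, shiftLeft_eq, Nat.sub_eq, pow_mul]
    push_cast
    ring
  · show _ ≤ 2 * _
    have h1 := CkB.l1 b k N
    have h2 := CkB.l1R b k N
    have h3 := l1_add (X ^ (o + (2 ^ k - 1) + o) * dig b (2 ^ (b - 1)) k N)
      (digR b (2 ^ (b - 1)) k N)
    rw [l1_X_pow_mul] at h3
    omega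
  · show ‖_ * cw θ ^ (o + (2 ^ k - 1)) * 2 ^ 0 - _‖ ≤ ((0 : ℕ) : ℝ)
    rw [Nat.cast_zero, norm_le_zero_iff, eval_segP, map_add, map_mul, map_pow, aeval_X,
      aeval_digR _ _ _ _ (cw_ne θ)]
    have h : (cw θ)⁻¹ ^ o * cw θ ^ o = 1 := by rw [← mul_pow, inv_mul_cancel₀ (cw_ne θ), one_pow]
    linear_combination (aeval (cw θ)⁻¹ (dig b (2 ^ (b - 1)) k N) * cw θ ^ (2 ^ k - 1)) * h

/-- the derivative in the angle -/
theorem deriv_identity {q : ℤ[X]} {d e : ℕ}
    (h : ∀ θ : ℝ, ((p.eval (cx θ) : ℝ) : ℂ) * cw θ ^ d * 2 ^ e = aeval (cw θ) q) (θ : ℝ) :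
    (((derivative p).eval (cx θ) : ℝ) : ℂ) * cw θ ^ d * 2 ^ e * (cw θ ^ 2 - 1) =
      4 * cw θ * aeval (cw θ) (X * derivative q - C (d : ℤ) * q) := by
  have hW : HasDerivAt (fun z : ℂ => Complex.exp (z * Complex.I)) (cw θ * Complex.I) (θ : ℂ) := by
    simpa [cw] using ((hasDerivAt_id (θ : ℂ)).mul_const Complex.I).cexp
  have hw : HasDerivAt cw (cw θ * Complex.I) θ := hW.comp_ofReal
  have hx : HasDerivAt cx (-Real.sin θ / 2) θ :=
    ((Real.hasDerivAt_cos θ).const_add 1).div_const 2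
  have h1 : HasDerivAt (fun θ : ℝ => ((p.eval (cx θ) : ℝ) : ℂ))
      (((derivative p).eval (cx θ) * (-Real.sin θ / 2) : ℝ) : ℂ) θ :=
    ((p.hasDerivAt (cx θ)).comp θ hx).ofReal_comp
  have h2 := (h1.mul (hw.pow d)).mul_const ((2 : ℂ) ^ e)
  have h3 : HasDerivAt (fun θ : ℝ => aeval (cw θ) q)
      (aeval (cw θ) (derivative q) * (cw θ * Complex.I)) θ :=
    (HasDerivAt.comp (h₂ := fun z : ℂ => aeval z q) (θ : ℂ)
      (q.hasDerivAt_aeval (Complex.exp (θ * Complex.I))) hW).comp_ofReal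
  have h4 := (h2.congr_of_eventuallyEq (f₁ := fun θ : ℝ => aeval (cw θ) q)
    (Filter.Eventually.of_forall fun θ => (h θ).symm)).unique h3
  have h5 : ((Real.sin θ : ℝ) : ℂ) * 2 * cw θ = (1 - cw θ ^ 2) * Complex.I := by
    have k : Complex.exp (-(θ : ℂ) * Complex.I) * cw θ = 1 := by
      rw [cw, ← Complex.exp_add, neg_mul, neg_add_cancel, Complex.exp_zero]
    rw [Complex.ofReal_sin, Complex.sin]
    change (Complex.exp (-(θ : ℂ) * Complex.I) - cw θ) * Complex.I / 2 * 2 * cw θ = _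
    linear_combination Complex.I * k
  have h6 : (d : ℂ) * cw θ ^ (d - 1) * cw θ = d * cw θ ^ d := by
    cases d with
    | zero => simp
    | succ d => rw [Nat.add_sub_cancel, pow_succ, mul_assoc]
  have h7 := h θ
  simp only [Pi.pow_apply] at h4
  push_cast at h4 h5
  rw [map_sub, map_mul, map_mul, aeval_X, aeval_C, eq_intCast, Int.cast_natCast]
  refine mul_right_cancel₀ Complex.I_ne_zero ?_
  linear_combination (4 * cw θ) * h4 +
    (((derivative p).eval (cx θ) : ℝ) : ℂ) * cw θ ^ d * 2 ^ e * h5 -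
    4 * cw θ * Complex.I * ((p.eval (cx θ) : ℝ) : ℂ) * 2 ^ e * h6 - 4 * cw θ * d * Complex.I * h7

theorem CkB.cancel {f g : ℝ → ℂ} (hf : Continuous f) (hg : Continuous g)
    (h : ∀ θ, f θ * (cw θ ^ 2 - 1) = g θ * (cw θ ^ 2 - 1)) : f = g := by
  refine Continuous.ext_on
    ((Set.countable_range fun n : ℤ => (n : ℝ) * Real.pi).dense_compl ℝ) hf hg fun θ hθ => ?_
  refine mul_right_cancel₀ (fun k => hθ ?_) (h θ)
  rw [sub_eq_zero, cw, ← Complex.exp_nat_mul, Complex.exp_eq_one_iff] at k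
  obtain ⟨n, hn⟩ := k
  refine ⟨n, Complex.ofReal_injective (mul_right_cancel₀ Complex.I_ne_zero ?_)⟩
  push_cast at hn ⊢
  linear_combination (-1 / 2 : ℂ) * hn

theorem Sem.dx (hB : 0 < B) (ha : Sem B p a) : Sem B (derivative p) (dx B a) := by
  unfold Ck.dx
  rw [fP_eq, force_eq]
  generalize lev a.d = k
  rcases dec_cases B k a.v _ with h | ⟨N, hN, h0, h⟩
  · rw [h]; exact CkB.bad
  rw [h, forceZ_eq, forceZ_eq]
  generalize ht : shl _ (Nat.add B 2) = t
  generalize Int.tdiv t _ = g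
  rcases dec_cases B k g _ with h | ⟨M, hM, hM0, h⟩
  · rw [h]; exact CkB.bad
  rw [h, force_eq]
  intro hok
  obtain ⟨h1, h2⟩ := Bool.and_eq_true_iff.1 hok
  obtain ⟨h1, h3⟩ := Bool.and_eq_true_iff.1 h1
  obtain ⟨h1, h4⟩ := Bool.and_eq_true_iff.1 h1
  obtain ⟨h2, h5⟩ := Bool.and_eq_true_iff.1 h2
  obtain ⟨q, e1, e2, e3⟩ := ha h1
  have h4' : a.n < 2 ^ (B - 1) := by
    have := Nat.ble_eq.mp h4
    rwa [p2_eq] at this
  have hq := eq_dig hB (e2.trans_lt h4') (by rw [e1]; exact hN) h0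
  have e4 : ∀ θ : ℝ, ((p.eval (cx θ) : ℝ) : ℂ) * cw θ ^ a.d * 2 ^ a.e = aeval (cw θ) q := by
    intro θ
    have := e3 θ
    rwa [Nat.beq_eq.mp h3, Nat.cast_zero, norm_le_zero_iff, sub_eq_zero] at this
  have hg : (dig B (2 ^ (B - 1)) k M).eval (2 ^ B) = g := by
    rw [eval_dig, fwd_self, hM, add_sub_cancel_right]
  have hm := CkB.l1 B k M
  generalize dig B (2 ^ (B - 1)) k M = G at hg hm
  generalize l1P B (p2 (Nat.sub B 1)) k M = m at hm h5 ⊢
  have h5' : 2 * m + 4 * (a.n * (2 ^ k + a.d)) < 2 ^ B := by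
    have := Nat.ble_eq.mp h5
    rwa [p2_eq, p2_eq] at this
  have h2' : t = g * ((2 ^ B) ^ 2 - 1) := by
    have h6 : t - g * ((p2 (B + B) - 1 : ℕ) : ℤ) = 0 := Int.natAbs_eq_zero.1 (Nat.beq_eq.mp h2)
    rw [p2_eq, Nat.cast_sub Nat.one_le_two_pow] at h6
    push_cast at h6
    linear_combination h6
  have ht' : t = 4 * 2 ^ B * ((X * derivative q).eval (2 ^ B) - a.d * q.eval (2 ^ B)) := by
    rw [e1, hq, eval_X_mul_derivative_dig, ← ht, shl_eq, Int.subNatNat_eq_coe, shiftLeft_eq]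
    show (_ - (a.d : ℤ) * a.v) * 2 ^ (B + 2) = _
    rw [Nat.sub_eq]
    push_cast
    ring
  have key : X ^ 2 * G - G = C 4 * (X ^ 1 * (X * derivative q - C (a.d : ℤ) * q)) := by
    refine eq_of_eval_eq (R := 2 ^ B) (fun i => ?_) ?_
    · have k1 := (natAbs_coeff_le _ i).trans (l1_sub (X ^ 2 * G) G)
      have k2 := natAbs_coeff_le (C 4 * (X ^ 1 * (X * derivative q - C (a.d : ℤ) * q))) i
      have k3 := l1_sub (X * derivative q) (C (a.d : ℤ) * q)
      have k4 := l1_X_mul_derivative q (N := 2 ^ k) (by rw [hq]; exact (natDegree_dig _ _ _ _).le)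
      rw [l1_X_pow_mul] at k1
      rw [l1_C_mul, l1_X_pow_mul] at k2
      rw [l1_C_mul, Int.natAbs_natCast] at k3
      have k5 : 2 ^ k * l1 q + a.d * l1 q ≤ a.n * (2 ^ k + a.d) := by
        rw [← add_mul, mul_comm]
        exact Nat.mul_le_mul_right _ e2
      have k6 : ((X ^ 2 * G - G).coeff i -
          (C 4 * (X ^ 1 * (X * derivative q - C (a.d : ℤ) * q))).coeff i).natAbs < 2 ^ B := by
        refine (Int.natAbs_sub_le _ _).trans_lt ?_
        have : (4 : ℤ).natAbs = 4 := rfl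
        rw [this] at k2
        omega
      rw [← Int.natCast_natAbs]
      exact_mod_cast k6
    · rw [eval_sub, eval_mul, eval_mul, eval_mul, eval_sub, eval_C_mul, eval_pow, eval_pow, eval_X,
        eval_C, hg]
      linear_combination ht' - h2'
  refine ⟨G, hg, hm, fun θ => ?_⟩
  have hw : Continuous cw := by unfold cw; fun_prop
  have hx : Continuous cx := by unfold cx; fun_prop
  have e5 := CkB.cancel
    (f := fun θ => (((derivative p).eval (cx θ) : ℝ) : ℂ) * cw θ ^ a.d * 2 ^ a.e)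
    (g := fun θ => aeval (cw θ) G)
    (((Complex.continuous_ofReal.comp ((derivative p).continuous.comp hx)).mul (hw.pow _)).mul
      continuous_const) (G.continuous_aeval.comp hw) fun θ => by
      have k := congrArg (aeval (cw θ)) key
      rw [map_sub, map_mul, map_mul, map_mul, map_pow, map_pow, aeval_X, aeval_C, eq_intCast] at k
      push_cast at k
      rw [deriv_identity e4]
      linear_combination -k
  show ‖_ * cw θ ^ a.d * 2 ^ a.e - _‖ ≤ ((0 : ℕ) : ℝ)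
  rw [Nat.cast_zero, norm_le_zero_iff, sub_eq_zero]
  exact congrFun e5 θ

end Vale.Agent.P264.Ck
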