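/-! A small evaluator for Laurent polynomials with integer coefficients, packed into one integer.
Everything here is plain computation; the meaning is given in `CkS`. -/

namespace Vale.Agent.P264.Ck

/-- evaluate a number before continuing -/
noncomputable def force {α : Type} (n : Nat) (f : Nat → α) : α :=
  Nat.rec (f 0) (fun k _ => f (Nat.succ k)) n

/-- evaluate an integer before continuing -/
noncomputable def forceZ {α : Type} (z : Int) (f : Int → α) : α :=
  Int.rec (fun n => force n fun n => f (Int.ofNat n)) (fun n => force n fun n => f (Int.negSucc n)) z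

/-- packed values -/
structure PV where
  /-- the centre -/
  d : Nat
  /-- the binary exponent -/
  e : Nat
  /-- the packed coefficients -/
  v : Int
  /-- bound for the sum of the absolute values of the coefficients -/
  n : Nat
  /-- bound for the error -/
  r : Nat
  /-- validity -/
  ok : Bool

/-- evaluate a packed value before continuing -/
noncomputable def fP {α : Type} (a : PV) (f : PV → α) : α :=
  PV.rec (fun d e v n r ok => force d fun d => force e fun e => forceZ v fun v => force n fun n =>
    force r fun r => Bool.rec (f ⟨d, e, v, n, r, false⟩) (f ⟨d, e, v, n, r, true⟩) ok) a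

/-- `2 ^ s` -/
noncomputable def p2 (s : Nat) : Nat := Nat.shiftLeft 1 s

/-- `z * 2 ^ s` -/
noncomputable def shl (z : Int) (s : Nat) : Int :=
  Int.rec (fun n => Int.ofNat (Nat.shiftLeft n s))
    (fun n => Int.negSucc (Nat.sub (Nat.shiftLeft (Nat.succ n) s) 1)) z

/-- low half -/
noncomputable def lo (b k N : Nat) : Nat := Nat.land N (Nat.sub (p2 (Nat.shiftLeft b k)) 1)

/-- high half -/
noncomputable def hi (b k N : Nat) : Nat := Nat.shiftRight N (Nat.shiftLeft b k)

/-- sum of the distances of the digits from `H` -/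
noncomputable def l1P (b H k : Nat) : Nat → Nat :=
  Nat.rec (fun N => Bool.rec (Nat.sub N H) (Nat.sub H N) (Nat.ble N H))
    (fun k ih N => Nat.add (ih (lo b k N)) (ih (hi b k N))) k

/-- the digits, each multiplied by its position -/
noncomputable def wtP (b k : Nat) : Nat → Nat :=
  Nat.rec (fun _ => 0)
    (fun k ih N => Nat.add (ih (lo b k N))
      (Nat.shiftLeft (Nat.add (ih (hi b k N)) (Nat.shiftLeft (hi b k N) k)) (Nat.shiftLeft b k))) k

/-- change of base -/
noncomputable def fwd (B b k : Nat) : Nat → Nat :=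
  Nat.rec (fun N => N)
    (fun k ih N => Nat.add (ih (lo b k N)) (Nat.shiftLeft (ih (hi b k N)) (Nat.shiftLeft B k))) k

/-- change of base, reversing the digits -/
noncomputable def rev (B b k : Nat) : Nat → Nat :=
  Nat.rec (fun N => N)
    (fun k ih N => Nat.add (Nat.shiftLeft (ih (lo b k N)) (Nat.shiftLeft B k)) (ih (hi b k N))) k

/-- all digits equal to one -/
noncomputable def ones (B k : Nat) : Nat :=
  Nat.rec 1 (fun k o => force o fun o => Nat.add o (Nat.shiftLeft o (Nat.shiftLeft B k))) k

/-- each digit equal to its position -/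
noncomputable def ramp (B k : Nat) : Nat :=
  Nat.rec 0 (fun k s => force s fun s => Nat.add s
    (Nat.shiftLeft (Nat.add s (Nat.shiftLeft (ones B k) k)) (Nat.shiftLeft B k))) k

/-- the invalid value -/
def bad : PV := ⟨0, 0, Int.ofNat 0, 0, 0, false⟩

/-- constants -/
def cst (z : Int) : PV := ⟨0, 0, z, Int.natAbs z, 0, true⟩

/-- the variable -/
noncomputable def varX (B : Nat) : PV :=
  ⟨1, 2, Int.ofNat (Nat.add (Nat.add 1 (p2 (Nat.succ B))) (p2 (Nat.add B B))), 4, 0, true⟩

/-- sum -/
noncomputable def add (B : Nat) (a b : PV) : PV :=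
  fP a fun a => fP b fun b =>
    ⟨Nat.add a.d (Nat.sub b.d a.d), Nat.add a.e (Nat.sub b.e a.e),
      Int.add (shl a.v (Nat.add (Nat.mul B (Nat.sub b.d a.d)) (Nat.sub b.e a.e)))
        (shl b.v (Nat.add (Nat.mul B (Nat.sub a.d b.d)) (Nat.sub a.e b.e))),
      Nat.add (Nat.shiftLeft a.n (Nat.sub b.e a.e)) (Nat.shiftLeft b.n (Nat.sub a.e b.e)),
      Nat.add (Nat.shiftLeft a.r (Nat.sub b.e a.e)) (Nat.shiftLeft b.r (Nat.sub a.e b.e)),
      and a.ok b.ok⟩

/-- product -/
noncomputable def mul (a b : PV) : PV :=
  fP a fun a => fP b fun b =>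
    ⟨Nat.add a.d b.d, Nat.add a.e b.e, Int.mul a.v b.v, Nat.mul a.n b.n,
      Nat.add (Nat.mul a.r (Nat.add b.n b.r)) (Nat.mul a.n b.r), and a.ok b.ok⟩

/-- negative -/
noncomputable def neg (a : PV) : PV := fP a fun a => ⟨a.d, a.e, Int.neg a.v, a.n, a.r, a.ok⟩

/-- division by `2 ^ s` -/
noncomputable def half (s : Nat) (a : PV) : PV :=
  fP a fun a => ⟨a.d, Nat.add a.e s, a.v, a.n, a.r, a.ok⟩

/-- allow an extra error `1 / 2 ^ s` -/
noncomputable def addErr (s : Nat) (a : PV) : PV :=
  fP a fun a => ⟨a.d, a.e, a.v, a.n, Nat.add a.r (p2 (Nat.sub a.e s)), a.ok⟩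

/-- number of halvings -/
noncomputable def lev (d : Nat) : Nat := Nat.succ (Nat.log2 (Nat.add d d))

/-- a number together with a checksum that is ignored -/
def tag (_ N : Nat) : Nat := N

/-- shift the digits to be nonnegative and continue when they fit -/
noncomputable def dec (B k : Nat) (v : Int) (f : Nat → PV) : PV :=
  Int.rec (fun N => force N fun N => force (Nat.mod N 4294967291) fun s =>
      Nat.rec (f (tag s N)) (fun _ _ => bad) (hi B k N)) (fun _ => bad)
    (Int.add v (Int.ofNat (Nat.shiftLeft (ones B k) (Nat.sub B 1))))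

/-- recompute the bound on the coefficients -/
noncomputable def tight (B : Nat) (a : PV) : PV :=
  fP a fun a => force (lev a.d) fun k => dec B k a.v fun N =>
    ⟨a.d, a.e, a.v, l1P B (p2 (Nat.sub B 1)) k N, a.r,
      and a.ok (Nat.ble (Nat.succ a.n) (p2 (Nat.sub B 1)))⟩

/-- derivative -/
noncomputable def dx (B : Nat) (a : PV) : PV :=
  fP a fun a => force (lev a.d) fun k => dec B k a.v fun N =>
    forceZ (shl (Int.sub (Int.subNatNat (wtP B k N) (Nat.shiftLeft (ramp B k) (Nat.sub B 1)))
      (Int.mul (Int.ofNat a.d) a.v)) (Nat.add B 2)) fun t =>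
    forceZ (Int.tdiv t (Int.ofNat (Nat.sub (p2 (Nat.add B B)) 1))) fun g => dec B k g fun M =>
    force (l1P B (p2 (Nat.sub B 1)) k M) fun m =>
      ⟨a.d, a.e, g, m, 0,
        and (and (and a.ok (Nat.ble (Nat.succ a.n) (p2 (Nat.sub B 1)))) (Nat.beq a.r 0))
          (and (Nat.beq (Int.natAbs (Int.sub t (Int.mul g (Int.ofNat (Nat.sub (p2 (Nat.add B B)) 1))))) 0)
            (Nat.ble (Nat.succ (Nat.add (Nat.mul 2 m) (Nat.mul 4 (Nat.mul a.n (Nat.add (p2 k) a.d)))))
              (p2 B)))⟩

/-- value at `1` -/
noncomputable def at1 (B : Nat) (a : PV) : PV :=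
  fP a fun a =>
    forceZ (Int.sub (Int.emod (Int.add a.v (Int.ofNat a.n)) (Int.ofNat (Nat.sub (p2 B) 1)))
      (Int.ofNat a.n)) fun s =>
      ⟨0, a.e, s, Int.natAbs s, a.r,
        and a.ok (Nat.ble (Nat.add (Nat.add a.n a.n) 2) (p2 B))⟩

/-- a block of `2 ^ k` Chebyshev coefficients starting at index `o`, stored in base `2 ^ b` -/
noncomputable def seg (B b k o N : Nat) : PV :=
  force (Nat.shiftLeft (ones B k) (Nat.sub b 1)) fun off =>
    ⟨Nat.sub (Nat.add o (p2 k)) 1, 0,
      Int.add (shl (Int.subNatNat (fwd B b k N) off)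
        (Nat.mul B (Nat.add (Nat.sub (Nat.add o (p2 k)) 1) o))) (Int.subNatNat (rev B b k N) off),
      Nat.mul 2 (l1P b (p2 (Nat.sub b 1)) k N), 0, true⟩

/-- expressions -/
inductive E where
  | v : Nat → E
  | c : Int → E
  | x : E
  | add : E → E → E
  | mul : E → E → E
  | neg : E → E
  | half : Nat → E → E
  | dx : E → E
  | tight : E → E
  | at1 : E → E
  | seg : Nat → Nat → Nat → Nat → E

/-- list access -/
noncomputable def nth {α : Type} (z : α) (l : List α) : Nat → α :=
  List.rec (fun _ => z) (fun a _ ih i => Nat.rec a (fun i _ => ih i) i) l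

/-- evaluation -/
noncomputable def eval (B : Nat) (env : List PV) (e : E) : PV :=
  E.rec (fun i => nth bad env i) (fun z => cst z) (varX B) (fun _ _ a b => add B a b)
    (fun _ _ a b => mul a b) (fun _ a => neg a) (fun s _ a => half s a) (fun _ a => dx B a)
    (fun _ a => tight B a) (fun _ a => at1 B a) (fun b k o N => seg B b k o N) e

/-- one step: exact for `s = 0`, with error `1 / 2 ^ (s - 1)` otherwise -/
noncomputable def step (B : Nat) (env : List PV) (e : E) (s : Nat) : PV :=
  Nat.rec (eval B env e) (fun s _ => addErr s (eval B env e)) s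

/-- push the values of a list of expressions, one after the other -/
noncomputable def lets (B : Nat) (es : List (E × Nat)) : List PV → (List PV → Bool) → Bool :=
  List.rec (fun env k => k env)
    (fun p _ ih env k => fP (step B env p.1 p.2) fun a => ih (a :: env) k) es

/-- the value is below `p / q` in absolute value -/
noncomputable def below (a : PV) (p q : Nat) : Bool :=
  fP a fun a => and a.ok (Nat.ble (Nat.succ (Nat.mul (Nat.add a.n a.r) q)) (Nat.shiftLeft p a.e))

/-- a list of bounds -/
noncomputable def bnds (B : Nat) (env : List PV) (l : List (E × Nat × Nat)) : Bool :=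
  List.rec true (fun p _ ih => and (below (tight B (eval B env p.1)) p.2.1 p.2.2) ih) l

/-- all indices below `n` -/
noncomputable def allTo (n : Nat) (f : Nat → Bool) : Bool :=
  Nat.rec true (fun i ih => and ih (f i)) n

/-- sum over the indices up to `n` -/
noncomputable def sumP (B n : Nat) (f : Nat → PV) : PV :=
  Nat.rec (f 0) (fun i ih => add B ih (f (Nat.succ i))) n

/-- sum over the indices below `n` -/
noncomputable def sumN (n : Nat) (f : Nat → Nat) : Nat :=
  Nat.rec 0 (fun i ih => Nat.add ih (f i)) n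

/-- store `g (n - 1), ..., g 0` -/
noncomputable def memo (g : Nat → PV) (n : Nat) : (List PV → Bool) → Bool :=
  Nat.rec (fun k => k []) (fun i ih k => ih fun l => fP (g i) fun a => k (a :: l)) n

/-- store the lower triangle of a table -/
noncomputable def memo2 (n : Nat) (f : Nat → Nat → PV) (k : (Nat → Nat → PV) → Bool) : Bool :=
  memo (fun m => force (Nat.div m n) fun i => force (Nat.mod m n) fun j =>
      Bool.rec bad (f i j) (Nat.ble j i)) (Nat.mul n n)
    fun l => k fun i j => nth bad l (Nat.sub (Nat.mul n n) (Nat.succ (Nat.add (Nat.mul i n) j)))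

/-- the symmetric extension of a lower triangle -/
noncomputable def sy {α : Type} (f : Nat → Nat → α) (i j : Nat) : α :=
  Bool.rec (f j i) (f i j) (Nat.ble j i)

/-- table access -/
noncomputable def nth2 {α : Type} (z : α) (T : List (List α)) (i j : Nat) : α :=
  nth z (nth [] T i) j

/-- `U A Uᵀ` is close to the identity -/
noncomputable def lmi (B n : Nat) (env : List PV) (A U : List (List E)) (ρ : List (List Nat))
    (w : List Nat) (sc : Nat) : Bool :=
  memo2 n (fun i j => eval B env (nth2 (E.c (Int.ofNat 0)) A i j)) fun a =>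
  memo2 n (fun i j => eval B env (nth2 (E.c (Int.ofNat 0)) U i j)) fun u =>
  memo2 n (fun i l => sumP B i fun k => mul (u i k) (sy a k l)) fun ua =>
    and (allTo n fun i => allTo (Nat.succ i) fun j =>
        below (tight B (add B (sumP B j fun l => mul (ua i l) (u j l))
          (cst (Bool.rec (Int.ofNat 0) (Int.negSucc 0) (Nat.beq i j))))) (nth2 0 ρ i j) sc)
      (allTo n fun i => Nat.ble (Nat.succ (sumN n fun j => Nat.mul (sy (nth2 0 ρ) i j) (nth 0 w j)))
        (Nat.mul sc (nth 0 w i)))

end Vale.Agent.P264.Ck
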