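import Vale.Agent.P264.CkL

/-! Digits. -/

open Set Polynomial

noncomputable section

namespace Vale.Agent.P264.Ck

theorem CkD.l1P_zero (b H N : ℕ) : l1P b H 0 N = ((N : ℤ) - H).natAbs := by
  change (Bool.rec (N - H) (H - N) (Nat.ble N H) : ℕ) = _
  by_cases h : N ≤ H
  · rw [Nat.ble_eq.mpr h]
    change H - N = _
    omega
  · rw [Bool.eq_false_iff.2 fun h' => h (Nat.ble_eq.mp h')]
    change N - H = _
    omega

theorem CkD.l1P_succ (b H k N : ℕ) :
    l1P b H (k + 1) N = l1P b H k (lo b k N) + l1P b H k (hi b k N) := rfl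

theorem CkD.fwd_succ (B b k N : ℕ) :
    fwd B b (k + 1) N = fwd B b k (lo b k N) + fwd B b k (hi b k N) * 2 ^ (B * 2 ^ k) := by
  rw [← shiftLeft_eq B k, ← shiftLeft_eq]; rfl

theorem CkD.rev_succ (B b k N : ℕ) :
    rev B b (k + 1) N = rev B b k (lo b k N) * 2 ^ (B * 2 ^ k) + rev B b k (hi b k N) := by
  rw [← shiftLeft_eq B k, ← shiftLeft_eq]; rfl

theorem CkD.ones_succ (B k : ℕ) : ones B (k + 1) = ones B k + ones B k * 2 ^ (B * 2 ^ k) := by
  rw [← shiftLeft_eq B k, ← shiftLeft_eq]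
  exact force_eq (ones B k) fun o => Nat.add o (Nat.shiftLeft o (Nat.shiftLeft B k))

theorem CkD.ramp_succ (B k : ℕ) :
    ramp B (k + 1) = ramp B k + (ramp B k + ones B k * 2 ^ k) * 2 ^ (B * 2 ^ k) := by
  rw [← shiftLeft_eq B k, ← shiftLeft_eq, ← shiftLeft_eq]
  exact force_eq (ramp B k) fun s => Nat.add s
    (Nat.shiftLeft (Nat.add s (Nat.shiftLeft (ones B k) k)) (Nat.shiftLeft B k))

theorem CkD.wtP_succ (b k N : ℕ) : wtP b (k + 1) N =
    wtP b k (lo b k N) + (wtP b k (hi b k N) + hi b k N * 2 ^ k) * 2 ^ (b * 2 ^ k) := by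
  rw [← shiftLeft_eq b k, ← shiftLeft_eq, ← shiftLeft_eq]; rfl

theorem l1_dig (b H k N : ℕ) : l1 (dig b H k N) ≤ l1P b H k N := by
  induction k generalizing N with
  | zero => rw [dig, l1_C, CkD.l1P_zero]
  | succ k ih =>
    rw [dig, CkD.l1P_succ]
    refine (l1_add _ _).trans ?_
    rw [l1_X_pow_mul]
    exact add_le_add (ih _) (ih _)

theorem l1_digR (b H k N : ℕ) : l1 (digR b H k N) ≤ l1P b H k N := by
  induction k generalizing N with
  | zero => rw [digR, l1_C, CkD.l1P_zero]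
  | succ k ih =>
    rw [digR, CkD.l1P_succ]
    refine (l1_add _ _).trans ?_
    rw [l1_X_pow_mul]
    exact add_le_add (ih _) (ih _)

theorem eval_dig (B b : ℕ) (H : ℤ) (k N : ℕ) :
    (dig b H k N).eval (2 ^ B) = fwd B b k N - H * ones B k := by
  induction k generalizing N with
  | zero =>
    rw [dig, eval_C]
    change _ = ((N : ℕ) : ℤ) - H * ((1 : ℕ) : ℤ)
    simp
  | succ k ih =>
    rw [dig, eval_add, eval_mul, eval_pow, eval_X, ih, ih, CkD.fwd_succ, CkD.ones_succ, ← pow_mul]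
    push_cast
    ring

theorem eval_digR (B b : ℕ) (H : ℤ) (k N : ℕ) :
    (digR b H k N).eval (2 ^ B) = rev B b k N - H * ones B k := by
  induction k generalizing N with
  | zero =>
    rw [digR, eval_C]
    change _ = ((N : ℕ) : ℤ) - H * ((1 : ℕ) : ℤ)
    simp
  | succ k ih =>
    rw [digR, eval_add, eval_mul, eval_pow, eval_X, ih, ih, CkD.rev_succ, CkD.ones_succ, ← pow_mul]
    push_cast
    ring

theorem fwd_self (b k N : ℕ) : fwd b b k N = N := by
  induction k generalizing N with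
  | zero => rfl
  | succ k ih =>
    rw [CkD.fwd_succ, ih, ih, lo_eq, hi_eq, mul_comm (N / _)]
    exact Nat.mod_add_div _ _

theorem eval_X_mul_derivative_dig (b : ℕ) (H : ℤ) (k N : ℕ) :
    (X * derivative (dig b H k N)).eval (2 ^ b) = wtP b k N - H * ramp b k := by
  induction k generalizing N with
  | zero =>
    rw [dig, derivative_C, mul_zero, eval_zero]
    change _ = ((0 : ℕ) : ℤ) - H * ((0 : ℕ) : ℤ)
    simp
  | succ k ih =>
    have e : X * derivative (dig b H (k + 1) N) = X * derivative (dig b H k (lo b k N)) +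
        X ^ 2 ^ k * (C ((2 : ℤ) ^ k) * dig b H k (hi b k N) +
          X * derivative (dig b H k (hi b k N))) := by
      obtain ⟨m, hm⟩ : ∃ m, 2 ^ k = m + 1 := ⟨2 ^ k - 1, by have := Nat.two_pow_pos k; omega⟩
      have hm' : (2 : ℤ) ^ k = (m : ℤ) + 1 := by exact_mod_cast hm
      rw [dig, derivative_add, derivative_mul, hm, hm', derivative_X_pow_succ]
      simp only [map_add, map_natCast, map_one]
      ring
    rw [e, eval_add, ih, eval_mul, eval_add, ih, eval_mul, eval_C, eval_dig, fwd_self, eval_pow,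
      eval_X, CkD.wtP_succ, CkD.ramp_succ, ← pow_mul]
    push_cast
    ring

theorem natDegree_dig (b : ℕ) (H : ℤ) (k N : ℕ) : (dig b H k N).natDegree < 2 ^ k := by
  induction k generalizing N with
  | zero => rw [dig, natDegree_C]; norm_num
  | succ k ih =>
    rw [dig]
    have h1 := ih (lo b k N)
    have h2 := ih (hi b k N)
    have h3 : (X ^ 2 ^ k * dig b H k (hi b k N)).natDegree ≤
        2 ^ k + (dig b H k (hi b k N)).natDegree :=
      natDegree_mul_le.trans (add_le_add (natDegree_X_pow_le _) le_rfl)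
    have h4 := natDegree_add_le (dig b H k (lo b k N)) (X ^ 2 ^ k * dig b H k (hi b k N))
    rw [pow_succ]
    omega

theorem CkD.hi_eq_zero {b k N : ℕ} : hi b k N = 0 ↔ N < 2 ^ (b * 2 ^ k) := by
  rw [hi_eq, Nat.div_eq_zero_iff]
  have := Nat.two_pow_pos (b * 2 ^ k)
  omega

theorem abs_coeff_dig {b : ℕ} (hb : 0 < b) {k N : ℕ} (h : hi b k N = 0) (i : ℕ) :
    |(dig b (2 ^ (b - 1)) k N).coeff i| ≤ 2 ^ (b - 1) := by
  induction k generalizing N i with
  | zero =>
    rw [CkD.hi_eq_zero, pow_zero, mul_one] at h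
    have h2 : (2 : ℕ) ^ b = 2 * 2 ^ (b - 1) := by
      rw [← pow_succ']; congr 1; omega
    rw [h2] at h
    have h3 : (N : ℤ) < 2 * 2 ^ (b - 1) := by exact_mod_cast h
    have h4 : (0 : ℤ) ≤ N := Int.natCast_nonneg N
    have h5 : (0 : ℤ) ≤ 2 ^ (b - 1) := by positivity
    rw [dig, coeff_C]
    split_ifs
    · rw [abs_le]; constructor <;> linarith
    · simpa using h5
  | succ k ih =>
    rw [CkD.hi_eq_zero] at h
    have hp := Nat.two_pow_pos (b * 2 ^ k)
    have h1 : hi b k (lo b k N) = 0 := by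
      rw [CkD.hi_eq_zero, lo_eq]; exact Nat.mod_lt _ hp
    have h2 : hi b k (hi b k N) = 0 := by
      rw [CkD.hi_eq_zero, hi_eq, Nat.div_lt_iff_lt_mul hp, ← pow_add, ← mul_add, ← mul_two,
        ← pow_succ]
      exact h
    rw [dig, coeff_add, coeff_X_pow_mul']
    split_ifs with hi'
    · rw [coeff_eq_zero_of_natDegree_lt ((natDegree_dig _ _ _ _).trans_le hi'), zero_add]
      exact ih h2 _
    · rw [add_zero]
      exact ih h1 _

theorem aeval_digR (b : ℕ) (H : ℤ) (k N : ℕ) {w : ℂ} (hw : w ≠ 0) :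
    aeval w (digR b H k N) = w ^ (2 ^ k - 1) * aeval w⁻¹ (dig b H k N) := by
  induction k generalizing N with
  | zero => simp [digR, dig]
  | succ k ih =>
    obtain ⟨m, hm⟩ : ∃ m, 2 ^ k = m + 1 := ⟨2 ^ k - 1, by have := Nat.two_pow_pos k; omega⟩
    have h1 : 2 ^ (k + 1) - 1 = (m + 1) + m := by rw [pow_succ]; omega
    rw [digR, dig, map_add, map_add, map_mul, map_mul, map_pow, map_pow, aeval_X, aeval_X, ih, ih,
      h1, hm, Nat.add_sub_cancel, inv_pow, pow_add]
    have h2 : w ^ (m + 1) ≠ 0 := pow_ne_zero _ hw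
    field_simp
    ring

theorem eval_segP (b k o N : ℕ) (θ : ℝ) : (((segP b k o N).eval (cx θ) : ℝ) : ℂ) =
    cw θ ^ o * aeval (cw θ) (dig b (2 ^ (b - 1)) k N) +
      (cw θ)⁻¹ ^ o * aeval (cw θ)⁻¹ (dig b (2 ^ (b - 1)) k N) := by
  induction k generalizing N o with
  | zero =>
    rw [segP, dig, eval_mul, eval_C, Complex.ofReal_mul, eval_tk, aeval_C, aeval_C]
    simp only [eq_intCast]
    push_cast
    ring
  | succ k ih =>
    rw [segP, dig, eval_add, Complex.ofReal_add, ih, ih]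
    simp only [map_add, map_mul, map_pow, aeval_X]
    ring

/-- either `dec` fails or it continues with the shifted digits -/
theorem dec_cases (B k : ℕ) (v : ℤ) (f : ℕ → PV) : dec B k v f = bad ∨
    ∃ N : ℕ, (N : ℤ) = v + 2 ^ (B - 1) * ones B k ∧ hi B k N = 0 ∧ dec B k v f = f N := by
  have e : Int.add v (Int.ofNat (Nat.shiftLeft (ones B k) (Nat.sub B 1))) =
      v + 2 ^ (B - 1) * ones B k := by
    rw [shiftLeft_eq]
    change v + ((ones B k * 2 ^ (B - 1) : ℕ) : ℤ) = _
    push_cast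
    ring
  unfold dec
  rw [e]
  generalize v + 2 ^ (B - 1) * ones B k = z
  cases z with
  | negSucc n => exact Or.inl rfl
  | ofNat N =>
    have e2 : (force N fun N => force (Nat.mod N 4294967291) fun s =>
        (Nat.rec (f (tag s N)) (fun _ _ => bad) (hi B k N) : PV)) =
        (Nat.rec (f N) (fun _ _ => bad) (hi B k N) : PV) := by
      rw [force_eq, force_eq]; rfl
    rcases h : hi B k N with _ | m
    · refine Or.inr ⟨N, rfl, h, e2.trans ?_⟩
      rw [h]; rfl
    · refine Or.inl (e2.trans ?_)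
      rw [h]

/-- decoding -/
theorem eq_dig {B : ℕ} (hB : 0 < B) {k N : ℕ} {q : ℤ[X]} (hq : l1 q < 2 ^ (B - 1))
    (hN : (N : ℤ) = q.eval (2 ^ B) + 2 ^ (B - 1) * ones B k) (h : hi B k N = 0) :
    q = dig B (2 ^ (B - 1)) k N := by
  refine eq_of_eval_eq (R := 2 ^ B) (fun i => ?_) ?_
  · have h1 := abs_coeff_dig hB h i
    have h2 : (q.coeff i).natAbs < 2 ^ (B - 1) := (natAbs_coeff_le q i).trans_lt hq
    have h3 : |q.coeff i| < 2 ^ (B - 1) := by
      rw [Int.abs_eq_natAbs]; exact_mod_cast h2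
    have h4 : (2 : ℤ) ^ B = 2 ^ (B - 1) + 2 ^ (B - 1) := by
      rw [← two_mul, ← pow_succ']; congr 1; omega
    rw [h4]
    exact (abs_sub _ _).trans_lt (add_lt_add_of_lt_of_le h3 h1)
  · rw [eval_dig, fwd_self, hN]; ring

end Vale.Agent.P264.Ck
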