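import Mathlib

/-! A matrix that is congruent to a diagonally dominant one is positive semidefinite. -/

open Finset

namespace Vale.Agent.P264.Ck

theorem Psd.quad_lower {n : ℕ} (M r : Fin n → Fin n → ℝ) (w : Fin n → ℝ)
    (hr : ∀ i j, r i j = r j i) (hw0 : ∀ i, 0 < w i)
    (h : ∀ i j, |M i j - if i = j then 1 else 0| ≤ r i j) (y : Fin n → ℝ) :
    ∑ i, y i ^ 2 * (1 - (∑ j, r i j * w j) / w i) ≤ ∑ i, ∑ j, M i j * y i * y j := by
  have key : ∀ i j, (if i = j then 1 else 0) * y i * y j -
      (r i j * (w j / w i * y i ^ 2) + r j i * (w i / w j * y j ^ 2)) / 2 ≤ M i j * y i * y j := by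
    intro i j
    have hi := hw0 i
    have hj := hw0 j
    have h1 : |y i * y j| ≤ (w j / w i * y i ^ 2 + w i / w j * y j ^ 2) / 2 := by
      have e : (w j / w i * y i ^ 2 + w i / w j * y j ^ 2) / 2 - |y i * y j| =
          (w j * |y i| - w i * |y j|) ^ 2 / (2 * w i * w j) := by
        rw [abs_mul, ← sq_abs (y i), ← sq_abs (y j)]
        field_simp
        ring
      have : 0 ≤ (w j * |y i| - w i * |y j|) ^ 2 / (2 * w i * w j) := by positivity
      linarith
    have h0 : 0 ≤ r i j := (abs_nonneg _).trans (h i j)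
    have h2 : |(M i j - if i = j then 1 else 0) * (y i * y j)| ≤
        r i j * ((w j / w i * y i ^ 2 + w i / w j * y j ^ 2) / 2) := by
      rw [abs_mul]
      exact mul_le_mul (h i j) h1 (abs_nonneg _) h0
    have h3 := (abs_le.mp h2).1
    rw [← hr i j]
    nlinarith
  have hs : ∑ i, ∑ j, ((if i = j then 1 else 0) * y i * y j -
      (r i j * (w j / w i * y i ^ 2) + r j i * (w i / w j * y j ^ 2)) / 2) ≤
      ∑ i, ∑ j, M i j * y i * y j :=
    Finset.sum_le_sum fun i _ => Finset.sum_le_sum fun j _ => key i j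
  refine le_trans (le_of_eq ?_) hs
  simp only [Finset.sum_sub_distrib, ← Finset.sum_div, Finset.sum_add_distrib]
  rw [Finset.sum_comm (f := fun i j => r j i * (w i / w j * y j ^ 2)), add_self_div_two,
    ← Finset.sum_sub_distrib]
  refine Finset.sum_congr rfl fun i _ => ?_
  have e1 : ∑ j, (if i = j then (1 : ℝ) else 0) * y i * y j = y i ^ 2 := by
    simp [sq]
  have e2 : ∑ j, r i j * (w j / w i * y i ^ 2) = (∑ j, r i j * w j) / w i * y i ^ 2 := by
    rw [Finset.sum_div, Finset.sum_mul]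
    exact Finset.sum_congr rfl fun j _ => by ring
  rw [e1, e2]
  ring

theorem Psd.sum_tri {n : ℕ} (i : Fin n) (f : ℕ → ℝ) :
    ∑ k : Fin n, (if (k : ℕ) ≤ i then f k else 0) = ∑ k ∈ range (i + 1), f k := by
  rw [Fin.sum_univ_eq_sum_range (fun k => if k ≤ (i : ℕ) then f k else 0) n, ← Finset.sum_filter]
  refine Finset.sum_congr ?_ fun _ _ => rfl
  ext k
  have := i.2
  simp only [mem_filter, mem_range]
  omega



theorem psd_of_cert (n : ℕ) (A U r : ℕ → ℕ → ℝ) (w : ℕ → ℝ) (hA : ∀ i j, A i j = A j i)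
    (hr : ∀ i j, r i j = r j i) (hw0 : ∀ i < n, 0 < w i)
    (h : ∀ i < n, ∀ j ≤ i, |∑ l ∈ range (j + 1), (∑ k ∈ range (i + 1), U i k * A k l) * U j l -
      if i = j then 1 else 0| ≤ r i j)
    (hw : ∀ i < n, ∑ j ∈ range n, r i j * w j < w i) (s : ℕ → ℝ) :
    0 ≤ ∑ i ∈ range n, ∑ j ∈ range n, A i j * s i * s j := by
  classical
  set U' : Matrix (Fin n) (Fin n) ℝ := Matrix.of fun i k => if (k : ℕ) ≤ i then U i k else 0
    with hU'
  set A' : Matrix (Fin n) (Fin n) ℝ := Matrix.of fun i j => A i j with hA'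
  set M : Matrix (Fin n) (Fin n) ℝ := U' * A' * U'.transpose with hM
  have hAt : A'.transpose = A' := by
    ext i j
    simp [hA', hA i j]
  have hMt : M.transpose = M := by
    rw [hM, Matrix.transpose_mul, Matrix.transpose_mul, Matrix.transpose_transpose, hAt,
      Matrix.mul_assoc]
  have hMe : ∀ i j : Fin n, M i j =
      ∑ l ∈ range (j + 1), (∑ k ∈ range (i + 1), U i k * A k l) * U j l := by
    intro i j
    rw [← Psd.sum_tri j fun l => (∑ k ∈ range (i + 1), U i k * A k l) * U j l, hM,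
      Matrix.mul_apply]
    refine Finset.sum_congr rfl fun l _ => ?_
    rw [Matrix.mul_apply, ← Psd.sum_tri i fun k => U i k * A k l]
    simp only [hU', hA', Matrix.transpose_apply, Matrix.of_apply, ite_mul, zero_mul, mul_ite,
      mul_zero]
  have hMr : ∀ i j : Fin n, |M i j - if i = j then 1 else 0| ≤ r i j := by
    have h1 : ∀ i j : Fin n, (j : ℕ) ≤ i → |M i j - if i = j then 1 else 0| ≤ r i j := by
      intro i j hij
      have := h i i.2 j hij
      rw [hMe]
      simpa only [Fin.ext_iff] using this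
    intro i j
    rcases le_total (j : ℕ) i with hij | hij
    · exact h1 i j hij
    · have := h1 j i hij
      have e : M i j = M j i := by
        conv_lhs => rw [← hMt]
        rfl
      rw [e, hr]
      simpa only [eq_comm (a := i)] using this
  have hc : ∀ i : Fin n, 0 < 1 - (∑ j : Fin n, r i j * w j) / w i := by
    intro i
    rw [sub_pos, div_lt_one (hw0 i i.2), Fin.sum_univ_eq_sum_range (fun j => r i j * w j) n]
    exact hw i i.2
  have hq : ∀ y : Fin n → ℝ, ∑ i, y i ^ 2 * (1 - (∑ j : Fin n, r i j * w j) / w i) ≤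
      ∑ i, ∑ j, M i j * y i * y j := fun y =>
    Psd.quad_lower (fun i j => M i j) (fun i j => r i j) (fun i => w i) (fun i j => hr i j)
      (fun i => hw0 i i.2) hMr y
  have hform : ∀ (N : Matrix (Fin n) (Fin n) ℝ) (y : Fin n → ℝ),
      ∑ i, ∑ j, N i j * y i * y j = y ⬝ᵥ N.mulVec y := by
    intro N y
    simp only [dotProduct, Matrix.mulVec, Finset.mul_sum]
    exact Finset.sum_congr rfl fun i _ => Finset.sum_congr rfl fun j _ => by ring
  have hMy : ∀ y : Fin n → ℝ, y ⬝ᵥ M.mulVec y =
      U'.transpose.mulVec y ⬝ᵥ A'.mulVec (U'.transpose.mulVec y) := by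
    intro y
    rw [hM, ← Matrix.mulVec_mulVec, ← Matrix.mulVec_mulVec, Matrix.dotProduct_mulVec,
      Matrix.mulVec_transpose]
  have hinj : Function.Injective U'.transpose.mulVecLin := by
    rw [← LinearMap.ker_eq_bot, LinearMap.ker_eq_bot']
    intro y hy
    have hy' : U'.transpose.mulVec y = 0 := hy
    have h1 := hq y
    rw [hform, hMy, hy', zero_dotProduct] at h1
    have h2 := (Finset.sum_eq_zero_iff_of_nonneg fun i _ =>
      mul_nonneg (sq_nonneg (y i)) (hc i).le).mp
        (le_antisymm h1 (Finset.sum_nonneg fun i _ => mul_nonneg (sq_nonneg (y i)) (hc i).le))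
    funext i
    have h3 := h2 i (mem_univ i)
    rcases mul_eq_zero.mp h3 with h4 | h4
    · exact pow_eq_zero_iff two_ne_zero |>.mp h4
    · exact absurd h4 (hc i).ne'
  obtain ⟨y, hy⟩ := LinearMap.injective_iff_surjective.mp hinj fun i => s i
  have hy' : U'.transpose.mulVec y = fun i : Fin n => s i := hy
  have h1 := hq y
  rw [hform, hMy, hy', ← hform] at h1
  have h2 : 0 ≤ ∑ i, y i ^ 2 * (1 - (∑ j : Fin n, r i j * w j) / w i) :=
    Finset.sum_nonneg fun i _ => mul_nonneg (sq_nonneg (y i)) (hc i).le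
  rw [← Fin.sum_univ_eq_sum_range (fun i => ∑ j ∈ range n, A i j * s i * s j) n]
  simp only [← Fin.sum_univ_eq_sum_range (fun j => A _ j * s _ * s j) n]
  exact h2.trans h1

end Vale.Agent.P264.Ck
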