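import Vale.Agent.P264.CkA
import Vale.Agent.P264.CkB
import Vale.Agent.P264.Psd

/-! Soundness of the evaluator. -/

open Set Polynomial

noncomputable section

namespace Vale.Agent.P264.Ck

variable {B : ℕ} {ρ : List ℝ[X]} {env : List PV}

theorem semEnv_nil : SemEnv B [] [] := fun _ => sem_bad

theorem SemEnv.cons (h : SemEnv B ρ env) {p : ℝ[X]} {a : PV} (ha : Sem B p a) :
    SemEnv B (p :: ρ) (a :: env) := by
  intro i
  cases i with
  | zero => exact ha
  | succ i => exact h i

theorem SemEnv.eval (hB : 0 < B) (h : SemEnv B ρ env) (e : E) :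
    Sem B (den ρ e) (eval B env e) := by
  induction e with
  | v i => exact h i
  | c z => exact sem_cst z
  | x => exact sem_varX
  | add a b iha ihb => exact iha.add ihb
  | mul a b iha ihb => exact iha.mul ihb
  | neg a ih => exact ih.neg
  | half s a ih => exact ih.half s
  | dx a ih => exact ih.dx hB
  | tight a ih => exact ih.tight hB
  | at1 a ih => exact ih.at1
  | seg b k o N => exact sem_seg b k o N

theorem CkE.lets_cons (e : E × ℕ) (es : List (E × ℕ)) (env : List PV) (k : List PV → Bool) :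
    lets B (e :: es) env k = lets B es (step B env e.1 e.2 :: env) k :=
  fP_eq (step B env e.1 e.2) fun a => lets B es (a :: env) k

theorem CkE.sem_step (hB : 0 < B) (h : SemEnv B ρ env) {e : E} {s : ℕ} {p : ℝ[X]}
    (hs : StepOK ρ e s p) : Sem B p (step B env e s) := by
  cases s with
  | zero =>
    have : den ρ e = p := hs
    rw [← this]
    exact h.eval hB e
  | succ s => exact (h.eval hB e).addErr s hs



theorem lets_sound (hB : 0 < B) {es : List (E × ℕ)} {ps : List ℝ[X]} (hs : Steps es ps ρ)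
    (h : SemEnv B ρ env) {k : List PV → Bool} (hk : lets B es env k = true) :
    ∃ env', SemEnv B (ps.reverse ++ ρ) env' ∧ k env' = true := by
  induction es generalizing ps ρ env with
  | nil =>
    cases ps with
    | nil => exact ⟨env, by simpa using h, hk⟩
    | cons p ps => exact hs.elim
  | cons e es ih =>
    cases ps with
    | nil => exact hs.elim
    | cons p ps =>
      obtain ⟨h1, h2⟩ := hs
      have hk' : lets B es (step B env e.1 e.2 :: env) k = true := by
        rw [CkE.lets_cons] at hk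
        exact hk
      obtain ⟨env', h3, h4⟩ := ih h2 (h.cons (CkE.sem_step hB h h1)) hk'
      refine ⟨env', ?_, h4⟩
      simpa only [List.reverse_cons, List.append_assoc, List.singleton_append] using h3

theorem bnds_sound (hB : 0 < B) (h : SemEnv B ρ env) {l : List (E × ℕ × ℕ)}
    (hl : bnds B env l = true) :
    ∀ p ∈ l, ∀ a ∈ Icc (0 : ℝ) 1, |(den ρ p.1).eval a| * p.2.2 < p.2.1 := by
  induction l with
  | nil => intro p hp; cases hp
  | cons q l ih =>
    have hl' : (below (tight B (eval B env q.1)) q.2.1 q.2.2 && bnds B env l) = true := hl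
    rw [Bool.and_eq_true] at hl'
    intro p hp
    rcases List.mem_cons.mp hp with rfl | hp
    · exact ((h.eval hB p.1).tight hB).below hl'.1
    · exact ih hl'.2 p hp

theorem CkE.memo_eq (g : ℕ → PV) (n : ℕ) (k : List PV → Bool) :
    ∃ l : List PV, (∀ m < n, nth bad l (n - (m + 1)) = g m) ∧ memo g n k = k l := by
  induction n generalizing k with
  | zero => exact ⟨[], fun m hm => absurd hm (Nat.not_lt_zero m), rfl⟩
  | succ n ih =>
    obtain ⟨l, hl, e⟩ := ih fun l => fP (g n) fun a => k (a :: l)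
    refine ⟨g n :: l, fun m hm => ?_, ?_⟩
    · rcases Nat.lt_succ_iff_lt_or_eq.mp hm with hm | rfl
      · have : n + 1 - (m + 1) = n - (m + 1) + 1 := by omega
        rw [this, nth_succ, hl m hm]
      · rw [Nat.sub_self, nth_zero]
    · rw [fP_eq] at e
      exact e



theorem memo2_eq (n : ℕ) (f : ℕ → ℕ → PV) (k : (ℕ → ℕ → PV) → Bool) :
    ∃ g : ℕ → ℕ → PV, (∀ i < n, ∀ j ≤ i, g i j = f i j) ∧ memo2 n f k = k g := by
  obtain ⟨l, hl, e⟩ := CkE.memo_eq (fun m => force (Nat.div m n) fun i => force (Nat.mod m n) fun j =>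
      Bool.rec bad (f i j) (Nat.ble j i)) (Nat.mul n n)
    fun l => k fun i j => nth bad l (Nat.sub (Nat.mul n n) (Nat.succ (Nat.add (Nat.mul i n) j)))
  refine ⟨_, ?_, e⟩
  intro i hi j hj
  have hjn : j < n := lt_of_le_of_lt hj hi
  have hm : i * n + j < n * n := by nlinarith
  have h1 := hl (i * n + j) hm
  have hd : Nat.div (i * n + j) n = i := by
    change (i * n + j) / n = i
    rw [add_comm, Nat.add_mul_div_right _ _ (by omega), Nat.div_eq_of_lt hjn, zero_add]
  have hmod : Nat.mod (i * n + j) n = j := by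
    change (i * n + j) % n = j
    rw [add_comm, Nat.add_mul_mod_self_right, Nat.mod_eq_of_lt hjn]
  simp only [force_eq, hd, hmod] at h1
  rw [Nat.ble_eq.mpr hj] at h1
  exact h1

theorem CkE.allTo_iff (n : ℕ) (f : ℕ → Bool) : allTo n f = true ↔ ∀ i < n, f i = true := by
  induction n with
  | zero => exact ⟨fun _ i hi => absurd hi (Nat.not_lt_zero i), fun _ => rfl⟩
  | succ n ih =>
    change (allTo n f && f n) = true ↔ _
    rw [Bool.and_eq_true, ih]
    constructor
    · rintro ⟨h1, h2⟩ i hi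
      rcases Nat.lt_succ_iff_lt_or_eq.mp hi with hi | rfl
      · exact h1 i hi
      · exact h2
    · exact fun h => ⟨fun i hi => h i (Nat.lt_succ_of_lt hi), h n (Nat.lt_succ_self n)⟩

theorem CkE.sumN_eq (n : ℕ) (f : ℕ → ℕ) : sumN n f = ∑ i ∈ Finset.range n, f i := by
  induction n with
  | zero => rfl
  | succ n ih =>
    rw [Finset.sum_range_succ, ← ih]
    rfl

theorem CkE.sem_sumP (n : ℕ) {P : ℕ → ℝ[X]} {f : ℕ → PV} (h : ∀ k ≤ n, Sem B (P k) (f k)) :
    Sem B (∑ k ∈ Finset.range (n + 1), P k) (sumP B n f) := by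
  induction n with
  | zero =>
    rw [Finset.sum_range_one]
    exact h 0 le_rfl
  | succ n ih =>
    rw [Finset.sum_range_succ]
    exact (ih fun k hk => h k (Nat.le_succ_of_le hk)).add (h (n + 1) le_rfl)

theorem CkE.sy_symm {α : Type} (f : ℕ → ℕ → α) (i j : ℕ) : sy f i j = sy f j i := by
  rw [sy_eq, sy_eq]
  split_ifs with h1 h2 h2
  · rw [le_antisymm h1 h2]
  · rfl
  · rfl
  · omega



theorem lmi_sound (hB : 0 < B) (h : SemEnv B ρ env) {n : ℕ} {A U : List (List E)}
    {r : List (List ℕ)} {w : List ℕ} {sc : ℕ} (hl : lmi B n env A U r w sc = true) :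
    ∀ a ∈ Icc (0 : ℝ) 1, ∀ s : ℕ → ℝ, 0 ≤ ∑ i ∈ Finset.range n, ∑ j ∈ Finset.range n,
      (den ρ (sy (nth2 (E.c (Int.ofNat 0)) A) i j)).eval a * s i * s j := by
  intro x hx s
  unfold lmi at hl
  obtain ⟨a, ha, e⟩ := memo2_eq n (fun i j => eval B env (nth2 (E.c (Int.ofNat 0)) A i j)) _
  rw [e] at hl
  clear e
  obtain ⟨u, hu, e⟩ := memo2_eq n (fun i j => eval B env (nth2 (E.c (Int.ofNat 0)) U i j)) _
  rw [e] at hl
  clear e
  obtain ⟨ua, hua, e⟩ := memo2_eq n (fun i l => sumP B i fun k => mul (u i k) (sy a k l)) _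
  rw [e, Bool.and_eq_true, CkE.allTo_iff, CkE.allTo_iff] at hl
  clear e
  obtain ⟨h1, h2⟩ := hl
  set PA : ℕ → ℕ → ℝ[X] := fun i j => den ρ (sy (nth2 (E.c (Int.ofNat 0)) A) i j) with hPA
  set PU : ℕ → ℕ → ℝ[X] := fun i j => den ρ (nth2 (E.c (Int.ofNat 0)) U i j) with hPU
  have sA : ∀ i < n, ∀ j < n, Sem B (PA i j) (sy a i j) := by
    intro i hi j hj
    simp only [hPA, sy_eq]
    split_ifs with hij
    · rw [ha i hi j hij]
      exact h.eval hB _
    · rw [ha j hj i (by omega)]
      exact h.eval hB _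
  have sU : ∀ i < n, ∀ j ≤ i, Sem B (PU i j) (u i j) := by
    intro i hi j hj
    rw [hu i hi j hj]
    exact h.eval hB _
  have sUA : ∀ i < n, ∀ l ≤ i, Sem B (∑ k ∈ Finset.range (i + 1), PU i k * PA k l) (ua i l) := by
    intro i hi l hl
    rw [hua i hi l hl]
    exact CkE.sem_sumP i fun k hk => (sU i hi k hk).mul (sA k (by omega) l (by omega))
  have h2' : ∀ i < n, ∑ j ∈ Finset.range n, sy (nth2 0 r) i j * nth 0 w j < sc * nth 0 w i := by
    intro i hi
    have := Nat.ble_eq.mp (h2 i hi)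
    rw [CkE.sumN_eq] at this
    exact this
  rcases Nat.eq_zero_or_pos n with rfl | hn
  · simp
  have hsc : 0 < sc := by
    have := h2' 0 hn
    rcases Nat.eq_zero_or_pos sc with rfl | hsc
    · simp at this
    · exact hsc
  have hsc' : (0 : ℝ) < sc := by exact_mod_cast hsc
  refine psd_of_cert n (fun i j => (PA i j).eval x) (fun i j => (PU i j).eval x)
    (fun i j => (sy (nth2 0 r) i j : ℕ) / (sc : ℝ)) (fun i => (nth 0 w i : ℕ)) ?_ ?_ ?_ ?_ ?_ s
  · intro i j
    simp only [hPA]
    rw [CkE.sy_symm]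
  · intro i j
    rw [CkE.sy_symm]
  · intro i hi
    have := h2' i hi
    have h3 : 0 < nth 0 w i := by
      rcases Nat.eq_zero_or_pos (nth 0 w i) with h0 | h0
      · rw [h0] at this
        simp at this
      · exact h0
    exact_mod_cast h3
  · intro i hi j hj
    have h3 := (CkE.allTo_iff _ _).mp (h1 i hi) j (Nat.lt_succ_of_le hj)
    have h4 : Sem B (∑ l ∈ Finset.range (j + 1),
        (∑ k ∈ Finset.range (i + 1), PU i k * PA k l) * PU j l)
        (sumP B j fun l => mul (ua i l) (u j l)) :=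
      CkE.sem_sumP j fun l hl => (sUA i hi l (by omega)).mul (sU j (by omega) l hl)
    have h5 := ((h4.add (sem_cst _)).tight hB).below h3 x hx
    rw [sy_eq, if_pos hj, le_div_iff₀ hsc']
    refine le_trans (le_of_eq ?_) h5.le
    congr 2
    simp only [eval_add, eval_finsetSum, eval_mul, eval_C]
    by_cases hij : i = j
    · rw [if_pos hij, Nat.beq_eq.mpr hij]
      simp [sub_eq_add_neg]
    · rw [if_neg hij, Bool.eq_false_iff.2 fun h' => hij (Nat.eq_of_beq_eq_true h')]
      simp
  · intro i hi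
    have : ((∑ j ∈ Finset.range n, sy (nth2 0 r) i j * nth 0 w j : ℕ) : ℝ) <
        ((sc * nth 0 w i : ℕ) : ℝ) := by exact_mod_cast h2' i hi
    push_cast at this
    simp only [div_mul_eq_mul_div]
    rw [← Finset.sum_div, div_lt_iff₀ hsc', mul_comm]
    exact this

end Vale.Agent.P264.Ck
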