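import Vale.Agent.P264.CkS

/-! The sum of the absolute values of the coefficients. -/

open Set Polynomial

noncomputable section

namespace Vale.Agent.P264.Ck

theorem CkL.eq_sum (q : ℤ[X]) {s : Finset ℕ} (h : q.support ⊆ s) :
    l1 q = ∑ i ∈ s, (q.coeff i).natAbs :=
  Finset.sum_subset h fun i _ hi => by rw [notMem_support_iff.1 hi, Int.natAbs_zero]

theorem l1_zero : l1 0 = 0 := by
  simp [l1]

theorem CkL.monomial (n : ℕ) (z : ℤ) : l1 (monomial n z) = z.natAbs := by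
  rw [CkL.eq_sum _ (support_monomial_subset n z)]
  simp

theorem l1_C (z : ℤ) : l1 (C z) = z.natAbs := CkL.monomial 0 z

theorem l1_neg (q : ℤ[X]) : l1 (-q) = l1 q := by
  simp [l1]

theorem l1_add (p q : ℤ[X]) : l1 (p + q) ≤ l1 p + l1 q := by
  rw [CkL.eq_sum (p + q) support_add, CkL.eq_sum p Finset.subset_union_left,
    CkL.eq_sum q Finset.subset_union_right, ← Finset.sum_add_distrib]
  exact Finset.sum_le_sum fun i _ => by rw [coeff_add]; exact Int.natAbs_add_le _ _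

theorem l1_sub (p q : ℤ[X]) : l1 (p - q) ≤ l1 p + l1 q := by
  rw [sub_eq_add_neg, ← l1_neg q]
  exact l1_add _ _

theorem CkL.sum_le {ι : Type*} (s : Finset ι) (f : ι → ℤ[X]) :
    l1 (∑ i ∈ s, f i) ≤ ∑ i ∈ s, l1 (f i) :=
  Finset.le_sum_of_subadditive l1 l1_zero.le l1_add s f

theorem CkL.X_mul (q : ℤ[X]) : l1 (X * q) = l1 q := by
  have h1 : (X * q).support ⊆ Finset.range (q.natDegree + 1 + 1) :=
    supp_subset_range ((natDegree_mul_le.trans
      (add_le_add_left natDegree_X_le _)).trans_lt (by omega))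
  rw [CkL.eq_sum _ h1, CkL.eq_sum q supp_subset_range_natDegree_succ, Finset.sum_range_succ']
  simp [coeff_X_mul]

theorem l1_X_pow_mul (k : ℕ) (q : ℤ[X]) : l1 (X ^ k * q) = l1 q := by
  induction k with
  | zero => simp
  | succ k ih => rw [pow_succ', mul_assoc, CkL.X_mul, ih]

theorem l1_C_mul (z : ℤ) (q : ℤ[X]) : l1 (C z * q) = z.natAbs * l1 q := by
  rw [CkL.eq_sum (C z * q) (s := q.support) fun i hi => mem_support_iff.2 fun h =>
    mem_support_iff.1 hi (by rw [coeff_C_mul, h, mul_zero]), l1, Finset.mul_sum]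
  exact Finset.sum_congr rfl fun i _ => by rw [coeff_C_mul, Int.natAbs_mul]

theorem l1_mul (p q : ℤ[X]) : l1 (p * q) ≤ l1 p * l1 q := by
  conv_lhs => rw [p.as_sum_support_C_mul_X_pow, Finset.sum_mul]
  refine (CkL.sum_le _ _).trans ?_
  rw [l1, Finset.sum_mul]
  exact Finset.sum_le_sum fun i _ => by rw [mul_assoc, l1_C_mul, l1_X_pow_mul]

theorem natAbs_coeff_le (q : ℤ[X]) (i : ℕ) : (q.coeff i).natAbs ≤ l1 q := by
  rw [CkL.eq_sum q (Finset.subset_insert i _)]
  exact Finset.single_le_sum (f := fun i => (q.coeff i).natAbs) (fun _ _ => Nat.zero_le _)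
    (Finset.mem_insert_self _ _)

theorem norm_aeval_le (q : ℤ[X]) {w : ℂ} (hw : ‖w‖ = 1) : ‖aeval w q‖ ≤ l1 q := by
  conv_lhs => rw [q.as_sum_support_C_mul_X_pow, map_sum]
  refine (norm_sum_le _ _).trans ?_
  rw [l1, Nat.cast_sum]
  refine Finset.sum_le_sum fun i _ => ?_
  simp [hw]

theorem natAbs_eval_one_le (q : ℤ[X]) : (q.eval 1).natAbs ≤ l1 q := by
  rw [eval_eq_sum, Polynomial.sum, l1]
  refine (Finset.le_sum_of_subadditive Int.natAbs Int.natAbs_zero.le Int.natAbs_add_le _ _).trans ?_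
  simp

theorem l1_X_mul_derivative (q : ℤ[X]) {N : ℕ} (h : q.natDegree ≤ N) :
    l1 (X * derivative q) ≤ N * l1 q := by
  have e : ∀ i, (X * derivative q).coeff i = i * q.coeff i := fun i => by
    cases i with
    | zero => simp
    | succ i => rw [coeff_X_mul, coeff_derivative, mul_comm, Nat.cast_succ]
  rw [CkL.eq_sum (X * derivative q) (s := q.support) fun i hi => mem_support_iff.2 fun h =>
    mem_support_iff.1 hi (by rw [e, h, mul_zero]), l1, Finset.mul_sum]
  refine Finset.sum_le_sum fun i hi => ?_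
  rw [e, Int.natAbs_mul, Int.natAbs_natCast]
  exact Nat.mul_le_mul_right _ ((le_natDegree_of_mem_supp i hi).trans h)

theorem CkL.eq_zero {R : ℤ} (n : ℕ) : ∀ h : ℤ[X], h.natDegree ≤ n → (∀ i, |h.coeff i| < R) →
    h.eval R = 0 → h = 0 := by
  induction n with
  | zero =>
    intro h hn _ he
    rw [eq_C_of_natDegree_le_zero hn] at he ⊢
    rw [eval_C.symm.trans he, C_0]
  | succ n ih =>
    intro h hn hc he
    have e : (X * divX h + C (h.coeff 0)).eval R = h.eval R := by rw [X_mul_divX_add h]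
    rw [he, eval_add, eval_mul, eval_X, eval_C] at e
    have h0 : h.coeff 0 = 0 :=
      Int.eq_zero_of_abs_lt_dvd ⟨-(divX h).eval R, by linear_combination e⟩ (hc 0)
    have hR : R ≠ 0 := ((abs_nonneg _).trans_lt (hc 0)).ne'
    rw [h0, add_zero] at e
    have h1 := ih (divX h) (by have := h.natDegree_divX_eq_natDegree_tsub_one; omega)
      (fun i => by rw [coeff_divX]; exact hc _) ((mul_eq_zero.1 e).resolve_left hR)
    rw [← X_mul_divX_add h, h1, h0, mul_zero, C_0, add_zero]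

/-- a polynomial with small coefficients is determined by one value -/
theorem eq_of_eval_eq {p q : ℤ[X]} {R : ℤ} (h : ∀ i, |p.coeff i - q.coeff i| < R)
    (he : p.eval R = q.eval R) : p = q :=
  sub_eq_zero.1 (CkL.eq_zero _ (p - q) le_rfl (fun i => by rw [coeff_sub]; exact h i)
    (by rw [eval_sub, he, sub_self]))

theorem norm_cw (θ : ℝ) : ‖cw θ‖ = 1 := Complex.norm_exp_ofReal_mul_I θ

theorem cw_ne (θ : ℝ) : cw θ ≠ 0 := Complex.exp_ne_zero _

theorem cx_mem (θ : ℝ) : cx θ ∈ Icc (0 : ℝ) 1 := by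
  have h1 := Real.neg_one_le_cos θ
  have h2 := Real.cos_le_one θ
  constructor <;> unfold cx <;> linarith

theorem exists_cx {a : ℝ} (ha : a ∈ Icc (0 : ℝ) 1) : ∃ θ, cx θ = a := by
  refine ⟨Real.arccos (2 * a - 1), ?_⟩
  rw [cx, Real.cos_arccos (by linarith [ha.1]) (by linarith [ha.2])]
  ring

theorem CkL.four_cx (θ : ℝ) : 4 * ((cx θ : ℝ) : ℂ) - 2 = cw θ + (cw θ)⁻¹ := by
  rw [cx, cw, ← Complex.exp_neg, ← neg_mul, ← Complex.two_cos]
  push_cast
  ring

theorem cx_cw (θ : ℝ) : ((cx θ : ℝ) : ℂ) * cw θ * 4 = 1 + 2 * cw θ + cw θ ^ 2 := by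
  have h := CkL.four_cx θ
  have h2 := inv_mul_cancel₀ (cw_ne θ)
  linear_combination cw θ * h + h2

theorem eval_tk (k : ℕ) (θ : ℝ) : (((tk k).eval (cx θ) : ℝ) : ℂ) = cw θ ^ k + (cw θ)⁻¹ ^ k := by
  have h := CkL.four_cx θ
  have h2 := inv_mul_cancel₀ (cw_ne θ)
  induction k using Nat.twoStepInduction with
  | zero => norm_num [tk]
  | one => simpa [tk] using h
  | more k h0 h1 =>
    rw [tk, eval_sub, eval_mul, Complex.ofReal_sub, Complex.ofReal_mul, h0, h1]
    have e : (((4 * X - 2 : ℝ[X]).eval (cx θ) : ℝ) : ℂ) = cw θ + (cw θ)⁻¹ := by simpa using h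
    rw [e]
    linear_combination (cw θ ^ k + (cw θ)⁻¹ ^ k) * h2

end Vale.Agent.P264.Ck
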