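import Mathlib
import Vale.Agent.P264.CkC

/-! The meaning of packed values. -/

open Set Polynomial

noncomputable section

namespace Vale.Agent.P264.Ck

@[simp] theorem force_eq {α : Type} (n : ℕ) (f : ℕ → α) : force n f = f n := by
  cases n <;> rfl

@[simp] theorem forceZ_eq {α : Type} (z : ℤ) (f : ℤ → α) : forceZ z f = f z := by
  cases z with
  | ofNat n => exact force_eq n fun n => f (Int.ofNat n)
  | negSucc n => exact force_eq n fun n => f (Int.negSucc n)

@[simp] theorem fP_eq {α : Type} (a : PV) (f : PV → α) : fP a f = f a := by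
  obtain ⟨d, e, v, n, r, ok⟩ := a
  simp only [fP, force_eq, forceZ_eq]
  cases ok <;> rfl

theorem p2_eq (s : ℕ) : p2 s = 2 ^ s := by
  change 1 <<< s = _
  rw [Nat.shiftLeft_eq, one_mul]

theorem shiftLeft_eq (n s : ℕ) : Nat.shiftLeft n s = n * 2 ^ s := Nat.shiftLeft_eq n s

theorem shl_eq (z : ℤ) (s : ℕ) : shl z s = z * 2 ^ s := by
  cases z with
  | ofNat n =>
    change ((Nat.shiftLeft n s : ℕ) : ℤ) = (n : ℤ) * 2 ^ s
    rw [shiftLeft_eq]; push_cast; rfl
  | negSucc n =>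
    change Int.negSucc (Nat.shiftLeft (n + 1) s - 1) = _
    have h : 1 ≤ (n + 1) * 2 ^ s := Nat.succ_le_of_lt (by positivity)
    rw [shiftLeft_eq, Int.negSucc_eq, Int.negSucc_eq]
    push_cast [h]
    ring

theorem lo_eq (b k N : ℕ) : lo b k N = N % 2 ^ (b * 2 ^ k) := by
  change N &&& (p2 (Nat.shiftLeft b k) - 1) = _
  rw [p2_eq, shiftLeft_eq, Nat.and_two_pow_sub_one_eq_mod]

theorem hi_eq (b k N : ℕ) : hi b k N = N / 2 ^ (b * 2 ^ k) := by
  change N >>> (Nat.shiftLeft b k) = _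
  rw [shiftLeft_eq, Nat.shiftRight_eq_div_pow]

@[simp] theorem nth_nil {α : Type} (z : α) (i : ℕ) : nth z [] i = z := rfl

@[simp] theorem nth_zero {α : Type} (z a : α) (l : List α) : nth z (a :: l) 0 = a := rfl

@[simp] theorem nth_succ {α : Type} (z a : α) (l : List α) (i : ℕ) :
    nth z (a :: l) (i + 1) = nth z l i := rfl

theorem sy_eq {α : Type} (f : ℕ → ℕ → α) (i j : ℕ) : sy f i j = if j ≤ i then f i j else f j i := by
  unfold sy
  split_ifs with h
  · rw [Nat.ble_eq.mpr h]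
  · rw [Bool.eq_false_iff.2 fun h' => h (Nat.ble_eq.mp h')]

/-- sum of the absolute values of the coefficients -/
def l1 (q : ℤ[X]) : ℕ := ∑ i ∈ q.support, (q.coeff i).natAbs

/-- the digits of `N` in base `2 ^ b`, minus `H` -/
def dig (b : ℕ) (H : ℤ) : ℕ → ℕ → ℤ[X]
  | 0, N => C ((N : ℤ) - H)
  | k + 1, N => dig b H k (lo b k N) + X ^ 2 ^ k * dig b H k (hi b k N)

/-- the same in reverse order -/
def digR (b : ℕ) (H : ℤ) : ℕ → ℕ → ℤ[X]
  | 0, N => C ((N : ℤ) - H)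
  | k + 1, N => X ^ 2 ^ k * digR b H k (lo b k N) + digR b H k (hi b k N)

/-- twice the Chebyshev polynomials of `[0, 1]` -/
def tk : ℕ → ℝ[X]
  | 0 => 2
  | 1 => 4 * X - 2
  | k + 2 => (4 * X - 2) * tk (k + 1) - tk k

/-- the polynomial of a block of coefficients -/
def segP (b : ℕ) : ℕ → ℕ → ℕ → ℝ[X]
  | 0, o, N => C ((N : ℝ) - 2 ^ (b - 1)) * tk o
  | k + 1, o, N => segP b k o (lo b k N) + segP b k (o + 2 ^ k) (hi b k N)

/-- the point of the unit circle -/
def cw (θ : ℝ) : ℂ := Complex.exp (θ * Complex.I)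

/-- the point of the interval -/
def cx (θ : ℝ) : ℝ := (1 + Real.cos θ) / 2

/-- `a` represents `p` -/
def Sem (B : ℕ) (p : ℝ[X]) (a : PV) : Prop :=
  a.ok = true → ∃ q : ℤ[X], q.eval (2 ^ B) = a.v ∧ l1 q ≤ a.n ∧
    ∀ θ : ℝ, ‖((p.eval (cx θ) : ℝ) : ℂ) * cw θ ^ a.d * 2 ^ a.e - aeval (cw θ) q‖ ≤ a.r

/-- the polynomial of an expression -/
def den (ρ : List ℝ[X]) : E → ℝ[X]
  | .v i => nth 0 ρ i
  | .c z => C (z : ℝ)
  | .x => X
  | .add a b => den ρ a + den ρ b
  | .mul a b => den ρ a * den ρ b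
  | .neg a => -den ρ a
  | .half s a => C (1 / 2 ^ s) * den ρ a
  | .dx a => derivative (den ρ a)
  | .tight a => den ρ a
  | .at1 a => C ((den ρ a).eval 1)
  | .seg b k o N => segP b k o N

/-- environments -/
def SemEnv (B : ℕ) (ρ : List ℝ[X]) (env : List PV) : Prop := ∀ i, Sem B (nth 0 ρ i) (nth bad env i)

/-- the expression `e` gives the polynomial `p`, exactly or with an error -/
def StepOK (ρ : List ℝ[X]) (e : E) : ℕ → ℝ[X] → Prop
  | 0, p => den ρ e = p
  | s + 1, p => ∀ a ∈ Icc (0 : ℝ) 1, |p.eval a - (den ρ e).eval a| ≤ 1 / 2 ^ s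

/-- a list of steps gives a list of polynomials -/
def Steps : List (E × ℕ) → List ℝ[X] → List ℝ[X] → Prop
  | [], [], _ => True
  | e :: es, p :: ps, ρ => StepOK ρ e.1 e.2 p ∧ Steps es ps (p :: ρ)
  | _, _, _ => False

end Vale.Agent.P264.Ck
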