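import Mathlib

/-! Matrix identities relating the cone metric to the chart metric. -/

open scoped ComplexConjugate ComplexOrder
open Matrix

namespace Vale.Agent.P264

variable {n : ℕ} {H K : Matrix (Fin (n + 1)) (Fin (n + 1)) ℂ} {Z u : Fin (n + 1) → ℂ}
  {j : Fin (n + 1)}

theorem cone_star_dot (hu : Z ⬝ᵥ u = 1) : star u ⬝ᵥ star Z = 1 := by
  rw [star_dotProduct_star, hu, star_one]

theorem cone_det (hZ : Z j = 1) (h1 : Z ᵥ* H = 0) (h2 : H *ᵥ star Z = 0) (hu : Z ⬝ᵥ u = 1) :
    (H + vecMulVec u (star u)).det = (H.submatrix j.succAbove j.succAbove).det := by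
  have e1 := det_updateCol_sum (H + vecMulVec u (star u)) j (star Z)
  have e2 : (fun k => ∑ i, star Z i • (H + vecMulVec u (star u)) k i) = u := by
    funext k
    have a1 : ∑ i, H k i * star Z i = 0 := congrFun h2 k
    have a2 : ∑ i, star u i * star Z i = 1 := cone_star_dot hu
    calc _ = ∑ i, H k i * star Z i + u k * ∑ i, star u i * star Z i := by
          rw [Finset.mul_sum, ← Finset.sum_add_distrib]
          exact Finset.sum_congr rfl fun i _ => by
            rw [Matrix.add_apply, vecMulVec_apply, smul_eq_mul]; ring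
      _ = _ := by rw [a1, a2, zero_add, mul_one]
  rw [e2, Pi.star_apply, hZ, star_one, one_smul] at e1
  have e3 : ((H + vecMulVec u (star u)).updateCol j u).det = (H.updateCol j u).det := by
    rw [← det_transpose, ← det_transpose (H.updateCol j u)]
    refine det_eq_of_forall_row_eq_smul_add_const (Function.update (star u) j 0) j (by simp)
      fun i k => ?_
    by_cases h : i = j
    · simp [h]
    · simp [h, updateCol_ne, vecMulVec_apply, mul_comm]
  have e4 := det_updateRow_sum (H.updateCol j u) j Z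
  have e5 : ∑ k, Z k • H.updateCol j u k = Pi.single j 1 := by
    funext i
    by_cases h : i = j
    · simpa [h, dotProduct] using hu
    · simpa [h, updateCol_ne, vecMul, dotProduct] using congrFun h1 i
  rw [e5, hZ, one_smul, det_succ_row _ j, Finset.sum_eq_single j (fun b _ hb => by simp [hb])
    (by simp)] at e4
  rw [← e1, e3, ← e4]
  simp [submatrix_updateRow_succAbove, submatrix_updateCol_succAbove]

theorem cone_trace_ext {ι κ : Type} [Fintype ι] [DecidableEq ι] [Fintype κ] [DecidableEq κ]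
    {A : Matrix ι ι ℂ} {B : Matrix κ κ ℂ} (h : ∀ r : ℂ, (1 + r • A).det = (1 + r • B).det) :
    A.trace = B.trace := by
  rw [← coeff_det_one_add_X_smul_one, ← coeff_det_one_add_X_smul_one]
  congr 1
  refine Polynomial.funext fun r => ?_
  simpa [eval_det, ← smul_eq_mul_diagonal] using h r

theorem cone_trace (hZ : Z j = 1) (h1 : Z ᵥ* H = 0) (h2 : H *ᵥ star Z = 0) (hu : Z ⬝ᵥ u = 1)
    (k1 : Z ᵥ* K = 0) (k2 : K *ᵥ star Z = 0) (hd : (H + vecMulVec u (star u)).det ≠ 0) :
    ((H + vecMulVec u (star u))⁻¹ * K).trace = ((H.submatrix j.succAbove j.succAbove)⁻¹ *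
      K.submatrix j.succAbove j.succAbove).trace := by
  have e0 := cone_det hZ h1 h2 hu
  refine cone_trace_ext fun r => mul_left_cancel₀ hd ?_
  have e1 := cone_det (H := H + r • K) hZ (by rw [vecMul_add, vecMul_smul, h1, k1]; simp)
    (by rw [add_mulVec, smul_mulVec, h2, k2]; simp) hu
  conv_rhs => rw [e0]
  rw [← det_mul, ← det_mul, mul_add, mul_add, mul_one, mul_one, Matrix.mul_smul, Matrix.mul_smul,
    mul_nonsing_inv_cancel_left _ _ hd.isUnit, mul_nonsing_inv_cancel_left _ _ (e0 ▸ hd).isUnit,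
    add_right_comm, e1]
  rfl

theorem cone_pd (hZ : Z j = 1) (h1 : Z ᵥ* H = 0) (h2 : H *ᵥ star Z = 0) (hu : Z ⬝ᵥ u = 1)
    (hH : H.IsHermitian) :
    (H + vecMulVec u (star u)).PosDef ↔ (H.submatrix j.succAbove j.succAbove).PosDef := by
  have Q1 : ∀ (x : Fin (n + 1) → ℂ) (t : ℂ),
      star (x - t • star Z) ⬝ᵥ H *ᵥ (x - t • star Z) = star x ⬝ᵥ H *ᵥ x := fun x t => by
    rw [mulVec_sub, mulVec_smul, h2, smul_zero, sub_zero, star_sub, star_smul, star_star,
      sub_dotProduct, smul_dotProduct, dotProduct_mulVec Z, h1, zero_dotProduct, smul_zero, sub_zero]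
  have Q2 : ∀ x : Fin (n + 1) → ℂ, x j = 0 → star x ⬝ᵥ H *ᵥ x =
      star (x ∘ j.succAbove) ⬝ᵥ H.submatrix j.succAbove j.succAbove *ᵥ (x ∘ j.succAbove) :=
    fun x hx => by simp [dotProduct, mulVec, Fin.sum_univ_succAbove _ j, hx]
  have Q3 : ∀ x : Fin (n + 1) → ℂ, star x ⬝ᵥ (H + vecMulVec u (star u)) *ᵥ x =
      star x ⬝ᵥ H *ᵥ x + star (star u ⬝ᵥ x) * (star u ⬝ᵥ x) := fun x => by
    rw [add_mulVec, dotProduct_add, vecMulVec_mulVec, op_smul_eq_smul, dotProduct_smul,
      star_dotProduct (v := x), star_dotProduct (v := u), smul_eq_mul, mul_comm, star_star]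
  have hs := cone_star_dot hu
  constructor
  · refine fun h => PosDef.of_dotProduct_mulVec_pos (hH.submatrix _) fun w hw => ?_
    set x : Fin (n + 1) → ℂ := Fin.insertNth j 0 w with hx
    have e : x ∘ j.succAbove = w := funext fun a => by simp [hx]
    have := h.dotProduct_mulVec_pos (x := x - (star u ⬝ᵥ x) • star Z) fun h0 => hw (by
      have h3 := congrFun h0 j
      simp only [Pi.sub_apply, Pi.smul_apply, Pi.star_apply, hZ, star_one, smul_eq_mul, mul_one,
        Pi.zero_apply, hx, Fin.insertNth_apply_same, zero_sub, neg_eq_zero] at h3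
      rw [← hx] at h3
      rw [h3, zero_smul, sub_zero] at h0
      rw [← e, h0]
      rfl)
    rwa [Q3, Q1, dotProduct_sub, dotProduct_smul, hs, smul_eq_mul, mul_one, sub_self, mul_zero,
      add_zero, Q2 x (by simp [hx]), e] at this
  · refine fun h => PosDef.of_dotProduct_mulVec_pos
      (hH.add (posSemidef_vecMulVec_self_star u).1) fun x hx => ?_
    have h3 : (x - x j • star Z) j = 0 := by simp [hZ]
    rw [Q3, ← Q1 x (x j), Q2 _ h3]
    by_cases hw : (x - x j • star Z) ∘ j.succAbove = 0
    · have h4 : x = x j • star Z := sub_eq_zero.1 (funext fun a => by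
        induction a using j.succAboveCases with
        | x => exact h3
        | p a => exact congrFun hw a)
      have h5 : star u ⬝ᵥ x ≠ 0 := by
        rw [h4, dotProduct_smul, hs, smul_eq_mul, mul_one]
        exact fun h0 => hx (by rw [h4, h0, zero_smul])
      rw [hw, mulVec_zero, dotProduct_zero, zero_add]
      exact star_mul_self_pos (isUnit_iff_ne_zero.2 h5).isRegular
    · exact add_pos_of_pos_of_nonneg (h.dotProduct_mulVec_pos hw) (star_mul_self_nonneg _)

end Vale.Agent.P264
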