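import Vale.Agent.P264.Ring
import Vale.Agent.P264.Alg
import Vale.Agent.P264.ConeM

/-! From charts to the cone. -/

open scoped ContDiff ComplexConjugate Topology ComplexOrder
open Set Complex Matrix

noncomputable section

namespace Vale.Agent.P264

variable {n : ℕ}

/-- A smooth family of invariant potentials. -/
structure Fam (ψ : ℝ → (Fin (n + 1) → ℂ) → ℝ) : Prop where
  smooth : ContDiffOn ℝ ∞ (fun p : VV (n + 1) => ψ p.1 p.2) (Om (n + 1))
  inv : ∀ s, Invariant (ψ s)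

/-- The Calabi flow in the time variable `s` with `t = s ^ 2`. -/
structure Flow (ψ : ℝ → (Fin (n + 1) → ℂ) → ℝ) (c : ℝ) : Prop extends Fam ψ where
  pos : ∀ s, IsKahler (ψ s)
  eq : ∀ s j w, HasDerivAt (fun r => ψ r (chart j w)) (2 * s * (scal (ψ s) j w - c)) s

namespace Sm

variable {N : ℕ}

/-- squared norm -/
def nrm : Sm N := ∑ a, z a * zb a

/-- complex Hessian in the ring -/
def hess (f : Sm N) : Matrix (Fin N) (Fin N) (Sm N) := Matrix.of fun a b => d a (db b f)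

theorem DD_eq (ξ : Fin N → ℂ) (f : Sm N) :
    DD (0, ξ) f = ∑ a, (ξ a • d a f + conj (ξ a) • db a f) := by
  refine ext_ev fun p => ?_
  have e : ((0, ξ) : VV N) = ∑ a, ((ξ a).re • ((0, Pi.single a 1) : VV N) +
      (ξ a).im • ((0, Pi.single a I) : VV N)) := by
    refine Prod.ext (by simp [Prod.fst_sum]) (funext fun b => ?_)
    simp [Prod.snd_sum, Finset.sum_apply, Pi.single_apply, Finset.sum_add_distrib]
  rw [ev_DD, e, map_sum, map_sum]
  refine Finset.sum_congr rfl fun a _ => ?_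
  simp only [map_add, map_smul, d_apply, db_apply, map_sub, ev_DD, smul_eq_mul, real_smul]
  rw [← re_add_im (ξ a)]
  simp only [map_add, map_mul, conj_ofReal, conj_I, add_re, ofReal_re, mul_re, I_re, ofReal_im, I_im,
    add_im, mul_im]
  push_cast
  linear_combination ((ξ a).im * fderiv ℝ f.val p (0, Pi.single a I)) * I_mul_I

theorem DD_single (a : Fin N) (c : ℂ) (f : Sm N) :
    DD (0, Pi.single a c) f = c • d a f + conj c • db a f := by
  rw [DD_eq, Finset.sum_eq_single a (fun b _ hb => by simp [hb]) (by simp), Pi.single_eq_same]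

theorem Hom.ev {k l : ℤ} {f : Sm N} (h : Hom k l f) {p q : Om N} {c : ℂ} (hc : c ≠ 0)
    (e : q.1 = (p.1.1, c • p.1.2)) : ev q f = c ^ k * conj c ^ l * ev p f := by
  rw [ev_eq, ev_eq, e]
  exact h _ _ c hc p.2

theorem hom_of {k l : ℤ} {f : Sm N} (h : ∀ (p q : Om N) (c : ℂ), c ≠ 0 → q.1 = (p.1.1, c • p.1.2) →
    ev q f = c ^ k * conj c ^ l * ev p f) : Hom k l f := fun s Z c hc hZ => by
  have := h ⟨(s, Z), hZ⟩ ⟨(s, c • Z), smul_ne_zero hc hZ⟩ c hc rfl
  rwa [ev_eq, ev_eq] at this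

theorem Hom.ev_DD {k l : ℤ} {f : Sm N} (h : Hom k l f) {p q : Om N} {c : ℂ} (hc : c ≠ 0)
    (e : q.1 = (p.1.1, c • p.1.2)) (τ : ℝ) (ξ : Fin N → ℂ) :
    Sm.ev q (DD (τ, c • ξ) f) = c ^ k * conj c ^ l * Sm.ev p (DD (τ, ξ) f) := by
  have h1 : HasFDerivAt (fun x : VV N => ((x.1, c • x.2) : VV N)) _ p.1 :=
    (hasFDerivAt_fst (𝕜 := ℝ)).prodMk ((hasFDerivAt_snd (𝕜 := ℝ)).const_smul c)
  have h2 := HasFDerivAt.comp p.1 (e ▸ (f.diffAt q.2).hasFDerivAt) h1
  have h3 := (f.diffAt p.2).hasFDerivAt.const_mul (c ^ k * conj c ^ l)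
  have h4 := (h2.congr_of_eventuallyEq (Filter.eventually_of_mem (isOpen_Om.mem_nhds p.2)
    fun x hx => (h x.1 x.2 c hc hx).symm)).unique h3
  rw [Sm.ev_DD, Sm.ev_DD, e]
  simpa using congrArg (fun L => L (τ, ξ)) h4

theorem Hom.ev_euler {k l : ℤ} {f : Sm N} (h : Hom k l f) (p : Om N) (u : ℂ) :
    u * Sm.ev p (∑ a, z a * Sm.d a f) + conj u * Sm.ev p (∑ a, zb a * Sm.db a f) =
      (k * u + l * conj u) * Sm.ev p f := by
  have h0 : ∀ v : ℂ, HasDerivAt (fun x : ℝ => cexp (x * v)) v 0 := fun v => by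
    simpa using ((hasDerivAt_id (0 : ℝ)).ofReal_comp.mul_const v).cexp
  have h1 : HasDerivAt (fun x : ℝ => ((p.1.1, cexp (x * u) • p.1.2) : VV N)) (0, u • p.1.2) 0 :=
    (hasDerivAt_const _ _).prodMk ((h0 u).smul_const _)
  have h2 := HasFDerivAt.comp_hasDerivAt_of_eq (0 : ℝ) (f.diffAt p.2).hasFDerivAt h1 (by simp)
  have h3 := (h0 (k * u + l * conj u)).mul_const (f.val p.1)
  have h4 : fderiv ℝ f.val p (0, u • p.1.2) = _ := h2.unique (h3.congr_of_eventuallyEq
    (Filter.Eventually.of_forall fun x => by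
      refine (h _ _ _ (exp_ne_zero _) p.2).trans ?_
      rw [← exp_conj, ← exp_int_mul, ← exp_int_mul, ← Complex.exp_add, map_mul, conj_ofReal]
      congr 2
      ring))
  rw [ev_eq p f, ← h4, ← Sm.ev_DD, DD_eq]
  simp only [map_sum, map_add, map_smul, map_mul, ev_z, ev_zb, Finset.mul_sum, Pi.smul_apply,
    smul_eq_mul, Finset.sum_add_distrib, mul_assoc]

theorem Hom.ev_d {k l : ℤ} {f : Sm N} (h : Hom k l f) {p q : Om N} {c : ℂ} (hc : c ≠ 0)
    (e : q.1 = (p.1.1, c • p.1.2)) (a : Fin N) :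
    c * Sm.ev q (Sm.d a f) = c ^ k * conj c ^ l * Sm.ev p (Sm.d a f) ∧
      conj c * Sm.ev q (Sm.db a f) = c ^ k * conj c ^ l * Sm.ev p (Sm.db a f) := by
  have h1 := h.ev_DD hc e 0 (Pi.single a 1)
  have h2 := h.ev_DD hc e 0 (Pi.single a I)
  rw [← Pi.single_smul, DD_single, DD_single] at h1 h2
  simp only [map_add, map_smul, smul_eq_mul, map_mul, conj_I, map_one, mul_one, one_mul] at h1 h2
  constructor
  · refine mul_left_cancel₀ I_ne_zero ?_
    linear_combination I / 2 * h1 + 1 / 2 * h2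
  · refine mul_left_cancel₀ I_ne_zero ?_
    linear_combination I / 2 * h1 - 1 / 2 * h2

theorem Hom.euler {k l : ℤ} {f : Sm N} (h : Hom k l f) : ∑ a, z a * d a f = (k : ℂ) • f := by
  refine ext_ev fun p => mul_left_cancel₀ I_ne_zero ?_
  have h1 := h.ev_euler p 1
  have h2 := h.ev_euler p I
  rw [map_one] at h1
  rw [conj_I] at h2
  rw [map_smul, smul_eq_mul]
  linear_combination I / 2 * h1 + 1 / 2 * h2

theorem Hom.eulerb {k l : ℤ} {f : Sm N} (h : Hom k l f) : ∑ a, zb a * db a f = (l : ℂ) • f := by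
  refine ext_ev fun p => mul_left_cancel₀ I_ne_zero ?_
  have h1 := h.ev_euler p 1
  have h2 := h.ev_euler p I
  rw [map_one] at h1
  rw [conj_I] at h2
  rw [map_smul, smul_eq_mul]
  linear_combination I / 2 * h1 - 1 / 2 * h2

theorem Hom.d {k l : ℤ} {f : Sm N} (h : Hom k l f) (a : Fin N) : Hom (k - 1) l (d a f) := by
  refine hom_of fun p q c hc e => mul_left_cancel₀ hc ?_
  rw [(h.ev_d hc e a).1, zpow_sub_one₀ hc]
  field_simp

theorem Hom.db {k l : ℤ} {f : Sm N} (h : Hom k l f) (a : Fin N) : Hom k (l - 1) (db a f) := by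
  refine hom_of fun p q c hc e => ?_
  have hc' : conj c ≠ 0 := (map_ne_zero _).2 hc
  refine mul_left_cancel₀ hc' ?_
  rw [(h.ev_d hc e a).2, zpow_sub_one₀ hc']
  field_simp

theorem Hom.dt {k l : ℤ} {f : Sm N} (h : Hom k l f) : Hom k l (dt f) := by
  refine hom_of fun p q c hc e => ?_
  have := h.ev_DD hc e 1 0
  rwa [smul_zero] at this

theorem cj_nrm : cj (nrm : Sm N) = nrm := by
  simp only [nrm, map_sum, map_mul, zb, cj_cj, mul_comm]

theorem ev_nrm (p : Om N) : ev p nrm = ((∑ a, ‖p.1.2 a‖ ^ 2 : ℝ) : ℂ) := by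
  simp [nrm, mul_conj, normSq_eq_norm_sq]

theorem hess_herm {f : Sm N} (hf : cj f = f) (p : Om N) : ((hess f).map (ev p)).IsHermitian := by
  ext a b
  simp only [conjTranspose_apply, map_apply, hess, of_apply, star_def]
  rw [← ev_cj, cj_d, cj_db, hf, d_db]

theorem hess_ker {f : Sm N} (hf : cj f = f) {c : ℂ} (he : ∑ a, z a * d a f = algebraMap ℂ _ c)
    (p : Om N) : p.1.2 ᵥ* (hess f).map (ev p) = 0 ∧ (hess f).map (ev p) *ᵥ star p.1.2 = 0 := by
  have h1 : p.1.2 ᵥ* (hess f).map (ev p) = 0 := by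
    funext b
    have := congrArg (fun g => ev p (db b g)) he
    simpa [db_z, vecMul, dotProduct, hess, d_db] using this
  refine ⟨h1, ?_⟩
  rw [← (hess_herm hf p).eq, ← star_vecMul, h1, star_zero]

theorem Hom.ev_hess {k : ℤ} {f : Sm N} (h : Hom k k f) {p q : Om N} {c : ℂ} (hc : c ≠ 0)
    (e : q.1 = (p.1.1, c • p.1.2)) : (hess f).map (Sm.ev q) =
      (c ^ (k - 1) * conj c ^ (k - 1)) • (hess f).map (Sm.ev p) := by
  ext a b
  exact ((h.db b).d a).ev hc e

theorem ev_inv {M : Matrix (Fin N) (Fin N) (Sm N)} (hM : IsUnit M.det) (p : Om N) :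
    (M⁻¹).map (ev p) = (M.map (ev p))⁻¹ := by
  refine (inv_eq_left_inv ?_).symm
  rw [← Matrix.map_mul, nonsing_inv_mul _ hM, Matrix.map_one _ (map_zero _) (map_one _)]

end Sm

theorem re_eq_ofReal_of_pos {x : ℂ} (h : 0 < x) : (x.re : ℂ) = x :=
  conj_eq_iff_re.1 (conj_eq_iff_im.2 (Complex.pos_iff.1 h).2.symm)

open Sm

theorem chart_ne (j : Fin (n + 1)) (w : Fin n → ℂ) : chart j w ≠ 0 := fun h => by
  simpa [chart] using congrFun h j

/-- points of the charts -/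
def cpt (s : ℝ) (j : Fin (n + 1)) (w : Fin n → ℂ) : Om (n + 1) := ⟨(s, chart j w), chart_ne j w⟩

theorem cpt_one (s : ℝ) (j : Fin (n + 1)) (w : Fin n → ℂ) : (cpt s j w).1.2 j = 1 :=
  Fin.insertNth_apply_same (α := fun _ => ℂ) j 1 w

theorem cpt_cover (q : Om (n + 1)) :
    ∃ (s : ℝ) (j : _) (w : _) (c : ℂ), c ≠ 0 ∧ q.1 = ((cpt s j w).1.1, c • (cpt s j w).1.2) := by
  obtain ⟨j, hj⟩ := Function.ne_iff.1 q.2
  have hj' : q.1.2 j ≠ 0 := hj
  refine ⟨q.1.1, j, fun a => q.1.2 (j.succAbove a) / q.1.2 j, q.1.2 j, hj, Prod.ext rfl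
    (funext fun a => ?_)⟩
  induction a using j.succAboveCases with
  | x => simp [cpt, chart]
  | p a => simp [cpt, chart, mul_div_cancel₀ _ hj']

theorem fderiv_chart (f : Sm (n + 1)) (s : ℝ) (j : Fin (n + 1)) (w : Fin n → ℂ) (a : Fin n)
    (c : ℂ) : fderiv ℝ (fun v => f.val (s, chart j v)) w (Pi.single a c) =
      ev (cpt s j w) (DD (0, Pi.single (j.succAbove a) c) f) := by
  let L : (Fin n → ℂ) →L[ℝ] (Fin (n + 1) → ℂ) := ContinuousLinearMap.pi
    (Fin.insertNth (α := fun _ => (Fin n → ℂ) →L[ℝ] ℂ) j 0 fun b => ContinuousLinearMap.proj b)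
  have h1 : HasFDerivAt (chart j) L w := by
    refine hasFDerivAt_pi.2 fun b => ?_
    induction b using j.succAboveCases with
    | x => simpa [chart] using hasFDerivAt_const (1 : ℂ) w
    | p b => simpa [chart] using hasFDerivAt_apply b w
  have h2 := HasFDerivAt.comp w (f.diffAt (cpt s j w).2).hasFDerivAt
    ((hasFDerivAt_const s w).prodMk h1)
  have h3 : L (Pi.single a c) = Pi.single (j.succAbove a) c := by
    funext b
    induction b using j.succAboveCases with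
    | x => simp [L]
    | p b => simp [L, Pi.single_apply]
  rw [ev_DD, ← h3]
  exact congrArg (fun T => T (Pi.single a c)) h2.fderiv

theorem dz_chart (f : Sm (n + 1)) (s : ℝ) (j : Fin (n + 1)) (w : Fin n → ℂ) (a : Fin n) :
    dz a (fun v => f.val (s, chart j v)) w = ev (cpt s j w) (d (j.succAbove a) f) := by
  rw [dz, fderiv_chart, fderiv_chart, d_apply]
  simp only [map_smul, map_sub, smul_eq_mul]
  ring

theorem dzb_chart (f : Sm (n + 1)) (s : ℝ) (j : Fin (n + 1)) (w : Fin n → ℂ) (a : Fin n) :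
    dzb a (fun v => f.val (s, chart j v)) w = ev (cpt s j w) (db (j.succAbove a) f) := by
  rw [dzb, fderiv_chart, fderiv_chart, db_apply]
  simp only [map_smul, map_add, smul_eq_mul]
  ring

theorem ddbar_chart (f : Sm (n + 1)) (s : ℝ) (j : Fin (n + 1)) {u : (Fin n → ℂ) → ℝ}
    (h : ∀ v, (u v : ℂ) = ev (cpt s j v) f) (w : Fin n → ℂ) :
    ddbar u w = ((hess f).map (ev (cpt s j w))).submatrix j.succAbove j.succAbove := by
  ext a b
  have h1 : (fun v => (u v : ℂ)) = fun v => f.val (s, chart j v) :=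
    funext fun v => (h v).trans (ev_eq _ _)
  have h2 : dzb b (fun v => f.val (s, chart j v)) =
      fun v => (db (j.succAbove b) f).val (s, chart j v) :=
    funext fun v => (dzb_chart f s j v b).trans (ev_eq _ _)
  rw [ddbar, of_apply, h1, h2, dz_chart]
  rfl

namespace Fam

variable {ψ : ℝ → (Fin (n + 1) → ℂ) → ℝ} (h : Fam ψ)

/-- the potential as a ring element -/
def Ψ : Sm (n + 1) :=
  Sm.mk (fun p => (ψ p.1 p.2 : ℂ)) (ofRealCLM.contDiff.comp_contDiffOn h.smooth)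

theorem ev_Ψ (p : Om (n + 1)) : ev p h.Ψ = (ψ p.1.1 p.1.2 : ℂ) := rfl

/-- the cone potential -/
def ρ : Sm (n + 1) := nrm * compR Real.exp h.Ψ fun _ => Real.contDiff_exp.contDiffAt

theorem cj_Ψ : cj h.Ψ = h.Ψ := by
  exact ext_ev fun p => by rw [ev_cj, ev_Ψ, conj_ofReal]

theorem cj_ρ : cj h.ρ = h.ρ := by
  rw [ρ, map_mul, cj_nrm, cj_compR]

theorem hom_Ψ : Hom 0 0 h.Ψ := by
  refine hom_of fun p q c hc e => ?_
  rw [ev_Ψ, ev_Ψ, e, h.inv _ c _ hc p.2]
  simp

theorem hom_ρ : Hom 1 1 h.ρ := by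
  refine hom_of fun p q c hc e => ?_
  simp only [ρ, map_mul, ev_compR, h.hom_Ψ.ev hc e, nrm, map_sum, ev_z, ev_zb, e, Pi.smul_apply,
    smul_eq_mul, zpow_zero, one_mul, zpow_one, ← mul_assoc, Finset.mul_sum]
  congr 1
  exact Finset.sum_congr rfl fun a _ => by ring

theorem ev_ρ (p : Om (n + 1)) :
    ev p h.ρ = (((∑ a, ‖p.1.2 a‖ ^ 2) * Real.exp (ψ p.1.1 p.1.2) : ℝ) : ℂ) := by
  rw [ρ, map_mul, ev_compR, ev_nrm, ev_Ψ, ofReal_re, ofReal_mul]

theorem DD_ρ (v : VV (n + 1)) (hv : DD v (nrm : Sm (n + 1)) = 0) : DD v h.ρ = h.ρ * DD v h.Ψ := by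
  rw [ρ, Derivation.leibniz, hv, DD_compR _ h.cj_Ψ]
  simp only [Real.deriv_exp, smul_eq_mul, mul_zero, add_zero, mul_assoc]

theorem ρ_pos (p : Om (n + 1)) : 0 < ev p h.ρ := by
  obtain ⟨j, hj⟩ := Function.ne_iff.1 p.2
  rw [ev_ρ]
  exact zero_lt_real.2 (mul_pos (Finset.sum_pos' (fun _ _ => by positivity)
    ⟨j, Finset.mem_univ _, pow_pos (norm_pos_iff.2 hj) 2⟩) (Real.exp_pos _))

/-- logarithm of the cone potential -/
def ell : Sm (n + 1) :=
  compR Real.log h.ρ fun p => Real.contDiffAt_log.2 (Complex.pos_iff.1 (h.ρ_pos p)).1.ne'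

theorem ρ_mul_ell : (∀ a, h.ρ * d a h.ell = d a h.ρ) ∧ ∀ a, h.ρ * db a h.ell = db a h.ρ := by
  have e : h.ρ * compR (deriv Real.log) h.ρ (compR_deriv fun p =>
      Real.contDiffAt_log.2 (Complex.pos_iff.1 (h.ρ_pos p)).1.ne') = 1 := ext_ev fun p => by
    rw [map_mul, ev_compR, Real.deriv_log, ofReal_inv, re_eq_ofReal_of_pos (h.ρ_pos p), map_one,
      mul_inv_cancel₀ (h.ρ_pos p).ne']
  exact ⟨fun a => by rw [ell, d_compR _ h.cj_ρ, ← mul_assoc, e, one_mul],
    fun a => by rw [ell, db_compR _ h.cj_ρ, ← mul_assoc, e, one_mul]⟩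

theorem euler_ell : ∑ a, z a * d a h.ell = algebraMap ℂ _ 1 := by
  refine (isUnit_of_ne fun p => (h.ρ_pos p).ne').mul_left_cancel ?_
  have := h.hom_ρ.euler
  simpa [Finset.mul_sum, mul_left_comm h.ρ, h.ρ_mul_ell.1] using this

theorem hess_ρ (p : Om (n + 1)) : (hess h.ρ).map (ev p) = ev p h.ρ • ((hess h.ell).map (ev p) +
    vecMulVec (fun a => ev p (d a h.ell)) (star fun a => ev p (d a h.ell))) := by
  ext a b
  have e : star (ev p (d b h.ell)) = ev p (db b h.ell) := by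
    rw [star_def, ← ev_cj, cj_d, ell, cj_compR]
  simp only [map_apply, hess, of_apply, Matrix.smul_apply, Matrix.add_apply, vecMulVec_apply,
    Pi.star_apply, e, smul_eq_mul]
  rw [← h.ρ_mul_ell.2, Derivation.leibniz, ← h.ρ_mul_ell.1]
  simp only [smul_eq_mul, map_add, map_mul]
  ring

theorem dot_ell (p : Om (n + 1)) : p.1.2 ⬝ᵥ (fun a => ev p (d a h.ell)) = 1 := by
  simpa [dotProduct] using congrArg (ev p) h.euler_ell

theorem ker_ell (p : Om (n + 1)) :
    p.1.2 ᵥ* (hess h.ell).map (ev p) = 0 ∧ (hess h.ell).map (ev p) *ᵥ star p.1.2 = 0 :=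
  hess_ker (cj_compR _ _ _) h.euler_ell p

theorem metric_eq (s : ℝ) (j : Fin (n + 1)) (w : Fin n → ℂ) : metric (ψ s) j w =
    ((hess h.ell).map (ev (cpt s j w))).submatrix j.succAbove j.succAbove := by
  refine ddbar_chart _ s j (fun v => ?_) w
  have e : ∑ a, ‖chart j v a‖ ^ 2 = 1 + ∑ a, ‖v a‖ ^ 2 := by
    simp [Fin.sum_univ_succAbove _ j, chart]
  rw [ell, ev_compR, ev_ρ, ofReal_re]
  change _ = ((Real.log ((∑ a, ‖chart j v a‖ ^ 2) * Real.exp (ψ s (chart j v))) : ℝ) : ℂ)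
  rw [e, Real.log_mul (by positivity) (Real.exp_pos _).ne', Real.log_exp]

theorem pd_iff (s : ℝ) (j : Fin (n + 1)) (w : Fin n → ℂ) :
    ((hess h.ρ).map (ev (cpt s j w))).PosDef ↔ (metric (ψ s) j w).PosDef := by
  have hρ := h.ρ_pos (cpt s j w)
  rw [h.metric_eq, ← cone_pd (cpt_one s j w) (h.ker_ell _).1
    (h.ker_ell _).2 (h.dot_ell _) (hess_herm (cj_compR _ _ _) _), h.hess_ρ]
  refine ⟨fun k => ?_, fun k => k.smul hρ⟩
  have := k.smul (inv_pos.2 hρ)
  rwa [inv_smul_smul₀ hρ.ne'] at this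

/-- Positivity in the charts is positivity on the cone. -/
theorem kahler_iff : (∀ s, IsKahler (ψ s)) ↔ ∀ p, ((hess h.ρ).map (ev p)).PosDef := by
  refine ⟨fun k q => ?_, fun k s j w => (h.pd_iff s j w).1 (k _)⟩
  obtain ⟨s, j, w, c, hc, e⟩ := cpt_cover q
  rw [h.hom_ρ.ev_hess hc e]
  simpa using (h.pd_iff s j w).2 (k s j w)

end Fam

namespace Flow

variable {ψ : ℝ → (Fin (n + 1) → ℂ) → ℝ} {c : ℝ} (h : Flow ψ c)

theorem posDef (p : Om (n + 1)) : ((hess h.toFam.ρ).map (ev p)).PosDef :=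
  h.toFam.kahler_iff.1 h.pos p

theorem det_pos (p : Om (n + 1)) : 0 < ev p (hess h.toFam.ρ).det := by
  rw [AlgHom.map_det]
  exact (h.posDef p).det_pos

/-- the cone data of a flow -/
def cone : Cone (Sm (n + 1)) (Fin (n + 1)) where
  d := d
  db := db
  z := z
  zb := zb
  ρ := h.toFam.ρ
  d_d := d_d
  d_db := d_db
  db_db := db_db
  d_z := d_z
  db_z := db_z
  d_zb := d_zb
  db_zb := db_zb
  euler := by simpa using h.toFam.hom_ρ.euler
  eulerb := by simpa using h.toFam.hom_ρ.eulerb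
  unit := isUnit_of_ne fun p => (h.det_pos p).ne'

theorem cone_G : h.cone.G = hess h.toFam.ρ := rfl

/-- logarithm of the volume form -/
def Λ : Sm (n + 1) :=
  compR Real.log h.cone.G.det fun p =>
    Real.contDiffAt_log.2 (Complex.pos_iff.1 (h.det_pos p)).1.ne'

theorem cj_det : cj h.cone.G.det = h.cone.G.det := by
  exact ext_ev fun p => by
    rw [ev_cj]
    exact conj_eq_iff_re.2 (re_eq_ofReal_of_pos (h.det_pos p))

theorem DD_Λ (v : VV (n + 1)) : DD v h.Λ * h.cone.G.det = DD v h.cone.G.det := by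
  rw [Λ, DD_compR _ h.cj_det, mul_right_comm]
  refine ext_ev fun p => ?_
  have := h.det_pos p
  rw [map_mul, map_mul, ev_compR, Real.deriv_log, ofReal_inv, cone_G, re_eq_ofReal_of_pos this,
    inv_mul_cancel₀ this.ne', one_mul]

theorem inv_of_hom {f : Sm (n + 1)} (hf : Hom 0 0 f) : h.cone.Inv f :=
  ⟨hf.euler.trans (by simp), hf.eulerb.trans (by simp)⟩

theorem hom_Λ : Hom 0 0 h.Λ := by
  refine hom_of fun p q c hc e => ?_
  rw [Λ, ev_compR, ev_compR, AlgHom.map_det, AlgHom.map_det, AlgHom.mapMatrix_apply,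
    AlgHom.mapMatrix_apply, cone_G, h.toFam.hom_ρ.ev_hess hc e]
  simp

theorem ev_L (f : Sm (n + 1)) (p : Om (n + 1)) : ev p (h.cone.L f) =
    ev p h.toFam.ρ * (((hess h.toFam.ρ).map (ev p))⁻¹ * (hess f).map (ev p)).trace := by
  rw [Cone.L, map_mul, ← ev_inv (M := hess h.toFam.ρ) h.cone.unit, ← Matrix.map_mul]
  exact congrArg _ (AddMonoidHom.map_trace (ev p) _)

theorem cj_L {f : Sm (n + 1)} (hf : cj f = f) : cj (h.cone.L f) = h.cone.L f := by
  refine ext_ev fun p => ?_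
  rw [ev_cj, ev_L, map_mul, ← ev_cj, h.toFam.cj_ρ, ← star_def, ← trace_conjTranspose,
    conjTranspose_mul, (hess_herm hf p).eq, (hess_herm h.toFam.cj_ρ p).inv.eq, trace_mul_comm]

theorem hom_L {f : Sm (n + 1)} (hf : Hom 0 0 f) : Hom 0 0 (h.cone.L f) := by
  refine hom_of fun p q c hc e => ?_
  have hc' : conj c ≠ 0 := (map_ne_zero _).2 hc
  rw [ev_L, ev_L, h.toFam.hom_ρ.ev hc e, h.toFam.hom_ρ.ev_hess hc e, hf.ev_hess hc e]
  simp only [sub_self, zpow_zero, mul_one, one_smul, Matrix.mul_smul, trace_smul, smul_eq_mul,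
    zero_sub, _root_.zpow_neg_one, zpow_one]
  field_simp

theorem det_chart (s : ℝ) (j : Fin (n + 1)) (v : Fin n → ℂ) : ev (cpt s j v) h.cone.G.det =
    ev (cpt s j v) h.toFam.ρ ^ (n + 1) * (metric (ψ s) j v).det := by
  rw [AlgHom.map_det, AlgHom.mapMatrix_apply, cone_G, h.toFam.hess_ρ, det_smul, Fintype.card_fin,
    cone_det (cpt_one s j v) (h.toFam.ker_ell _).1 (h.toFam.ker_ell _).2 (h.toFam.dot_ell _),
    h.toFam.metric_eq]

theorem ricci_eq (s : ℝ) (j : Fin (n + 1)) (w : Fin n → ℂ) :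
    ricci (ψ s) j w = ((n : ℂ) + 1) • metric (ψ s) j w -
      ((hess h.Λ).map (ev (cpt s j w))).submatrix j.succAbove j.succAbove := by
  have h1 := ddbar_chart (h.Λ - ((n : ℂ) + 1) • h.toFam.ell) s j
    (u := fun v => Real.log (metric (ψ s) j v).det.re) (fun v => by
      have a1 := h.toFam.ρ_pos (cpt s j v)
      have a2 := (h.pos s j v).det_pos
      have a3 : (ev (cpt s j v) h.cone.G.det).re =
          (ev (cpt s j v) h.toFam.ρ).re ^ (n + 1) * (metric (ψ s) j v).det.re :=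
        ofReal_injective (by
          rw [ofReal_mul, ofReal_pow, re_eq_ofReal_of_pos a1, re_eq_ofReal_of_pos a2, ← det_chart]
          exact re_eq_ofReal_of_pos (h.det_pos _))
      rw [map_sub, map_smul, Λ, Fam.ell, ev_compR, ev_compR, a3,
        Real.log_mul (pow_pos (Complex.pos_iff.1 a1).1 _).ne' (Complex.pos_iff.1 a2).1.ne',
        Real.log_pow, smul_eq_mul]
      push_cast
      ring) w
  rw [ricci, h1, h.toFam.metric_eq]
  ext a b
  simp only [hess, Matrix.neg_apply, submatrix_apply, map_apply, of_apply, Matrix.sub_apply,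
    Matrix.smul_apply, map_sub, Derivation.map_smul, map_smul, neg_sub]

theorem L_chart {f : Sm (n + 1)} (hf : Hom 0 0 f) (hc : cj f = f) (s : ℝ) (j : Fin (n + 1))
    (w : Fin n → ℂ) : ev (cpt s j w) (h.cone.L f) = ((metric (ψ s) j w)⁻¹ *
      ((hess f).map (ev (cpt s j w))).submatrix j.succAbove j.succAbove).trace := by
  have a1 := (h.toFam.ρ_pos (cpt s j w)).ne'
  have k := hess_ker hc (c := 0) (hf.euler.trans (by simp)) (cpt s j w)
  have a2 := (h.posDef (cpt s j w)).det_pos.ne'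
  rw [h.toFam.hess_ρ, det_smul] at a2
  have := invertibleOfNonzero a1
  rw [ev_L, h.toFam.hess_ρ, inv_smul _ _ (right_ne_zero_of_mul a2).isUnit, Matrix.smul_mul,
    trace_smul, smul_eq_mul, mul_invOf_cancel_left, h.toFam.metric_eq]
  exact cone_trace (cpt_one s j w) (h.toFam.ker_ell _).1 (h.toFam.ker_ell _).2
    (h.toFam.dot_ell _) k.1 k.2 (right_ne_zero_of_mul a2)

theorem scal_eq (s : ℝ) (j : Fin (n + 1)) (w : Fin n → ℂ) :
    (scal (ψ s) j w : ℂ) = n * (n + 1) - ev (cpt s j w) (h.cone.L h.Λ) := by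
  have hc : cj h.Λ = h.Λ := cj_compR _ _ _
  rw [scal, ricci_eq h, Matrix.mul_sub, Matrix.mul_smul,
    nonsing_inv_mul _ (h.pos s j w).det_pos.ne'.isUnit, trace_sub, trace_smul, trace_one,
    Fintype.card_fin, ← h.L_chart h.hom_Λ hc, smul_eq_mul, mul_comm]
  refine conj_eq_iff_re.1 ?_
  rw [map_sub, ← ev_cj, h.cj_L hc]
  simp

/-- The flow equation on the cone. -/
theorem cone_eq : dt h.toFam.Ψ =
    2 * tt * (algebraMap ℂ _ ((n : ℂ) * (n + 1) - c) - h.cone.L h.Λ) := by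
  refine ext_ev fun q => ?_
  obtain ⟨s, j, w, a, ha, e⟩ := cpt_cover q
  have h1 := (hasDerivAt_time h.toFam.Ψ s (chart_ne j w)).unique
    ((h.eq s j w).ofReal_comp.congr_of_eventuallyEq (Filter.Eventually.of_forall fun r =>
      val_mk _ _ (chart_ne j w)))
  rw [h.toFam.hom_Ψ.dt.ev ha e, ev_eq (cpt s j w), map_mul, map_mul, map_sub,
    (h.hom_L h.hom_Λ).ev ha e, ev_tt, e, AlgHom.commutes, map_ofNat,
    Algebra.algebraMap_self_apply]
  refine (congrArg _ h1).trans ?_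
  push_cast
  rw [h.scal_eq, zpow_zero, zpow_zero]
  change _ = 2 * (s : ℂ) * _
  ring

end Flow

end Vale.Agent.P264
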