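import Vale.Agent.P264.Data
import Vale.Agent.P264.CkE
import Vale.Agent.P264.DU
import Vale.Agent.P264.DZ
import Vale.Agent.P264.DS
import Vale.Agent.P264.DB

/-! The data of the certificate. -/

open Set Polynomial

noncomputable section

namespace Vale.Agent.P264.Ck

/-- expressions without variables -/
def closed : E → Bool
  | .v _ => false
  | .add a b => closed a && closed b
  | .mul a b => closed a && closed b
  | .neg a => closed a
  | .half _ a => closed a
  | .dx a => closed a
  | .tight a => closed a
  | .at1 a => closed a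
  | _ => true

theorem den_closed (ρ : List ℝ[X]) {e : E} (h : closed e = true) : den ρ e = den [] e := by
  induction e <;> simp_all [closed, den]

/-- the data -/
def dat : Data where
  U := den [] eU
  m := fun i => match i with
    | 0 => den [] em0
    | 1 => den [] em1
    | 2 => den [] em2
    | _ => den [] em3
  q00 := den [] eq00
  pC := fun i => match i with
    | 1 => den [] eC1
    | _ => den [] eC2
  pD := fun i j => match i, j with
    | 1, 1 => den [] eD11
    | 1, 2 => den [] eD12
    | 1, 3 => den [] eD13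
    | 1, 4 => den [] eD14
    | 2, 2 => den [] eD22
    | 2, 3 => den [] eD23
    | 2, 4 => den [] eD24
    | 3, 3 => den [] eD33
    | 3, 4 => den [] eD34
    | _, _ => den [] eD44
  P := fun i j => match i, j with
    | 0, 0 => den [] eP00
    | 0, 1 => den [] eP01
    | _, _ => den [] eP11
  R := fun i j => match i, j with
    | 0, 0 => den [] eR00
    | 0, 1 => den [] eR01
    | 0, 2 => den [] eR02
    | 1, 0 => den [] eR10
    | 1, 1 => den [] eR11
    | _, _ => den [] eR12
  t2 := fun i j => match i, j with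
    | 0, 0 => den [] et00
    | 0, 1 => den [] et01
    | 0, 2 => den [] et02
    | 1, 1 => den [] et11
    | 1, 2 => den [] et12
    | _, _ => den [] et22
  P2 := fun i j => match i, j with
    | 0, 0 => den [] ep00
    | 0, 1 => den [] ep01
    | _, _ => den [] ep11
  R2 := fun i j => match i, j with
    | 0, 0 => den [] er00
    | 0, 1 => den [] er01
    | 0, 2 => den [] er02
    | 1, 0 => den [] er10
    | 1, 1 => den [] er11
    | _, _ => den [] er12
  ct := fun i => match i with
    | 0 => den [] eZ0
    | _ => den [] eZ1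
  eig := fun i => match i with
    | 0 => (den [] eL0).eval 0
    | _ => (den [] eL1).eval 0
  dir := fun i => match i with
    | 0 => 30 - 160 * X
    | _ => -328 + 966 * X

variable (ρ : List ℝ[X])

theorem c_eU : den ρ eU = dat.U := den_closed ρ (by decide +kernel)

theorem c_eZ0 : den ρ eZ0 = dat.ct 0 := den_closed ρ (by decide +kernel)

theorem c_eZ1 : den ρ eZ1 = dat.ct 1 := den_closed ρ (by decide +kernel)

theorem c_eq00 : den ρ eq00 = dat.q00 := den_closed ρ (by decide +kernel)

theorem c_eC1 : den ρ eC1 = dat.pC 1 := den_closed ρ (by decide +kernel)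

theorem c_eC2 : den ρ eC2 = dat.pC 2 := den_closed ρ (by decide +kernel)

theorem c_em0 : den ρ em0 = dat.m 0 := den_closed ρ (by decide +kernel)

theorem c_em1 : den ρ em1 = dat.m 1 := den_closed ρ (by decide +kernel)

theorem c_em2 : den ρ em2 = dat.m 2 := den_closed ρ (by decide +kernel)

theorem c_em3 : den ρ em3 = dat.m 3 := den_closed ρ (by decide +kernel)

theorem c_eD11 : den ρ eD11 = dat.pD 1 1 := den_closed ρ (by decide +kernel)

theorem c_eD12 : den ρ eD12 = dat.pD 1 2 := den_closed ρ (by decide +kernel)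

theorem c_eD13 : den ρ eD13 = dat.pD 1 3 := den_closed ρ (by decide +kernel)

theorem c_eD14 : den ρ eD14 = dat.pD 1 4 := den_closed ρ (by decide +kernel)

theorem c_eD22 : den ρ eD22 = dat.pD 2 2 := den_closed ρ (by decide +kernel)

theorem c_eD23 : den ρ eD23 = dat.pD 2 3 := den_closed ρ (by decide +kernel)

theorem c_eD24 : den ρ eD24 = dat.pD 2 4 := den_closed ρ (by decide +kernel)

theorem c_eD33 : den ρ eD33 = dat.pD 3 3 := den_closed ρ (by decide +kernel)

theorem c_eD34 : den ρ eD34 = dat.pD 3 4 := den_closed ρ (by decide +kernel)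

theorem c_eD44 : den ρ eD44 = dat.pD 4 4 := den_closed ρ (by decide +kernel)

theorem c_eP00 : den ρ eP00 = dat.P 0 0 := den_closed ρ (by decide +kernel)

theorem c_eP01 : den ρ eP01 = dat.P 0 1 := den_closed ρ (by decide +kernel)

theorem c_eP11 : den ρ eP11 = dat.P 1 1 := den_closed ρ (by decide +kernel)

theorem c_ep00 : den ρ ep00 = dat.P2 0 0 := den_closed ρ (by decide +kernel)

theorem c_ep01 : den ρ ep01 = dat.P2 0 1 := den_closed ρ (by decide +kernel)

theorem c_ep11 : den ρ ep11 = dat.P2 1 1 := den_closed ρ (by decide +kernel)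

theorem c_eR00 : den ρ eR00 = dat.R 0 0 := den_closed ρ (by decide +kernel)

theorem c_eR01 : den ρ eR01 = dat.R 0 1 := den_closed ρ (by decide +kernel)

theorem c_eR02 : den ρ eR02 = dat.R 0 2 := den_closed ρ (by decide +kernel)

theorem c_eR10 : den ρ eR10 = dat.R 1 0 := den_closed ρ (by decide +kernel)

theorem c_eR11 : den ρ eR11 = dat.R 1 1 := den_closed ρ (by decide +kernel)

theorem c_eR12 : den ρ eR12 = dat.R 1 2 := den_closed ρ (by decide +kernel)

theorem c_er00 : den ρ er00 = dat.R2 0 0 := den_closed ρ (by decide +kernel)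

theorem c_er01 : den ρ er01 = dat.R2 0 1 := den_closed ρ (by decide +kernel)

theorem c_er02 : den ρ er02 = dat.R2 0 2 := den_closed ρ (by decide +kernel)

theorem c_er10 : den ρ er10 = dat.R2 1 0 := den_closed ρ (by decide +kernel)

theorem c_er11 : den ρ er11 = dat.R2 1 1 := den_closed ρ (by decide +kernel)

theorem c_er12 : den ρ er12 = dat.R2 1 2 := den_closed ρ (by decide +kernel)

theorem c_et00 : den ρ et00 = dat.t2 0 0 := den_closed ρ (by decide +kernel)

theorem c_et01 : den ρ et01 = dat.t2 0 1 := den_closed ρ (by decide +kernel)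

theorem c_et02 : den ρ et02 = dat.t2 0 2 := den_closed ρ (by decide +kernel)

theorem c_et11 : den ρ et11 = dat.t2 1 1 := den_closed ρ (by decide +kernel)

theorem c_et12 : den ρ et12 = dat.t2 1 2 := den_closed ρ (by decide +kernel)

theorem c_et22 : den ρ et22 = dat.t2 2 2 := den_closed ρ (by decide +kernel)

theorem c_eB0 : den ρ eB0 = den [] eB0 := den_closed ρ (by decide +kernel)

theorem c_eB1 : den ρ eB1 = den [] eB1 := den_closed ρ (by decide +kernel)

theorem c_eB2 : den ρ eB2 = den [] eB2 := den_closed ρ (by decide +kernel)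

theorem c_eB3 : den ρ eB3 = den [] eB3 := den_closed ρ (by decide +kernel)

theorem c_eL0 : den ρ eL0 = C (dat.eig 0) := by
  change _ = C ((den [] eL0).eval 0)
  simp only [eL0, den, ← C_mul, eval_C]

theorem c_eL1 : den ρ eL1 = C (dat.eig 1) := by
  change _ = C ((den [] eL1).eval 0)
  simp only [eL1, den, ← C_mul, eval_C]

theorem dat_eig : ∀ k ≤ 1, 1 / 2 ≤ dat.eig k ∧ dat.eig k ≤ 2 := by
  intro k hk
  obtain rfl | rfl : k = 0 ∨ k = 1 := by omega
  · change 1 / 2 ≤ (den [] eL0).eval 0 ∧ (den [] eL0).eval 0 ≤ 2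
    simp only [eL0, den, ← C_mul, eval_C]
    norm_num
  · change 1 / 2 ≤ (den [] eL1).eval 0 ∧ (den [] eL1).eval 0 ≤ 2
    simp only [eL1, den, ← C_mul, eval_C]
    norm_num

theorem bd_of {u v c b : ℝ} {p q : ℕ} (h : |u| * q < p) (hc : 0 < c) (e : u = c * v)
    (hpq : (p : ℝ) ≤ c * b * q) : |v| < b := by
  rw [e, abs_mul, abs_of_pos hc] at h
  by_contra hb
  have := mul_le_mul_of_nonneg_right (mul_le_mul_of_nonneg_left (not_lt.1 hb) hc.le)
    (Nat.cast_nonneg (α := ℝ) q)
  linarith

end Vale.Agent.P264.Ck
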