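import Mathlib

/-! Kähler metrics in the Fubini-Study class on complex projective space, in affine charts. -/

open scoped ComplexOrder

noncomputable section

namespace Vale.Agent.P264

variable {n : ℕ}

/-- The Wirtinger derivative in the variable `z j`. -/
def dz (j : Fin n) (u : (Fin n → ℂ) → ℂ) (z : Fin n → ℂ) : ℂ :=
  (fderiv ℝ u z (Pi.single j 1) - Complex.I * fderiv ℝ u z (Pi.single j Complex.I)) / 2

/-- The Wirtinger derivative in the conjugate of the variable `z j`. -/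
def dzb (j : Fin n) (u : (Fin n → ℂ) → ℂ) (z : Fin n → ℂ) : ℂ :=
  (fderiv ℝ u z (Pi.single j 1) + Complex.I * fderiv ℝ u z (Pi.single j Complex.I)) / 2

/-- The complex Hessian of a real function. -/
def ddbar (u : (Fin n → ℂ) → ℝ) (z : Fin n → ℂ) : Matrix (Fin n) (Fin n) ℂ :=
  Matrix.of fun j k => dz j (dzb k fun w => (u w : ℂ)) z

/-- The affine chart `Z j = 1` of projective space, in homogeneous coordinates. -/
def chart (j : Fin (n + 1)) (w : Fin n → ℂ) : Fin (n + 1) → ℂ :=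
  Fin.insertNth (α := fun _ => ℂ) j 1 w

/-- Coefficients in the chart `j` of the form: Fubini-Study form plus `i ∂∂̄ ψ`. -/
def metric (ψ : (Fin (n + 1) → ℂ) → ℝ) (j : Fin (n + 1)) (w : Fin n → ℂ) :
    Matrix (Fin n) (Fin n) ℂ :=
  ddbar (fun v => Real.log (1 + ∑ a, ‖v a‖ ^ 2) + ψ (chart j v)) w

/-- Coefficients of the Ricci form in the chart `j`. -/
def ricci (ψ : (Fin (n + 1) → ℂ) → ℝ) (j : Fin (n + 1)) (w : Fin n → ℂ) :
    Matrix (Fin n) (Fin n) ℂ :=
  -ddbar (fun v => Real.log (metric ψ j v).det.re) w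

/-- Scalar curvature: the trace of the Ricci form with respect to the metric. -/
def scal (ψ : (Fin (n + 1) → ℂ) → ℝ) (j : Fin (n + 1)) (w : Fin n → ℂ) : ℝ :=
  ((metric ψ j w)⁻¹ * ricci ψ j w).trace.re

/-- `ψ` descends to projective space. -/
def Invariant (ψ : (Fin (n + 1) → ℂ) → ℝ) : Prop :=
  ∀ (c : ℂ) (Z : Fin (n + 1) → ℂ), c ≠ 0 → Z ≠ 0 → ψ (c • Z) = ψ Z

/-- The form is positive in every chart. -/
def IsKahler (ψ : (Fin (n + 1) → ℂ) → ℝ) : Prop :=
  ∀ (j : Fin (n + 1)) (w : Fin n → ℂ), (metric ψ j w).PosDef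

end Vale.Agent.P264
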