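import Vale.Agent.P264.Ring

/-! Integration over time slices of ring elements supported in shells. -/

open scoped ContDiff ComplexConjugate Topology
open Set Complex MeasureTheory

noncomputable section

namespace Vale.Agent.P264

namespace Sm

variable {N : ℕ}

/-- support in a compact shell, locally uniformly in time -/
def CS (f : Sm N) : Prop :=
  ∀ S : ℝ, ∃ a b : ℝ, 0 < a ∧ ∀ p : Om N, |p.1.1| ≤ S → ev p f ≠ 0 → a ≤ ‖p.1.2‖ ∧ ‖p.1.2‖ ≤ b

/-- integral over a time slice -/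
def II (s : ℝ) (f : Sm N) : ℂ := ∫ Z : Fin N → ℂ, f.val (s, Z)

theorem integ_ext {f : Sm N} {F : VV N → ℂ} (h : ∀ p : Om N, ev p f = F p)
    (h0 : ∀ p, p ∉ Om N → F p = 0) (p : VV N) : f.val p = F p := by
  by_cases hp : p ∈ Om N
  · exact (val_eq f hp).trans (h ⟨p, hp⟩)
  · rw [val_of_notMem f hp, h0 p hp]

theorem integ_add (f g : Sm N) (p : VV N) : (f + g).val p = f.val p + g.val p :=
  integ_ext (F := fun p => f.val p + g.val p) (fun p => by rw [map_add, ev_eq, ev_eq])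
    (fun p hp => by rw [val_of_notMem f hp, val_of_notMem g hp, add_zero]) p

theorem integ_smul (c : ℂ) (f : Sm N) (p : VV N) : (c • f).val p = c * f.val p :=
  integ_ext (F := fun p => c * f.val p) (fun p => by rw [map_smul, ev_eq, smul_eq_mul])
    (fun p hp => by rw [val_of_notMem f hp, mul_zero]) p

theorem CS.of_ne {f g : Sm N} (hf : CS f) (h : ∀ p, ev p g ≠ 0 → ev p f ≠ 0) : CS g := fun S =>
  (hf S).imp fun _ => Exists.imp fun _ hb => ⟨hb.1, fun p hp hg => hb.2 p hp (h p hg)⟩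

theorem CS.near {f : Sm N} (hf : CS f) (S : ℝ) : ∃ a b : ℝ, 0 < a ∧ ∀ p : VV N, |p.1| ≤ S →
    ‖p.2‖ < a ∨ b < ‖p.2‖ → f.val =ᶠ[𝓝 p] fun _ => 0 := by
  obtain ⟨a, b, ha, h⟩ := hf (S + 1)
  refine ⟨a, b, ha, fun p hp hp' => ?_⟩
  have h1 : IsOpen {q : VV N | |q.1| < S + 1 ∧ (‖q.2‖ < a ∨ b < ‖q.2‖)} :=
    (isOpen_lt continuous_fst.abs continuous_const).and
      (IsOpen.union (isOpen_lt continuous_snd.norm continuous_const)
        (isOpen_lt continuous_const continuous_snd.norm))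
  filter_upwards [h1.mem_nhds ⟨by linarith, hp'⟩] with q hq
  by_cases hq' : q ∈ Om N
  · by_contra h2
    have h3 := h ⟨q, hq'⟩ hq.1.le fun h3 => h2 ((val_eq f hq').trans h3)
    exact hq.2.elim h3.1.not_gt h3.2.not_gt
  · exact val_of_notMem f hq'

theorem CS.near0 {f : Sm N} (hf : CS f) {p : VV N} (hp : p ∉ Om N) : f.val =ᶠ[𝓝 p] fun _ => 0 := by
  obtain ⟨a, b, ha, h⟩ := hf.near |p.1|
  exact h p le_rfl (Or.inl (by rwa [not_not.1 hp, norm_zero]))

theorem CS.contDiff {f : Sm N} (hf : CS f) : ContDiff ℝ ∞ f.val :=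
  contDiff_iff_contDiffAt.2 fun p => by
    by_cases hp : p ∈ Om N
    · exact f.smoothAt hp
    · exact contDiffAt_const.congr_of_eventuallyEq (hf.near0 hp)

theorem CS.val_DD {f : Sm N} (hf : CS f) (v p : VV N) : (DD v f).val p = fderiv ℝ f.val p v :=
  integ_ext (F := fun p => fderiv ℝ f.val p v) (fun p => ev_DD v p f)
    (fun p hp => by rw [(hf.near0 hp).fderiv_eq, fderiv_fun_const]; rfl) p

theorem CS.cont {f : Sm N} (hf : CS f) (s : ℝ) : Continuous fun Z : Fin N → ℂ => f.val (s, Z) :=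
  hf.contDiff.continuous.comp (Continuous.prodMk_right s)

theorem CS.cpt {f : Sm N} (hf : CS f) (s : ℝ) :
    HasCompactSupport fun Z : Fin N → ℂ => f.val (s, Z) := by
  obtain ⟨a, b, -, h⟩ := hf.near |s|
  exact HasCompactSupport.intro (isCompact_closedBall 0 b) fun Z hZ =>
    (h (s, Z) le_rfl (Or.inr (not_le.1 fun h' => hZ (mem_closedBall_zero_iff.2 h')))).eq_of_nhds

theorem integ_shell (S : ℝ) {a : ℝ} (ha : 0 < a) (b : ℝ) : ∃ K : Set (VV N), IsCompact K ∧
    K ⊆ Om N ∧ ∀ p : VV N, |p.1| ≤ S → a ≤ ‖p.2‖ ∧ ‖p.2‖ ≤ b → p ∈ K :=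
  ⟨Icc (-S) S ×ˢ (Metric.closedBall 0 b ∩ {Z | a ≤ ‖Z‖}), isCompact_Icc.prod
    ((isCompact_closedBall 0 b).inter_right (isClosed_le continuous_const continuous_norm)),
    fun _ hp => norm_pos_iff.1 (ha.trans_le hp.2.2),
    fun _ h1 h2 => ⟨abs_le.1 h1, mem_closedBall_zero_iff.2 h2.2, h2.1⟩⟩

theorem CS.zero : CS (0 : Sm N) := by
  exact fun _ => ⟨1, 1, one_pos, fun p _ h => absurd (map_zero _) h⟩

theorem CS.add {f g : Sm N} (hf : CS f) (hg : CS g) : CS (f + g) := by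
  intro S
  obtain ⟨a, b, ha, h⟩ := hf S
  obtain ⟨a', b', ha', h'⟩ := hg S
  refine ⟨min a a', max b b', lt_min ha ha', fun p hp h0 => ?_⟩
  by_cases h1 : ev p f = 0
  · have h2 := h' p hp fun h2 => h0 (by rw [map_add, h1, h2, add_zero])
    exact ⟨(min_le_right _ _).trans h2.1, h2.2.trans (le_max_right _ _)⟩
  · exact ⟨(min_le_left _ _).trans (h p hp h1).1, (h p hp h1).2.trans (le_max_left _ _)⟩

theorem CS.mul_right {f : Sm N} (hf : CS f) (g : Sm N) : CS (f * g) := by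
  exact hf.of_ne fun p h h0 => h (by rw [map_mul, h0, zero_mul])

theorem CS.mul_left {f : Sm N} (hf : CS f) (g : Sm N) : CS (g * f) := by
  exact hf.of_ne fun p h h0 => h (by rw [map_mul, h0, mul_zero])

theorem CS.smul {f : Sm N} (hf : CS f) (c : ℂ) : CS (c • f) := by
  exact hf.of_ne fun p h h0 => h (by rw [map_smul, h0, smul_zero])

theorem CS.neg {f : Sm N} (hf : CS f) : CS (-f) := by
  exact hf.of_ne fun p h h0 => h (by rw [map_neg, h0, neg_zero])

theorem CS.sum {ι : Type} (t : Finset ι) {f : ι → Sm N} (hf : ∀ i ∈ t, CS (f i)) :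
    CS (∑ i ∈ t, f i) := by
  exact Finset.sum_induction f CS (fun _ _ => CS.add) CS.zero hf

theorem CS.DD {f : Sm N} (hf : CS f) (v : VV N) : CS (DD v f) := by
  intro S
  obtain ⟨a, b, ha, h⟩ := hf.near S
  refine ⟨a, b, ha, fun p hp h0 => ?_⟩
  by_contra h1
  rw [not_and_or, not_le, not_le] at h1
  refine h0 ?_
  rw [ev_DD, (h p hp h1).fderiv_eq, fderiv_fun_const]
  rfl

theorem CS.integrable {f : Sm N} (hf : CS f) (s : ℝ) :
    Integrable fun Z : Fin N → ℂ => f.val (s, Z) := by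
  exact (hf.cont s).integrable_of_hasCompactSupport (hf.cpt s)

theorem II_add {f g : Sm N} (hf : CS f) (hg : CS g) (s : ℝ) :
    II s (f + g) = II s f + II s g := by
  simp only [II, integ_add]
  exact integral_add (hf.integrable s) (hg.integrable s)

theorem II_smul (c : ℂ) (f : Sm N) (s : ℝ) : II s (c • f) = c * II s f := by
  simp only [II, integ_smul]
  exact integral_const_mul _ _

theorem II_tt (f : Sm N) (s : ℝ) : II s (tt * f) = s * II s f := by
  rw [II, II, ← integral_const_mul]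
  refine integral_congr_ae (Filter.Eventually.of_forall fun Z => ?_)
  exact integ_ext (F := fun p => p.1 * f.val p) (fun p => by rw [map_mul, ev_tt, ev_eq])
    (fun p hp => by rw [val_of_notMem f hp, mul_zero]) (s, Z)

theorem II_sum {ι : Type} (t : Finset ι) {f : ι → Sm N} (hf : ∀ i ∈ t, CS (f i)) (s : ℝ) :
    II s (∑ i ∈ t, f i) = ∑ i ∈ t, II s (f i) := by
  classical
  induction t using Finset.induction_on with
  | empty => simpa using II_smul 0 (0 : Sm N) s
  | insert a t ha ih =>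
    have h1 := fun i hi => hf i (Finset.mem_insert_of_mem hi)
    rw [Finset.sum_insert ha, Finset.sum_insert ha,
      II_add (hf a (Finset.mem_insert_self _ _)) (CS.sum t h1), ih h1]

theorem II_DD {f : Sm N} (hf : CS f) (ξ : Fin N → ℂ) (s : ℝ) : II s (DD (0, ξ) f) = 0 := by
  have h1 : ∀ Z, HasFDerivAt (fun W : Fin N → ℂ => f.val (s, W))
      ((fderiv ℝ f.val (s, Z)).comp (ContinuousLinearMap.inr ℝ ℝ _)) Z := fun Z =>
    (hf.contDiff.differentiable (by simp) (s, Z)).hasFDerivAt.comp Z (hasFDerivAt_prodMk_right s Z)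
  have h2 : ∀ Z, (DD (0, ξ) f).val (s, Z) =
      1 * fderiv ℝ (fun W : Fin N → ℂ => f.val (s, W)) Z ξ := fun Z => by
    rw [hf.val_DD, (h1 Z).fderiv, one_mul]
    rfl
  have h3 := (hf.DD (0, ξ)).integrable s
  simp only [II, h2] at h3 ⊢
  rw [integral_mul_fderiv_eq_neg_fderiv_mul_of_integrable (f := fun _ => 1) (by simp) h3
    (by simpa using hf.integrable s) (fun _ _ => differentiableAt_const _)
    fun Z _ => (h1 Z).differentiableAt]
  simp

theorem II_d {f : Sm N} (hf : CS f) (a : Fin N) (s : ℝ) : II s (d a f) = 0 := by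
  rw [d_apply, II_smul, sub_eq_add_neg, ← neg_smul, II_add (hf.DD _) ((hf.DD _).smul _), II_smul,
    II_DD hf, II_DD hf, mul_zero, add_zero, mul_zero]

theorem II_db {f : Sm N} (hf : CS f) (a : Fin N) (s : ℝ) : II s (db a f) = 0 := by
  rw [db_apply, II_smul, II_add (hf.DD _) ((hf.DD _).smul _), II_smul, II_DD hf, II_DD hf, mul_zero,
    add_zero, mul_zero]

theorem II_hasDerivAt {f : Sm N} (hf : CS f) (s : ℝ) :
    HasDerivAt (fun r => II r f) (II s (dt f)) s := by
  have hd : CS (dt f) := hf.DD _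
  obtain ⟨a, b, -, h⟩ := hd.near (|s| + 1)
  obtain ⟨C, hC⟩ := (isCompact_closedBall s 1).prod (isCompact_closedBall (0 : Fin N → ℂ) b)
    |>.exists_bound_of_continuousOn hd.contDiff.continuous.continuousOn
  refine (hasDerivAt_integral_of_dominated_loc_of_deriv_le (F' := fun r Z => (dt f).val (r, Z))
    (bound := (Metric.closedBall 0 b).indicator fun _ => C) (Metric.closedBall_mem_nhds s one_pos)
    (Filter.Eventually.of_forall fun r => (hf.cont r).aestronglyMeasurable) (hf.integrable s)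
    (hd.cont s).aestronglyMeasurable (Filter.Eventually.of_forall fun Z r hr => ?_)
    ((integrable_indicator_iff measurableSet_closedBall).2
      (integrableOn_const measure_closedBall_lt_top.ne))
    (Filter.Eventually.of_forall fun Z r _ => ?_)).2
  · by_cases hZ : Z ∈ Metric.closedBall 0 b
    · rw [indicator_of_mem hZ]
      exact hC (r, Z) ⟨hr, hZ⟩
    · have h1 : |r - s| ≤ 1 := hr
      rw [indicator_of_notMem hZ, (h (r, Z) (by linarith [abs_sub_abs_le_abs_sub r s])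
        (Or.inr (not_le.1 fun h' => hZ (mem_closedBall_zero_iff.2 h')))).eq_of_nhds, norm_zero]
  · rw [dt, hf.val_DD]
    exact (hf.contDiff.differentiable (by simp) (r, Z)).hasFDerivAt.comp_hasDerivAt r
      ((hasDerivAt_id r).prodMk (hasDerivAt_const r Z))

theorem II_mono {f g : Sm N} (hf : CS f) (hg : CS g) (s : ℝ)
    (h : ∀ p : Om N, p.1.1 = s → (ev p f).re ≤ (ev p g).re) : (II s f).re ≤ (II s g).re := by
  refine (integral_re (hf.integrable s)).symm.trans_le (le_trans (integral_mono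
    (hf.integrable s).re (hg.integrable s).re fun Z => ?_) (integral_re (hg.integrable s)).le)
  by_cases hp : ((s, Z) : VV N) ∈ Om N
  · simp only [val_eq _ hp]
    exact h _ rfl
  · simp only [val_of_notMem _ hp, le_refl]

/-- A continuous nonnegative function with zero integral vanishes. -/
theorem II_eq_zero {f : Sm N} (hf : CS f) (s : ℝ)
    (h : ∀ p : Om N, p.1.1 = s → 0 ≤ (ev p f).re) (h0 : (II s f).re ≤ 0) (p : Om N)
    (hp : p.1.1 = s) : (ev p f).re = 0 := by
  by_contra h1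
  refine (Continuous.integral_pos_of_hasCompactSupport_nonneg_nonzero (μ := volume)
    (f := fun Z : Fin N → ℂ => (f.val (s, Z)).re) (x := p.1.2)
    (continuous_re.comp (hf.cont s)) ((hf.cpt s).comp_left (g := re) rfl) (fun Z => ?_)
    (by rwa [← hp, ← ev_eq])).not_ge ((integral_re (hf.integrable s)).trans_le h0)
  by_cases hZ : ((s, Z) : VV N) ∈ Om N
  · simp only [val_eq _ hZ]
    exact h _ rfl
  · simp only [val_of_notMem _ hZ, zero_re, Pi.zero_apply, le_refl]

/-- Ring elements are bounded on the support of a `CS` element. -/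
theorem CS.bound {β : Sm N} (hβ : CS β) (f : Sm N) (S : ℝ) :
    ∃ C : ℝ, 0 ≤ C ∧ ∀ p : Om N, |p.1.1| ≤ S → ev p β ≠ 0 → ‖ev p f‖ ≤ C := by
  obtain ⟨a, b, ha, h⟩ := hβ S
  obtain ⟨K, hK, hO, hm⟩ := integ_shell (N := N) S ha b
  obtain ⟨C, hC⟩ := hK.exists_bound_of_continuousOn (f.smooth.continuousOn.mono hO)
  exact ⟨max C 0, le_max_right _ _, fun p hp h0 =>
    (ev_eq p f ▸ hC p (hm p hp (h p hp h0))).trans (le_max_left _ _)⟩

/-- A positive definite matrix of ring elements is uniformly positive on such a support. -/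
theorem CS.coercive {β : Sm N} (hβ : CS β) (M : Matrix (Fin N) (Fin N) (Sm N))
    (hM : ∀ (p : Om N) (ξ : Fin N → ℂ), ξ ≠ 0 →
      0 < (∑ b, ∑ a, ev p (M b a) * ξ a * conj (ξ b)).re) (S : ℝ) :
    ∃ c : ℝ, 0 < c ∧ ∀ p : Om N, |p.1.1| ≤ S → ev p β ≠ 0 → ∀ ξ : Fin N → ℂ,
      c * ∑ a, ‖ξ a‖ ^ 2 ≤ (∑ b, ∑ a, ev p (M b a) * ξ a * conj (ξ b)).re := by
  obtain ⟨a, b, ha, h⟩ := hβ S
  obtain ⟨K, hK, hO, hm⟩ := integ_shell (N := N) S ha b
  have hco : ContinuousOn (fun q : VV N × (Fin N → ℂ) =>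
      ∑ b, ∑ a, (M b a).val q.1 * q.2 a * conj (q.2 b)) (K ×ˢ Metric.sphere 0 1) := by
    refine continuousOn_finsetSum _ fun b _ => continuousOn_finsetSum _ fun a _ => ?_
    have h1 : ContinuousOn (fun q : VV N × (Fin N → ℂ) => (M b a).val q.1)
        (K ×ˢ Metric.sphere 0 1) :=
      (M b a).smooth.continuousOn.comp continuousOn_fst fun q hq => hO hq.1
    exact (h1.mul (by fun_prop)).mul (by fun_prop)
  obtain ⟨c, hc, hF⟩ := (hK.prod (isCompact_sphere (0 : Fin N → ℂ) 1)).exists_forall_le' (a := 0)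
    (continuous_re.comp_continuousOn hco) fun q hq => by
      simp only [Function.comp, val_eq _ (hO hq.1)]
      exact hM _ _ (Metric.ne_of_mem_sphere hq.2 one_ne_zero)
  refine ⟨c / (N + 1), by positivity, fun p hp h0 ξ => ?_⟩
  by_cases hξ : ξ = 0
  · simp [hξ]
  have h1 : 0 < ‖ξ‖ := norm_pos_iff.2 hξ
  have h2 := hF (p, ‖ξ‖⁻¹ • ξ) ⟨hm p hp (h p hp h0), by
    rw [mem_sphere_zero_iff_norm, norm_smul, norm_inv, norm_norm, inv_mul_cancel₀ h1.ne']⟩
  have h3 : ∑ b, ∑ a, ev p (M b a) * ξ a * conj (ξ b) = ((‖ξ‖ ^ 2 : ℝ) : ℂ) *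
      ∑ b, ∑ a, (M b a).val p * (‖ξ‖⁻¹ • ξ) a * conj ((‖ξ‖⁻¹ • ξ) b) := by
    have h4 : (‖ξ‖ : ℂ) ≠ 0 := ofReal_ne_zero.2 h1.ne'
    simp only [Finset.mul_sum, ev_eq, Pi.smul_apply, real_smul, map_mul, conj_ofReal]
    refine Finset.sum_congr rfl fun _ _ => Finset.sum_congr rfl fun _ _ => ?_
    push_cast
    field_simp
  have h5 : ∑ a, ‖ξ a‖ ^ 2 ≤ (N + 1) * ‖ξ‖ ^ 2 := by
    refine (Finset.sum_le_card_nsmul _ _ (‖ξ‖ ^ 2) fun a _ =>
      pow_le_pow_left₀ (norm_nonneg _) (norm_le_pi_norm ξ a) 2).trans ?_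
    rw [Finset.card_univ, Fintype.card_fin, nsmul_eq_mul]
    nlinarith
  rw [h3, re_ofReal_mul]
  refine (mul_le_mul_of_nonneg_left h5 (by positivity)).trans ?_
  rw [← mul_assoc, div_mul_cancel₀ _ (by positivity), mul_comm]
  exact mul_le_mul_of_nonneg_left h2 (by positivity)

end Sm

end Vale.Agent.P264
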