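import Vale.Agent.P264.Cone
import Vale.Agent.P264.Integ

/-! Uniqueness for the linearised Calabi flow. -/

open scoped ContDiff ComplexConjugate Topology ComplexOrder
open Set Complex Matrix

noncomputable section

namespace Vale.Agent.P264

open Sm

variable {n : ℕ} {ψ : ℝ → (Fin (n + 1) → ℂ) → ℝ} {c : ℝ}

theorem energy_real {w s S v X M κ q A1 A2 A3 σ : ℝ} (hw : 0 < w) (hs : 0 ≤ s) (hS : s ≤ S)
    (hM : 0 ≤ M) (h1 : A1 ≤ M) (h2 : |A2| ≤ M * σ ^ 2) (h3 : |A3| ≤ M * σ)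
    (hq : (M + M ^ 2) * σ ^ 2 ≤ q) (hw' : 1 ≤ M * w) :
    w * A1 * v * v - 4 * s * (w * X * X + κ * w * v * X + q + A2 + v * A3) ≤
      (M + S * (κ ^ 2 + M)) * (w * v * v) := by
  have a0 : 0 ≤ w * v * v := by rw [mul_assoc]; exact mul_nonneg hw.le (mul_self_nonneg v)
  have a1 := mul_le_mul_of_nonneg_right h1 a0
  have a2 := mul_nonneg hw.le (sq_nonneg (X + κ * v / 2))
  have a3 := sq_nonneg (v / 2 + A3)
  have a4 := sq_le_sq' (abs_le.1 h3).1 (abs_le.1 h3).2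
  have a5 := mul_le_mul_of_nonneg_right hw' (mul_self_nonneg v)
  have a6 := (abs_le.1 h2).1
  have a7 : -((κ ^ 2 + M) * (w * v * v)) ≤ 4 * (w * X * X + κ * w * v * X + q + A2 + v * A3) := by
    nlinarith
  have a8 := mul_le_mul_of_nonneg_left a7 hs
  have a9 := mul_le_mul_of_nonneg_right hS (mul_nonneg (add_nonneg (sq_nonneg κ) hM) a0)
  nlinarith

theorem energy_pt {N : ℕ} {b w s S v X M c : ℝ} {u Q : ℂ} {W : Fin N → Fin N → ℂ}
    {D ξ : Fin N → ℂ} (hb : 0 ≤ b) (hw : 0 < w) (hs : 0 ≤ s) (hS : s ≤ S) (hM : 0 ≤ M) (hc : 0 < c)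
    (hu : ‖u‖ ≤ M) (hW : ∀ a b, ‖W a b‖ ≤ M) (hD : ∀ a, ‖D a‖ ≤ M) (hw' : 1 ≤ M * w)
    (hQ : c * ∑ a, ‖ξ a‖ ^ 2 ≤ Q.re) :
    ((b : ℂ) * (w * u * v * v - 4 * s * (w * X * X + (N + (N * (M + M ^ 2) / c : ℝ)) * w * v * X +
      (N * (M + M ^ 2) / c : ℝ) * Q + ∑ b, ∑ a, W b a * ξ a * conj (ξ b) +
        v * ∑ b, D b * conj (ξ b)))).re ≤
      (((M + S * ((N + N * (M + M ^ 2) / c) ^ 2 + M) : ℝ) : ℂ) * (b * w * v * v)).re := by
  have h2 : ‖∑ b, ∑ a, W b a * ξ a * conj (ξ b)‖ ≤ M * (∑ a, ‖ξ a‖) ^ 2 := by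
    rw [sq, Finset.sum_mul_sum, Finset.mul_sum]
    refine norm_sum_le_of_le _ fun b _ => ?_
    rw [Finset.mul_sum]
    refine norm_sum_le_of_le _ fun a _ => ?_
    rw [norm_mul, norm_mul, norm_conj, mul_assoc, mul_comm ‖ξ a‖]
    exact mul_le_mul_of_nonneg_right (hW _ _) (by positivity)
  have h3 : ‖∑ b, D b * conj (ξ b)‖ ≤ M * ∑ a, ‖ξ a‖ := by
    rw [Finset.mul_sum]
    refine norm_sum_le_of_le _ fun a _ => ?_
    rw [norm_mul, norm_conj]
    exact mul_le_mul_of_nonneg_right (hD _) (norm_nonneg _)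
  have h4 : (M + M ^ 2) * (∑ a, ‖ξ a‖) ^ 2 ≤ N * (M + M ^ 2) / c * Q.re := by
    have h5 := sq_sum_le_card_mul_sum_sq (s := Finset.univ) (f := fun a => ‖ξ a‖)
    rw [Finset.card_univ, Fintype.card_fin] at h5
    refine (mul_le_mul_of_nonneg_left h5 (by positivity)).trans
      (le_trans (le_of_eq ?_) (mul_le_mul_of_nonneg_left hQ (by positivity)))
    field_simp
  have h6 := mul_le_mul_of_nonneg_left (energy_real (v := v) (X := X)
    (κ := N + N * (M + M ^ 2) / c) hw hs hS hM ((re_le_norm u).trans hu)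
    ((abs_re_le_norm _).trans h2) ((abs_re_le_norm _).trans h3) h4 hw') hb
  generalize N * (M + M ^ 2) / c = l at h6 ⊢
  generalize M + S * ((N + l) ^ 2 + M) = K at h6 ⊢
  simp only [mul_re, mul_im, sub_re, sub_im, add_re, add_im, ofReal_re, ofReal_im, natCast_re,
    natCast_im, re_ofNat, im_ofNat, mul_zero, zero_mul, sub_zero, add_zero]
  linarith

theorem energy_gron {E E' : ℝ → ℝ} {K S : ℝ} (hS : 0 ≤ S) (hE : ∀ s, HasDerivAt E (E' s) s)
    (h : ∀ s ∈ Icc 0 S, E' s ≤ K * E s) (h0 : E 0 ≤ 0) : E S ≤ 0 := by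
  have h1 : ∀ s, HasDerivAt (fun s => Real.exp (-K * s) * E s)
      (Real.exp (-K * s) * (-K * 1) * E s + Real.exp (-K * s) * E' s) s := fun s =>
    ((hasDerivAt_id s).const_mul (-K)).exp.mul (hE s)
  have h2 := antitoneOn_of_deriv_nonpos (convex_Icc 0 S)
    (fun s _ => (h1 s).continuousAt.continuousWithinAt)
    (fun s _ => (h1 s).differentiableAt.differentiableWithinAt) (fun s hs => by
      rw [(h1 s).deriv]
      nlinarith [h s (interior_subset hs), Real.exp_pos (-K * s)])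
    (left_mem_Icc.2 hS) (right_mem_Icc.2 hS) hS
  simp only [mul_zero, Real.exp_zero, one_mul] at h2
  exact nonpos_of_mul_nonpos_right (h2.trans h0) (Real.exp_pos _)

theorem energy_re {N : ℕ} {f : Sm N} (hf : cj f = f) (p : Om N) : ev p f = (ev p f).re :=
  (conj_eq_iff_re.1 (by rw [← ev_cj, hf])).symm

theorem energy_pos (h : Fam ψ) (p : Om (n + 1)) : 0 < (ev p h.ρ).re := by
  obtain ⟨a, ha⟩ := Function.ne_iff.1 p.2
  rw [h.ev_ρ, ofReal_re]
  exact mul_pos (Finset.sum_pos' (fun _ _ => sq_nonneg _)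
    ⟨a, Finset.mem_univ _, pow_pos (norm_pos_iff.2 ha) 2⟩) (Real.exp_pos _)

theorem energy_scale (h : Fam ψ) (s : ℝ) {Z : Fin (n + 1) → ℂ} (hZ : Z ≠ 0) {t : ℝ} (ht : t ≠ 0) :
    h.ρ.val (s, (t : ℂ) • Z) = (t ^ 2 : ℝ) * h.ρ.val (s, Z) := by
  rw [h.hom_ρ s Z t (ofReal_ne_zero.2 ht) hZ, conj_ofReal, zpow_one, ofReal_pow, sq]

theorem energy_cs (h : Fam ψ) {f : Sm (n + 1)}
    (hf : ∀ p, ev p f ≠ 0 → 1 / 2 ≤ (ev p h.ρ).re ∧ (ev p h.ρ).re ≤ 2) : CS f := by
  intro S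
  have hK := (isCompact_Icc (a := -S) (b := S)).prod (isCompact_sphere (0 : Fin (n + 1) → ℂ) 1)
  have hO : Icc (-S) S ×ˢ Metric.sphere 0 1 ⊆ Om (n + 1) := fun q hq =>
    Metric.ne_of_mem_sphere hq.2 one_ne_zero
  have hc := continuous_re.comp_continuousOn (h.ρ.smooth.continuousOn.mono hO)
  obtain ⟨m, hm, h1⟩ := hK.exists_forall_le' (a := 0) hc fun q hq => by
    rw [Function.comp, val_eq _ (hO hq)]
    exact energy_pos h _
  obtain ⟨M, h2⟩ := hK.exists_bound_of_continuousOn hc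
  refine ⟨√(1 / 2 / max M 1), √(2 / m), by positivity, fun p hp h0 => ?_⟩
  have ht : 0 < ‖p.1.2‖ := norm_pos_iff.2 p.2
  have hq : (p.1.1, ((‖p.1.2‖⁻¹ : ℝ) : ℂ) • p.1.2) ∈ Icc (-S) S ×ˢ Metric.sphere 0 1 :=
    ⟨abs_le.1 hp, by
      rw [mem_sphere_zero_iff_norm, norm_smul, norm_real, norm_inv, norm_norm, inv_mul_cancel₀ ht.ne']⟩
  have h3 := h1 _ hq
  have h4 := ((le_abs_self _).trans (h2 _ hq)).trans (le_max_left M 1)
  rw [Function.comp, energy_scale h _ p.2 (inv_ne_zero ht.ne'), re_ofReal_mul, ← ev_eq, inv_pow,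
    ← div_eq_inv_mul] at h3 h4
  rw [le_div_iff₀ (by positivity)] at h3
  rw [div_le_iff₀ (by positivity)] at h4
  exact ⟨Real.sqrt_le_iff.2 ⟨ht.le, by
      rw [div_le_iff₀ (by positivity), mul_comm]
      exact (hf p h0).1.trans h4⟩,
    (Real.le_sqrt' ht).2 (by
      rw [le_div_iff₀ hm, mul_comm]
      exact h3.trans (hf p h0).2)⟩

theorem energy_beta (h : Fam ψ) : ∃ β β' : Sm (n + 1), CS β ∧ (∀ a, d a β = β' * d a h.ρ) ∧
    (∀ a, db a β = β' * db a h.ρ) ∧ dt β = β' * dt h.ρ ∧ (∀ p, ∃ b : ℝ, 0 ≤ b ∧ ev p β = b) ∧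
      ∀ p, ev p h.ρ = 1 → ev p β = 1 := by
  let b : ContDiffBump (1 : ℝ) := ⟨1 / 4, 1 / 2, by norm_num, by norm_num⟩
  refine ⟨compR b h.ρ fun _ => b.contDiff.contDiffAt, _, energy_cs h fun p hp => ?_,
    fun a => d_compR a h.cj_ρ _, fun a => db_compR a h.cj_ρ _, dt_compR h.cj_ρ _,
    fun p => ⟨_, b.nonneg, ev_compR _ _ _ p⟩, fun p hp => ?_⟩
  · rw [ev_compR, ofReal_ne_zero, ← Function.mem_support, b.support_eq] at hp
    have h1 : |(ev p h.ρ).re - 1| < 1 / 2 := hp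
    exact ⟨by linarith [(abs_lt.1 h1).1], by linarith [(abs_lt.1 h1).2]⟩
  · rw [ev_compR, hp, one_re, b.one_of_mem_closedBall (Metric.mem_closedBall_self b.rIn_pos.le),
      ofReal_one]

theorem energy_bd {N : ℕ} {β : Sm N} (hβ : CS β) {ι : Type} [Fintype ι] (f : ι → Sm N) (S : ℝ) :
    ∃ C : ℝ, 0 ≤ C ∧ ∀ p : Om N, |p.1.1| ≤ S → ev p β ≠ 0 → ∀ i, ‖ev p (f i)‖ ≤ C := by
  choose C h0 h using fun i => hβ.bound (f i) S
  exact ⟨∑ i, C i, Finset.sum_nonneg fun i _ => h0 i, fun p hp hb i =>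
    (h i p hp hb).trans (Finset.single_le_sum (fun i _ => h0 i) (Finset.mem_univ i))⟩

theorem energy_adj (h : Flow ψ c) (p : Om (n + 1)) (ξ : Fin (n + 1) → ℂ) (hξ : ξ ≠ 0) :
    0 < (∑ b, ∑ a, ev p ((h.cone.ρ • h.cone.G.adjugate) b a) * ξ a * conj (ξ b)).re := by
  have h1 := h.posDef p
  have h2 : ∀ b a, ev p (h.cone.G.adjugate b a) = ((hess h.toFam.ρ).map (ev p)).det *
      ((hess h.toFam.ρ).map (ev p))⁻¹ b a := fun b a =>
    (congrFun (congrFun ((ev p).map_adjugate h.cone.G) b) a).trans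
      (congrFun (congrFun (alg_adj h1.det_pos.ne'.isUnit) b) a)
  have h3 := mul_pos (mul_pos (show 0 < ev p h.cone.ρ from (energy_re h.toFam.cj_ρ p).symm ▸
    zero_lt_real.2 (energy_pos h.toFam p)) h1.det_pos) (h1.inv.dotProduct_mulVec_pos hξ)
  refine (Complex.pos_iff.1 (h3.trans_eq ?_)).1
  simp only [Matrix.smul_apply, smul_eq_mul, map_mul, h2, dotProduct, mulVec, Finset.mul_sum,
    Pi.star_apply, RCLike.star_def]
  exact Finset.sum_congr rfl fun _ _ => Finset.sum_congr rfl fun _ _ => by ring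

/-- compactly supported with vanishing integrals -/
def EnergyNul {N : ℕ} (f : Sm N) : Prop := CS f ∧ ∀ s, II s f = 0

theorem EnergyNul.add {N : ℕ} {f g : Sm N} (hf : EnergyNul f) (hg : EnergyNul g) :
    EnergyNul (f + g) :=
  ⟨hf.1.add hg.1, fun s => by rw [II_add hf.1 hg.1, hf.2, hg.2, add_zero]⟩

theorem EnergyNul.smul {N : ℕ} {f : Sm N} (hf : EnergyNul f) (c : ℂ) :
    EnergyNul (algebraMap ℂ _ c * f) :=
  ⟨hf.1.mul_left _, fun s => by rw [← Algebra.smul_def, II_smul, hf.2, mul_zero]⟩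

theorem EnergyNul.tt {N : ℕ} {f : Sm N} (hf : EnergyNul f) : EnergyNul (tt * f) :=
  ⟨hf.1.mul_left _, fun s => by rw [II_tt, hf.2, mul_zero]⟩

theorem energy_d {N : ℕ} {f : Fin N → Sm N} (hf : ∀ a, CS (f a)) : EnergyNul (∑ a, d a (f a)) := by
  have h : ∀ a ∈ Finset.univ, CS (d a (f a)) := fun a _ => by
    rw [d_apply, sub_eq_add_neg]
    exact (((hf a).DD _).add (((hf a).DD _).smul _).neg).smul _
  exact ⟨CS.sum _ h, fun s => (II_sum _ h s).trans (Finset.sum_eq_zero fun a _ => II_d (hf a) a s)⟩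

theorem energy_db {N : ℕ} {f : Fin N → Sm N} (hf : ∀ a, CS (f a)) :
    EnergyNul (∑ a, db a (f a)) := by
  have h : ∀ a ∈ Finset.univ, CS (db a (f a)) := fun a _ =>
    (((hf a).DD _).add (((hf a).DD _).smul _)).smul _
  exact ⟨CS.sum _ h, fun s => (II_sum _ h s).trans (Finset.sum_eq_zero fun a _ => II_db (hf a) a s)⟩

/-- A real invariant solution of the linearised equation vanishing at time zero vanishes. -/
theorem Flow.lin_unique (h : Flow ψ c) {v : Sm (n + 1)} (hr : cj v = v) (hv : Hom 0 0 v)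
    (he : dt v = -(2 * tt * (h.cone.L (h.cone.L v) + ((n + 1 : ℕ) : Sm (n + 1)) * h.cone.L v -
      h.cone.ρ ^ 2 * (h.cone.G⁻¹ * h.cone.H h.Λ * h.cone.G⁻¹ * h.cone.H v).trace)))
    (h0 : ∀ p : Om (n + 1), p.1.1 = 0 → ev p v = 0) (p : Om (n + 1)) (hp : 0 ≤ p.1.1) :
    ev p v = 0 := by
  obtain ⟨β, β', hβ, hd, hdb, hdt, hβ0, hβ1⟩ := energy_beta h.toFam
  have iv := h.inv_of_hom hv
  have iu := h.inv_of_hom h.toFam.hom_Ψ.dt
  have iX := h.cone.inv_L iv
  have hρ : dt h.cone.ρ = h.cone.ρ * dt h.toFam.Ψ := h.toFam.DD_ρ _ (by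
    show dt _ = _
    simp only [nrm, map_sum, alg_mul, dt_z, dt_zb, mul_zero, add_zero, Finset.sum_const_zero])
  have hw := h.cone.lin_det (δ := dt) (A := 0) (A' := 0)
    ⟨fun a f => (dt_d a f).symm.trans (by simp; rfl), fun a f => (dt_db a f).symm.trans (by simp; rfl)⟩
    (by simp) hρ iu
  have e1 := h.cone.div_euler hd (((iu.mul h.cone.inv_det).mul iv).mul iv)
  have e2 := h.cone.div_L (f := v) hd iX
  have e3 := h.cone.div_Lb (g := h.cone.L v) hdb iv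
  have e4 := h.cone.div_L (f := v) hd iv
  have e5 := h.cone.div_hess (v := v) hd (h.inv_of_hom h.hom_Λ)
  have n1 := e1 ▸ energy_d fun a => (hβ.mul_left (z a)).mul_right _
  have n2 := e2 ▸ energy_d fun a => ((hβ.mul_right _).mul_right _).mul_right _
  have n3 := e3 ▸ energy_db fun a => ((hβ.mul_right _).mul_right _).mul_right _
  have n4 := e4 ▸ energy_d fun a => ((hβ.mul_right _).mul_right _).mul_right _
  have n5 := e5 ▸ energy_d fun a => (hβ.mul_right _).mul_right _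
  clear e1 e2 e3 e4 e5
  rw [Fintype.card_fin] at hw n1
  have hE : CS (β * h.cone.G.det * v * v) := ((hβ.mul_right _).mul_right _).mul_right _
  obtain ⟨M, hM, hb⟩ := energy_bd hβ (ι := Bool ⊕ Fin (n + 1) × Fin (n + 1) ⊕ Fin (n + 1))
    (Sum.elim (fun i => cond i (h.cone.L (dt h.toFam.Ψ)) (Ring.inverse h.cone.G.det))
      (Sum.elim (fun i => h.cone.W h.Λ i.1 i.2) fun b => ∑ a, d a (h.cone.W h.Λ b a))) p.1.1
  obtain ⟨c, hc, hco⟩ := hβ.coercive _ (energy_adj h) p.1.1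
  obtain ⟨l, hl⟩ : ∃ l : ℝ, l = (n + 1 : ℕ) * (M + M ^ 2) / c := ⟨_, rfl⟩
  have key := energy_gron (E := fun s => (II s (β * h.cone.G.det * v * v)).re)
    (K := M + p.1.1 * (((n + 1 : ℕ) + l) ^ 2 + M)) hp
    (fun s => reCLM.hasFDerivAt.comp_hasDerivAt s (II_hasDerivAt hE s)) (fun s hs => ?_) ?_
  · have h1 := energy_pos h.toFam p
    have ht : (√(ev p h.toFam.ρ).re)⁻¹ ≠ 0 := inv_ne_zero (Real.sqrt_ne_zero'.2 h1)
    have ht' := ofReal_ne_zero.2 ht
    let q : Om (n + 1) := ⟨(p.1.1, (((√(ev p h.toFam.ρ).re)⁻¹ : ℝ) : ℂ) • p.1.2),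
      smul_ne_zero ht' p.2⟩
    have h2 : ev q h.toFam.ρ = 1 := by
      rw [ev_eq, energy_scale h.toFam _ p.2 ht, ← ev_eq, inv_pow, Real.sq_sqrt h1.le,
        energy_re h.toFam.cj_ρ p, ofReal_re, ← ofReal_mul, inv_mul_cancel₀ h1.ne', ofReal_one]
    have h3 : ev q v = ev p v := by
      rw [ev_eq, hv _ _ _ ht' p.2, zpow_zero, zpow_zero, one_mul, one_mul, ev_eq]
    have h4 := II_eq_zero hE p.1.1 (fun r _ => by
      obtain ⟨b, h5, h6⟩ := hβ0 r
      rw [map_mul, map_mul, map_mul, h6, energy_re h.cj_det r, energy_re hr r, ← ofReal_mul,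
        ← ofReal_mul, ← ofReal_mul, ofReal_re, mul_assoc]
      exact mul_nonneg (mul_nonneg h5 (Complex.pos_iff.1 (h.det_pos r)).1.le) (mul_self_nonneg _))
      key q rfl
    rw [map_mul, map_mul, map_mul, hβ1 q h2, one_mul, h3, energy_re h.cj_det q, energy_re hr p,
      ← ofReal_mul, ← ofReal_mul, ofReal_re, mul_assoc] at h4
    rw [energy_re hr p, mul_self_eq_zero.1
      ((mul_eq_zero.1 h4).resolve_left (Complex.pos_iff.1 (h.det_pos q)).1.ne'), ofReal_zero]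
  · have nn := n1.add ((n2.add ((n3.add (n5.add (n4.smul l))).smul (-1))).tt.smul (-4))
    generalize hZ : (_ + algebraMap ℂ (Sm (n + 1)) (-4) * _ : Sm (n + 1)) = Z at nn
    have e : dt (β * h.cone.G.det * v * v) = β * (h.cone.G.det * h.cone.L (dt h.toFam.Ψ) * v * v -
        4 * tt * (h.cone.G.det * h.cone.L v * h.cone.L v + (((n + 1 : ℕ) : Sm (n + 1)) + algebraMap ℂ _ (l : ℂ)) *
          h.cone.G.det * v * h.cone.L v + algebraMap ℂ _ (l : ℂ) * (h.cone.ρ * h.cone.B v v) +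
          ∑ b, ∑ a, h.cone.W h.Λ b a * h.cone.d a v * h.cone.db b v +
          v * ∑ b, (∑ a, h.cone.d a (h.cone.W h.Λ b a)) * h.cone.db b v)) + Z := by
      rw [← hZ, alg_mul, alg_mul, alg_mul, hw, he, hdt, show dt h.toFam.ρ = _ from hρ, map_neg,
        map_neg, map_one, map_ofNat]
      ring
    show (II s _).re ≤ _
    rw [e, II_add (hβ.mul_right _) nn.1, nn.2, add_zero, ← re_ofReal_mul, ← II_smul]
    refine II_mono (hβ.mul_right _) (hE.smul _) s fun r hr' => ?_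
    by_cases hr0 : ev r β = 0
    · simp only [map_mul, map_smul, hr0, zero_mul, smul_zero, le_refl]
    obtain ⟨b, h5, h6⟩ := hβ0 r
    have hs' : |r.1.1| ≤ p.1.1 := by rw [hr', abs_of_nonneg hs.1]; exact hs.2
    have hw0 : 0 < (ev r h.cone.G.det).re := (Complex.pos_iff.1 (h.det_pos r)).1
    have hdb' : ∀ a, ev r (h.cone.db a v) = conj (ev r (h.cone.d a v)) := fun a => by
      rw [← ev_cj]
      exact congrArg _ ((congrArg _ hr.symm).trans (cj_d a v).symm)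
    have h7 := energy_pt (v := (ev r v).re) (X := (ev r (h.cone.L v)).re)
      (u := ev r (h.cone.L (dt h.toFam.Ψ))) (W := fun a b => ev r (h.cone.W h.Λ a b))
      (D := fun b => ev r (∑ a, h.cone.d a (h.cone.W h.Λ b a)))
      (ξ := fun a => ev r (h.cone.d a v)) (Q := ev r (h.cone.ρ * h.cone.B v v)) h5 hw0 hs.1 hs.2 hM hc
      (hb r hs' hr0 (.inl true)) (fun a b => hb r hs' hr0 (.inr (.inl (a, b))))
      (fun a => hb r hs' hr0 (.inr (.inr a))) (by
        have h8 := congrArg (fun x => ‖ev r x‖) (Ring.inverse_mul_cancel _ h.cone.unit_G)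
        simp only [map_mul, norm_mul, map_one, norm_one] at h8
        rw [← h8, energy_re h.cj_det r, norm_real, Real.norm_of_nonneg hw0.le]
        exact mul_le_mul_of_nonneg_right (hb r hs' hr0 (.inl false)) hw0.le)
      ((hco r hs' hr0 _).trans_eq (congrArg re (by
        simp only [Cone.B, map_mul, map_sum, hdb', Matrix.smul_apply, smul_eq_mul, Finset.mul_sum,
          mul_assoc])))
    rw [← hl, ← energy_re hr r, ← energy_re (h.cj_L hr) r] at h7
    rw [← show ev r h.cone.G.det = _ from energy_re h.cj_det r] at h7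
    simp only [map_mul, map_smul, map_sub, map_add, map_sum, map_ofNat, map_natCast, ev_tt, hr', h6,
      hdb', AlgHom.commutes, smul_eq_mul] at h7 ⊢
    exact h7
  · refine (II_mono hE CS.zero 0 fun r hr => ?_).trans (by simpa using (congrArg re (II_smul 0 0 0)).le)
    rw [map_mul, h0 r hr, mul_zero, map_zero]

end Vale.Agent.P264
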