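import Mathlib

/-! The one-dimensional equation for unitary invariant metrics on `ℂP^10`. -/

open Set

noncomputable section

namespace Vale.Agent.P264

/-- the fourth order operator on jets -/
def opK (τ : ℝ) (a : ℕ → ℝ) : ℝ :=
  τ ^ 2 * (1 - τ) ^ 2 * a 4 + (26 * τ * (1 - τ) ^ 2 - 8 * τ ^ 2 * (1 - τ)) * a 3 +
    (12 * τ ^ 2 - 156 * τ * (1 - τ) + 156 * (1 - τ) ^ 2) * a 2 +
    (156 * τ - 624 * (1 - τ)) * a 1 + 312 * a 0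

/-- A global smooth solution, given by its jets `g j t τ`. -/
structure Sol (g : ℕ → ℝ → ℝ → ℝ) : Prop where
  cont : ∀ j, ContinuousOn (fun p : ℝ × ℝ => g j p.1 p.2) (Ici 0 ×ˢ Icc 0 1)
  dτ : ∀ j t, 0 ≤ t → ∀ τ ∈ Ioo (0 : ℝ) 1, HasDerivAt (g j t) (g (j + 1) t τ) τ
  pos : ∀ t, 0 ≤ t → ∀ τ ∈ Icc (0 : ℝ) 1, 0 < 1 + τ * (1 - τ) * g 0 t τ
  dt : ∀ t, 0 < t → ∀ τ ∈ Ioo (0 : ℝ) 1, HasDerivAt (fun r => g 0 r τ)
    (-((1 + τ * (1 - τ) * g 0 t τ) ^ 2 * opK τ fun j => g j t τ)) t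

/-- `f` is the invariant potential whose momentum profile is described by `g0`. -/
structure Pot (f g0 : ℝ → ℝ) : Prop where
  smooth : ∀ X ∈ Icc (0 : ℝ) 1, ContDiffAt ℝ (⊤ : ℕ∞) f X
  posA : ∀ X ∈ Icc (0 : ℝ) 1, 0 < 1 + (1 - X) * deriv f X
  posB : ∀ X ∈ Icc (0 : ℝ) 1, 0 < 1 - X * deriv f X
  posC : ∀ X ∈ Icc (0 : ℝ) 1, 0 < 1 + (1 - 2 * X) * deriv f X + X * (1 - X) * deriv (deriv f) X
  eq : ∀ X ∈ Icc (0 : ℝ) 1, deriv (deriv f) X + deriv f X ^ 2 =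
    g0 (X + X * (1 - X) * deriv f X) * ((1 + (1 - X) * deriv f X) * (1 - X * deriv f X)) ^ 2

end Vale.Agent.P264
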