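import Vale.Agent.P264.Had
import Vale.Agent.P264.Sol

/-! Moment map, momentum profile and derivations attached to an invariant potential. -/

noncomputable section

namespace Vale.Agent.P264

namespace Ev

/-- the moment map -/
def tau (F : Ev) : Ev := X + X * (1 - X) * dX F

/-- `tau / X` -/
def qA (F : Ev) : Ev := 1 + (1 - X) * dX F

/-- the quotient of `1 - tau` by `1 - X` -/
def qB (F : Ev) : Ev := 1 - X * dX F

/-- the unknown of the one-dimensional equation -/
def gg (F : Ev) : Ev := (dX (dX F) + dX F ^ 2) * Ring.inverse ((qA F * qB F) ^ 2)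

/-- derivative in the moment variable -/
def dtau (F : Ev) : Derivation ℝ Ev Ev := Ring.inverse (dX (tau F)) • dX

/-- time derivative at fixed moment variable -/
def del (F : Ev) : Derivation ℝ Ev Ev := ds - ds (tau F) • dtau F

/-- the second order part of the scalar curvature -/
def zop (F h : Ev) : Ev :=
  tau F ^ 2 * dtau F (dtau F ((1 - tau F) ^ 2 * h)) + 22 * tau F * dtau F ((1 - tau F) ^ 2 * h) +
    110 * ((1 - tau F) ^ 2 * h)

/-- An invariant solution of the Calabi flow. -/
structure Rad (F : Ev) (c : ℝ) : Prop where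
  posA : ∀ p, 0 < ev p (qA F)
  posB : ∀ p, 0 < ev p (qB F)
  posC : ∀ p, 0 < ev p (dX (tau F))
  eq : ds F = 2 * S * (algebraMap ℝ Ev (110 - c) - zop F (gg F))

end Ev

end Vale.Agent.P264
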