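import Mathlib

/-! Coefficient fields: polynomials in the inner variable `x`, the moment variable `τ` and the
scale `l`, with their derivatives along the constraint `x = τ / (τ + 15 l (1 - τ))`. -/

open Set Polynomial

noncomputable section

namespace Vale.Agent.P264

/-- fields -/
abbrev Fl : Type := MvPolynomial (Fin 3) ℝ

/-- the inner variable -/
def xx (l τ : ℝ) : ℝ := τ / (τ + 15 * l * (1 - τ))

/-- the scale as a function of self-similar time -/
def lam (l0 σ : ℝ) : ℝ := l0 * Real.exp (-σ / 2)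

namespace Fl

/-- evaluation at an arbitrary point -/
def ev (x τ l : ℝ) : Fl →ₐ[ℝ] ℝ := MvPolynomial.aeval ![x, τ, l]

/-- evaluation on the constraint -/
def evc (l τ : ℝ) : Fl →ₐ[ℝ] ℝ := ev (xx l τ) τ l

/-- the variable `x` -/
def x : Fl := MvPolynomial.X 0

/-- the variable `τ` -/
def t : Fl := MvPolynomial.X 1

/-- the variable `l` -/
def l : Fl := MvPolynomial.X 2

/-- constants -/
def c (a : ℝ) : Fl := MvPolynomial.C a

/-- a polynomial in `x` -/
def px (p : ℝ[X]) : Fl := aeval x p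

/-- coordinate derivatives -/
def pd (i : Fin 3) : Derivation ℝ Fl Fl := MvPolynomial.pderiv i

/-- `y = l / (τ + 15 l (1 - τ))` on the constraint -/
def y : Fl := c (1 / 15) * (1 - x + 15 * l * x)

/-- `1 - 2 τ` -/
def e : Fl := 1 - 2 * t

/-- `1 - 15 l` -/
def a' : Fl := 1 - 15 * l

/-- the derivative `τ (1 - τ) d/dτ` -/
def D : Derivation ℝ Fl Fl := (x * (1 - x)) • pd 0 + (t * (1 - t)) • pd 1

/-- the derivative `l d/dτ` -/
def Dh : Derivation ℝ Fl Fl := (15 * y ^ 2) • pd 0 + l • pd 1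

/-- the derivative `l / y * d/dτ` -/
def Dc : Derivation ℝ Fl Fl := (15 * y) • pd 0 + (t + 15 * l * (1 - t)) • pd 1

/-- the derivative `τ d/dτ` -/
def Dt : Derivation ℝ Fl Fl := (15 * y * x) • pd 0 + t • pd 1

/-- the derivative in self-similar time -/
def dot : Derivation ℝ Fl Fl := (c (1 / 2) * x * (1 - x)) • pd 0 - (c (1 / 2) * l) • pd 2

/-- `D F + (1 - 2 τ) F` -/
def sh (F : Fl) : Fl := D F + e * F

/-- `y ^ (-k) D (y ^ k F)` on the constraint -/
def Dy (k : ℕ) (F : Fl) : Fl := D F - k * a' * x * (1 - t) * F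

@[simp] theorem ev_x (a τ m : ℝ) : ev a τ m x = a := by simp [ev, x]

@[simp] theorem ev_t (a τ m : ℝ) : ev a τ m t = τ := by simp [ev, t]

@[simp] theorem ev_l (a τ m : ℝ) : ev a τ m l = m := by simp [ev, l]

@[simp] theorem ev_c (a τ m b : ℝ) : ev a τ m (c b) = b := by simp [ev, c]

@[simp] theorem ev_px (a τ m : ℝ) (p : ℝ[X]) : ev a τ m (px p) = p.eval a := by
  rw [px, ← aeval_algHom_apply, ev_x, coe_aeval_eq_eval]

theorem ev_y (a τ m : ℝ) : ev a τ m y = (1 - a + 15 * m * a) / 15 := by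
  simp [y, map_ofNat]; ring

@[simp] theorem ev_e (a τ m : ℝ) : ev a τ m e = 1 - 2 * τ := by simp [e, map_ofNat]

@[simp] theorem ev_a' (a τ m : ℝ) : ev a τ m a' = 1 - 15 * m := by simp [a', map_ofNat]

@[simp] theorem pd_x (i : Fin 3) : pd i x = if i = 0 then 1 else 0 := by
  fin_cases i <;> simp [pd, x]

@[simp] theorem pd_t (i : Fin 3) : pd i t = if i = 1 then 1 else 0 := by
  fin_cases i <;> simp [pd, t]

@[simp] theorem pd_l (i : Fin 3) : pd i l = if i = 2 then 1 else 0 := by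
  fin_cases i <;> simp [pd, l]

@[simp] theorem pd_c (i : Fin 3) (a : ℝ) : pd i (c a) = 0 := MvPolynomial.pderiv_C

@[simp] theorem pd_ofNat (i : Fin 3) (k : ℕ) [k.AtLeastTwo] : pd i (ofNat(k) : Fl) = 0 :=
  (pd i).map_natCast k

@[simp] theorem pd_px (i : Fin 3) (p : ℝ[X]) :
    pd i (px p) = if i = 0 then px (derivative p) else 0 := by
  rw [px, Derivation.comp_aeval_eq, pd_x]
  split_ifs <;> simp [px]

theorem continuous_ev (F : Fl) : Continuous fun p : ℝ × ℝ × ℝ => ev p.1 p.2.1 p.2.2 F := by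
  induction F using MvPolynomial.induction_on with
  | C a => simpa [ev] using continuous_const
  | add p q hp hq =>
    simp only [map_add]
    exact hp.add hq
  | mul_X p i hp =>
    simp only [map_mul]
    refine hp.mul ?_
    fin_cases i <;> simp [ev] <;> fun_prop

/-- chain rule -/
theorem hasDerivAt_ev (F : Fl) {f g h : ℝ → ℝ} {f' g' h' s : ℝ} (hf : HasDerivAt f f' s)
    (hg : HasDerivAt g g' s) (hh : HasDerivAt h h' s) :
    HasDerivAt (fun r => ev (f r) (g r) (h r) F)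
      (f' * ev (f s) (g s) (h s) (pd 0 F) + g' * ev (f s) (g s) (h s) (pd 1 F) +
        h' * ev (f s) (g s) (h s) (pd 2 F)) s := by
  induction F using MvPolynomial.induction_on with
  | C a => simpa [ev, pd] using hasDerivAt_const s a
  | add p q hp hq =>
    simp only [map_add]
    exact (hp.add hq).congr_deriv (by ring)
  | mul_X p i hp =>
    have key : ∀ (k : ℝ → ℝ) (k' : ℝ), HasDerivAt k k' s →
        (∀ r, ev (f r) (g r) (h r) (MvPolynomial.X i) = k r) →
        f' * ev (f s) (g s) (h s) (pd 0 (MvPolynomial.X i)) +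
          g' * ev (f s) (g s) (h s) (pd 1 (MvPolynomial.X i)) +
          h' * ev (f s) (g s) (h s) (pd 2 (MvPolynomial.X i)) = k' →
        HasDerivAt (fun r => ev (f r) (g r) (h r) (p * MvPolynomial.X i))
          (f' * ev (f s) (g s) (h s) (pd 0 (p * MvPolynomial.X i)) +
            g' * ev (f s) (g s) (h s) (pd 1 (p * MvPolynomial.X i)) +
            h' * ev (f s) (g s) (h s) (pd 2 (p * MvPolynomial.X i))) s := by
      intro k k' hk h1 h2
      simp only [map_mul, Derivation.leibniz, map_add, smul_eq_mul, h1]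
      exact (hp.mul hk).congr_deriv (by rw [← h2]; ring)
    obtain rfl | rfl | rfl : i = 0 ∨ i = 1 ∨ i = 2 := by omega
    · exact key f f' hf (fun r => ev_x _ _ _) (by simp [pd])
    · exact key g g' hg (fun r => ev_t _ _ _) (by simp [pd])
    · exact key h h' hh (fun r => ev_l _ _ _) (by simp [pd])

/-- restriction to the inner arc -/
def inn : Fl →ₐ[ℝ] ℝ[X] := MvPolynomial.aeval ![X, 0, 0]

/-- restriction to the middle arc -/
def mid : Fl →ₐ[ℝ] ℝ[X] := MvPolynomial.aeval ![1, X, 0]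

theorem ev_inn (a : ℝ) (F : Fl) : ev a 0 0 F = (inn F).eval a := by
  induction F using MvPolynomial.induction_on with
  | C b => simp [ev, inn]
  | add p q hp hq => simp [hp, hq]
  | mul_X p i hp =>
    simp only [map_mul, hp, eval_mul]
    congr 1
    fin_cases i <;> simp [ev, inn]

theorem ev_mid (τ : ℝ) (F : Fl) : ev 1 τ 0 F = (mid F).eval τ := by
  induction F using MvPolynomial.induction_on with
  | C b => simp [ev, mid]
  | add p q hp hq => simp [hp, hq]
  | mul_X p i hp =>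
    simp only [map_mul, hp, eval_mul]
    congr 1
    fin_cases i <;> simp [ev, mid]

theorem inn_pd (F : Fl) : inn (pd 0 F) = derivative (inn F) := by
  induction F using MvPolynomial.induction_on with
  | C b => simp [pd, inn]
  | add p q hp hq => simp [hp, hq]
  | mul_X p i hp =>
    simp only [map_mul, Derivation.leibniz, smul_eq_mul, map_add, hp, derivative_mul]
    obtain rfl | rfl | rfl : i = 0 ∨ i = 1 ∨ i = 2 := by omega
    all_goals simp [pd, inn] <;> ring

theorem mid_pd (F : Fl) : mid (pd 1 F) = derivative (mid F) := by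
  induction F using MvPolynomial.induction_on with
  | C b => simp [pd, mid]
  | add p q hp hq => simp [hp, hq]
  | mul_X p i hp =>
    simp only [map_mul, Derivation.leibniz, smul_eq_mul, map_add, hp, derivative_mul]
    obtain rfl | rfl | rfl : i = 0 ∨ i = 1 ∨ i = 2 := by omega
    all_goals simp [pd, mid] <;> ring

@[simp] theorem inn_x : inn x = X := by simp [inn, x]

@[simp] theorem inn_t : inn t = 0 := by simp [inn, t]

@[simp] theorem inn_l : inn l = 0 := by simp [inn, l]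

@[simp] theorem inn_c (a : ℝ) : inn (c a) = C a := by simp [inn, c]

@[simp] theorem inn_px (p : ℝ[X]) : inn (px p) = p := by
  rw [px, ← aeval_algHom_apply, inn_x, aeval_X_left_apply]

@[simp] theorem inn_y : inn y = C (1 / 15) * (1 - X) := by simp [y]

@[simp] theorem inn_e : inn e = 1 := by simp [e]

@[simp] theorem inn_a' : inn a' = 1 := by simp [a']

@[simp] theorem inn_D (F : Fl) : inn (D F) = X * (1 - X) * derivative (inn F) := by
  simp [D, inn_pd]

@[simp] theorem inn_Dc (F : Fl) : inn (Dc F) = (1 - X) * derivative (inn F) := by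
  have : (15 : ℝ[X]) * C (1 / 15 : ℝ) = 1 := by
    rw [← map_ofNat C 15, ← map_mul]; norm_num
  simp only [Dc, Derivation.add_apply, Derivation.smul_apply, smul_eq_mul, map_add, map_mul,
    inn_y, inn_t, inn_l, inn_pd, map_ofNat]
  linear_combination (1 - X) * derivative (inn F) * this

@[simp] theorem inn_Dt (F : Fl) : inn (Dt F) = X * (1 - X) * derivative (inn F) := by
  have : (15 : ℝ[X]) * C (1 / 15 : ℝ) = 1 := by
    rw [← map_ofNat C 15, ← map_mul]; norm_num
  simp only [Dt, Derivation.add_apply, Derivation.smul_apply, smul_eq_mul, map_add, map_mul,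
    inn_y, inn_t, inn_x, inn_pd, map_ofNat]
  linear_combination X * (1 - X) * derivative (inn F) * this

@[simp] theorem inn_dot (F : Fl) : inn (dot F) = C (1 / 2) * X * (1 - X) * derivative (inn F) := by
  simp [dot, inn_pd]

@[simp] theorem mid_x : mid x = 1 := by simp [mid, x]

@[simp] theorem mid_t : mid t = X := by simp [mid, t]

@[simp] theorem mid_l : mid l = 0 := by simp [mid, l]

@[simp] theorem mid_c (a : ℝ) : mid (c a) = C a := by simp [mid, c]

@[simp] theorem mid_px (p : ℝ[X]) : mid (px p) = C (p.eval 1) := by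
  rw [px, ← aeval_algHom_apply, mid_x, ← map_one (algebraMap ℝ ℝ[X]), aeval_algebraMap_apply]
  simp

@[simp] theorem mid_y : mid y = 0 := by simp [y]

@[simp] theorem mid_e : mid e = 1 - 2 * X := by simp [e, map_ofNat]

@[simp] theorem mid_a' : mid a' = 1 := by simp [a']

@[simp] theorem mid_D (F : Fl) : mid (D F) = X * (1 - X) * derivative (mid F) := by
  simp [D, mid_pd]

@[simp] theorem mid_Dc (F : Fl) : mid (Dc F) = X * derivative (mid F) := by simp [Dc, mid_pd]

@[simp] theorem mid_Dt (F : Fl) : mid (Dt F) = X * derivative (mid F) := by simp [Dt, mid_pd]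

@[simp] theorem mid_dot (F : Fl) : mid (dot F) = 0 := by simp [dot]

end Fl

open Fl

section Constraint

variable {l τ : ℝ}

theorem den_pos (hl : 0 < l) (hτ : τ ∈ Icc (0 : ℝ) 1) : 0 < τ + 15 * l * (1 - τ) := by
  rcases hτ.1.eq_or_lt with h | h
  · rw [← h]; linarith
  · nlinarith [mul_nonneg hl.le (sub_nonneg.2 hτ.2)]

theorem xx_mem (hl : 0 < l) (hτ : τ ∈ Icc (0 : ℝ) 1) : xx l τ ∈ Icc (0 : ℝ) 1 :=
  ⟨div_nonneg hτ.1 (den_pos hl hτ).le, (div_le_one (den_pos hl hτ)).2 (by
    nlinarith [mul_nonneg hl.le (sub_nonneg.2 hτ.2)])⟩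

theorem xx_zero (l : ℝ) : xx l 0 = 0 := by simp [xx]

theorem xx_one (l : ℝ) : xx l 1 = 1 := by simp [xx]

@[simp] theorem evc_x : evc l τ x = xx l τ := ev_x _ _ _

@[simp] theorem evc_t : evc l τ t = τ := ev_t _ _ _

@[simp] theorem evc_l : evc l τ Fl.l = l := ev_l _ _ _

@[simp] theorem evc_c (b : ℝ) : evc l τ (c b) = b := ev_c _ _ _ _

@[simp] theorem evc_e : evc l τ e = 1 - 2 * τ := ev_e _ _ _

@[simp] theorem evc_a' : evc l τ a' = 1 - 15 * l := ev_a' _ _ _

@[simp] theorem evc_px (p : ℝ[X]) : evc l τ (px p) = p.eval (xx l τ) := ev_px _ _ _ _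

theorem evc_y (hl : 0 < l) (hτ : τ ∈ Icc (0 : ℝ) 1) :
    evc l τ y = l / (τ + 15 * l * (1 - τ)) := by
  have := (den_pos hl hτ).ne'
  rw [evc, ev_y, xx]; field_simp; ring

theorem y_pos (hl : 0 < l) (hτ : τ ∈ Icc (0 : ℝ) 1) : 0 < evc l τ y := by
  rw [evc_y hl hτ]; exact div_pos hl (den_pos hl hτ)

theorem y_le (hl : 0 < l) (hl' : l ≤ 1 / 15) (hτ : τ ∈ Icc (0 : ℝ) 1) : evc l τ y ≤ 1 / 15 := by
  rw [evc_y hl hτ, div_le_iff₀ (den_pos hl hτ)]
  nlinarith [mul_nonneg hτ.1 (sub_nonneg.2 hl')]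

theorem t_mul_y (hl : 0 < l) (hτ : τ ∈ Icc (0 : ℝ) 1) : τ * evc l τ y = l * xx l τ := by
  rw [evc_y hl hτ, xx]; ring

theorem one_sub_xx (hl : 0 < l) (hτ : τ ∈ Icc (0 : ℝ) 1) :
    1 - xx l τ = 15 * evc l τ y * (1 - τ) := by
  have := (den_pos hl hτ).ne'
  rw [evc_y hl hτ, xx]; field_simp; ring

theorem y_mul_den (hl : 0 < l) (hτ : τ ∈ Icc (0 : ℝ) 1) :
    evc l τ y * (τ + 15 * l * (1 - τ)) = l := by
  rw [evc_y hl hτ]; exact div_mul_cancel₀ _ (den_pos hl hτ).ne'

theorem hasDerivAt_xx (hl : 0 < l) (hτ : τ ∈ Icc (0 : ℝ) 1) :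
    HasDerivAt (xx l) (15 * evc l τ y ^ 2 / l) τ := by
  have h0 := (den_pos hl hτ).ne'
  have h := (hasDerivAt_id τ).div ((hasDerivAt_id τ).add
    (((hasDerivAt_id τ).const_sub 1).const_mul (15 * l))) h0
  refine h.congr_deriv ?_
  rw [evc_y hl hτ]
  simp only [id, Pi.add_apply]
  field_simp
  ring

theorem hasDerivAt_Dh (F : Fl) (hl : 0 < l) (hτ : τ ∈ Icc (0 : ℝ) 1) :
    HasDerivAt (fun s => evc l s F) (evc l τ (Dh F) / l) τ := by
  refine (hasDerivAt_ev F (hasDerivAt_xx hl hτ) (hasDerivAt_id τ)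
    (hasDerivAt_const τ l)).congr_deriv ?_
  simp only [Dh, Derivation.add_apply, Derivation.smul_apply, smul_eq_mul, map_add, map_mul,
    map_pow, map_ofNat, evc_l, id]
  simp only [evc]
  field_simp
  ring

theorem Dh_eq_Dc (F : Fl) (hl : 0 < l) (hτ : τ ∈ Icc (0 : ℝ) 1) :
    evc l τ (Dh F) = evc l τ y * evc l τ (Dc F) := by
  simp only [Dh, Dc, Derivation.add_apply, Derivation.smul_apply, smul_eq_mul, map_add, map_mul,
    map_pow, map_ofNat, evc_l, evc_t, map_sub, map_one]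
  linear_combination -(y_mul_den hl hτ) * evc l τ (pd 1 F)

theorem Dh_eq_Dt (F : Fl) (hl : 0 < l) (hτ : τ ∈ Icc (0 : ℝ) 1) :
    τ * evc l τ (Dh F) = l * evc l τ (Dt F) := by
  simp only [Dh, Dt, Derivation.add_apply, Derivation.smul_apply, smul_eq_mul, map_add, map_mul,
    map_pow, map_ofNat, evc_l, evc_t, evc_x]
  linear_combination 15 * evc l τ y * (t_mul_y hl hτ) * evc l τ (pd 0 F)

theorem Dh_eq_D (F : Fl) (hl : 0 < l) (hτ : τ ∈ Icc (0 : ℝ) 1) :
    τ * (1 - τ) * evc l τ (Dh F) = l * evc l τ (D F) := by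
  simp only [Dh, D, Derivation.add_apply, Derivation.smul_apply, smul_eq_mul, map_add, map_mul,
    map_pow, map_ofNat, evc_l, evc_t, evc_x, map_sub, map_one]
  rw [one_sub_xx hl hτ]
  linear_combination 15 * evc l τ y * (1 - τ) * (t_mul_y hl hτ) * evc l τ (pd 0 F)

theorem hasDerivAt_D (F : Fl) (hl : 0 < l) (hτ : τ ∈ Ioo (0 : ℝ) 1) :
    HasDerivAt (fun s => evc l s F) (evc l τ (D F) / (τ * (1 - τ))) τ := by
  refine (hasDerivAt_Dh F hl (Ioo_subset_Icc_self hτ)).congr_deriv ?_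
  have h1 := hτ.1.ne'
  have h2 := (sub_pos.2 hτ.2).ne'
  rw [div_eq_div_iff hl.ne' (mul_ne_zero h1 h2)]
  linear_combination Dh_eq_D F hl (Ioo_subset_Icc_self hτ)

theorem evc_D_y (hl : 0 < l) (hτ : τ ∈ Icc (0 : ℝ) 1) :
    evc l τ (D y) = -((1 - 15 * l) * xx l τ * (1 - τ) * evc l τ y) := by
  have h : D y = c (-1 / 15) * a' * x * (1 - x) := by
    have : (c (-1 / 15) : Fl) = -c (1 / 15) := by simp only [c, ← map_neg]; norm_num
    simp [D, y, a', this]
    ring
  rw [h]
  simp only [map_mul, evc_c, evc_a', evc_x, map_sub, map_one]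
  rw [one_sub_xx hl hτ]
  ring

theorem evc_D_ypow (k : ℕ) (F : Fl) (hl : 0 < l) (hτ : τ ∈ Icc (0 : ℝ) 1) :
    evc l τ (D (y ^ k * F)) = evc l τ y ^ k * evc l τ (Dy k F) := by
  induction k with
  | zero => simp [Dy]
  | succ k ih =>
    rw [pow_succ', mul_assoc, Derivation.leibniz]
    simp only [smul_eq_mul, map_add, map_mul, ih, evc_D_y hl hτ, Dy, map_sub, map_pow, evc_a',
      evc_x, evc_t, map_one, map_natCast]
    push_cast
    ring

theorem lam_pos {l0 : ℝ} (h : 0 < l0) (σ : ℝ) : 0 < lam l0 σ := mul_pos h (Real.exp_pos _)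

theorem lam_le {l0 σ : ℝ} (h : 0 < l0) (hσ : 0 ≤ σ) : lam l0 σ ≤ l0 :=
  mul_le_of_le_one_right h.le (Real.exp_le_one_iff.2 (by linarith))

theorem lam_zero (l0 : ℝ) : lam l0 0 = l0 := by simp [lam]

theorem hasDerivAt_lam (l0 σ : ℝ) : HasDerivAt (lam l0) (-(lam l0 σ / 2)) σ := by
  have h := (((hasDerivAt_id σ).neg.div_const 2).exp).const_mul l0
  refine h.congr_deriv ?_
  simp only [lam, id, Pi.neg_apply]
  ring

theorem continuous_lam (l0 : ℝ) : Continuous (lam l0) := by unfold lam; fun_prop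

theorem hasDerivAt_dot (F : Fl) {l0 : ℝ} (h : 0 < l0) (σ : ℝ) (hτ : τ ∈ Icc (0 : ℝ) 1) :
    HasDerivAt (fun s => evc (lam l0 s) τ F) (evc (lam l0 σ) τ (dot F)) σ := by
  have h0 := (den_pos (lam_pos h σ) hτ).ne'
  have hx : HasDerivAt (fun s => xx (lam l0 s) τ)
      (xx (lam l0 σ) τ * (1 - xx (lam l0 σ) τ) / 2) σ := by
    have := (hasDerivAt_const σ τ).div ((((hasDerivAt_lam l0 σ).const_mul 15).mul_const
      (1 - τ)).const_add τ) h0
    refine this.congr_deriv ?_
    simp only [xx]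
    field_simp
    ring
  refine (hasDerivAt_ev F hx (hasDerivAt_const σ τ) (hasDerivAt_lam l0 σ)).congr_deriv ?_
  simp only [dot, Derivation.sub_apply, Derivation.smul_apply, smul_eq_mul, map_sub, map_mul,
    evc_l, evc_x, evc_c, map_one]
  simp only [evc]
  ring

theorem continuousOn_evc (F : Fl) :
    ContinuousOn (fun p : ℝ × ℝ => evc p.1 p.2 F) (Ioi 0 ×ˢ Icc 0 1) := by
  have hx : ContinuousOn (fun p : ℝ × ℝ => xx p.1 p.2) (Ioi 0 ×ˢ Icc 0 1) :=
    ContinuousOn.div (by fun_prop) (by fun_prop) fun p hp => (den_pos hp.1 hp.2).ne'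
  exact (continuous_ev F).comp_continuousOn (f := fun p : ℝ × ℝ => (xx p.1 p.2, p.2, p.1))
    (hx.prodMk (continuousOn_snd.prodMk continuousOn_fst))

theorem continuousOn_evc_lam (F : Fl) {l0 : ℝ} (h : 0 < l0) :
    ContinuousOn (fun p : ℝ × ℝ => evc (lam l0 p.1) p.2 F) (univ ×ˢ Icc 0 1) :=
  (continuousOn_evc F).comp (f := fun p : ℝ × ℝ => (lam l0 p.1, p.2))
    (((continuous_lam l0).comp continuous_fst).prodMk continuous_snd).continuousOn
    fun _ hp => ⟨lam_pos h _, hp.2⟩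

theorem continuousOn_evc_slice (F : Fl) (hl : 0 < l) :
    ContinuousOn (fun s => evc l s F) (Icc 0 1) := fun _ hs =>
  (hasDerivAt_Dh F hl hs).continuousAt.continuousWithinAt

end Constraint

end Vale.Agent.P264
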