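import Vale.Agent.P264.Traj

/-! The exact derivative terms integrate to boundary values. -/

open Set Polynomial

noncomputable section

namespace Vale.Agent.P264

open Fl

/-- continuous, with a given rescaled integral -/
def IbpAv (l : ℝ) (f : ℝ → ℝ) (b : ℝ) : Prop := ContinuousOn f (Icc 0 1) ∧ av l f = b

theorem IbpAv.add {l a b : ℝ} {f g : ℝ → ℝ} (hf : IbpAv l f a) (hg : IbpAv l g b) :
    IbpAv l (fun τ => f τ + g τ) (a + b) :=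
  ⟨hf.1.add hg.1, by rw [av_add hf.1 hg.1, hf.2, hg.2]⟩

theorem IbpAv.cmul {l a : ℝ} {f : ℝ → ℝ} (b : ℝ) (hf : IbpAv l f a) :
    IbpAv l (fun τ => b * f τ) (b * a) :=
  ⟨continuousOn_const.mul hf.1, by rw [av_const_mul, hf.2]⟩

theorem IbpAv.cast {l a b : ℝ} {f : ℝ → ℝ} (hf : IbpAv l f a) (h : a = b) : IbpAv l f b :=
  h ▸ hf

theorem ibp_av_zero {l : ℝ} {a a' h : ℝ → ℝ} (ha : ContinuousOn a (Icc 0 1))
    (ha' : ContinuousOn a' (Icc 0 1))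
    (hd : ∀ τ ∈ Ioo (0 : ℝ) 1, HasDerivAt a (a' τ / (τ * (1 - τ))) τ)
    (hh : ∀ τ ∈ Ioo (0 : ℝ) 1, h τ = a' τ + (1 - 2 * τ) * a τ) : av l h = 0 := by
  rw [av_congr hh, av, ibp_D ha ha' hd (right_mem_Icc.2 zero_le_one)]
  simp

theorem ibp_mul {f g : ℝ → ℝ} {a b r τ : ℝ} (hf : HasDerivAt f (a / r) τ)
    (hg : HasDerivAt g (b / r) τ) :
    HasDerivAt (fun s => f s * g s) ((a * g τ + f τ * b) / r) τ :=
  (hf.mul hg).congr_deriv (by ring)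

section Abstract

variable {v : ℝ → Fl →ₐ[ℝ] ℝ} {G M : ℝ → ℕ → ℝ} {S : Set ℝ}
  (hv : ∀ F, ContinuousOn (fun s => v s F) S) (hG : ∀ j, ContinuousOn (fun s => G s j) S)
  (hM : ∀ j, ContinuousOn (fun s => M s j) S)

include hv hG in
theorem ibp_tT_cont (p : Fl) (i j : ℕ) : ContinuousOn (fun s => tT (v s) (G s) p i j) S :=
  (((hv _).mul (hG _)).mul (hG _)).add
    ((hv _).mul (((hG _).mul (hG _)).add ((hG _).mul (hG _))))

include hv hG hM in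
theorem ibp_tC_cont (p : Fl) (i j : ℕ) :
    ContinuousOn (fun s => tC (v s) (G s) (M s) p i j) S :=
  (((hv _).mul (hG _)).mul (hM _)).add
    ((hv _).mul (((hG _).mul (hM _)).add ((hG _).mul (hM _))))

include hv hM in
theorem ibp_tD_cont (p : Fl) (i j : ℕ) : ContinuousOn (fun s => tD (v s) (M s) p i j) S :=
  (((hv _).mul (hM _)).mul (hM _)).add
    ((hv _).mul (((hM _).mul (hM _)).add ((hM _).mul (hM _))))

include hv hG in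
theorem ibp_tR_cont (q ζ : Fl) {J : ℝ → ℝ} (hJ : ContinuousOn J S) (j : ℕ) :
    ContinuousOn (fun s => tR (v s) (G s) q ζ (J s) j) S :=
  ((((hv _).mul hJ).mul (hG _)).add (((hv _).mul (hG _)).mul (hG _))).add
    (((hv _).mul hJ).mul (hG _))

include hv hG in
theorem ibp_tP_cont (P : ℝ[X]) (ζ ζ' : Fl) {J J' : ℝ → ℝ} (hJ : ContinuousOn J S)
    (hJ' : ContinuousOn J' S) :
    ContinuousOn (fun s => tP (v s) (G s) P ζ ζ' (J s) (J' s)) S :=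
  (((continuousOn_const.mul (hv _)).mul hJ).mul hJ').add
    ((continuousOn_const.mul (hv _)).mul
      ((((hv _).mul (hG _)).mul hJ').add (((hv _).mul (hG _)).mul hJ)))

include hv hG in
theorem ibp_Yd_cont (d : Data) : ContinuousOn (fun s => d.Yd (v s) (G s)) S :=
  ((((hv _).mul ((hG _).pow 2)).add ((hv _).mul ((hG _).pow 2))).add
    ((hv _).mul ((hG _).pow 2))).add ((hv _).mul ((hG _).pow 2))

include hv hG hM in
theorem ibp_YK_cont : ContinuousOn (fun s => YK (v s) (G s) (M s)) S :=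
  ((hv _).mul (((((hv _).mul (hM _)).add ((hv _).mul (hM _))).add ((hv _).mul (hM _))).add
    ((hv _).mul (hM _)))).add ((continuousOn_const.mul (hv _)).mul (hG _))

include hv hG hM in
theorem ibp_SK_cont : ContinuousOn (fun s => SK (v s) (G s) (M s)) S :=
  (((((hv _).mul (hM _)).add ((hv _).mul (hM _))).add ((hv _).mul (hM _))).add
    ((hv _).mul (hM _))).add ((continuousOn_const.mul (hv _)).mul (hG _))

include hv hG hM in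
theorem ibp_RK_cont : ContinuousOn (fun s => RK (v s) (G s) (M s)) S :=
  ((((((hv _).mul (hM _)).add ((hv _).mul (hM _))).add
    (((hv _).mul (hM _)).add ((hv _).mul (hM _)))).add
    (((hv _).mul (hM _)).add ((hv _).mul (hM _)))).add
    (((hv _).mul (hM _)).add ((hv _).mul (hM _)))).add
    ((continuousOn_const.mul (hv _)).mul (hG _))

include hv hG hM in
theorem ibp_L0_cont (d : Data) : ContinuousOn (fun s => d.L0 (v s) (G s) (M s)) S :=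
  ((hv _).mul (ibp_YK_cont hv hG hM)).neg.add ((hv _).mul (hG _))

include hv hG hM in
theorem ibp_L1_cont (d : Data) : ContinuousOn (fun s => d.L1 (v s) (G s) (M s)) S :=
  (((hv _).mul (ibp_RK_cont hv hG hM)).neg.sub ((hv _).mul (ibp_SK_cont hv hG hM))).add
    ((hv _).mul (((hv _).mul (hG _)).add ((hv _).mul (hG _))))

include hv hM in
theorem ibp_Bt_cont (d : Data) : ContinuousOn (fun s => d.Bt (v s) (M s)) S :=
  (((((hv _).mul (hM _)).sub ((hv _).mul (hM _))).add ((hv _).mul (hM _))).add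
    ((continuousOn_const.mul (hv _)).mul (hM _))).add ((hv _).mul (hM _))

include hv hG hM in
theorem ibp_F0_cont (d : Data) : ContinuousOn (fun s => d.F0 (v s) (G s) (M s)) S :=
  ((((((hv _).mul ((hG _).pow 2)).add ((hv _).mul ((hG _).pow 2))).add
    ((hv _).mul ((hG _).pow 2))).add ((hv _).mul ((hG _).pow 2))).sub
    (((continuousOn_const.mul (hv _)).mul (hG _)).mul (ibp_L0_cont hv hG hM d))).sub
    ((continuousOn_const.mul (ibp_Bt_cont hv hM d)).mul (ibp_L1_cont hv hG hM d))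

end Abstract

namespace Tr

variable {l0 : ℝ} (T : Tr l0)

/-- running integral against `ζ`, times `y` -/
def JJ (ζ : Fl) (σ τ : ℝ) : ℝ := evc (lam l0 σ) τ y * ((lam l0 σ)⁻¹ *
  ∫ s in (0 : ℝ)..τ, evc (lam l0 σ) s y * (evc (lam l0 σ) s (15 * y * ζ) * T.G 0 σ s))

/-- the functional given by `ζ` -/
def fn (ζ : Fl) (σ : ℝ) : ℝ :=
  av (lam l0 σ) fun s => evc (lam l0 σ) s y * (evc (lam l0 σ) s (15 * y * ζ) * T.G 0 σ s)

/-- running integral against `ζ` -/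
def ibpI (ζ : Fl) (σ τ : ℝ) : ℝ := (lam l0 σ)⁻¹ *
  ∫ s in (0 : ℝ)..τ, evc (lam l0 σ) s y * (evc (lam l0 σ) s (15 * y * ζ) * T.G 0 σ s)

variable (hl : 0 < l0) {σ : ℝ} (hσ : 0 ≤ σ)
include hl hσ

omit hσ in
theorem ibp_v (σ : ℝ) (F : Fl) : ContinuousOn (fun s => evc (lam l0 σ) s F) (Icc 0 1) :=
  continuousOn_evc_slice F (lam_pos hl σ)

theorem ibp_dens (ζ : Fl) : ContinuousOn
    (fun s => evc (lam l0 σ) s y * (evc (lam l0 σ) s (15 * y * ζ) * T.G 0 σ s)) (Icc 0 1) :=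
  (ibp_v hl σ _).mul ((ibp_v hl σ _).mul (T.cG' 0 hσ))

theorem ibpI_cont (ζ : Fl) : ContinuousOn (T.ibpI ζ σ) (Icc 0 1) := by
  have h := T.ibp_dens hl hσ ζ
  have h2 := intervalIntegral.continuousOn_primitive_interval (μ := MeasureTheory.volume)
    (a := 0) (b := 1) (by
      rw [uIcc_of_le zero_le_one]
      exact h.integrableOn_Icc)
  rw [uIcc_of_le zero_le_one] at h2
  exact continuousOn_const.mul h2

theorem ibpI_deriv (ζ : Fl) {τ : ℝ} (hτ : τ ∈ Ioo (0 : ℝ) 1) : HasDerivAt (T.ibpI ζ σ)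
    ((lam l0 σ)⁻¹ * (evc (lam l0 σ) τ y * (evc (lam l0 σ) τ (15 * y * ζ) * T.G 0 σ τ))) τ := by
  have h := T.ibp_dens hl hσ ζ
  refine HasDerivAt.const_mul _ (intervalIntegral.integral_hasDerivAt_right ?_ ?_ ?_)
  · refine (h.mono ?_).intervalIntegrable
    rw [uIcc_of_le hτ.1.le]
    exact Icc_subset_Icc le_rfl hτ.2.le
  · exact (h.mono Ioo_subset_Icc_self).stronglyMeasurableAtFilter isOpen_Ioo τ hτ
  · exact h.continuousAt (Icc_mem_nhds hτ.1 hτ.2)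

theorem JJ_cont (ζ : Fl) : ContinuousOn (T.JJ ζ σ) (Icc 0 1) :=
  (ibp_v hl σ y).mul (T.ibpI_cont hl hσ ζ)

theorem ibp_JJ_deriv (ζ : Fl) {τ : ℝ} (hτ : τ ∈ Ioo (0 : ℝ) 1) : HasDerivAt (T.JJ ζ σ)
    ((-((1 - 15 * lam l0 σ) * xx (lam l0 σ) τ * (1 - τ) * T.JJ ζ σ τ) +
      evc (lam l0 σ) τ (y * x * (1 - x) * ζ) * T.G 0 σ τ) / (τ * (1 - τ))) τ := by
  have hp := lam_pos hl σ
  have hτ' := Ioo_subset_Icc_self hτ
  refine ((hasDerivAt_D y hp hτ).mul (T.ibpI_deriv hl hσ ζ hτ)).congr_deriv ?_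
  have h1 := hτ.1.ne'
  have h2 := (sub_pos.2 hτ.2).ne'
  have h3 := t_mul_y hp hτ'
  have h4 := one_sub_xx hp hτ'
  have h5 : T.JJ ζ σ τ = evc (lam l0 σ) τ y * T.ibpI ζ σ τ := rfl
  rw [evc_D_y hp hτ', h5]
  simp only [map_mul, map_sub, map_one, evc_x, map_ofNat]
  rw [h4]
  have h6 : xx (lam l0 σ) τ = τ * evc (lam l0 σ) τ y / lam l0 σ := by
    rw [h3]; field_simp
  rw [h6]
  field_simp

theorem int_T (p : Fl) (i j : ℕ) :
    av (lam l0 σ) (fun τ => tT (evc (lam l0 σ) τ) (T.g σ τ) p i j) = 0 := by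
  refine ibp_av_zero (a := fun τ => evc (lam l0 σ) τ p * T.G i σ τ * T.G j σ τ)
    (a' := fun τ => (evc (lam l0 σ) τ (D p) * T.G i σ τ + evc (lam l0 σ) τ p * T.G (i + 1) σ τ) *
      T.G j σ τ + evc (lam l0 σ) τ p * T.G i σ τ * T.G (j + 1) σ τ)
    (((ibp_v hl σ _).mul (T.cG' _ hσ)).mul (T.cG' _ hσ))
    (((((ibp_v hl σ _).mul (T.cG' _ hσ)).add ((ibp_v hl σ _).mul (T.cG' _ hσ))).mul
      (T.cG' _ hσ)).add (((ibp_v hl σ _).mul (T.cG' _ hσ)).mul (T.cG' _ hσ)))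
    (fun τ hτ => ibp_mul (ibp_mul (hasDerivAt_D p (lam_pos hl σ) hτ) (T.dG' hl i hσ hτ))
      (T.dG' hl j hσ hτ)) fun τ _ => ?_
  simp only [tT, g, sh, map_add, map_mul, evc_e]
  ring

theorem int_C (p : Fl) (i j : ℕ) :
    av (lam l0 σ) (fun τ => tC (evc (lam l0 σ) τ) (T.g σ τ) (T.m σ τ) p i (j + 1)) = 0 := by
  refine ibp_av_zero (a := fun τ => evc (lam l0 σ) τ p * T.G i σ τ * T.M (j + 1) σ τ)
    (a' := fun τ => (evc (lam l0 σ) τ (D p) * T.G i σ τ + evc (lam l0 σ) τ p * T.G (i + 1) σ τ) *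
      T.M (j + 1) σ τ + evc (lam l0 σ) τ p * T.G i σ τ *
        (T.M (j + 2) σ τ - (1 - 2 * τ) * T.M (j + 1) σ τ))
    (((ibp_v hl σ _).mul (T.cG' _ hσ)).mul (T.cM' _ hσ))
    (((((ibp_v hl σ _).mul (T.cG' _ hσ)).add ((ibp_v hl σ _).mul (T.cG' _ hσ))).mul
      (T.cM' _ hσ)).add (((ibp_v hl σ _).mul (T.cG' _ hσ)).mul ((T.cM' _ hσ).sub
        ((by fun_prop : ContinuousOn (fun τ : ℝ => 1 - 2 * τ) (Icc 0 1)).mul (T.cM' _ hσ)))))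
    (fun τ hτ => ibp_mul (ibp_mul (hasDerivAt_D p (lam_pos hl σ) hτ) (T.dG' hl i hσ hτ))
      (T.dM hl j hσ hτ)) fun τ _ => ?_
  simp only [tC, g, m]
  ring

theorem int_D (p : Fl) (i j : ℕ) :
    av (lam l0 σ) (fun τ => tD (evc (lam l0 σ) τ) (T.m σ τ) p (i + 1) (j + 1)) = 0 := by
  have he : ContinuousOn (fun τ : ℝ => 1 - 2 * τ) (Icc 0 1) := by fun_prop
  refine ibp_av_zero (a := fun τ => evc (lam l0 σ) τ p * T.M (i + 1) σ τ * T.M (j + 1) σ τ)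
    (a' := fun τ => (evc (lam l0 σ) τ (D p) * T.M (i + 1) σ τ + evc (lam l0 σ) τ p *
      (T.M (i + 2) σ τ - (1 - 2 * τ) * T.M (i + 1) σ τ)) *
      T.M (j + 1) σ τ + evc (lam l0 σ) τ p * T.M (i + 1) σ τ *
        (T.M (j + 2) σ τ - (1 - 2 * τ) * T.M (j + 1) σ τ))
    (((ibp_v hl σ _).mul (T.cM' _ hσ)).mul (T.cM' _ hσ))
    (((((ibp_v hl σ _).mul (T.cM' _ hσ)).add ((ibp_v hl σ _).mul ((T.cM' _ hσ).sub
      (he.mul (T.cM' _ hσ))))).mul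
      (T.cM' _ hσ)).add (((ibp_v hl σ _).mul (T.cM' _ hσ)).mul ((T.cM' _ hσ).sub
        (he.mul (T.cM' _ hσ)))))
    (fun τ hτ => ibp_mul (ibp_mul (hasDerivAt_D p (lam_pos hl σ) hτ) (T.dM hl i hσ hτ))
      (T.dM hl j hσ hτ)) fun τ _ => ?_
  simp only [tD, m, map_sub, map_mul, evc_e]
  ring

theorem int_R (q ζ : Fl) (j : ℕ) :
    av (lam l0 σ) (fun τ => tR (evc (lam l0 σ) τ) (T.g σ τ) q ζ (T.JJ ζ σ τ) j) = 0 := by
  have hJ := T.JJ_cont hl hσ ζ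
  have hx : ContinuousOn (fun τ : ℝ => (1 - 15 * lam l0 σ) * xx (lam l0 σ) τ * (1 - τ))
      (Icc 0 1) := by
    have := ibp_v hl σ x
    simp only [evc_x] at this
    exact (continuousOn_const.mul this).mul (by fun_prop)
  refine ibp_av_zero (a := fun τ => evc (lam l0 σ) τ q * T.JJ ζ σ τ * T.G j σ τ)
    (a' := fun τ => (evc (lam l0 σ) τ (D q) * T.JJ ζ σ τ + evc (lam l0 σ) τ q *
      (-((1 - 15 * lam l0 σ) * xx (lam l0 σ) τ * (1 - τ) * T.JJ ζ σ τ) +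
        evc (lam l0 σ) τ (y * x * (1 - x) * ζ) * T.G 0 σ τ)) *
      T.G j σ τ + evc (lam l0 σ) τ q * T.JJ ζ σ τ * T.G (j + 1) σ τ)
    (((ibp_v hl σ _).mul hJ).mul (T.cG' _ hσ))
    (((((ibp_v hl σ _).mul hJ).add ((ibp_v hl σ _).mul ((hx.mul hJ).neg.add
      ((ibp_v hl σ _).mul (T.cG' _ hσ))))).mul
      (T.cG' _ hσ)).add (((ibp_v hl σ _).mul hJ).mul (T.cG' _ hσ)))
    (fun τ hτ => ibp_mul (ibp_mul (hasDerivAt_D q (lam_pos hl σ) hτ)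
      (T.ibp_JJ_deriv hl hσ ζ hτ)) (T.dG' hl j hσ hτ)) fun τ _ => ?_
  simp only [tR, g, Dy, map_add, map_sub, map_mul, evc_e, evc_a', evc_x, evc_t, map_one,
    Nat.cast_one]
  ring

theorem int_P (P : ℝ[X]) (ζ ζ' : Fl) :
    av (lam l0 σ) (fun τ => tP (evc (lam l0 σ) τ) (T.g σ τ) P ζ ζ' (T.JJ ζ σ τ) (T.JJ ζ' σ τ)) =
      P.eval 1 * T.fn ζ σ * T.fn ζ' σ := by
  have hp := lam_pos hl σ
  have hc := ibp_tP_cont (v := fun τ => evc (lam l0 σ) τ) (G := T.g σ) (ibp_v hl σ)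
    (fun j => T.cG' j hσ) P ζ ζ' (T.JJ_cont hl hσ ζ) (T.JJ_cont hl hσ ζ')
  have hb : ContinuousOn
      (fun τ => evc (lam l0 σ) τ (px P) * T.ibpI ζ σ τ * T.ibpI ζ' σ τ) (Icc 0 1) :=
    ((ibp_v hl σ _).mul (T.ibpI_cont hl hσ ζ)).mul (T.ibpI_cont hl hσ ζ')
  have hd : ∀ τ ∈ Ioo (0 : ℝ) 1, HasDerivAt
      (fun τ => evc (lam l0 σ) τ (px P) * T.ibpI ζ σ τ * T.ibpI ζ' σ τ)
      ((lam l0 σ)⁻¹ *
        tP (evc (lam l0 σ) τ) (T.g σ τ) P ζ ζ' (T.JJ ζ σ τ) (T.JJ ζ' σ τ)) τ := by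
    intro τ hτ
    refine (((hasDerivAt_Dh (px P) hp (Ioo_subset_Icc_self hτ)).mul
      (T.ibpI_deriv hl hσ ζ hτ)).mul (T.ibpI_deriv hl hσ ζ' hτ)).congr_deriv ?_
    have h5 : T.JJ ζ σ τ = evc (lam l0 σ) τ y * T.ibpI ζ σ τ := rfl
    have h6 : T.JJ ζ' σ τ = evc (lam l0 σ) τ y * T.ibpI ζ' σ τ := rfl
    have h7 : Dh (px P) = 15 * y ^ 2 * px (derivative P) := by simp [Dh]
    simp only [tP, g, h5, h6, h7, map_mul, map_pow, map_ofNat, Pi.mul_apply]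
    ring
  have key := intervalIntegral.integral_eq_sub_of_hasDerivAt_of_le zero_le_one hb hd
    ((continuousOn_const.mul hc).intervalIntegrable_of_Icc zero_le_one)
  rw [intervalIntegral.integral_const_mul] at key
  rw [av, key]
  have h0 : T.ibpI ζ σ 0 = 0 := by simp [ibpI]
  have h1 : T.ibpI ζ σ 1 = T.fn ζ σ := rfl
  have h2 : T.ibpI ζ' σ 1 = T.fn ζ' σ := rfl
  simp only [h0, h1, h2, evc_px, xx_one, mul_zero, zero_mul, sub_zero]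

/-- moving one derivative from `G` to a weight with a factor `y` -/
theorem int_Tadj (F : Fl) (j : ℕ) :
    av (lam l0 σ) (fun τ => evc (lam l0 σ) τ (y * F) * T.G (j + 1) σ τ) =
      av (lam l0 σ) fun τ => evc (lam l0 σ) τ (y * Tadj F) * T.G j σ τ := by
  have hp := lam_pos hl σ
  have c1 : ContinuousOn (fun τ => evc (lam l0 σ) τ (y * F) * T.G (j + 1) σ τ) (Icc 0 1) :=
    (ibp_v hl σ _).mul (T.cG' _ hσ)
  have c2 : ContinuousOn (fun τ => evc (lam l0 σ) τ (y * Tadj F) * T.G j σ τ) (Icc 0 1) :=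
    (ibp_v hl σ _).mul (T.cG' _ hσ)
  have h0 : av (lam l0 σ) (fun τ => evc (lam l0 σ) τ (y * F) * T.G (j + 1) σ τ -
      evc (lam l0 σ) τ (y * Tadj F) * T.G j σ τ) = 0 := by
    refine ibp_av_zero (a := fun τ => evc (lam l0 σ) τ (y * F) * T.G j σ τ)
      (a' := fun τ => evc (lam l0 σ) τ (D (y * F)) * T.G j σ τ +
        evc (lam l0 σ) τ (y * F) * T.G (j + 1) σ τ)
      ((ibp_v hl σ _).mul (T.cG' _ hσ)) (((ibp_v hl σ _).mul (T.cG' _ hσ)).add c1)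
      (fun τ hτ => ibp_mul (hasDerivAt_D _ hp hτ) (T.dG' hl j hσ hτ)) fun τ hτ => ?_
    have := evc_D_ypow 1 F hp (Ioo_subset_Icc_self hτ)
    rw [pow_one, pow_one] at this
    simp only [this, Tadj, map_mul, map_neg, map_add, evc_e]
    ring
  have h1 := av_add (l := lam l0 σ) (c1.sub c2) c2
  simp only [Pi.sub_apply, sub_add_cancel] at h1
  rw [h1]
  exact (congrArg (· + _) h0).trans (zero_add _)

theorem ibp_T (p : Fl) (i j : ℕ) :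
    IbpAv (lam l0 σ) (fun τ => tT (evc (lam l0 σ) τ) (T.g σ τ) p i j) 0 :=
  ⟨ibp_tT_cont (v := fun τ => evc (lam l0 σ) τ) (G := T.g σ) (ibp_v hl σ)
    (fun j => T.cG' j hσ) p i j, T.int_T hl hσ p i j⟩

theorem ibp_C (p : Fl) (i j : ℕ) :
    IbpAv (lam l0 σ) (fun τ => tC (evc (lam l0 σ) τ) (T.g σ τ) (T.m σ τ) p i (j + 1)) 0 :=
  ⟨ibp_tC_cont (v := fun τ => evc (lam l0 σ) τ) (G := T.g σ) (M := T.m σ) (ibp_v hl σ)
    (fun j => T.cG' j hσ) (fun j => T.cM' j hσ) p i (j + 1), T.int_C hl hσ p i j⟩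

theorem ibp_DD (p : Fl) (i j : ℕ) :
    IbpAv (lam l0 σ) (fun τ => tD (evc (lam l0 σ) τ) (T.m σ τ) p (i + 1) (j + 1)) 0 :=
  ⟨ibp_tD_cont (v := fun τ => evc (lam l0 σ) τ) (M := T.m σ) (ibp_v hl σ)
    (fun j => T.cM' j hσ) p (i + 1) (j + 1), T.int_D hl hσ p i j⟩

theorem ibp_R (q ζ : Fl) (j : ℕ) :
    IbpAv (lam l0 σ) (fun τ => tR (evc (lam l0 σ) τ) (T.g σ τ) q ζ (T.JJ ζ σ τ) j) 0 :=
  ⟨ibp_tR_cont (v := fun τ => evc (lam l0 σ) τ) (G := T.g σ) (ibp_v hl σ)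
    (fun j => T.cG' j hσ) q ζ (T.JJ_cont hl hσ ζ) j, T.int_R hl hσ q ζ j⟩

theorem ibp_P (P : ℝ[X]) (ζ ζ' : Fl) :
    IbpAv (lam l0 σ)
      (fun τ => tP (evc (lam l0 σ) τ) (T.g σ τ) P ζ ζ' (T.JJ ζ σ τ) (T.JJ ζ' σ τ))
      (P.eval 1 * T.fn ζ σ * T.fn ζ' σ) :=
  ⟨ibp_tP_cont (v := fun τ => evc (lam l0 σ) τ) (G := T.g σ) (ibp_v hl σ)
    (fun j => T.cG' j hσ) P ζ ζ' (T.JJ_cont hl hσ ζ) (T.JJ_cont hl hσ ζ'),
    T.int_P hl hσ P ζ ζ'⟩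

theorem ibp_IT (d : Data) (P R : ℕ → ℕ → ℝ[X]) :
    IbpAv (lam l0 σ) (fun τ => d.IT (evc (lam l0 σ) τ) (T.g σ τ)
      (fun k => T.JJ (d.zeta k) σ τ) P R)
      ((P 0 0).eval 1 * T.fn (d.zeta 0) σ ^ 2 +
        2 * (P 0 1).eval 1 * T.fn (d.zeta 0) σ * T.fn (d.zeta 1) σ +
        (P 1 1).eval 1 * T.fn (d.zeta 1) σ ^ 2) :=
  ((((T.ibp_P hl hσ (P 0 0) (d.zeta 0) (d.zeta 0)).add
    ((T.ibp_P hl hσ (P 0 1) (d.zeta 0) (d.zeta 1)).cmul 2)).add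
    (T.ibp_P hl hσ (P 1 1) (d.zeta 1) (d.zeta 1))).add
    (IbpAv.cmul 2 ((((((T.ibp_R hl hσ ((1 - x) * px (R 0 0)) (d.zeta 0) 0).add
      (T.ibp_R hl hσ ((1 - x) * px (R 0 1)) (d.zeta 0) 1)).add
      (T.ibp_R hl hσ ((1 - x) * px (R 0 2)) (d.zeta 0) 2)).add
      (T.ibp_R hl hσ ((1 - x) * px (R 1 0)) (d.zeta 1) 0)).add
      (T.ibp_R hl hσ ((1 - x) * px (R 1 1)) (d.zeta 1) 1)).add
      (T.ibp_R hl hσ ((1 - x) * px (R 1 2)) (d.zeta 1) 2)))).cast (by ring)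

theorem int_IT (d : Data) (P R : ℕ → ℕ → ℝ[X]) :
    av (lam l0 σ) (fun τ => d.IT (evc (lam l0 σ) τ) (T.g σ τ)
      (fun k => T.JJ (d.zeta k) σ τ) P R) =
      (P 0 0).eval 1 * T.fn (d.zeta 0) σ ^ 2 +
        2 * (P 0 1).eval 1 * T.fn (d.zeta 0) σ * T.fn (d.zeta 1) σ +
        (P 1 1).eval 1 * T.fn (d.zeta 1) σ ^ 2 :=
  (T.ibp_IT hl hσ d P R).2

theorem ibp_F1 (d : Data) (Λ : ℝ) :
    IbpAv (lam l0 σ) (fun τ => d.F1 (evc (lam l0 σ) τ) (T.g σ τ) (T.m σ τ)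
      (fun k => T.JJ (d.zeta k) σ τ) Λ)
      (av (lam l0 σ) (fun τ => d.F0 (evc (lam l0 σ) τ) (T.g σ τ) (T.m σ τ)) +
      ((d.P 0 0).eval 1 * T.fn (d.zeta 0) σ ^ 2 +
        2 * (d.P 0 1).eval 1 * T.fn (d.zeta 0) σ * T.fn (d.zeta 1) σ +
        (d.P 1 1).eval 1 * T.fn (d.zeta 1) σ ^ 2)) := by
  have h0 : IbpAv (lam l0 σ) (fun τ => d.F0 (evc (lam l0 σ) τ) (T.g σ τ) (T.m σ τ)) _ :=
    ⟨ibp_F0_cont (v := fun τ => evc (lam l0 σ) τ) (G := T.g σ) (M := T.m σ) (ibp_v hl σ)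
      (fun j => T.cG' j hσ) (fun j => T.cM' j hσ) d, rfl⟩
  have hD := T.ibp_DD hl hσ
  exact ((((((h0.add (T.ibp_T hl hσ ((1 - x) * px d.q00 - t) 0 0)).add
    (IbpAv.cmul 2 ((T.ibp_C hl hσ ((1 - t) * px (d.pC 1)) 0 0).add
      (T.ibp_C hl hσ ((1 - t) * px (d.pC 2)) 0 1)))).add
    ((((hD (d.pDf 1 1) 0 0).add (hD (d.pDf 2 2) 1 1)).add (hD (d.pDf 3 3) 2 2)).add
      (hD (d.pDf 4 4) 3 3))).add
    (IbpAv.cmul 2 ((((((hD (d.pDf 1 2) 0 1).add (hD (d.pDf 1 3) 0 2)).add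
      (hD (d.pDf 1 4) 0 3)).add (hD (d.pDf 2 3) 1 2)).add (hD (d.pDf 2 4) 1 3)).add
      (hD (d.pDf 3 4) 2 3)))).add
    ((hD (t * (1 - t)) 2 3).cmul (2 * Λ))).add (T.ibp_IT hl hσ d d.P d.R)).cast (by ring)

theorem ibp_FF2 (d : Data) :
    IbpAv (lam l0 σ)
      (fun τ => d.FF2 (evc (lam l0 σ) τ) (T.g σ τ) fun k => T.JJ (d.zeta k) σ τ)
      (av (lam l0 σ) (fun τ => d.Yd (evc (lam l0 σ) τ) (T.g σ τ)) +
      ((d.P2 0 0).eval 1 * T.fn (d.zeta 0) σ ^ 2 +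
        2 * (d.P2 0 1).eval 1 * T.fn (d.zeta 0) σ * T.fn (d.zeta 1) σ +
        (d.P2 1 1).eval 1 * T.fn (d.zeta 1) σ ^ 2)) := by
  have h0 : IbpAv (lam l0 σ) (fun τ => d.Yd (evc (lam l0 σ) τ) (T.g σ τ)) _ :=
    ⟨ibp_Yd_cont (v := fun τ => evc (lam l0 σ) τ) (G := T.g σ) (ibp_v hl σ)
      (fun j => T.cG' j hσ) d, rfl⟩
  have hT := T.ibp_T hl hσ
  exact (((h0.add (((hT ((1 - x) * px (d.t2 0 0) - t) 0 0).add
    (hT ((1 - x) * px (d.t2 1 1)) 1 1)).add (hT ((1 - x) * px (d.t2 2 2)) 2 2))).add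
    (IbpAv.cmul 2 (((hT ((1 - x) * px (d.t2 0 1)) 0 1).add
      (hT ((1 - x) * px (d.t2 0 2)) 0 2)).add (hT ((1 - x) * px (d.t2 1 2)) 1 2)))).add
    (T.ibp_IT hl hσ d d.P2 d.R2)).cast (by ring)

theorem int_F1 (d : Data) (Λ : ℝ) :
    av (lam l0 σ) (fun τ => d.F1 (evc (lam l0 σ) τ) (T.g σ τ) (T.m σ τ)
      (fun k => T.JJ (d.zeta k) σ τ) Λ) =
      av (lam l0 σ) (fun τ => d.F0 (evc (lam l0 σ) τ) (T.g σ τ) (T.m σ τ)) +
      ((d.P 0 0).eval 1 * T.fn (d.zeta 0) σ ^ 2 +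
        2 * (d.P 0 1).eval 1 * T.fn (d.zeta 0) σ * T.fn (d.zeta 1) σ +
        (d.P 1 1).eval 1 * T.fn (d.zeta 1) σ ^ 2) :=
  (T.ibp_F1 hl hσ d Λ).2

theorem int_FF2 (d : Data) :
    av (lam l0 σ) (fun τ => d.FF2 (evc (lam l0 σ) τ) (T.g σ τ) fun k => T.JJ (d.zeta k) σ τ) =
      av (lam l0 σ) (fun τ => d.Yd (evc (lam l0 σ) τ) (T.g σ τ)) +
      ((d.P2 0 0).eval 1 * T.fn (d.zeta 0) σ ^ 2 +
        2 * (d.P2 0 1).eval 1 * T.fn (d.zeta 0) σ * T.fn (d.zeta 1) σ +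
        (d.P2 1 1).eval 1 * T.fn (d.zeta 1) σ ^ 2) :=
  (T.ibp_FF2 hl hσ d).2

theorem F1_cont (d : Data) (Λ : ℝ) : ContinuousOn (fun τ => d.F1 (evc (lam l0 σ) τ) (T.g σ τ)
    (T.m σ τ) (fun k => T.JJ (d.zeta k) σ τ) Λ) (Icc 0 1) :=
  (T.ibp_F1 hl hσ d Λ).1

theorem FF2_cont (d : Data) : ContinuousOn (fun τ => d.FF2 (evc (lam l0 σ) τ) (T.g σ τ)
    fun k => T.JJ (d.zeta k) σ τ) (Icc 0 1) :=
  (T.ibp_FF2 hl hσ d).1

end Tr

end Vale.Agent.P264
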