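import Vale.Agent.P264.Sol

/-! Potentials with prescribed momentum profile. -/

open scoped ContDiff Topology
open Set

noncomputable section

namespace Vale.Agent.P264

theorem init_nbhd {P : ℝ → Prop} (h : ∀ x ∈ Icc (0 : ℝ) 1, ∀ᶠ y in 𝓝 x, P y) :
    ∃ a b : ℝ, a < 0 ∧ 1 < b ∧ ∀ y ∈ Ioo a b, P y := by
  obtain ⟨l, u, h1, h2⟩ := mem_nhds_iff_exists_Ioo_subset.1 (h 0 ⟨le_rfl, zero_le_one⟩)
  obtain ⟨l', u', h3, h4⟩ := mem_nhds_iff_exists_Ioo_subset.1 (h 1 ⟨zero_le_one, le_rfl⟩)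
  refine ⟨l, u', h1.1, h3.2, fun y hy => ?_⟩
  rcases lt_or_ge y 0 with h5 | h5
  · exact h2 ⟨hy.1, h5.trans h1.2⟩
  rcases lt_or_ge 1 y with h6 | h6
  · exact h4 ⟨h3.1.trans h6, hy.2⟩
  · exact (h y ⟨h5, h6⟩).self_of_nhds

theorem init_prim {k : ℝ → ℝ} {a b : ℝ} (h0 : (0 : ℝ) ∈ Ioo a b) (hk : ContinuousOn k (Ioo a b)) :
    ∃ K : ℝ → ℝ, ∀ y ∈ Ioo a b, HasDerivAt K (k y) y :=
  ⟨fun y => ∫ t in (0 : ℝ)..y, k t, fun y hy => intervalIntegral.integral_hasDerivAt_right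
    (hk.mono (ordConnected_Ioo.uIcc_subset h0 hy)).intervalIntegrable
    (hk.stronglyMeasurableAtFilter isOpen_Ioo y hy) (hk.continuousAt (Ioo_mem_nhds hy.1 hy.2))⟩

theorem init_cd {K k : ℝ → ℝ} {x : ℝ} (h : ∀ᶠ y in 𝓝 x, HasDerivAt K (k y) y)
    (hk : ContDiffAt ℝ ∞ k x) : ContDiffAt ℝ ∞ K x := by
  refine contDiffAt_infty.2 fun n => ContDiffAt.of_le (n := (n : ℕ∞ω) + 1) ?_ le_self_add
  refine contDiffAt_succ_iff_hasFDerivAt.2 ⟨fun y => ContinuousLinearMap.toSpanSingleton ℝ (k y),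
    ⟨_, h, fun y hy => hy.hasFDerivAt⟩, ?_⟩
  exact (ContinuousLinearMap.contDiff ((ContinuousLinearMap.toSpanSingletonLIE ℝ ℝ :
    ℝ ≃L[ℝ] ℝ →L[ℝ] ℝ) : ℝ →L[ℝ] ℝ →L[ℝ] ℝ)).contDiffAt.comp x (contDiffAt_infty.1 hk n)

theorem init_inv {U u : ℝ → ℝ} {a b : ℝ} (hU : ∀ y ∈ Ioo a b, HasDerivAt U (u y) y)
    (hu : ∀ y ∈ Ioo a b, 0 < u y) : ∃ T : ℝ → ℝ, ∀ x ∈ Ioo a b, ContDiffAt ℝ ∞ U x →
      T (U x) = x ∧ ContDiffAt ℝ ∞ T (U x) ∧
        ∀ᶠ y in 𝓝 (U x), T y ∈ Ioo a b ∧ HasDerivAt T (u (T y))⁻¹ y := by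
  have hm : StrictMonoOn U (Ioo a b) :=
    strictMonoOn_of_deriv_pos (convex_Ioo _ _)
      (fun y hy => (hU y hy).continuousAt.continuousWithinAt) fun y hy => by
        rw [interior_Ioo] at hy
        rw [(hU y hy).deriv]
        exact hu y hy
  refine ⟨Function.invFunOn U (Ioo a b), fun x hx hc => ?_⟩
  have hl := hm.injOn.leftInvOn_invFunOn
  have h1 := (hU x hx).hasFDerivAt_equiv (hu x hx).ne'
  have h2 := hc.hasStrictFDerivAt' h1 (by simp)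
  have h3 := h2.localInverse_unique (g := Function.invFunOn U (Ioo a b))
    (Filter.mem_of_superset (Ioo_mem_nhds hx.1 hx.2) fun y hy => hl hy)
  have h4 : ContDiffAt ℝ ∞ (Function.invFunOn U (Ioo a b)) (U x) :=
    (hc.to_localInverse h1 (by simp)).congr_of_eventuallyEq h3
  have h5 : ∀ᶠ y in 𝓝 (U x), U (Function.invFunOn U (Ioo a b) y) = y := by
    filter_upwards [h3, h2.eventually_right_inverse] with y h6 h7
    rw [h6, h7]
  have h6 : ∀ᶠ y in 𝓝 (U x), Function.invFunOn U (Ioo a b) y ∈ Ioo a b :=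
    h4.continuousAt.eventually (p := fun z => z ∈ Ioo a b) (by
      rw [hl hx]
      exact Ioo_mem_nhds hx.1 hx.2)
  refine ⟨hl hx, h4, ?_⟩
  filter_upwards [h6, h5.eventually_nhds, (contDiffAt_infty.1 h4 1).eventually (by simp)]
    with y h7 h8 h9
  exact ⟨h7, (hU _ h7).of_local_left_inverse h9.continuousAt (hu _ h7).ne' h8⟩

theorem init_alg {τ g e χ d X p q : ℝ} (he : 0 < e) (hχ : 0 < χ) (hd : 0 < d)
    (h1 : χ = 1 + τ * (1 - τ) * g) (h2 : d = 1 - τ + τ * e) (hX : X = τ * e / d)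
    (hp : p = d * (e⁻¹ - 1))
    (hq : q = ((-1 + e + τ * (e * (-g / χ))) * (e⁻¹ - 1) - d * (-g / χ) / e) *
      (e / (χ * d ^ 2))⁻¹) :
    0 < 1 + (1 - X) * p ∧ 0 < 1 - X * p ∧ 0 < 1 + (1 - 2 * X) * p + X * (1 - X) * q ∧
      X + X * (1 - X) * p = τ ∧ q + p ^ 2 = g * ((1 + (1 - X) * p) * (1 - X * p)) ^ 2 := by
  have hA : 1 + (1 - X) * p = d / e := by
    rw [hX, hp]
    field_simp
    rw [h2]
    ring
  have hB : 1 - X * p = d := by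
    rw [hX, hp]
    field_simp
    rw [h2]
    ring
  have hE : q + p ^ 2 = g * (d / e * d) ^ 2 := by
    rw [hq, hp]
    field_simp
    rw [h1, h2]
    ring
  have hτ : X * (d / e) = τ := by
    rw [hX]
    field_simp
  have hτ' : (1 - X) * d = 1 - τ := by
    rw [hX]
    field_simp
    rw [h2]
    ring
  have hC : 1 + (1 - 2 * X) * p + X * (1 - X) * q = d / e * d * χ := by
    have h3 : 1 + (1 - 2 * X) * p + X * (1 - X) * q =
        (1 + (1 - X) * p) * (1 - X * p) + X * (1 - X) * (q + p ^ 2) := by ring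
    rw [h3, hA, hB, hE, h1, ← hτ', ← hτ]
    ring
  refine ⟨hA ▸ div_pos hd he, hB ▸ hd, hC ▸ by positivity, ?_, by rw [hA, hB, hE]⟩
  rw [← hτ, ← hA]
  ring

theorem exists_pot {g0 : ℝ → ℝ} (hg : ∀ τ ∈ Icc (0 : ℝ) 1, ContDiffAt ℝ ∞ g0 τ)
    (hpos : ∀ τ ∈ Icc (0 : ℝ) 1, 0 < 1 + τ * (1 - τ) * g0 τ) : ∃ f, Pot f g0 := by
  obtain ⟨χ, hχ⟩ : ∃ χ : ℝ → ℝ, χ = fun τ => 1 + τ * (1 - τ) * g0 τ := ⟨_, rfl⟩
  have hχ0 : ∀ τ ∈ Icc (0 : ℝ) 1, 0 < χ τ := hχ ▸ hpos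
  have hχc : ∀ τ ∈ Icc (0 : ℝ) 1, ContDiffAt ℝ ∞ χ τ := fun τ hτ => by
    have := hg τ hτ
    rw [hχ]
    fun_prop
  have hkc : ∀ τ ∈ Icc (0 : ℝ) 1, ContDiffAt ℝ ∞ (fun y => -g0 y / χ y) τ := fun τ hτ =>
    (hg τ hτ).neg.div (hχc τ hτ) (hχ0 τ hτ).ne'
  obtain ⟨a, b, ha, hb, h1⟩ := init_nbhd (P := fun y => ContDiffAt ℝ 1 (fun y => -g0 y / χ y) y)
    fun x hx => (contDiffAt_infty.1 (hkc x hx) 1).eventually (by simp)
  obtain ⟨K, hK⟩ := init_prim (k := fun y => -g0 y / χ y) ⟨ha, zero_lt_one.trans hb⟩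
    fun y hy => (h1 y hy).continuousAt.continuousWithinAt
  have hn : ∀ {a b : ℝ}, a < 0 → 1 < b → ∀ x ∈ Icc (0 : ℝ) 1, Ioo a b ∈ 𝓝 x :=
    fun ha hb x hx => Ioo_mem_nhds (ha.trans_le hx.1) (hx.2.trans_lt hb)
  have hKc : ∀ τ ∈ Icc (0 : ℝ) 1, ContDiffAt ℝ ∞ K τ := fun τ hτ =>
    init_cd (Filter.mem_of_superset (hn ha hb τ hτ) hK) (hkc τ hτ)
  obtain ⟨d, hd⟩ : ∃ d : ℝ → ℝ, d = fun τ => 1 - τ + τ * Real.exp (K τ) := ⟨_, rfl⟩
  have hd0 : ∀ τ ∈ Icc (0 : ℝ) 1, 0 < d τ := fun τ hτ => by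
    have h2 := Real.exp_pos (K τ)
    rw [hd]
    rcases hτ.2.eq_or_lt with h3 | h3
    · simpa [h3] using h2
    · exact add_pos_of_pos_of_nonneg (sub_pos.2 h3) (mul_nonneg hτ.1 h2.le)
  have hdc : ∀ τ ∈ Icc (0 : ℝ) 1, ContDiffAt ℝ ∞ d τ := fun τ hτ => by
    have := hKc τ hτ
    rw [hd]
    fun_prop
  obtain ⟨u, hu⟩ : ∃ u : ℝ → ℝ, u = fun τ => Real.exp (K τ) / (χ τ * d τ ^ 2) := ⟨_, rfl⟩
  obtain ⟨φ, hφ⟩ : ∃ φ : ℝ → ℝ, φ = fun τ => d τ * ((Real.exp (K τ))⁻¹ - 1) := ⟨_, rfl⟩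
  have hψc : ∀ τ ∈ Icc (0 : ℝ) 1, ContDiffAt ℝ ∞ (fun y => φ y * u y) τ := fun τ hτ => by
    rw [hφ, hu]
    exact ((hdc τ hτ).mul (((hKc τ hτ).exp.inv (Real.exp_pos _).ne').sub contDiffAt_const)).mul
      ((hKc τ hτ).exp.div ((hχc τ hτ).mul ((hdc τ hτ).pow 2))
        (mul_pos (hχ0 τ hτ) (pow_pos (hd0 τ hτ) 2)).ne')
  obtain ⟨a', b', ha', hb', h2⟩ := init_nbhd (P := fun y => y ∈ Ioo a b ∧ 0 < χ y ∧ 0 < d y ∧
      ContDiffAt ℝ 1 (fun y => φ y * u y) y) fun x hx => by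
    filter_upwards [hn ha hb x hx, (hχc x hx).continuousAt.eventually (lt_mem_nhds (hχ0 x hx)),
      (hdc x hx).continuousAt.eventually (lt_mem_nhds (hd0 x hx)),
      (contDiffAt_infty.1 (hψc x hx) 1).eventually (by simp)] with y h3 h4 h5 h6
      using ⟨h3, h4, h5, h6⟩
  obtain ⟨G, hG⟩ := init_prim (k := fun y => φ y * u y) ⟨ha', zero_lt_one.trans hb'⟩
    fun y hy => (h2 y hy).2.2.2.continuousAt.continuousWithinAt
  have hdd : ∀ y ∈ Ioo a b, HasDerivAt d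
      (-1 + Real.exp (K y) + y * (Real.exp (K y) * (-g0 y / χ y))) y := fun y hy => by
    rw [hd]
    refine (((hasDerivAt_id y).const_sub 1).add ((hasDerivAt_id y).mul (hK y hy).exp)).congr_deriv
      ?_
    simp only [id]
    ring
  have hU : ∀ y ∈ Ioo a' b', HasDerivAt (fun τ => τ * Real.exp (K τ) / d τ) (u y) y :=
    fun y hy => by
      obtain ⟨h3, h4, h5, -⟩ := h2 y hy
      refine (((hasDerivAt_id y).mul (hK y h3).exp).div (hdd y h3) h5.ne').congr_deriv ?_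
      have h6 : χ y = 1 + y * (1 - y) * g0 y := by rw [hχ]
      have h7 : d y = 1 - y + y * Real.exp (K y) := by rw [hd]
      simp only [id, hu, Pi.mul_apply]
      field_simp
      rw [h6, h7]
      ring
  have hu0 : ∀ y ∈ Ioo a' b', 0 < u y := fun y hy => by
    rw [hu]
    exact div_pos (Real.exp_pos _) (mul_pos (h2 y hy).2.1 (pow_pos (h2 y hy).2.2.1 2))
  obtain ⟨T, hT⟩ := init_inv hU hu0
  have hsub : Icc (0 : ℝ) 1 ⊆ Ioo a' b' := fun x hx => mem_of_mem_nhds (hn ha' hb' x hx)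
  have key : ∀ X ∈ Icc (0 : ℝ) 1, ContDiffAt ℝ ∞ (G ∘ T) X ∧
      0 < 1 + (1 - X) * deriv (G ∘ T) X ∧ 0 < 1 - X * deriv (G ∘ T) X ∧
      0 < 1 + (1 - 2 * X) * deriv (G ∘ T) X + X * (1 - X) * deriv (deriv (G ∘ T)) X ∧
      deriv (deriv (G ∘ T)) X + deriv (G ∘ T) X ^ 2 = g0 (X + X * (1 - X) * deriv (G ∘ T) X) *
        ((1 + (1 - X) * deriv (G ∘ T) X) * (1 - X * deriv (G ∘ T) X)) ^ 2 := fun X hX => by
    have h3 := intermediate_value_Icc zero_le_one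
      fun y hy => (hU y (hsub hy)).continuousAt.continuousWithinAt
    have h4 : (1 : ℝ) * Real.exp (K 1) / d 1 = 1 := by
      rw [hd]
      simp
    rw [zero_mul, zero_div, h4] at h3
    obtain ⟨τ, hτ, hτX⟩ := h3 hX
    obtain ⟨h5, h6, h7⟩ := hT τ (hsub hτ)
      ((contDiffAt_id.mul (hKc τ hτ).exp).div (hdc τ hτ) (hd0 τ hτ).ne')
    simp only [hτX] at h5 h6 h7
    have hGc : ContDiffAt ℝ ∞ G (T X) := by
      rw [h5]
      exact init_cd (Filter.mem_of_superset (hn ha' hb' τ hτ) hG) (hψc τ hτ)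
    have h8 : deriv (G ∘ T) =ᶠ[𝓝 X] φ ∘ T := by
      filter_upwards [h7] with y hy
      rw [((hG _ hy.1).comp y hy.2).deriv, mul_inv_cancel_right₀ (hu0 _ hy.1).ne']
      rfl
    have h9 : HasDerivAt φ ((-1 + Real.exp (K τ) + τ * (Real.exp (K τ) * (-g0 τ / χ τ))) *
        ((Real.exp (K τ))⁻¹ - 1) - d τ * (-g0 τ / χ τ) / Real.exp (K τ)) (T X) := by
      have h10 := (h2 τ (hsub hτ)).1
      rw [h5, hφ]
      refine ((hdd τ h10).mul (((hK τ h10).exp.inv (Real.exp_pos _).ne').sub_const 1)).congr_deriv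
        ?_
      simp only [Pi.inv_apply]
      field_simp
      ring
    have h10 := (h9.comp X h7.self_of_nhds.2).deriv
    rw [← h8.deriv_eq, h5, hu] at h10
    have h11 : deriv (G ∘ T) X = d τ * ((Real.exp (K τ))⁻¹ - 1) := by
      rw [h8.eq_of_nhds, Function.comp_apply, h5, hφ]
    obtain ⟨k1, k2, k3, k4, k5⟩ := init_alg (g := g0 τ) (Real.exp_pos (K τ)) (hχ0 τ hτ)
      (hd0 τ hτ) (by rw [hχ]) (by rw [hd]) hτX.symm h11 h10
    exact ⟨hGc.comp X h6, k1, k2, k3, by rw [k4, k5]⟩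
  exact ⟨G ∘ T, fun X hX => (key X hX).1, fun X hX => (key X hX).2.1,
    fun X hX => (key X hX).2.2.1, fun X hX => (key X hX).2.2.2.1, fun X hX => (key X hX).2.2.2.2⟩

end Vale.Agent.P264
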