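import Vale.Agent.P264.Sphere
import Vale.Agent.P264.Sol

/-! The invariant potential is Kähler. -/

open scoped ContDiff ComplexConjugate Topology ComplexOrder
open Set Complex Matrix

noncomputable section

namespace Vale.Agent.P264

variable {n : ℕ} {f g0 : ℝ → ℝ}

theorem Pot.smooth_XX (h : Pot f g0) : ContDiffOn ℝ ∞ (fun Z : Fin (n + 1) → ℂ => f (XX Z)) {0}ᶜ := by
  intro Z hZ
  exact ContDiffAt.comp_contDiffWithinAt (g := f) Z (h.smooth _ (XX_mem Z)) (XX_smooth Z hZ)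

theorem pot_invariant (f : ℝ → ℝ) : Invariant fun Z : Fin (n + 1) → ℂ => f (XX Z) :=
  fun c Z hc _ => congrArg f (XX_smul c Z hc)

theorem initpd_pd {ι : Type} [Fintype ι] [DecidableEq ι] (D : ι → ℝ) (hD : ∀ i, 0 < D i)
    (w : ι → ℂ) (k : ℝ) (hk : 0 < 1 + k * ∑ i, ‖w i‖ ^ 2 / D i) {M : Matrix ι ι ℂ}
    (hM : ∀ i j, M i j = (if i = j then (D j : ℂ) else 0) + k * (w i * conj (w j))) :
    M.PosDef := by
  refine Matrix.PosDef.of_dotProduct_mulVec_pos ?_ fun x hx => ?_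
  · ext i j
    rw [conjTranspose_apply, hM, hM]
    by_cases h : i = j
    · subst h
      simp [mul_comm]
    · simp [h, Ne.symm h, mul_comm]
  have e : star x ⬝ᵥ (M *ᵥ x) =
      ((∑ i, D i * ‖x i‖ ^ 2 + k * ‖∑ j, conj (w j) * x j‖ ^ 2 : ℝ) : ℂ) := by
    push_cast
    simp only [← Complex.conj_mul', dotProduct, mulVec, hM, add_mul, ite_mul, zero_mul,
      Finset.sum_add_distrib, Finset.sum_ite_eq, Finset.mem_univ, if_true, mul_add, Pi.star_apply,
      map_sum, map_mul, Complex.conj_conj, Finset.mul_sum, Finset.sum_mul, RCLike.star_def]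
    congr 1
    · exact Finset.sum_congr rfl fun i _ => by ring
    · rw [Finset.sum_comm]
      exact Finset.sum_congr rfl fun i _ => Finset.sum_congr rfl fun j _ => by ring
  rw [e, Complex.zero_lt_real]
  have h1 : 0 < ∑ i, D i * ‖x i‖ ^ 2 := by
    obtain ⟨i, hi⟩ := Function.ne_iff.1 hx
    exact Finset.sum_pos' (fun i _ => mul_nonneg (hD i).le (sq_nonneg _))
      ⟨i, Finset.mem_univ _, mul_pos (hD i) (pow_pos (norm_pos_iff.2 hi) 2)⟩
  have h2 : ‖∑ j, conj (w j) * x j‖ ^ 2 ≤ (∑ i, ‖w i‖ ^ 2 / D i) * ∑ i, D i * ‖x i‖ ^ 2 := by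
    refine (pow_le_pow_left₀ (norm_nonneg _) (norm_sum_le _ _) 2).trans
      (Finset.sum_sq_le_sum_mul_sum_of_sq_le_mul _ (fun i _ => div_nonneg (sq_nonneg _) (hD i).le)
        (fun i _ => mul_nonneg (hD i).le (sq_nonneg _)) fun i _ => le_of_eq ?_)
    have := (hD i).ne'
    rw [norm_mul, Complex.norm_conj]
    field_simp
  rcases le_total 0 k with h3 | h3
  · exact add_pos_of_pos_of_nonneg h1 (mul_nonneg h3 (sq_nonneg _))
  · nlinarith [mul_pos hk h1, mul_le_mul_of_nonpos_left h2 h3]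

namespace InitPD

open Sm

/-- the invariant coordinate in the ring -/
def Xe : Sm (n + 1) := Sm.mk (fun p => (XX p.2 : ℂ))
  (ofRealCLM.contDiff.comp_contDiffOn (XX_smooth.comp contDiffOn_snd fun _ hp => hp))

/-- indicator of the last coordinates -/
def ep (a : Fin (n + 1)) : ℝ := if a = 0 then 0 else 1

theorem ev_Xe (p : Om (n + 1)) : ev p Xe = (XX p.1.2 : ℂ) := rfl

theorem cj_Xe : cj (Xe : Sm (n + 1)) = Xe := ext_ev fun p => by simp [ev_Xe]

theorem ev_nrm (p : Om (n + 1)) : ev p nrm = ((∑ a, ‖p.1.2 a‖ ^ 2 : ℝ) : ℂ) := by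
  simp [nrm, Complex.mul_conj']

theorem nrm_pos (p : Om (n + 1)) : 0 < ∑ a, ‖p.1.2 a‖ ^ 2 := by
  obtain ⟨i, hi⟩ := Function.ne_iff.1 p.2
  exact Finset.sum_pos' (fun i _ => sq_nonneg _) ⟨i, Finset.mem_univ _, pow_pos (norm_pos_iff.2 hi) 2⟩

theorem mul_XX (p : Om (n + 1)) :
    (∑ a, ‖p.1.2 a‖ ^ 2) * XX p.1.2 = ∑ a : Fin n, ‖p.1.2 a.succ‖ ^ 2 :=
  mul_div_cancel₀ _ (nrm_pos p).ne'

theorem nrm_Xe : (nrm * Xe : Sm (n + 1)) = ∑ a, (ep a : ℂ) • (z a * zb a) := ext_ev fun p => by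
  rw [map_mul, ev_nrm, ev_Xe, ← Complex.ofReal_mul, mul_XX]
  simp [Fin.sum_univ_succ, ep, Complex.mul_conj']

theorem db_nrm (j : Fin (n + 1)) : db j (nrm : Sm (n + 1)) = z j := by
  simp [nrm, db_z, db_zb]

theorem d_nrm (j : Fin (n + 1)) : d j (nrm : Sm (n + 1)) = zb j := by
  simp [nrm, d_z, d_zb]

theorem db_Xe (j : Fin (n + 1)) :
    (nrm * db j Xe : Sm (n + 1)) = z j * (algebraMap ℂ _ (ep j) - Xe) := by
  have := congrArg (db j) (nrm_Xe (n := n))
  simp only [Derivation.leibniz, db_nrm, smul_eq_mul, map_sum, Derivation.map_smul, db_z, db_zb,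
    mul_zero, add_zero, mul_ite, mul_one, smul_ite, smul_zero, Finset.sum_ite_eq, Finset.mem_univ,
    if_true, Algebra.smul_def, Derivation.map_algebraMap, add_zero] at this
  linear_combination this

theorem d_Xe (j : Fin (n + 1)) :
    (nrm * d j Xe : Sm (n + 1)) = zb j * (algebraMap ℂ _ (ep j) - Xe) := by
  have := congrArg (d j) (nrm_Xe (n := n))
  simp only [Derivation.leibniz, d_nrm, smul_eq_mul, map_sum, Derivation.map_smul, d_z, d_zb,
    mul_zero, zero_add, mul_ite, mul_one, smul_ite, smul_zero, Finset.sum_ite_eq, Finset.mem_univ,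
    if_true, Algebra.smul_def, Derivation.map_algebraMap, add_zero] at this
  linear_combination this

theorem hess_eq {E f1 f2 : Sm (n + 1)} (h1 : ∀ j, db j E = E * (f1 * db j Xe))
    (h2 : ∀ j, d j E = E * (f1 * d j Xe)) (h3 : ∀ j, d j f1 = f2 * d j Xe) (i j : Fin (n + 1)) :
    nrm * hess (nrm * E) i j =
      nrm * (if i = j then E * (1 + f1 * (algebraMap ℂ _ (ep j) - Xe)) else 0) +
        E * (f2 + f1 ^ 2) * ((algebraMap ℂ _ (ep i) - Xe) * zb i) *
          ((algebraMap ℂ _ (ep j) - Xe) * z j) := by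
  have e1 : db j (nrm * E) = z j * (E * (1 + f1 * (algebraMap ℂ _ (ep j) - Xe))) := by
    rw [Derivation.leibniz, db_nrm, h1, smul_eq_mul, smul_eq_mul]
    linear_combination E * f1 * db_Xe j
  rw [hess, Matrix.of_apply, e1]
  simp only [Derivation.leibniz, smul_eq_mul, map_add, map_sub, Derivation.map_algebraMap,
    Derivation.map_one_eq_zero, h2, h3, d_z]
  split_ifs
  · linear_combination (z j * E * (f2 + f1 ^ 2) * (algebraMap ℂ _ (ep j) - Xe)) * d_Xe i
  · linear_combination (z j * E * (f2 + f1 ^ 2) * (algebraMap ℂ _ (ep j) - Xe)) * d_Xe i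

end InitPD

open InitPD Sm in
theorem Pot.kahler (h : Pot f g0) : IsKahler fun Z : Fin (n + 1) → ℂ => f (XX Z) := by
  have hF : Fam fun (_ : ℝ) (Z : Fin (n + 1) → ℂ) => f (XX Z) :=
    ⟨h.smooth_XX.comp contDiffOn_snd fun _ hp => hp, fun _ => pot_invariant f⟩
  refine hF.kahler_iff.2 (fun p => ?_) 0
  have hs : ∀ p : Om (n + 1), ContDiffAt ℝ ∞ f (ev p Xe).re := fun p => h.smooth _ (XX_mem _)
  have e : hF.Ψ = compR f Xe hs := ext_ev fun p => by rw [ev_compR]; rfl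
  have key := fun i j => congrArg (ev p) (hess_eq
    (E := compR Real.exp hF.Ψ fun _ => Real.contDiff_exp.contDiffAt)
    (f1 := compR (deriv f) Xe (compR_deriv hs))
    (f2 := compR (deriv (deriv f)) Xe (compR_deriv (compR_deriv hs)))
    (fun j => by rw [db_compR j hF.cj_Ψ, e, db_compR j cj_Xe]; simp only [Real.deriv_exp])
    (fun j => by rw [d_compR j hF.cj_Ψ, e, d_compR j cj_Xe]; simp only [Real.deriv_exp])
    (fun j => d_compR j cj_Xe _) i j)
  have hN := nrm_pos p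
  have hA := h.posA _ (XX_mem p.1.2)
  have hB := h.posB _ (XX_mem p.1.2)
  have hC := h.posC _ (XX_mem p.1.2)
  have hE := Real.exp_pos (f (XX p.1.2))
  have hb := mul_XX p
  refine initpd_pd (fun j => Real.exp (f (XX p.1.2)) * (1 + deriv f (XX p.1.2) * (ep j - XX p.1.2)))
    (fun j => mul_pos hE ?_) (fun i => ((ep i - XX p.1.2 : ℝ) : ℂ) * conj (p.1.2 i))
    (Real.exp (f (XX p.1.2)) * (deriv (deriv f) (XX p.1.2) + deriv f (XX p.1.2) ^ 2) /
      ∑ a, ‖p.1.2 a‖ ^ 2) ?_ fun i j => ?_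
  · unfold ep
    split_ifs <;> linarith
  · have ha : ‖p.1.2 0‖ ^ 2 = (∑ a, ‖p.1.2 a‖ ^ 2) * (1 - XX p.1.2) := by
      rw [mul_sub, hb, mul_one, Fin.sum_univ_succ, add_sub_cancel_right]
    simp only [norm_mul, Complex.norm_conj, Complex.norm_real, Real.norm_eq_abs, mul_pow, sq_abs]
    rw [Fin.sum_univ_succ (fun i => (ep i - XX p.1.2) ^ 2 * ‖p.1.2 i‖ ^ 2 / _)]
    simp only [ep, if_true, Fin.succ_ne_zero, if_false, ← Finset.sum_div, ← Finset.mul_sum, ← hb, ha]
    generalize XX p.1.2 = X at *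
    generalize ∑ a, ‖p.1.2 a‖ ^ 2 = N at *
    generalize deriv (deriv f) X = f2 at *
    generalize deriv f X = f1 at *
    generalize Real.exp (f X) = E at *
    have a1 : 1 + f1 * (0 - X) = 1 - X * f1 := by ring
    have a2 : 1 + f1 * (1 - X) = 1 + (1 - X) * f1 := by ring
    rw [a1, a2]
    have a3 : ∀ A B : ℝ, 0 < A → 0 < B → 1 + E * (f2 + f1 ^ 2) / N *
        ((0 - X) ^ 2 * (N * (1 - X)) / (E * B) + (1 - X) ^ 2 * (N * X) / (E * A)) =
        (A * B + (f2 + f1 ^ 2) * X * (1 - X) * (X * A + (1 - X) * B)) / (A * B) := by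
      intro A B hA hB
      field_simp
      ring
    rw [a3 _ _ hA hB]
    exact div_pos (hC.trans_eq (by ring)) (mul_pos hA hB)
  · have hN' : (((∑ a, ‖p.1.2 a‖ ^ 2 : ℝ)) : ℂ) ≠ 0 := Complex.ofReal_ne_zero.2 hN.ne'
    refine mul_left_cancel₀ hN' ?_
    have k := key i j
    rw [map_mul, InitPD.ev_nrm] at k
    refine k.trans ?_
    simp only [map_add, map_mul, map_sub, map_pow, map_one, apply_ite (ev p), map_zero, ev_compR,
      ev_Xe, InitPD.ev_nrm, ev_z, ev_zb, AlgHom.commutes, hF.ev_Ψ, Complex.ofReal_re, Complex.conj_ofReal,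
      Complex.conj_conj, Algebra.algebraMap_self_apply]
    generalize ∑ a, ‖p.1.2 a‖ ^ 2 = N at *
    push_cast
    field_simp

end Vale.Agent.P264
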