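import Vale.Agent.P264.Sol
import Vale.Agent.P264.Data

/-! Jets in the moment variable. -/

open Set Polynomial

noncomputable section

namespace Vale.Agent.P264

open Fl

/-- `a j` is the `j`-th derivative of `a 0` inside the interval -/
def Jet (a : ℕ → ℝ → ℝ) : Prop := ∀ j, ∀ τ ∈ Ioo (0 : ℝ) 1, HasDerivAt (a j) (a (j + 1) τ) τ

/-- the jets of `τ (1 - τ) a 1` -/
def DJ (τ : ℝ) (a : ℕ → ℝ) (j : ℕ) : ℝ :=
  τ * (1 - τ) * a (j + 1) + j * (1 - 2 * τ) * a j - j * (j - 1 : ℝ) * a (j - 1)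

theorem Jet.DJ {a : ℕ → ℝ → ℝ} (h : Jet a) : Jet fun j τ => DJ τ (fun i => a i τ) j := by
  intro j τ hτ
  have h1 := (((hasDerivAt_id' τ).mul ((hasDerivAt_id' τ).const_sub 1)).mul (h (j + 1) τ hτ))
  have h2 := ((((hasDerivAt_id' τ).const_mul 2).const_sub 1).const_mul (j : ℝ)).mul (h j τ hτ)
  have h3 := (h (j - 1) τ hτ).const_mul ((j : ℝ) * (j - 1))
  refine ((h1.add h2).sub h3).congr_deriv ?_
  simp only [P264.DJ, Pi.mul_apply, Nat.add_sub_cancel]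
  rcases j with _ | j
  · push_cast
    ring
  · rw [Nat.add_sub_cancel]
    push_cast
    ring

theorem DJ_zero (τ : ℝ) (a : ℕ → ℝ) : DJ τ a 0 = τ * (1 - τ) * a 1 := by simp [DJ]

/-- The operator in terms of `D`-jets. -/
theorem opK_DJ (v : Fl →ₐ[ℝ] ℝ) (τ : ℝ) (hv : v t = τ) (a : ℕ → ℝ) :
    τ * (1 - τ) * opK τ a = v (cK 1) * a 1 + v (cK 2) * DJ τ a 1 +
      v (cK 3) * (DJ τ)^[2] a 1 + v (cK 4) * (DJ τ)^[3] a 1 + 312 * (τ * (1 - τ)) * a 0 := by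
  simp only [cK, map_add, map_sub, map_mul, map_pow, map_neg, map_ofNat, map_one, hv,
    Function.iterate_succ, Function.iterate_zero, Function.comp_apply, id, DJ, opK]
  norm_num
  ring

/-- jets of a field -/
theorem jet_field (F : Fl) {l : ℝ} (hl : 0 < l) :
    Jet fun j τ => evc l τ ((Dh)^[j] F) / l ^ j := by
  intro j τ hτ
  refine ((hasDerivAt_Dh ((Dh)^[j] F) hl (Ioo_subset_Icc_self hτ)).div_const (l ^ j)).congr_deriv ?_
  simp only [Function.iterate_succ_apply', pow_succ', div_div]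

theorem jets_congr {l : ℝ} (hl : 0 < l) {F G : Fl}
    (h : ∀ s ∈ Ioo (0 : ℝ) 1, evc l s F = evc l s G) :
    ∀ s ∈ Ioo (0 : ℝ) 1, evc l s (Dh F) = evc l s (Dh G) := by
  intro s hs
  have h1 := hasDerivAt_Dh F hl (Ioo_subset_Icc_self hs)
  have h2 := (hasDerivAt_Dh G hl (Ioo_subset_Icc_self hs)).congr_of_eventuallyEq
    (f₁ := fun s => evc l s F) (Filter.mem_of_superset (isOpen_Ioo.mem_nhds hs) h)
  exact (div_left_inj' hl.ne').1 (h1.unique h2)

theorem jets_c15 : (15 : Fl) * c (1 / 15) = 1 := by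
  rw [c, ← map_ofNat MvPolynomial.C 15, ← map_mul]
  norm_num

theorem jets_pd0 : pd 0 y = -(c (1 / 15) * a') := by
  simp [y, a']
  ring

theorem jets_pd1 : pd 1 y = 0 := by simp [y]

theorem jets_pd2 : pd 2 y = x := by
  have : pd 2 y = 15 * c (1 / 15) * x := by
    simp [y]
    ring
  rw [this, jets_c15, one_mul]

theorem jets_Dt_y (F : Fl) : Dt (y * F) = y * DtY F := by
  have : Dt y = -(y * x * a') := by
    simp only [Dt, Derivation.add_apply, Derivation.smul_apply, smul_eq_mul, jets_pd0, jets_pd1]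
    linear_combination -(y * x * a') * jets_c15
  rw [Derivation.leibniz, this, DtY, smul_eq_mul, smul_eq_mul]
  ring

theorem jets_Dc_y (F : Fl) : Dc (y * F) = y * (Dc F - a' * F) := by
  have : Dc y = -(y * a') := by
    simp only [Dc, Derivation.add_apply, Derivation.smul_apply, smul_eq_mul, jets_pd0, jets_pd1]
    linear_combination -(y * a') * jets_c15
  rw [Derivation.leibniz, this, smul_eq_mul, smul_eq_mul]
  ring

theorem jets_Dh_t : Dh t = Fl.l := by simp [Dh]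

theorem jets_Dh_l0 : Dh Fl.l = 0 := by simp [Dh]

theorem jets_Dh_l (F : Fl) : Dh (Fl.l * F) = Fl.l * Dh F := by
  rw [Derivation.leibniz, jets_Dh_l0, smul_zero, add_zero, smul_eq_mul]

theorem jets_alg {R : Type} [CommRing R] [Algebra ℝ R] (δ : Derivation ℝ R R) {t l : R}
    (ht : δ t = l) (hl : δ l = 0) (g : R) :
    δ (δ (t * δ (t * δ ((1 - t) * (1 - t) * g) + 11 * l * ((1 - t) * (1 - t) * g)) +
      10 * l * (t * δ ((1 - t) * (1 - t) * g) + 11 * l * ((1 - t) * (1 - t) * g)))) =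
    t ^ 2 * (1 - t) ^ 2 * δ (δ (δ (δ g))) +
      (26 * t * (1 - t) ^ 2 - 8 * t ^ 2 * (1 - t)) * l * δ (δ (δ g)) +
      (12 * t ^ 2 - 156 * t * (1 - t) + 156 * (1 - t) ^ 2) * l ^ 2 * δ (δ g) +
      (156 * t - 624 * (1 - t)) * l ^ 3 * δ g + 312 * l ^ 4 * g := by
  have hc : ∀ (n : ℕ) [n.AtLeastTwo], δ (ofNat(n) : R) = 0 := fun n _ => δ.map_natCast n
  have k : ∀ u, δ (δ (t * δ (t * δ u + 11 * l * u) + 10 * l * (t * δ u + 11 * l * u))) =
      t ^ 2 * δ (δ (δ (δ u))) + 26 * t * l * δ (δ (δ u)) + 156 * l ^ 2 * δ (δ u) := by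
    intro u
    simp only [map_add, Derivation.leibniz, smul_eq_mul, ht, hl, hc, mul_zero, add_zero, map_zero]
    ring
  have u2 : δ (δ ((1 - t) * (1 - t) * g)) =
      (1 - t) * (1 - t) * δ (δ g) - 4 * l * ((1 - t) * δ g) + 2 * l * l * g := by
    simp only [map_add, map_sub, map_neg, Derivation.leibniz, smul_eq_mul, ht, hl,
      Derivation.map_one_eq_zero, zero_sub, mul_zero, neg_zero]
    ring
  have u3 : δ (δ (δ ((1 - t) * (1 - t) * g))) =
      (1 - t) * (1 - t) * δ (δ (δ g)) - 6 * l * ((1 - t) * δ (δ g)) + 6 * l * l * δ g := by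
    rw [u2]
    simp only [map_add, map_sub, Derivation.leibniz, smul_eq_mul, ht, hl, hc,
      Derivation.map_one_eq_zero, zero_sub, mul_zero, add_zero]
    ring
  have u4 : δ (δ (δ (δ ((1 - t) * (1 - t) * g)))) = (1 - t) * (1 - t) * δ (δ (δ (δ g))) -
      8 * l * ((1 - t) * δ (δ (δ g))) + 12 * l * l * δ (δ g) := by
    rw [u3]
    simp only [map_add, map_sub, Derivation.leibniz, smul_eq_mul, ht, hl, hc,
      Derivation.map_one_eq_zero, zero_sub, mul_zero, add_zero]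
    ring
  rw [k, u4, u3, u2]
  ring

/-- The operator applied to the approximate solution. -/
theorem opK_Gs (d : Data) {l : ℝ} (hl : 0 < l) {τ : ℝ} (hτ : τ ∈ Ioo (0 : ℝ) 1) :
    l ^ 2 * opK τ (fun j => evc l τ ((Dh)^[j] d.Gs) / l ^ j) =
      evc l τ y ^ 3 * evc l τ d.F3 := by
  have hD : ∀ {F G : Fl}, (∀ s ∈ Ioo (0 : ℝ) 1, evc l s F = evc l s G) →
      ∀ s ∈ Ioo (0 : ℝ) 1, evc l s (Dh F) = evc l s (Dh G) := fun h => jets_congr hl h
  have hI : ∀ {s : ℝ}, s ∈ Ioo (0 : ℝ) 1 → s ∈ Icc (0 : ℝ) 1 := fun h => Ioo_subset_Icc_self h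
  have e0 : (1 - t) * (1 - t) * d.Gs = -(y * ((1 - t) ^ 2 * px d.U)) := by
    rw [Data.Gs]
    ring
  have h1 : ∀ s ∈ Ioo (0 : ℝ) 1, evc l s (t * Dh ((1 - t) * (1 - t) * d.Gs) +
      11 * Fl.l * ((1 - t) * (1 - t) * d.Gs)) = evc l s (-(Fl.l * (y * d.Z2))) := by
    intro s hs
    rw [map_add, map_mul, evc_t, Dh_eq_Dt _ hl (hI hs), e0, map_neg, jets_Dt_y, Data.Z2]
    simp only [map_add, map_mul, map_neg, map_ofNat, evc_l]
    ring
  have h2 : ∀ s ∈ Ioo (0 : ℝ) 1, evc l s (t * Dh (t * Dh ((1 - t) * (1 - t) * d.Gs) +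
      11 * Fl.l * ((1 - t) * (1 - t) * d.Gs)) + 10 * Fl.l * (t * Dh ((1 - t) * (1 - t) * d.Gs) +
      11 * Fl.l * ((1 - t) * (1 - t) * d.Gs))) = evc l s (Fl.l * (Fl.l * (y * d.Zt))) := by
    intro s hs
    rw [map_add, map_mul (evc l s), map_mul (evc l s), hD h1 s hs, h1 s hs, map_neg Dh, jets_Dh_l,
      map_neg (evc l s), map_mul (evc l s), evc_t, evc_l, Data.Zt]
    have := Dh_eq_Dt (y * d.Z2) hl (hI hs)
    rw [jets_Dt_y] at this
    simp only [map_add, map_mul, map_neg, map_ofNat, evc_l] at this ⊢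
    linear_combination -l * this
  have h3 : ∀ s ∈ Ioo (0 : ℝ) 1, evc l s (Dh (Fl.l * (Fl.l * (y * d.Zt)))) =
      evc l s (Fl.l * (Fl.l * (y * (y * d.F2)))) := by
    intro s hs
    rw [jets_Dh_l, jets_Dh_l, map_mul, map_mul, Dh_eq_Dc _ hl (hI hs), jets_Dc_y, Data.F2]
    simp only [map_mul]
  have h4 : evc l τ (Dh (Fl.l * (Fl.l * (y * (y * d.F2))))) =
      l * l * (evc l τ y ^ 3 * evc l τ d.F3) := by
    rw [jets_Dh_l, jets_Dh_l, map_mul, map_mul, Dh_eq_Dc _ hl (hI hτ), jets_Dc_y, jets_Dc_y,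
      Data.F3]
    simp only [map_mul, map_sub, map_ofNat, evc_l]
    ring
  have h5 := (hD (fun s hs => (hD h2 s hs).trans (h3 s hs)) τ hτ).trans h4
  rw [jets_alg Dh jets_Dh_t jets_Dh_l0] at h5
  simp only [map_add, map_sub, map_mul, map_pow, map_ofNat, map_one, evc_t, evc_l] at h5
  simp only [opK, Function.iterate_succ, Function.iterate_zero, Function.comp_apply, id]
  refine mul_left_cancel₀ (mul_pos hl hl).ne' (Eq.trans ?_ h5)
  field_simp

theorem dot_Gs (d : Data) {l : ℝ} (hl : 0 < l) {τ : ℝ} (hτ : τ ∈ Icc (0 : ℝ) 1) :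
    evc l τ (dot d.Gs) + evc l τ d.Gs / 2 =
      -(evc l τ y ^ 2 * (evc l τ d.A + evc l τ d.chi ^ 2 * evc l τ y * evc l τ d.F3)) := by
  have h1 := one_sub_xx hl hτ
  have h2 : evc l τ y = (1 - xx l τ + 15 * l * xx l τ) / 15 := ev_y _ _ _
  have h3 : evc l τ (dot y) = -(xx l τ * evc l τ y / 2) := by
    simp only [dot, Derivation.sub_apply, Derivation.smul_apply, smul_eq_mul, jets_pd0, jets_pd2,
      map_sub, map_mul, map_neg, map_one, evc_c, evc_x, evc_l, evc_a']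
    rw [h2]
    ring
  have h4 : evc l τ (dot (px d.U)) = xx l τ * (1 - xx l τ) / 2 * (derivative d.U).eval (xx l τ) := by
    simp [dot, -mul_eq_mul_right_iff]
    ring
  rw [Data.Gs, map_neg, Derivation.leibniz, Data.A]
  simp only [smul_eq_mul, map_neg, map_add, map_sub, map_mul, map_pow, map_one, h3, h4, evc_c,
    evc_x, evc_t, evc_px]
  linear_combination -(evc l τ y / 2 *
    (d.U.eval (xx l τ) + xx l τ * (derivative d.U).eval (xx l τ))) * h1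

theorem chi_eq (d : Data) {l : ℝ} (hl : 0 < l) {τ : ℝ} (hτ : τ ∈ Icc (0 : ℝ) 1) :
    evc l τ d.chi = 1 + τ * (1 - τ) / l * evc l τ d.Gs := by
  have h1 := t_mul_y hl hτ
  simp only [Data.chi, Data.Gs, map_neg, map_sub, map_mul, map_one, evc_x, evc_t, evc_px]
  field_simp
  linear_combination (1 - τ) * d.U.eval (xx l τ) * h1

/-- The time derivative of the lowest jet determines all of them. -/
theorem jet_dt {a k : ℕ → ℝ → ℝ → ℝ}
    (ha : ∀ j, ContinuousOn (fun p : ℝ × ℝ => a j p.1 p.2) (Ici 0 ×ˢ Icc 0 1))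
    (hk : ∀ j, ContinuousOn (fun p : ℝ × ℝ => k j p.1 p.2) (Ici 0 ×ˢ Icc 0 1))
    (ja : ∀ s, 0 ≤ s → Jet fun j => a j s) (jk : ∀ s, 0 ≤ s → Jet fun j => k j s)
    (h0 : ∀ s, 0 < s → ∀ τ ∈ Ioo (0 : ℝ) 1, HasDerivAt (fun r => a 0 r τ) (k 0 s τ) s) :
    ∀ j s, 0 < s → ∀ τ ∈ Ioo (0 : ℝ) 1, HasDerivAt (fun r => a j r τ) (k j s τ) s := by
  have cs : ∀ {f : ℝ → ℝ → ℝ}, ContinuousOn (fun p : ℝ × ℝ => f p.1 p.2) (Ici 0 ×ˢ Icc 0 1) →
      ∀ τ ∈ Ioo (0 : ℝ) 1, ContinuousOn (fun r => f r τ) (Ici 0) := fun h τ hτ =>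
    h.comp (f := fun r => (r, τ)) (by fun_prop) fun r hr => ⟨hr, Ioo_subset_Icc_self hτ⟩
  have sub : ∀ {s : ℝ}, 0 ≤ s → uIcc 0 s ⊆ Ici 0 := fun hs => by
    rw [uIcc_of_le hs]
    exact Icc_subset_Ici_self
  have ii : ∀ j s, 0 ≤ s → ∀ τ ∈ Ioo (0 : ℝ) 1,
      IntervalIntegrable (fun r => k j r τ) MeasureTheory.volume 0 s := fun j s hs τ hτ =>
    ((cs (hk j) τ hτ).mono (sub hs)).intervalIntegrable
  have key : ∀ j s, 0 ≤ s → ∀ τ ∈ Ioo (0 : ℝ) 1, ∫ r in (0 : ℝ)..s, k j r τ = a j s τ - a j 0 τ := by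
    intro j
    induction j with
    | zero =>
      intro s hs τ hτ
      exact intervalIntegral.integral_eq_sub_of_hasDerivAt_of_le hs
        ((cs (ha 0) τ hτ).mono Icc_subset_Ici_self) (fun r hr => h0 r hr.1 τ hτ) (ii 0 s hs τ hτ)
    | succ j ih =>
      intro s hs τ hτ
      obtain ⟨C, hC⟩ := (isCompact_Icc.prod isCompact_Icc).exists_bound_of_continuousOn
        ((hk (j + 1)).mono (prod_mono (Icc_subset_Ici_self : Icc 0 s ⊆ Ici 0) subset_rfl))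
      have hm : ∀ r ∈ uIoc 0 s, r ∈ Icc 0 s := fun r hr => by
        rw [uIoc_of_le hs] at hr
        exact Ioc_subset_Icc_self hr
      have h1 := (intervalIntegral.hasDerivAt_integral_of_dominated_loc_of_deriv_le
        (μ := MeasureTheory.volume) (F := fun u r => k j r u) (F' := fun u r => k (j + 1) r u)
        (a := 0) (b := s) (bound := fun _ => C) (isOpen_Ioo.mem_nhds hτ)
        (Filter.mem_of_superset (isOpen_Ioo.mem_nhds hτ) fun u hu =>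
          (intervalIntegrable_iff.1 (ii j s hs u hu)).aestronglyMeasurable)
        (ii j s hs τ hτ) (intervalIntegrable_iff.1 (ii (j + 1) s hs τ hτ)).aestronglyMeasurable
        (Filter.Eventually.of_forall fun r hr u hu => hC (r, u) ⟨hm r hr, Ioo_subset_Icc_self hu⟩)
        intervalIntegrable_const
        (Filter.Eventually.of_forall fun r hr u hu => jk r (hm r hr).1 j u hu)).2
      exact h1.unique (((ja s hs j τ hτ).sub (ja 0 le_rfl j τ hτ)).congr_of_eventuallyEq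
        (Filter.mem_of_superset (isOpen_Ioo.mem_nhds hτ) fun u hu => ih s hs u hu))
  intro j s hs τ hτ
  have c1 : ContinuousOn (fun r => k j r τ) (Ioi 0) := (cs (hk j) τ hτ).mono Ioi_subset_Ici_self
  have h1 := intervalIntegral.integral_hasDerivAt_right (ii j s hs.le τ hτ)
    (c1.stronglyMeasurableAtFilter isOpen_Ioi s hs) (c1.continuousAt (Ioi_mem_nhds hs))
  refine (h1.add_const (a j 0 τ)).congr_of_eventuallyEq
    (Filter.mem_of_superset (Ioi_mem_nhds hs) fun r hr => ?_)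
  exact (sub_eq_iff_eq_add.1 (key j r (le_of_lt hr) τ hτ).symm :)

/-- Time derivatives of all jets of a solution. -/
theorem Sol.exists_dt {g : ℕ → ℝ → ℝ → ℝ} (h : Sol g) : ∃ k : ℕ → ℝ → ℝ → ℝ,
    (∀ j, ContinuousOn (fun p : ℝ × ℝ => k j p.1 p.2) (Ici 0 ×ˢ Icc 0 1)) ∧
    (∀ s, 0 ≤ s → Jet fun j => k j s) ∧
    (∀ s τ, k 0 s τ = -((1 + τ * (1 - τ) * g 0 s τ) ^ 2 * opK τ fun j => g j s τ)) ∧
    ∀ j s, 0 < s → ∀ τ ∈ Ioo (0 : ℝ) 1, HasDerivAt (fun r => g j r τ) (k j s τ) s := by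
  let S : Subalgebra ℝ (ℝ → ℝ → ℝ) := Algebra.adjoin ℝ (insert (fun _ τ => τ) (range g))
  have hS : ∀ f ∈ S, ContinuousOn (fun p : ℝ × ℝ => f p.1 p.2) (Ici 0 ×ˢ Icc 0 1) ∧
      ∃ f' ∈ S, ∀ s, 0 ≤ s → ∀ τ ∈ Ioo (0 : ℝ) 1, HasDerivAt (f s) (f' s τ) τ := by
    intro f hf
    induction hf using Algebra.adjoin_induction with
    | mem f hf =>
      rcases hf with rfl | ⟨j, rfl⟩
      · exact ⟨continuousOn_snd, 1, S.one_mem, fun s _ τ _ => hasDerivAt_id' τ⟩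
      · exact ⟨h.cont j, g (j + 1), Algebra.subset_adjoin (Or.inr ⟨_, rfl⟩), h.dτ j⟩
    | algebraMap r => exact ⟨continuousOn_const, 0, S.zero_mem, fun s _ τ _ => hasDerivAt_const τ r⟩
    | add f1 f2 _ _ i1 i2 =>
      obtain ⟨c1, d1, m1, k1⟩ := i1
      obtain ⟨c2, d2, m2, k2⟩ := i2
      exact ⟨c1.add c2, d1 + d2, S.add_mem m1 m2,
        fun s hs τ hτ => (k1 s hs τ hτ).add (k2 s hs τ hτ)⟩
    | mul f1 f2 n1 n2 i1 i2 =>
      obtain ⟨c1, d1, m1, k1⟩ := i1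
      obtain ⟨c2, d2, m2, k2⟩ := i2
      exact ⟨c1.mul c2, d1 * f2 + f1 * d2, S.add_mem (S.mul_mem m1 n2) (S.mul_mem n1 m2),
        fun s hs τ hτ => (k1 s hs τ hτ).mul (k2 s hs τ hτ)⟩
  choose hc d hd hder using hS
  let δ : S → S := fun f => ⟨d f.1 f.2, hd f.1 f.2⟩
  let T : S := ⟨fun _ τ => τ, Algebra.subset_adjoin (Or.inl rfl)⟩
  let G : ℕ → S := fun j => ⟨g j, Algebra.subset_adjoin (Or.inr ⟨j, rfl⟩)⟩
  let K : S := -((1 + T * (1 - T) * G 0) ^ 2 * (T ^ 2 * (1 - T) ^ 2 * G 4 +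
    (26 * T * (1 - T) ^ 2 - 8 * T ^ 2 * (1 - T)) * G 3 +
    (12 * T ^ 2 - 156 * T * (1 - T) + 156 * (1 - T) ^ 2) * G 2 +
    (156 * T - 624 * (1 - T)) * G 1 + 312 * G 0))
  have h1 : ∀ j, ContinuousOn (fun p : ℝ × ℝ => (δ^[j] K).1 p.1 p.2) (Ici 0 ×ˢ Icc 0 1) :=
    fun j => hc _ (δ^[j] K).2
  have h2 : ∀ s, 0 ≤ s → Jet fun j => (δ^[j] K).1 s := fun s hs j τ hτ => by
    simp only [Function.iterate_succ_apply']
    exact hder _ (δ^[j] K).2 s hs τ hτ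
  have h3 : ∀ s τ, K.1 s τ = -((1 + τ * (1 - τ) * g 0 s τ) ^ 2 * opK τ fun j => g j s τ) := by
    intro s τ
    let φ : S →ₐ[ℝ] ℝ := ((Pi.evalAlgHom ℝ (fun _ : ℝ => ℝ) τ).comp
      (Pi.evalAlgHom ℝ (fun _ : ℝ => ℝ → ℝ) s)).comp S.val
    have e1 : φ T = τ := rfl
    have e2 : ∀ j, φ (G j) = g j s τ := fun _ => rfl
    change φ K = _
    simp only [K, map_neg, map_mul, map_pow, map_add, map_sub, map_one, map_ofNat, e1, e2, opK]
  refine ⟨fun j => (δ^[j] K).1, h1, h2, h3, jet_dt h.cont h1 (fun s hs j => h.dτ j s hs) h2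
    fun s hs τ hτ => ?_⟩
  exact (h.dt s hs τ hτ).congr_deriv (h3 s τ).symm

end Vale.Agent.P264
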