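import Vale.Agent.P264.Ibp

/-! The Lyapunov functional and the unstable functionals. -/

open Set Polynomial

noncomputable section

namespace Vale.Agent.P264

open Fl

theorem lyap_c {α : Type} [TopologicalSpace α] {s : Set α} {v : α → Fl →ₐ[ℝ] ℝ} {G M : α → ℕ → ℝ}
    (d : Data) (hv : ∀ F, ContinuousOn (fun p => v p F) s)
    (hG : ∀ j, ContinuousOn (fun p => G p j) s) (hM : ∀ j, ContinuousOn (fun p => M p j) s) :
    ContinuousOn (fun p => d.L0 (v p) (G p) (M p)) s ∧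
    ContinuousOn (fun p => d.L1 (v p) (G p) (M p)) s ∧
    ContinuousOn (fun p => d.Yd (v p) (G p)) s ∧ ContinuousOn (fun p => d.F0 (v p) (G p) (M p)) s ∧
    ContinuousOn (fun p => nG (G p)) s ∧ ContinuousOn (fun p => nM (M p)) s := by
  obtain ⟨w, hw⟩ : ∃ w : Fl → α → ℝ, ∀ p F, v p F = w F p := ⟨fun F p => v p F, fun _ _ => rfl⟩
  simp only [hw] at hv
  unfold Data.F0 Data.Bt Data.L0 Data.L1 Data.Yd YK RK SK nG nM
  simp only [hw]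
  refine ⟨?_, ?_, ?_, ?_, ?_, ?_⟩ <;> fun_prop

theorem lyap_v {l0 : ℝ} (hl : 0 < l0) (F : Fl) :
    ContinuousOn (fun p : ℝ × ℝ => evc (lam l0 p.1) p.2 F) (Ici 0 ×ˢ Icc 0 1) :=
  (continuousOn_evc_lam F hl).mono (prod_mono (subset_univ _) subset_rfl)

theorem lyap_slice {h : ℝ → ℝ → ℝ}
    (hh : ContinuousOn (fun p : ℝ × ℝ => h p.1 p.2) (Ici 0 ×ˢ Icc 0 1)) {σ : ℝ} (hσ : 0 ≤ σ) :
    ContinuousOn (h σ) (Icc 0 1) :=
  hh.comp (f := fun τ => (σ, τ)) (by fun_prop) fun _ h => ⟨hσ, h⟩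

theorem lyap_sub {l : ℝ} {f g : ℝ → ℝ} (hf : ContinuousOn f (Icc 0 1))
    (hg : ContinuousOn g (Icc 0 1)) : av l (fun τ => f τ - g τ) = av l f - av l g := by
  rw [eq_sub_iff_add_eq, ← av_add (hf.fun_sub hg) hg]
  simp

theorem lyap_abs {l : ℝ} (hl : 0 < l) {f g : ℝ → ℝ} (hf : ContinuousOn f (Icc 0 1))
    (hg : ContinuousOn g (Icc 0 1)) (h : ∀ τ ∈ Ioo (0 : ℝ) 1, |f τ| ≤ g τ) : |av l f| ≤ av l g := by
  have h1 := av_mono hl (hg.const_mul (-1)) hf fun τ hτ =>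
    show -1 * g τ ≤ f τ by linarith [neg_abs_le (f τ), h τ hτ]
  rw [av_const_mul] at h1
  exact abs_le.2 ⟨by linarith, av_mono hl hf hg fun τ hτ => (le_abs_self _).trans (h τ hτ)⟩

theorem lyap_q {m a b θ : ℝ} (hm : |m| ≤ 10 ^ 6) (hθ : 0 < θ) :
    |m * a ^ 2 - m * b ^ 2| ≤ 10 ^ 6 * (θ * b ^ 2 + (1 + θ⁻¹) * (a - b) ^ 2) := by
  rw [← mul_sub, abs_mul]
  refine mul_le_mul hm ?_ (abs_nonneg _) (by norm_num)
  have h1 := mul_nonneg (inv_pos.2 hθ).le (sq_nonneg (θ * b - (a - b)))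
  have h2 := mul_nonneg (inv_pos.2 hθ).le (sq_nonneg (θ * b + (a - b)))
  have h3 : ∀ c, θ⁻¹ * (θ * b + c) ^ 2 = θ * b ^ 2 + 2 * b * c + θ⁻¹ * c ^ 2 := fun c => by
    field_simp
    ring
  rw [sub_eq_add_neg (θ * b), h3, neg_sq] at h1
  rw [h3] at h2
  exact abs_le.2 ⟨by nlinarith [sq_nonneg (a - b)], by nlinarith⟩

theorem lyap_b {b1 b2 b3 b4 b5 g f : ℝ} {M : ℕ → ℝ} (h1 : |b1| ≤ 10 ^ 6) (h2 : |b2| ≤ 10 ^ 6)
    (h3 : |b3| ≤ 10 ^ 6) (h4 : |b4| ≤ 10 ^ 6) (h5 : |b5| ≤ 10 ^ 6) :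
    2 * (b1 * g * f) ≤ 1 / (2 * 10 ^ 4) * g ^ 2 + 10 ^ 17 * f ^ 2 ∧
    2 * ((b1 * M 1 - b2 * M 2 + b3 * M 3 + b4 * M 4 + b5 * M 5) * f) ≤
      1 / (2 * 10 ^ 4) * nM M + 10 ^ 17 * f ^ 2 := by
  have key : ∀ b m : ℝ, |b| ≤ 10 ^ 6 →
      2 * |b * m * f| ≤ 1 / (2 * 10 ^ 4) * m ^ 2 + 2 * 10 ^ 16 * f ^ 2 := fun b m hb => by
    have := mul_le_mul_of_nonneg_right hb (mul_nonneg (abs_nonneg m) (abs_nonneg f))
    rw [abs_mul, abs_mul, ← sq_abs m, ← sq_abs f]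
    nlinarith [sq_nonneg (|m| - 2 * 10 ^ 10 * |f|)]
  refine ⟨by nlinarith [key b1 g h1, le_abs_self (b1 * g * f), sq_nonneg f], ?_⟩
  unfold nM
  linarith [key _ (M 1) h1, key _ (M 2) h2, key _ (M 3) h3, key _ (M 4) h4, key _ (M 5) h5,
    le_abs_self (b1 * M 1 * f), neg_abs_le (b2 * M 2 * f), le_abs_self (b3 * M 3 * f),
    le_abs_self (b4 * M 4 * f), le_abs_self (b5 * M 5 * f)]

namespace Tr

variable {l0 : ℝ} (T : Tr l0) (d : Data)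

/-- remainder, times `x (1 - τ)` -/
def f0 (σ τ : ℝ) : ℝ := xx (lam l0 σ) τ * (1 - τ) * (T.E 0 σ τ + T.G 0 σ τ / 2) -
  d.L0 (evc (lam l0 σ) τ) (T.g σ τ) (T.m σ τ)

/-- derivative of the remainder, times `τ (1 - τ) / l` -/
def f1 (σ τ : ℝ) : ℝ := τ * (1 - τ) / lam l0 σ * (T.E 1 σ τ + T.G 1 σ τ / 2) -
  d.L1 (evc (lam l0 σ) τ) (T.g σ τ) (T.m σ τ)

/-- norm of the remainder -/
def Phi (σ : ℝ) : ℝ := av (lam l0 σ) fun τ => T.f0 d σ τ ^ 2 + T.f1 d σ τ ^ 2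

/-- local energy -/
def Y (σ : ℝ) : ℝ := av (lam l0 σ) fun τ => d.Yd (evc (lam l0 σ) τ) (T.g σ τ)

/-- unstable functionals -/
def ell (k : ℕ) (σ : ℝ) : ℝ := T.fn (d.zeta k) σ

theorem lyap_c' (hl : 0 < l0) {σ : ℝ} (hσ : 0 ≤ σ) :
    ContinuousOn (fun τ => d.Yd (evc (lam l0 σ) τ) (T.g σ τ)) (Icc 0 1) ∧
    ContinuousOn (fun τ => d.F0 (evc (lam l0 σ) τ) (T.g σ τ) (T.m σ τ)) (Icc 0 1) ∧
    ContinuousOn (fun τ => nG (T.g σ τ)) (Icc 0 1) ∧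
    ContinuousOn (fun τ => nM (T.m σ τ)) (Icc 0 1) :=
  (lyap_c d (fun F => continuousOn_evc_slice F (lam_pos hl σ)) (fun j => T.cG' j hσ)
    fun j => T.cM' j hσ).2.2

/-- exact derivative of `τ (1 - τ) p G i (E j + G j / 2)` -/
def lyapT (p : Fl) (i j : ℕ) (σ τ : ℝ) : ℝ :=
  evc (lam l0 σ) τ (D p) * T.G i σ τ * (T.E j σ τ + T.G j σ τ / 2) + evc (lam l0 σ) τ p *
    (T.G (i + 1) σ τ * (T.E j σ τ + T.G j σ τ / 2) +
      T.G i σ τ * (T.E (j + 1) σ τ + T.G (j + 1) σ τ / 2)) +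
    (1 - 2 * τ) * (evc (lam l0 σ) τ p * T.G i σ τ * (T.E j σ τ + T.G j σ τ / 2))

theorem lyapT_spec (hl : 0 < l0) {σ : ℝ} (hσ : 0 ≤ σ) (p : Fl) (i j : ℕ) :
    ContinuousOn (T.lyapT p i j σ) (Icc 0 1) ∧ av (lam l0 σ) (T.lyapT p i j σ) = 0 := by
  have h1 := continuousOn_evc_slice p (lam_pos hl σ)
  have h2 := continuousOn_evc_slice (D p) (lam_pos hl σ)
  have h3 := T.cG' i hσ
  have h4 := T.cG' (i + 1) hσ
  have h5 := (T.cE' j hσ).add ((T.cG' j hσ).div_const 2)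
  have h6 := (T.cE' (j + 1) hσ).add ((T.cG' (j + 1) hσ).div_const 2)
  have h7 := ((h2.mul h3).mul h5).add (h1.mul ((h4.mul h5).add (h3.mul h6)))
  have h8 := (h1.mul h3).mul h5
  refine ⟨h7.add ((continuousOn_const.sub (continuousOn_const.mul continuousOn_id)).mul h8), ?_⟩
  have := ibp_D h8 h7 (fun τ hτ => (((hasDerivAt_D p (lam_pos hl σ) hτ).mul
    (T.dG' hl i hσ hτ)).mul ((T.dE j σ hσ τ hτ).add
      ((T.dG' hl j hσ hτ).div_const 2))).congr_deriv (by simp only [Pi.mul_apply, Pi.add_apply]; ring))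
    (right_mem_Icc.2 zero_le_one)
  rw [sub_self, mul_zero, zero_mul] at this
  exact mul_eq_zero_of_right _ this

theorem f0_cont (hl : 0 < l0) :
    ContinuousOn (fun p : ℝ × ℝ => T.f0 d p.1 p.2) (Ici 0 ×ˢ Icc 0 1) := by
  have h1 := lyap_v hl x
  simp only [evc_x] at h1
  exact ((h1.mul (continuousOn_const.sub continuousOn_snd)).mul
    ((T.cE 0).add ((T.cG 0).div_const 2))).sub (lyap_c d (lyap_v hl) T.cG T.cM).1

theorem f1_cont (hl : 0 < l0) :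
    ContinuousOn (fun p : ℝ × ℝ => T.f1 d p.1 p.2) (Ici 0 ×ˢ Icc 0 1) := (((continuousOn_snd.mul (continuousOn_const.sub continuousOn_snd)).div
    ((continuous_lam l0).comp continuous_fst).continuousOn fun _ _ => (lam_pos hl _).ne').mul
    ((T.cE 1).add ((T.cG 1).div_const 2))).sub (lyap_c d (lyap_v hl) T.cG T.cM).2.1

theorem Y_cont (hl : 0 < l0) : ContinuousOn (T.Y d) (Ici 0) := av_continuousOn hl (h := fun σ τ => d.Yd (evc (lam l0 σ) τ) (T.g σ τ))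
    (lyap_c d (lyap_v hl) T.cG T.cM).2.2.1

theorem ell_cont (hl : 0 < l0) (k : ℕ) : ContinuousOn (T.ell d k) (Ici 0) := av_continuousOn hl (h := fun σ s => evc (lam l0 σ) s y *
      (evc (lam l0 σ) s (15 * y * d.zeta k) * T.G 0 σ s))
    ((lyap_v hl _).mul ((lyap_v hl _).mul (T.cG 0)))

theorem Phi_nonneg (hl : 0 < l0) (σ : ℝ) : 0 ≤ T.Phi d σ := mul_nonneg (inv_pos.2 (lam_pos hl σ)).le
    (intervalIntegral.integral_nonneg zero_le_one fun _ _ => by positivity)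

variable {d} (h : d.Good l0)
include h

theorem lyap_bd {σ τ : ℝ} (hσ : 0 ≤ σ) (hτ : τ ∈ Icc (0 : ℝ) 1) (k : ℕ) (hk : k < d.bounds.length) :
    |evc (lam l0 σ) τ d.bounds[k].1| ≤ d.bounds[k].2 :=
  h.bd _ (List.getElem_mem hk) _ ⟨lam_pos h.pos σ, lam_le h.pos hσ⟩ τ hτ

theorem lyap_m {σ τ : ℝ} (hσ : 0 ≤ σ) (hτ : τ ∈ Icc (0 : ℝ) 1) :
    |evc (lam l0 σ) τ (d.mm 0)| ≤ 10 ^ 6 ∧ |evc (lam l0 σ) τ (d.mm 1)| ≤ 10 ^ 6 ∧
    |evc (lam l0 σ) τ (d.mm 2)| ≤ 10 ^ 6 ∧ |evc (lam l0 σ) τ (d.mm 3)| ≤ 10 ^ 6 := by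
  refine ⟨?_, lyap_bd h hσ hτ 7 (by simp [Data.bounds]), lyap_bd h hσ hτ 8 (by simp [Data.bounds]),
    lyap_bd h hσ hτ 9 (by simp [Data.bounds])⟩
  have h1 : |evc (lam l0 σ) τ (px (d.m 0))| ≤ 10 ^ 6 := lyap_bd h hσ hτ 6 (by simp [Data.bounds])
  have h2 := xx_mem (lam_pos h.pos σ) hτ
  have h3 := mul_nonneg h2.1 (sub_nonneg.2 hτ.2)
  rw [Data.mm, map_mul, map_mul, map_sub, map_one, evc_x, evc_t, abs_mul, abs_of_nonneg h3]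
  exact (mul_le_of_le_one_left (abs_nonneg _) (mul_le_one₀ h2.2 (sub_nonneg.2 hτ.2) (by linarith [hτ.1]))).trans h1

theorem Y_deriv {σ : ℝ} (hσ : 0 < σ) : ∃ Y', HasDerivAt (T.Y d) Y' σ ∧
    Y' ≤ -(1 / (2 * 10 ^ 4) * (T.N σ + T.Dd σ)) +
      10 ^ 11 * (T.ell d 0 σ ^ 2 + T.ell d 1 σ ^ 2) + 10 ^ 17 * T.Phi d σ := by
  have hl := h.pos
  have l1 := lam_pos hl σ
  let W : ℝ → ℝ → ℝ := fun s τ => ∑ i ∈ Finset.range 4, (evc (lam l0 s) τ (dot (d.mm i)) *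
    T.G i s τ ^ 2 + evc (lam l0 s) τ (d.mm i) * (2 * T.G i s τ * T.E i s τ))
  have cW : ContinuousOn (fun p : ℝ × ℝ => W p.1 p.2) (Ici 0 ×ˢ Icc 0 1) :=
    continuousOn_finsetSum _ fun i _ => ((lyap_v hl _).mul ((T.cG i).pow 2)).add
      ((lyap_v hl _).mul ((continuousOn_const.mul (T.cG i)).mul (T.cE i)))
  refine ⟨_, av_hasDerivAt hl (h := fun s τ => d.Yd (evc (lam l0 s) τ) (T.g s τ)) (h' := W)
    (lyap_c d (lyap_v hl) T.cG T.cM).2.2.1 cW (fun s hs τ hτ => ?_) hσ, ?_⟩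
  · have k := fun i => (hasDerivAt_dot (d.mm i) hl s (Ioo_subset_Icc_self hτ)).mul
      ((T.dt i s hs τ hτ).pow 2)
    refine ((((k 0).add (k 1)).add (k 2)).add (k 3)).congr_deriv ?_
    simp [W, Finset.sum_range_succ]
  obtain ⟨c1, c2, c3, c4⟩ := T.lyap_c' d hl hσ.le
  have c5 := ((lyap_slice (T.f0_cont d hl) hσ.le).fun_pow 2).fun_add
    ((lyap_slice (T.f1_cont d hl) hσ.le).fun_pow 2)
  obtain ⟨a1, b1⟩ := T.lyapT_spec hl hσ.le (d.mm 3) 3 2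
  obtain ⟨a2, b2⟩ := T.lyapT_spec hl hσ.le (d.mm 2) 2 1
  obtain ⟨a3, b3⟩ := T.lyapT_spec hl hσ.le (sh (d.mm 3)) 3 1
  obtain ⟨a4, b4⟩ := T.lyapT_spec hl hσ.le (d.mm 3) 4 1
  have c6 := (c1.div_const 2).fun_add (lyap_slice cW hσ.le)
  have c7 := (c3.fun_add c4).const_mul (1 / (2 * 10 ^ 4))
  have c8 := c5.const_mul (10 ^ 17)
  have c9 := (((a1.fun_add a2).fun_sub a3).fun_sub a4).const_mul 2
  obtain ⟨Λ, hΛ⟩ := h.lmi1
  have e1 := av_mono l1 ((c3.fun_add c4).const_mul _) (T.F1_cont hl hσ.le d Λ) fun τ hτ =>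
    hΛ _ ⟨l1, lam_le hl hσ.le⟩ τ (Ioo_subset_Icc_self hτ) (T.g σ τ) (T.m σ τ) _ fun j h1 _ => by
      obtain ⟨j, rfl⟩ := Nat.exists_eq_add_of_le' h1
      exact T.GM j σ hσ.le τ (Ioo_subset_Icc_self hτ)
  have e2 := av_mono l1 (f := fun τ => d.Yd (evc (lam l0 σ) τ) (T.g σ τ) / 2 + W σ τ +
      d.F0 (evc (lam l0 σ) τ) (T.g σ τ) (T.m σ τ))
    (g := fun τ => 1 / (2 * 10 ^ 4) * (nG (T.g σ τ) + nM (T.m σ τ)) +
      10 ^ 17 * (T.f0 d σ τ ^ 2 + T.f1 d σ τ ^ 2) + 2 * (T.lyapT (d.mm 3) 3 2 σ τ +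
        T.lyapT (d.mm 2) 2 1 σ τ - T.lyapT (sh (d.mm 3)) 3 1 σ τ - T.lyapT (d.mm 3) 4 1 σ τ))
    (c6.add c2) ((c7.add c8).add c9) fun τ hτ => by
      have hτ' := Ioo_subset_Icc_self hτ
      obtain ⟨-, m1, -, m3⟩ := lyap_m h hσ.le hτ'
      have m0 : |evc (lam l0 σ) τ (px (d.m 0))| ≤ 10 ^ 6 :=
        lyap_bd h hσ.le hτ' 6 (by simp [Data.bounds])
      have m2 : |evc (lam l0 σ) τ (sh (d.mm 2))| ≤ 10 ^ 6 :=
        lyap_bd h hσ.le hτ' 10 (by simp [Data.bounds])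
      have m4 : |evc (lam l0 σ) τ (sh (sh (d.mm 3)) - d.mm 2)| ≤ 10 ^ 6 :=
        lyap_bd h hσ.le hτ' 11 (by simp [Data.bounds])
      have m5 : |evc (lam l0 σ) τ (2 * sh (d.mm 3))| ≤ 10 ^ 6 :=
        lyap_bd h hσ.le hτ' 12 (by simp [Data.bounds])
      have i1 := (lyap_b (g := T.G 0 σ τ) (f := T.f0 d σ τ) (M := T.m σ τ) m0 m0 m0 m0 m0).1
      have i2 := (lyap_b (g := 0) (f := T.f1 d σ τ) (M := T.m σ τ) m1 m2 m4 m5 m3).2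
      have g : ∀ j, T.G (j + 1) σ τ = τ * (1 - τ) / lam l0 σ * T.M (j + 1) σ τ := fun j => by
        rw [div_mul_eq_mul_div, ← T.GM j σ hσ.le τ hτ', mul_div_cancel_left₀ _ l1.ne']
      have i3 : d.Yd (evc (lam l0 σ) τ) (T.g σ τ) / 2 + W σ τ +
          d.F0 (evc (lam l0 σ) τ) (T.g σ τ) (T.m σ τ) =
          2 * (evc (lam l0 σ) τ (px (d.m 0)) * T.G 0 σ τ * T.f0 d σ τ) +
          2 * (d.Bt (evc (lam l0 σ) τ) (T.m σ τ) * T.f1 d σ τ) + 2 * (T.lyapT (d.mm 3) 3 2 σ τ +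
            T.lyapT (d.mm 2) 2 1 σ τ - T.lyapT (sh (d.mm 3)) 3 1 σ τ -
            T.lyapT (d.mm 3) 4 1 σ τ) := by
        have z : evc (lam l0 σ) τ (d.mm 0) =
            xx (lam l0 σ) τ * (1 - τ) * evc (lam l0 σ) τ (px (d.m 0)) := by simp [Data.mm]
        have s : ∀ F, evc (lam l0 σ) τ (sh F) =
            evc (lam l0 σ) τ (D F) + (1 - 2 * τ) * evc (lam l0 σ) τ F := fun F => by simp [sh]
        simp only [W, Finset.sum_range_succ, Finset.sum_range_zero, Data.Yd, Data.F0, Data.Bt, f0,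
          f1, lyapT, map_sub, map_mul, evc_c, s (sh _), s (d.mm 2), z, Tr.g, Tr.m]
        rw [eq_sub_of_add_eq (s (d.mm 3)).symm]
        generalize d.L0 _ _ _ = A
        generalize d.L1 _ _ _ = B
        linear_combination (2 * (T.E 1 σ τ + T.G 1 σ τ / 2)) * (evc (lam l0 σ) τ (d.mm 1) * g 0 -
          (evc (lam l0 σ) τ (D (d.mm 2)) + (1 - 2 * τ) * evc (lam l0 σ) τ (d.mm 2)) * g 1 +
          (evc (lam l0 σ) τ (D (sh (d.mm 3))) + (1 - 2 * τ) * evc (lam l0 σ) τ (sh (d.mm 3)) -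
            evc (lam l0 σ) τ (d.mm 2)) * g 2 + 2 * evc (lam l0 σ) τ (sh (d.mm 3)) * g 3 +
          evc (lam l0 σ) τ (d.mm 3) * g 4)
      rw [i3, Data.Bt]
      rw [map_mul, map_ofNat] at i2
      have i4 : T.G 0 σ τ ^ 2 ≤ nG (T.g σ τ) := by
        unfold nG Tr.g
        nlinarith [sq_nonneg (T.G 1 σ τ), sq_nonneg (T.G 2 σ τ), sq_nonneg (T.G 3 σ τ)]
      linarith
  rw [av_add c6 c2, av_add (c7.fun_add c8) c9, av_add c7 c8, av_const_mul, av_const_mul,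
    av_const_mul, av_add c3 c4, lyap_sub ((a1.fun_add a2).fun_sub a3) a4,
    lyap_sub (a1.fun_add a2) a3, av_add a1 a2, b1, b2, b3, b4] at e2
  rw [av_const_mul, av_add c3 c4, T.int_F1 hl hσ.le] at e1
  have e3 := h.P1 (T.fn (d.zeta 0) σ) (T.fn (d.zeta 1) σ)
  unfold N Dd ell Phi
  linarith

theorem Y_lower {σ : ℝ} (hσ : 0 ≤ σ) :
    1 / 10 ^ 4 * T.N σ ≤ T.Y d σ + 10 ^ 11 * (T.ell d 0 σ ^ 2 + T.ell d 1 σ ^ 2) := by
  have e1 := av_mono (lam_pos h.pos σ) ((T.lyap_c' d h.pos hσ).2.2.1.const_mul _)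
    (T.FF2_cont h.pos hσ d) fun τ hτ =>
    h.lmi2 _ ⟨lam_pos h.pos σ, lam_le h.pos hσ⟩ τ (Ioo_subset_Icc_self hτ) (T.g σ τ) _
  rw [av_const_mul, T.int_FF2 h.pos hσ] at e1
  exact e1.trans (add_le_add_right (h.P2 _ _) _)

theorem Y_abs {σ : ℝ} (hσ : 0 ≤ σ) : |T.Y d σ| ≤ 10 ^ 6 * T.N σ := by
  obtain ⟨c1, -, c3, -⟩ := T.lyap_c' d h.pos hσ
  rw [N, ← av_const_mul]
  refine lyap_abs (lam_pos h.pos σ) c1 (continuousOn_const.mul c3) fun τ hτ => ?_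
  obtain ⟨m0, m1, m2, m3⟩ := lyap_m h hσ (Ioo_subset_Icc_self hτ)
  have k : ∀ m a : ℝ, |m| ≤ 10 ^ 6 → |m * a ^ 2| ≤ 10 ^ 6 * a ^ 2 := fun m a hm => by
    rw [abs_mul, abs_sq]
    exact mul_le_mul_of_nonneg_right hm (sq_nonneg a)
  have := abs_le.1 (k _ (T.g σ τ 0) m0)
  have := abs_le.1 (k _ (T.g σ τ 1) m1)
  have := abs_le.1 (k _ (T.g σ τ 2) m2)
  have := abs_le.1 (k _ (T.g σ τ 3) m3)
  unfold Data.Yd nG
  exact abs_le.2 ⟨by linarith, by linarith⟩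

theorem ell_sq {k : ℕ} (hk : k ≤ 1) {σ : ℝ} (hσ : 0 ≤ σ) : T.ell d k σ ^ 2 ≤ 10 * T.N σ := by
  have l1 := lam_pos h.pos σ
  have c1 := (continuousOn_evc_slice (15 * y * d.zeta k) l1).fun_mul (T.cG' 0 hσ)
  have e1 := av_mono l1 (c1.fun_pow 2) ((T.lyap_c' d h.pos hσ).2.2.1.const_mul 100) fun τ hτ => by
    have m : |evc (lam l0 σ) τ (15 * y * d.zeta k)| ≤ 10 := by
      interval_cases k
      · exact lyap_bd h hσ (Ioo_subset_Icc_self hτ) 17 (by simp [Data.bounds])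
      · exact lyap_bd h hσ (Ioo_subset_Icc_self hτ) 18 (by simp [Data.bounds])
    have m' := mul_le_mul_of_nonneg_right (pow_le_pow_left₀ (abs_nonneg _) m 2)
      (sq_nonneg (T.G 0 σ τ))
    rw [sq_abs] at m'
    unfold nG Tr.g
    nlinarith [sq_nonneg (T.G 1 σ τ), sq_nonneg (T.G 2 σ τ), sq_nonneg (T.G 3 σ τ)]
  rw [av_const_mul] at e1
  have e2 := av_cs l1 c1
  have e3 := T.N_nonneg h.pos σ
  unfold ell fn
  unfold N at e3 ⊢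
  linarith

theorem Y_sub (S : Tr l0) {σ : ℝ} (hσ : 0 ≤ σ) {θ : ℝ} (hθ : 0 < θ) :
    |T.Y d σ - S.Y d σ| ≤ 10 ^ 6 * (θ * S.N σ + (1 + θ⁻¹) * (T.sub S).N σ) := by
  obtain ⟨c1, -, -, -⟩ := T.lyap_c' d h.pos hσ
  obtain ⟨c2, -, c3, -⟩ := S.lyap_c' d h.pos hσ
  obtain ⟨-, -, c4, -⟩ := (T.sub S).lyap_c' d h.pos hσ
  have c5 := c3.const_mul θ
  have c6 := c4.const_mul (1 + θ⁻¹)
  rw [N, N, Y, Y, ← av_const_mul, ← av_const_mul, ← av_add c5 c6, ← av_const_mul, ← lyap_sub c1 c2]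
  refine lyap_abs (lam_pos h.pos σ) (c1.sub c2) (continuousOn_const.mul (c5.add c6)) fun τ hτ => ?_
  obtain ⟨m0, m1, m2, m3⟩ := lyap_m h hσ (Ioo_subset_Icc_self hτ)
  have := abs_le.1 (lyap_q (a := T.G 0 σ τ) (b := S.G 0 σ τ) m0 hθ)
  have := abs_le.1 (lyap_q (a := T.G 1 σ τ) (b := S.G 1 σ τ) m1 hθ)
  have := abs_le.1 (lyap_q (a := T.G 2 σ τ) (b := S.G 2 σ τ) m2 hθ)
  have := abs_le.1 (lyap_q (a := T.G 3 σ τ) (b := S.G 3 σ τ) m3 hθ)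
  simp only [Data.Yd, nG, Tr.g, Tr.sub]
  exact abs_le.2 ⟨by linarith, by linarith⟩

omit h in
theorem ell_sub (hl : 0 < l0) (S : Tr l0) (k : ℕ) {σ : ℝ} (hσ : 0 ≤ σ) :
    (T.sub S).ell d k σ = T.ell d k σ - S.ell d k σ := by
  have c := fun F => continuousOn_evc_slice F (lam_pos hl σ)
  rw [ell, ell, ell, fn, fn, fn, ← lyap_sub ((c _).fun_mul ((c _).fun_mul (T.cG' 0 hσ)))
    ((c _).fun_mul ((c _).fun_mul (S.cG' 0 hσ)))]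
  exact av_congr fun τ _ => by simp only [Tr.sub]; ring

omit h in
theorem N_sub (hl : 0 < l0) (S : Tr l0) {σ : ℝ} (hσ : 0 ≤ σ) :
    T.N σ ≤ 3 / 2 * S.N σ + 3 * (T.sub S).N σ := by
  have c := fun R : Tr l0 => ((((R.cG' 0 hσ).pow 2).add ((R.cG' 1 hσ).pow 2)).add
    ((R.cG' 2 hσ).pow 2)).add ((R.cG' 3 hσ).pow 2)
  have c1 := (continuousOn_const (c := 3 / 2)).mul (c S)
  have c2 := (continuousOn_const (c := 3)).mul (c (T.sub S))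
  rw [N, N, N, ← av_const_mul, ← av_const_mul]
  refine le_of_le_of_eq (av_mono (lam_pos hl σ) (c T) (c1.add c2) fun τ _ => ?_) (av_add c1 c2)
  simp only [Tr.sub, Pi.mul_apply, Pi.add_apply, Pi.pow_apply, nG, Tr.g]
  nlinarith [sq_nonneg (3 * S.G 0 σ τ - 2 * T.G 0 σ τ), sq_nonneg (3 * S.G 1 σ τ - 2 * T.G 1 σ τ),
    sq_nonneg (3 * S.G 2 σ τ - 2 * T.G 2 σ τ), sq_nonneg (3 * S.G 3 σ τ - 2 * T.G 3 σ τ)]

end Tr

end Vale.Agent.P264
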