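import Vale.Agent.P264.Data

/-! From the limiting arcs to small scales, by compactness. -/

open Set Polynomial

noncomputable section

namespace Vale.Agent.P264

open Fl

theorem near_cpt {X : Type} [TopologicalSpace X] {K : Set X} (hK : IsCompact K) {f g : X → ℝ}
    (hf : Continuous f) (hg : Continuous g) (h0 : ∀ p ∈ K, 0 ≤ g p)
    (h : ∀ p ∈ K, g p = 0 → 0 < f p) : ∃ l0 : ℝ, 0 < l0 ∧ ∀ p ∈ K, g p ≤ l0 → 0 < f p := by
  rcases (K ∩ {p | f p ≤ 0}).eq_empty_or_nonempty with e | e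
  · exact ⟨1, one_pos, fun p hp _ => not_le.1 fun k => (e ▸ notMem_empty p) ⟨hp, k⟩⟩
  · obtain ⟨q, hq, k⟩ := (hK.inter_right (isClosed_le hf continuous_const)).exists_isMinOn e
      hg.continuousOn
    have a : 0 < g q := (h0 q hq.1).lt_of_ne' fun j => (h q hq.1 j).not_ge hq.2
    refine ⟨g q / 2, half_pos a, fun p hp j => not_le.1 fun i => ?_⟩
    have : g q ≤ g p := k ⟨hp, i⟩
    linarith

theorem near_sph {n : ℕ} {z : Fin n → ℝ} (hz : z ≠ 0) :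
    ∃ c : ℝ, 0 < c ∧ ∃ w ∈ Metric.sphere (0 : Fin n → ℝ) 1, z = c • w := by
  have h := norm_pos_iff.2 hz
  refine ⟨‖z‖, h, ‖z‖⁻¹ • z, ?_, by rw [smul_smul, mul_inv_cancel₀ h.ne', one_smul]⟩
  rw [mem_sphere_zero_iff_norm, norm_smul, norm_inv, norm_norm, inv_mul_cancel₀ h.ne']

theorem near_ne {n : ℕ} {w : Fin n → ℝ} (h : w ∈ Metric.sphere (0 : Fin n → ℝ) 1) : w ≠ 0 :=
  ne_zero_of_mem_unit_sphere ⟨w, h⟩

theorem near_form {X : Type} [TopologicalSpace X] {K : Set X} (hK : IsCompact K) {n : ℕ}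
    {Q : X → (Fin n → ℝ) → ℝ} (hQ : Continuous fun q : X × (Fin n → ℝ) => Q q.1 q.2)
    (hom : ∀ p c z, Q p (c • z) = c ^ 2 * Q p z) {g : X → ℝ} (hg : Continuous g)
    (h0 : ∀ p ∈ K, 0 ≤ g p) (h : ∀ p ∈ K, g p = 0 → ∀ z, z ≠ 0 → 0 < Q p z) :
    ∃ l0 : ℝ, 0 < l0 ∧ ∀ p ∈ K, g p ≤ l0 → ∀ z, 0 ≤ Q p z := by
  obtain ⟨l0, a, b⟩ := near_cpt (hK.prod (isCompact_sphere (0 : Fin n → ℝ) 1)) hQ
    (hg.comp continuous_fst) (fun p hp => h0 p.1 hp.1) fun p hp k => h p.1 hp.1 k _ (near_ne hp.2)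
  refine ⟨l0, a, fun p hp k z => ?_⟩
  by_cases hz : z = 0
  · have := hom p 0 z
    rw [zero_smul] at this
    rw [hz, this, zero_pow two_ne_zero, zero_mul]
  · obtain ⟨c, -, w, hw, rfl⟩ := near_sph hz
    rw [hom]
    exact mul_nonneg (sq_nonneg c) (b (p, w) ⟨hp, hw⟩ k).le

/-- the closure of the constraint -/
def nearK : Set (ℝ × ℝ × ℝ) :=
  Icc (0, 0, 0) (1, 1, 1) ∩ {p | (1 - p.1) * p.2.1 = 15 * p.2.2 * p.1 * (1 - p.2.1)}

theorem near_K : IsCompact nearK :=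
  isCompact_Icc.inter_right (isClosed_eq (by fun_prop) (by fun_prop))

theorem near_mem {l τ : ℝ} (hl : 0 < l) (h1 : l ≤ 1) (hτ : τ ∈ Icc (0 : ℝ) 1) :
    (xx l τ, τ, l) ∈ nearK := by
  refine ⟨⟨⟨(xx_mem hl hτ).1, hτ.1, hl.le⟩, (xx_mem hl hτ).2, hτ.2, h1⟩, ?_⟩
  change (1 - xx l τ) * τ = 15 * l * xx l τ * (1 - τ)
  rw [one_sub_xx hl hτ]
  linear_combination 15 * (1 - τ) * t_mul_y hl hτ

theorem near_arc {p : ℝ × ℝ × ℝ} (hp : p ∈ nearK) (h : p.2.2 = 0) :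
    (∃ a ∈ Icc (0 : ℝ) 1, p = (a, 0, 0)) ∨ ∃ τ ∈ Icc (0 : ℝ) 1, p = (1, τ, 0) := by
  obtain ⟨a, τ, m⟩ := p
  obtain ⟨⟨⟨a0, t0, -⟩, a1, t1, -⟩, e⟩ := hp
  obtain rfl : m = 0 := h
  have e : (1 - a) * τ = 0 := by simpa using e
  rcases mul_eq_zero.1 e with k | k
  · exact Or.inr ⟨τ, ⟨t0, t1⟩, by rw [← sub_eq_zero.1 k]⟩
  · exact Or.inl ⟨a, ⟨a0, a1⟩, by rw [k]⟩

theorem near_bound (F : Fl) (b : ℝ) (h1 : ∀ a ∈ Icc (0 : ℝ) 1, |ev a 0 0 F| < b)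
    (h2 : ∀ τ ∈ Icc (0 : ℝ) 1, |ev 1 τ 0 F| < b) :
    ∃ l0 : ℝ, 0 < l0 ∧ ∀ l ∈ Ioc 0 l0, ∀ τ ∈ Icc (0 : ℝ) 1, |evc l τ F| ≤ b := by
  obtain ⟨l0, a, k⟩ := near_cpt near_K (f := fun p => b - |ev p.1 p.2.1 p.2.2 F|)
    (g := fun p => p.2.2) (continuous_const.sub (continuous_ev F).abs) (by fun_prop)
    (fun p hp => hp.1.1.2.2) fun p hp e => by
      rcases near_arc hp e with ⟨a, ha, rfl⟩ | ⟨τ, hτ, rfl⟩
      · exact sub_pos.2 (h1 a ha)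
      · exact sub_pos.2 (h2 τ hτ)
  exact ⟨min l0 1, by positivity, fun l hl τ hτ => (sub_pos.1 (k _ (near_mem hl.1
    (hl.2.trans (min_le_right _ _)) hτ) (hl.2.trans (min_le_left _ _)))).le⟩

theorem near_list (L : List (Fl × ℝ)) (h : ∀ p ∈ L, ∃ l0 : ℝ, 0 < l0 ∧
    ∀ l ∈ Ioc 0 l0, ∀ τ ∈ Icc (0 : ℝ) 1, |evc l τ p.1| ≤ p.2) : ∃ l0 : ℝ, 0 < l0 ∧
    ∀ p ∈ L, ∀ l ∈ Ioc 0 l0, ∀ τ ∈ Icc (0 : ℝ) 1, |evc l τ p.1| ≤ p.2 := by
  induction L with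
  | nil => exact ⟨1, one_pos, fun p hp => absurd hp List.not_mem_nil⟩
  | cons q L ih =>
    obtain ⟨a, a0, ha⟩ := h q List.mem_cons_self
    obtain ⟨b, b0, hb⟩ := ih fun p hp => h p (List.mem_cons_of_mem _ hp)
    refine ⟨min a b, lt_min a0 b0, fun p hp l hl => ?_⟩
    rcases List.mem_cons.1 hp with rfl | k
    · exact ha l ⟨hl.1, hl.2.trans (min_le_left _ _)⟩
    · exact hb p k l ⟨hl.1, hl.2.trans (min_le_right _ _)⟩

theorem near_Tadj {F : Fl} (h : mid F = 0) : mid (Tadj F) = 0 := by simp [Tadj, Dy, h]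

theorem near_Ad (d : Data) (k : ℕ) : mid (d.Ad k) = 0 := by
  have h : ∀ j, mid (d.wt k * cK j) = 0 := fun j => by simp [Data.wt]
  simp [Data.Ad, near_Tadj (h _), near_Tadj (near_Tadj (h _)),
    near_Tadj (near_Tadj (near_Tadj (h _))), near_Tadj (near_Tadj (near_Tadj (near_Tadj (h _))))]

theorem near_mm (d : Data) (i : ℕ) :
    mid (d.mm (i + 1)) = (1 - X) * C ((d.m (i + 1)).eval 1) + X * C (mOut (i + 1)) := by
  simp [Data.mm]

theorem near_sh (F : Fl) :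
    mid (sh F) = X * (1 - X) * derivative (mid F) + (1 - 2 * X) * mid F := by simp [sh]

theorem near_A (d : Data) : mid d.A = (1 - X) * C (ev 1 0 0 d.A) := by
  simp [ev_mid, Data.A]
  ring

theorem near_abs {a b A B : ℝ} (ha : |a| ≤ A) (hb : |b| ≤ B) : |a * b| ≤ A * B := by
  rw [abs_mul]
  exact mul_le_mul ha hb (abs_nonneg _) ((abs_nonneg _).trans ha)

theorem near_lin {F : Fl} {a b τ : ℝ} (hF : mid F = (1 - X) * C a + X * C b) (a0 : 0 ≤ a)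
    (a1 : a ≤ 10 ^ 4) (b0 : 0 ≤ b) (b1 : b ≤ 10 ^ 4) (hτ : τ ∈ Icc (0 : ℝ) 1) :
    |ev 1 τ 0 F| ≤ 10 ^ 4 ∧ |ev 1 τ 0 (sh F)| ≤ 2 * 10 ^ 4 ∧
      |ev 1 τ 0 (sh (sh F))| ≤ 6 * 10 ^ 4 := by
  obtain ⟨t0, t1⟩ := hτ
  have e1 : |τ * (1 - τ)| ≤ 1 := abs_le.2 ⟨by nlinarith, by nlinarith⟩
  have e2 : |1 - 2 * τ| ≤ 1 := abs_le.2 ⟨by linarith, by linarith⟩
  have f : |(1 - τ) * a + τ * b| ≤ 10 ^ 4 := abs_le.2 ⟨by nlinarith, by nlinarith⟩
  have g : |b - a| ≤ 10 ^ 4 := abs_le.2 ⟨by linarith, by linarith⟩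
  have k1 := abs_le.1 (near_abs e1 g)
  have k2 := abs_le.1 (near_abs e2 f)
  have k3 := abs_le.1 (near_abs e1 f)
  have k4 := abs_le.1 (near_abs e2 (near_abs e1 g))
  have k5 := abs_le.1 (near_abs e2 (near_abs e2 f))
  have s0 : ev 1 τ 0 F = (1 - τ) * a + τ * b := by
    rw [ev_mid, hF]
    simp
    ring
  have s1 : ev 1 τ 0 (sh F) = τ * (1 - τ) * (b - a) + (1 - 2 * τ) * ((1 - τ) * a + τ * b) := by
    rw [ev_mid, near_sh, hF]
    simp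
    ring
  have s2 : ev 1 τ 0 (sh (sh F)) = 3 * ((1 - 2 * τ) * (τ * (1 - τ) * (b - a))) -
      2 * (τ * (1 - τ) * ((1 - τ) * a + τ * b)) +
      (1 - 2 * τ) * ((1 - 2 * τ) * ((1 - τ) * a + τ * b)) := by
    rw [ev_mid, near_sh, near_sh, hF]
    simp
    ring
  rw [s0, s1, s2]
  exact ⟨f, abs_le.2 ⟨by linarith [k1.1, k2.1], by linarith [k1.2, k2.2]⟩,
    abs_le.2 ⟨by linarith [k3.2, k4.1, k5.1], by linarith [k3.1, k4.2, k5.2]⟩⟩

theorem near_chi (d : Data) (τ : ℝ) : ev 1 τ 0 d.chi = 1 - (1 - τ) * d.U.eval 1 ∧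
    ev 1 τ 0 (D d.chi) = τ * (1 - τ) * d.U.eval 1 := by
  simp [ev_mid, Data.chi, mul_comm]

theorem near_res (d : Data) (h : |ev 1 0 0 d.A| < 1 / 10 ^ 86) {τ : ℝ} (hτ : τ ∈ Icc (0 : ℝ) 1) :
    |ev 1 τ 0 d.A| < 1 / 10 ^ 85 ∧ |ev 1 τ 0 (Dy 2 d.A)| < 1 / 10 ^ 85 := by
  obtain ⟨t0, t1⟩ := hτ
  have e1 : |τ * (1 - τ)| ≤ 1 := abs_le.2 ⟨by nlinarith, by nlinarith⟩
  have e3 : |1 - τ| ≤ 1 := abs_le.2 ⟨by linarith, by linarith⟩
  have s1 : ev 1 τ 0 d.A = (1 - τ) * ev 1 0 0 d.A := by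
    rw [ev_mid, near_A]
    simp
  have s2 : ev 1 τ 0 (Dy 2 d.A) =
      -(τ * (1 - τ) * ev 1 0 0 d.A) - 2 * ((1 - τ) * ((1 - τ) * ev 1 0 0 d.A)) := by
    rw [ev_mid, Dy, map_sub, mid_D, map_mul, near_A]
    generalize ev 1 0 0 d.A = r
    simp [map_ofNat]
    ring
  rw [s1, s2]
  generalize ev 1 0 0 d.A = r at h
  have k1 := abs_le.1 (near_abs e3 h.le)
  have k2 := abs_le.1 (near_abs e1 h.le)
  have k3 := abs_le.1 (near_abs e3 (near_abs e3 h.le))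
  exact ⟨abs_lt.2 ⟨by linarith [k1.1], by linarith [k1.2]⟩,
    abs_lt.2 ⟨by linarith [k2.2, k3.2], by linarith [k2.1, k3.1]⟩⟩

theorem near_zero {F : Fl} (h : mid F = 0) (τ : ℝ) {b : ℝ} (hb : 0 < b) : |ev 1 τ 0 F| < b := by
  rwa [ev_mid, h, eval_zero, abs_zero]

theorem Data.Cert.near_bd {d : Data} (h : d.Cert) : ∃ l0 : ℝ, 0 < l0 ∧
    ∀ p ∈ d.bounds, ∀ l ∈ Ioc 0 l0, ∀ τ ∈ Icc (0 : ℝ) 1, |evc l τ p.1| ≤ p.2 := by
  refine near_list _ fun p hp => near_bound _ _ (h.bd p hp) fun τ hτ => ?_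
  have m0 := h.bd (px (d.m 0), 10 ^ 6) (by simp [Data.bounds]) 1 ⟨zero_le_one, le_rfl⟩
  have n1 := near_lin (near_mm d 0) (by linarith [h.m1.1]) h.m1.2 (by norm_num [mOut])
    (by norm_num [mOut]) hτ
  have n2 := near_lin (near_mm d 1) (by linarith [h.m2.1]) h.m2.2 (by norm_num [mOut])
    (by norm_num [mOut]) hτ
  have n3 := near_lin (near_mm d 2) (by linarith [h.m3.1]) h.m3.2 (by norm_num [mOut])
    (by norm_num [mOut]) hτ
  have k1 := mul_nonneg hτ.1 (sub_nonneg.2 hτ.2)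
  obtain ⟨u0, u1⟩ := h.cone
  simp only [Data.bounds, List.mem_cons, List.not_mem_nil, or_false] at hp
  rcases hp with rfl | rfl | rfl | rfl | rfl | rfl | rfl | rfl | rfl | rfl | rfl | rfl | rfl | rfl |
    rfl | rfl | rfl | rfl | rfl
  · rw [map_sub, (near_chi d τ).1, ev_c]
    exact abs_lt.2 ⟨by nlinarith [hτ.1, hτ.2], by nlinarith [hτ.1, hτ.2]⟩
  · rw [(near_chi d τ).2]
    exact abs_lt.2 ⟨by nlinarith [hτ.1, hτ.2], by nlinarith [hτ.1, hτ.2]⟩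
  · exact near_zero (by rw [map_mul, mid_y, zero_mul]) _ (by norm_num)
  · exact near_zero (by rw [map_mul, mid_y, zero_mul]) _ (by norm_num)
  · exact (near_res d h.resid hτ).1
  · exact (near_res d h.resid hτ).2
  · rwa [ev_px] at m0 ⊢
  · exact n1.1.trans_lt (by norm_num)
  · exact n2.1.trans_lt (by norm_num)
  · exact n3.1.trans_lt (by norm_num)
  · exact n2.2.1.trans_lt (by norm_num)
  · rw [map_sub]
    exact (abs_sub _ _).trans_lt ((add_le_add n3.2.2 n2.1).trans_lt (by norm_num))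
  · rw [map_mul, map_ofNat, abs_mul, abs_two]
    exact (mul_le_mul_of_nonneg_left n3.2.1 zero_le_two).trans_lt (by norm_num)
  · exact near_zero (near_Ad d 0) _ (by norm_num)
  · exact near_zero (near_Ad d 1) _ (by norm_num)
  · exact near_zero (by simp [Data.Zf]) _ (by norm_num)
  · exact near_zero (by simp [Data.Zf]) _ (by norm_num)
  · exact near_zero (by simp [Data.Zl]) _ (by norm_num)
  · exact near_zero (by simp [Data.Zl]) _ (by norm_num)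

theorem near_pos {n : ℕ} {z : Fin n → ℝ} (hz : z ≠ 0) : 0 < ∑ i, z i ^ 2 := by
  obtain ⟨i, hi⟩ := Function.ne_iff.1 hz
  exact Finset.sum_pos' (fun j _ => sq_nonneg _) ⟨i, Finset.mem_univ _, sq_pos_of_ne_zero hi⟩

section Cont

variable {Y : Type} [TopologicalSpace Y] {v : Y → Fl →ₐ[ℝ] ℝ} {G M J : Y → ℕ → ℝ}
  (hv : ∀ F, Continuous fun p => v p F) (hG : ∀ j, Continuous fun p => G p j)
  (hM : ∀ j, Continuous fun p => M p j) (hJ : ∀ j, Continuous fun p => J p j)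

include hv hG in
theorem near_cT (q : Fl) (i j : ℕ) : Continuous fun p => tT (v p) (G p) q i j :=
  (((hv _).mul (hG _)).mul (hG _)).add
    ((hv _).mul (((hG _).mul (hG _)).add ((hG _).mul (hG _))))

include hv hG hM in
theorem near_cC (q : Fl) (i j : ℕ) : Continuous fun p => tC (v p) (G p) (M p) q i j :=
  (((hv _).mul (hG _)).mul (hM _)).add
    ((hv _).mul (((hG _).mul (hM _)).add ((hG _).mul (hM _))))

include hv hM in
theorem near_cD (q : Fl) (i j : ℕ) : Continuous fun p => tD (v p) (M p) q i j :=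
  (((hv _).mul (hM _)).mul (hM _)).add
    ((hv _).mul (((hM _).mul (hM _)).add ((hM _).mul (hM _))))

include hv hG hJ in
theorem near_cR (q ζ : Fl) (i j : ℕ) : Continuous fun p => tR (v p) (G p) q ζ (J p i) j :=
  ((((hv _).mul (hJ _)).mul (hG _)).add (((hv _).mul (hG _)).mul (hG _))).add
    (((hv _).mul (hJ _)).mul (hG _))

include hv hG hJ in
theorem near_cP (P : ℝ[X]) (ζ ζ' : Fl) (i j : ℕ) :
    Continuous fun p => tP (v p) (G p) P ζ ζ' (J p i) (J p j) :=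
  ((((hv _).const_mul _).mul (hJ _)).mul (hJ _)).add (((hv _).const_mul _).mul
    ((((hv _).mul (hG _)).mul (hJ _)).add (((hv _).mul (hG _)).mul (hJ _))))

include hv hG hJ in
theorem near_cIT (d : Data) (P R : ℕ → ℕ → ℝ[X]) :
    Continuous fun p => d.IT (v p) (G p) (J p) P R :=
  have a := near_cP hv hG hJ
  have b := near_cR hv hG hJ
  (((a ..).add ((a ..).const_mul _)).add (a ..)).add
    (((((((b ..).add (b ..)).add (b ..)).add (b ..)).add (b ..)).add (b ..)).const_mul _)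

include hG in
theorem near_cnG : Continuous fun p => nG (G p) :=
  ((((hG _).pow _).add ((hG _).pow _)).add ((hG _).pow _)).add ((hG _).pow _)

include hv hG hJ in
theorem near_cF2 (d : Data) : Continuous fun p => d.FF2 (v p) (G p) (J p) :=
  have a := near_cT hv hG
  have b := fun F j => (hv F).mul ((hG j).pow 2)
  ((((((b ..).add (b ..)).add (b ..)).add (b ..)).add (((a ..).add (a ..)).add (a ..))).add
    ((((a ..).add (a ..)).add (a ..)).const_mul _)).add (near_cIT hv hG hJ d _ _)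

end Cont

theorem near_hIT (d : Data) (v : Fl →ₐ[ℝ] ℝ) (G J : ℕ → ℝ) (P R : ℕ → ℕ → ℝ[X]) (c : ℝ) :
    d.IT v (fun j => c * G j) (fun j => c * J j) P R = c ^ 2 * d.IT v G J P R := by
  simp only [Data.IT, tP, tR]
  ring

theorem near_hF2 (d : Data) (v : Fl →ₐ[ℝ] ℝ) (G J : ℕ → ℝ) (c : ℝ) :
    d.FF2 v (fun j => c * G j) (fun j => c * J j) = c ^ 2 * d.FF2 v G J := by
  simp only [Data.FF2, near_hIT, Data.Yd, tT]
  ring

theorem near_mR (τ : ℝ) (G : ℕ → ℝ) (R : ℝ[X]) (ζ : Fl) (a : ℝ) (j : ℕ) :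
    tR (ev 1 τ 0) G ((1 - x) * px R) ζ a j = 0 := by
  simp [tR, ev_mid, Dy]

theorem near_mIT (d : Data) (τ : ℝ) (G J : ℕ → ℝ) (P R : ℕ → ℕ → ℝ[X]) :
    d.IT (ev 1 τ 0) G J P R = d.IT (ev 1 0 0) 0 J P R := by
  simp [Data.IT, near_mR, tP, ev_y]

theorem near_mT (τ : ℝ) (G : ℕ → ℝ) (R : ℝ[X]) (i j : ℕ) :
    tT (ev 1 τ 0) G ((1 - x) * px R) i j = 0 := by
  simp [tT, ev_mid, near_sh]

theorem near_mT0 (τ : ℝ) (G : ℕ → ℝ) (R : ℝ[X]) :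
    tT (ev 1 τ 0) G ((1 - x) * px R - t) 0 0 = τ * (3 * τ - 2) * G 0 ^ 2 - 2 * τ * G 0 * G 1 := by
  simp [tT, ev_mid, near_sh]
  ring

theorem near_evm (d : Data) (τ : ℝ) : ev 1 τ 0 (d.mm 0) = (1 - τ) * (d.m 0).eval 1 ∧
    ev 1 τ 0 (d.mm 1) = (1 - τ) * (d.m 1).eval 1 + τ * 12 ∧
    ev 1 τ 0 (d.mm 2) = (1 - τ) * (d.m 2).eval 1 + τ * 8 ∧
    ev 1 τ 0 (d.mm 3) = (1 - τ) * (d.m 3).eval 1 + τ := by
  simp [Data.mm, mOut]

theorem near_G {τ a b c d m : ℝ} (hτ : τ ∈ Icc (0 : ℝ) 1) (hm : 4 ≤ m) (hb : 2 ≤ b)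
    (hc : 1 / 20 ≤ c) (hd : 1 / 20 ≤ d) (ha : a = (1 - τ) * m + τ * (3 * τ - 2)) (G : ℕ → ℝ) :
    1 / 20 * nG G ≤ a * G 0 ^ 2 - 2 * τ * G 0 * G 1 + b * G 1 ^ 2 + c * G 2 ^ 2 + d * G 3 ^ 2 := by
  obtain ⟨t0, t1⟩ := hτ
  have a1 : 1 ≤ a := by nlinarith [mul_nonneg (sub_nonneg.2 t1) (sub_nonneg.2 hm)]
  have k0 := mul_le_mul_of_nonneg_right a1 (sq_nonneg (G 0))
  have k1 := mul_le_mul_of_nonneg_right hb (sq_nonneg (G 1))
  have k2 := mul_le_mul_of_nonneg_right hc (sq_nonneg (G 2))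
  have k3 := mul_le_mul_of_nonneg_right hd (sq_nonneg (G 3))
  have k4 := mul_nonneg t0 (sq_nonneg (2 * G 0 - 3 * G 1))
  have k5 := mul_nonneg (sub_nonneg.2 t1) (sq_nonneg (G 0))
  have k6 := mul_nonneg (sub_nonneg.2 t1) (sq_nonneg (G 1))
  unfold nG
  nlinarith [sq_nonneg (G 0), sq_nonneg (G 1)]

theorem Data.Cert.near_lmi2 {d : Data} (h : d.Cert) : ∃ l0 : ℝ, 0 < l0 ∧
    ∀ l ∈ Ioc 0 l0, ∀ τ ∈ Icc (0 : ℝ) 1, ∀ G J : ℕ → ℝ,
      1 / 10 ^ 4 * nG G ≤ d.FF2 (evc l τ) G J := by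
  obtain ⟨ε, ε0, hε⟩ := h.lmi2
  have hv := fun F => (continuous_ev F).comp (continuous_fst (Y := Fin 6 → ℝ))
  have hz := fun i : Fin 6 => (continuous_apply i).comp (continuous_snd (X := ℝ × ℝ × ℝ)
    (Y := Fin 6 → ℝ))
  obtain ⟨l0, a, k⟩ := near_form near_K (n := 6)
    (Q := fun p z => d.FF2 (ev p.1 p.2.1 p.2.2) (fun j => z (Fin.ofNat 6 j))
      (fun j => z (Fin.ofNat 6 (j + 4))) - 1 / 10 ^ 4 * nG fun j => z (Fin.ofNat 6 j))
    ((near_cF2 hv (fun j => hz _) (fun j => hz _) d).sub ((near_cnG fun j => hz _).const_mul _))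
    (fun p c z => by
      simp only [Pi.smul_apply, smul_eq_mul, near_hF2, nG]
      ring)
    (g := fun p => p.2.2) (by fun_prop) (fun p hp => hp.1.1.2.2) fun p hp e z hz => by
      have hz := near_pos hz
      rw [Fin.sum_univ_six] at hz
      set G : ℕ → ℝ := fun j => z (Fin.ofNat 6 j)
      set J : ℕ → ℝ := fun j => z (Fin.ofNat 6 (j + 4))
      have hz : 0 < nG G + J 0 ^ 2 + J 1 ^ 2 := hz
      rcases near_arc hp e with ⟨a, ha, rfl⟩ | ⟨τ, hτ, rfl⟩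
      · have := hε a ha G J
        have := mul_pos ε0 hz
        change 0 < d.FF2 (ev a 0 0) G J - _
        linarith
      · have k1 := hε 1 ⟨zero_le_one, le_rfl⟩ 0 J
        obtain ⟨e0, e1, e2, e3⟩ := near_evm d τ
        have k2 := near_G hτ (by linarith [h.m0] : 4 ≤ (d.m 0).eval 1)
          (b := ev 1 τ 0 (d.mm 1)) (c := ev 1 τ 0 (d.mm 2)) (d := ev 1 τ 0 (d.mm 3))
          (by rw [e1]; nlinarith [h.m1.1, hτ.1, hτ.2]) (by rw [e2]; nlinarith [h.m2.1, hτ.1, hτ.2])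
          (by rw [e3]; nlinarith [h.m3.1, hτ.1, hτ.2]) rfl G
        change 0 < d.FF2 (ev 1 τ 0) G J - _
        simp only [Data.FF2, near_mT, near_mT0, Data.Yd, Pi.zero_apply] at k1 ⊢
        rw [near_mIT, e0]
        have k3 : nG 0 = 0 := by simp [nG]
        have k4 : 0 ≤ nG G := by unfold nG; positivity
        have k5 : 0 ≤ J 0 ^ 2 + J 1 ^ 2 := by positivity
        have k6 := mul_pos (lt_min ε0 (by norm_num : (0 : ℝ) < 1 / 100)) hz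
        have k7 := mul_le_mul_of_nonneg_right (min_le_left ε (1 / 100)) k5
        have k8 := mul_le_mul_of_nonneg_right (min_le_right ε (1 / 100)) k4
        rw [k3] at k1
        linarith
  refine ⟨min l0 1, by positivity, fun l hl τ hτ G J => sub_nonneg.1 ?_⟩
  exact k _ (near_mem hl.1 (hl.2.trans (min_le_right _ _)) hτ) (hl.2.trans (min_le_left _ _))
    ![G 0, G 1, G 2, G 3, J 0, J 1]

end Vale.Agent.P264
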