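import Vale.Agent.P264.Near

/-! The first matrix inequality for small scales. -/

open Set Polynomial

noncomputable section

namespace Vale.Agent.P264

open Fl

section Cont

variable {Y : Type} [TopologicalSpace Y] {v : Y → Fl →ₐ[ℝ] ℝ} {G M J : Y → ℕ → ℝ}
  (hv : ∀ F, Continuous fun p => v p F) (hG : ∀ j, Continuous fun p => G p j)
  (hM : ∀ j, Continuous fun p => M p j) (hJ : ∀ j, Continuous fun p => J p j)

include hv hG hM in
theorem nearB_cL0 (d : Data) : Continuous fun p => d.L0 (v p) (G p) (M p) :=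
  have b := fun F j => (hv F).mul (hM j)
  ((hv _).mul (((hv _).mul ((((b ..).add (b ..)).add (b ..)).add (b ..))).add
    (((hv _).const_mul _).mul (hG _)))).neg.add ((hv _).mul (hG _))

include hv hG hM in
theorem nearB_cL1 (d : Data) : Continuous fun p => d.L1 (v p) (G p) (M p) :=
  have b := fun F j => (hv F).mul (hM j)
  have a := fun F j F' j' => (b F j).add (b F' j')
  (((hv _).mul (((((a ..).add (a ..)).add (a ..)).add (a ..)).add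
    (((hv _).const_mul _).mul (hG _)))).neg.sub ((hv _).mul ((((a ..).add (b ..)).add (b ..)).add
    (((hv _).const_mul _).mul (hG _))))).add
    ((hv _).mul (((hv _).mul (hG _)).add ((hv _).mul (hG _))))

include hv hM in
theorem nearB_cBt (d : Data) : Continuous fun p => d.Bt (v p) (M p) :=
  have b := fun F j => (hv F).mul (hM j)
  ((((b ..).sub (b ..)).add (b ..)).add (((hv _).const_mul _).mul (hM _))).add (b ..)

include hv hG hM in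
theorem nearB_cF0 (d : Data) : Continuous fun p => d.F0 (v p) (G p) (M p) :=
  have b := fun F j => (hv F).mul ((hG j).pow 2)
  (((((b ..).add (b ..)).add (b ..)).add (b ..)).sub ((((hv _).const_mul _).mul (hG _)).mul
    (nearB_cL0 hv hG hM d))).sub (((nearB_cBt hv hM d).const_mul _).mul (nearB_cL1 hv hG hM d))

include hv hG hM hJ in
theorem nearB_cF1 (d : Data) (Λ : ℝ) : Continuous fun p => d.F1 (v p) (G p) (M p) (J p) Λ :=
  have a := near_cC hv hG hM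
  have b := near_cD hv hM
  (((((((nearB_cF0 hv hG hM d).add (near_cT hv hG ..)).add (((a ..).add (a ..)).const_mul _)).add
    ((((b ..).add (b ..)).add (b ..)).add (b ..))).add
    (((((((b ..).add (b ..)).add (b ..)).add (b ..)).add (b ..)).add (b ..)).const_mul _)).add
    ((b ..).const_mul _)).add (near_cIT hv hG hJ d _ _))

include hM in
theorem nearB_cnM : Continuous fun p => nM (M p) :=
  (((((hM _).pow _).add ((hM _).pow _)).add ((hM _).pow _)).add ((hM _).pow _)).add ((hM _).pow _)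

end Cont

theorem nearB_hF1 (d : Data) (v : Fl →ₐ[ℝ] ℝ) (G M J : ℕ → ℝ) (Λ c : ℝ) :
    d.F1 v (fun j => c * G j) (fun j => c * M j) (fun j => c * J j) Λ =
      c ^ 2 * d.F1 v G M J Λ := by
  have h : d.F0 v (fun j => c * G j) (fun j => c * M j) = c ^ 2 * d.F0 v G M := by
    simp only [Data.F0, Data.L0, Data.L1, Data.Bt, YK, SK, RK]
    ring
  have k : ∀ p i j, tD v (fun j => c * M j) p i j = c ^ 2 * tD v M p i j := fun p i j => by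
    simp only [tD]
    ring
  simp only [Data.F1, near_hIT, h, k, tT, tC]
  ring

theorem nearB_lam (d : Data) (v : Fl →ₐ[ℝ] ℝ) (G M J : ℕ → ℝ) (Λ : ℝ) :
    d.F1 v G M J Λ = d.F1 v G M J 0 + 2 * Λ * (v t * (1 - v t)) * (M 4 ^ 2 + M 3 * M 5) := by
  have h : D (t * (1 - t)) - e * (t * (1 - t)) = 0 := by
    simp [D, e]
    ring
  simp only [Data.F1, tD, h, map_zero, map_mul, map_sub v 1, map_one]
  ring

theorem nearB_congr (d : Data) (v : Fl →ₐ[ℝ] ℝ) {G M J G' M' J' : ℕ → ℝ} (Λ : ℝ)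
    (hG : ∀ j ≤ 3, G j = G' j) (hM : ∀ j, 1 ≤ j → j ≤ 5 → M j = M' j) (hJ : ∀ j ≤ 1, J j = J' j) :
    d.F1 v G M J Λ - 1 / 10 ^ 4 * (nG G + nM M) =
      d.F1 v G' M' J' Λ - 1 / 10 ^ 4 * (nG G' + nM M') := by
  simp only [Data.F1, Data.F0, Data.L0, Data.L1, Data.Bt, YK, SK, RK, tT, tC, tD, Data.IT, tP, tR,
    nG, nM, Nat.reduceAdd, hG 0 (by norm_num), hG 1 (by norm_num), hG 2 (by norm_num),
    hG 3 le_rfl, hM 1 le_rfl (by norm_num), hM 2 (by norm_num) (by norm_num),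
    hM 3 (by norm_num) (by norm_num), hM 4 (by norm_num) (by norm_num), hM 5 (by norm_num) le_rfl,
    hJ 0 zero_le_one, hJ 1 le_rfl]

theorem nearB_L0 (d : Data) (τ : ℝ) (G M : ℕ → ℝ) : d.L0 (ev 1 τ 0) G M = 0 := by
  simp [Data.L0, YK, ev_y]

theorem nearB_F0 (d : Data) (τ : ℝ) (G M : ℕ → ℝ) : d.F0 (ev 1 τ 0) G M =
    (ev 1 τ 0 (d.mm 0) * G 0 ^ 2 + ev 1 τ 0 (d.mm 1) * G 1 ^ 2 + ev 1 τ 0 (d.mm 2) * G 2 ^ 2 +
      ev 1 τ 0 (d.mm 3) * G 3 ^ 2) / 2 + 2 * d.Bt (ev 1 τ 0) M *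
      (ev 1 τ 0 d.chi ^ 2 * RK (ev 1 τ 0) G M + ev 1 τ 0 (D (d.chi ^ 2)) * SK (ev 1 τ 0) G M) := by
  have h : ∀ F, ev 1 τ 0 (dot F) = 0 := fun F => by rw [ev_mid, mid_dot, eval_zero]
  have k : ev 1 τ 0 y = 0 := by simp [ev_y]
  simp only [Data.F0, nearB_L0, Data.L1, map_sub, map_mul, h, k, ev_c, map_pow]
  ring

theorem nearB_mid (d : Data) (τ : ℝ) (G J : ℕ → ℝ) {M : ℕ → ℝ} (h1 : M 1 = 0) (h2 : M 2 = 0)
    (h3 : M 3 = 0) (h4 : M 4 = 0) : d.F1 (ev 1 τ 0) G M J 0 =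
      ((1 - τ) * ((d.m 0).eval 1 / 2) + τ * (3 * τ - 2)) * G 0 ^ 2 - 2 * τ * G 0 * G 1 +
      ev 1 τ 0 (d.mm 1) / 2 * G 1 ^ 2 + ev 1 τ 0 (d.mm 2) / 2 * G 2 ^ 2 +
      ev 1 τ 0 (d.mm 3) / 2 * G 3 ^ 2 + 2 * ev 1 τ 0 (d.mm 3) * ev 1 τ 0 d.chi ^ 2 * M 5 ^ 2 +
      d.IT (ev 1 0 0) 0 J d.P d.R := by
  have k : ev 1 τ 0 (l * t * (1 - t)) = 0 := by simp
  have k4 : ev 1 τ 0 (cK 4) = 1 := map_one _
  rw [Data.F1, near_mIT, near_mT0, nearB_F0, (near_evm d τ).1]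
  simp only [Data.Bt, RK, SK, tC, tD, Nat.reduceAdd, h1, h2, h3, h4, k, k4]
  ring

theorem nearB_far (d : Data) (G M J : ℕ → ℝ) : d.F1 (ev 1 1 0) G M J 0 =
    G 0 ^ 2 - 2 * G 0 * G 1 + 6 * G 1 ^ 2 + 4 * G 2 ^ 2 + G 3 ^ 2 / 2 +
      (146 * M 1 ^ 2 + 225 * M 2 ^ 2 + 87 * M 3 ^ 2 + 26 * M 4 ^ 2 + 2 * M 5 ^ 2 +
        336 * M 1 * M 2 + 44 * M 1 * M 3 + 126 * M 2 * M 3 + 4 * M 2 * M 4 - 42 * M 3 * M 4) +
      d.IT (ev 1 0 0) 0 J d.P d.R := by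
  have h : ∀ F, ev 1 1 0 (D F) = 0 := fun F => by simp [ev_mid]
  obtain ⟨e0, e1, e2, e3⟩ := near_evm d 1
  rw [Data.F1, near_mIT, near_mT0, nearB_F0]
  simp only [Data.Bt, RK, SK, tC, tD, Nat.reduceAdd, sh, h, map_add, map_sub, map_mul, e0, e1, e2,
    e3, Data.pDf, ev_t, ev_e, ev_l, ev_c, map_one, pOut, cK, map_ofNat, map_pow, map_neg,
    (near_chi d 1).1]
  ring

theorem nearB_J {d : Data} (h : d.Cert) : ∃ ε : ℝ, 0 < ε ∧ ∀ J : ℕ → ℝ,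
    ε * (J 0 ^ 2 + J 1 ^ 2) ≤ d.IT (ev 1 0 0) 0 J d.P d.R := by
  obtain ⟨ε, ε0, hε⟩ := h.lmi1
  refine ⟨ε, ε0, fun J => ?_⟩
  have := hε 1 ⟨zero_le_one, le_rfl⟩ 0 0 J 0 fun j _ _ => by simp
  rw [nearB_mid d 0 0 J rfl rfl rfl rfl] at this
  simpa [nG, nM] using this

theorem nearB_fin {ε S T F : ℝ} (hε : 0 < ε) (hS : 0 ≤ S) (hT : 0 ≤ T) (h : 0 < S + T)
    (hF : 1 / 100 * S + ε * T ≤ F) : 0 < F - 1 / 10 ^ 4 * S := by
  rcases hS.eq_or_lt with rfl | k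
  · have := mul_pos hε (by simpa using h)
    linarith
  · have := mul_nonneg hε.le hT
    linarith

theorem nearB_farP {d : Data} (h : d.Cert) {G M J : ℕ → ℝ}
    (hz : 0 < nG G + nM M + (J 0 ^ 2 + J 1 ^ 2)) :
    0 < d.F1 (ev 1 1 0) G M J 0 - 1 / 10 ^ 4 * (nG G + nM M) := by
  obtain ⟨ε, ε0, hε⟩ := nearB_J h
  refine nearB_fin ε0 (by unfold nG nM; positivity) (by positivity) hz ?_
  rw [nearB_far, nG, nM]
  linarith [hε J, sq_nonneg (145 * M 1 + 168 * M 2 + 22 * M 3),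
    sq_nonneg (4256 * M 2 + 5439 * M 3 + 290 * M 4), sq_nonneg (21113 * M 3 - 14322 * M 4),
    sq_nonneg (M 1), sq_nonneg (M 2), sq_nonneg (M 3), sq_nonneg (M 4), sq_nonneg (M 5),
    sq_nonneg (G 0 - 2 * G 1), sq_nonneg (G 0), sq_nonneg (G 1), sq_nonneg (G 2), sq_nonneg (G 3)]

theorem nearB_midP {d : Data} (h : d.Cert) {τ : ℝ} (hτ : τ ∈ Icc (0 : ℝ) 1) {G M J : ℕ → ℝ}
    (h1 : M 1 = 0) (h2 : M 2 = 0) (h3 : M 3 = 0) (h4 : M 4 = 0)
    (hz : 0 < nG G + nM M + (J 0 ^ 2 + J 1 ^ 2)) :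
    0 < d.F1 (ev 1 τ 0) G M J 0 - 1 / 10 ^ 4 * (nG G + nM M) := by
  obtain ⟨ε, ε0, hε⟩ := nearB_J h
  refine nearB_fin ε0 (by unfold nG nM; positivity) (by positivity) hz ?_
  obtain ⟨-, e1, e2, e3⟩ := near_evm d τ
  have m3 : 1 / 10 ≤ ev 1 τ 0 (d.mm 3) := by rw [e3]; nlinarith [h.m3.1, hτ.1, hτ.2]
  have k := near_G hτ (by linarith [h.m0] : 4 ≤ (d.m 0).eval 1 / 2)
    (b := ev 1 τ 0 (d.mm 1) / 2) (c := ev 1 τ 0 (d.mm 2) / 2) (d := ev 1 τ 0 (d.mm 3) / 2)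
    (by rw [e1]; nlinarith [h.m1.1, hτ.1, hτ.2]) (by rw [e2]; nlinarith [h.m2.1, hτ.1, hτ.2])
    (by linarith) rfl G
  have c1 : 1 / 2 ≤ ev 1 τ 0 d.chi := by
    rw [(near_chi d τ).1]
    nlinarith [h.cone.1, h.cone.2, hτ.1, hτ.2]
  have c2 : 1 / 4 ≤ ev 1 τ 0 d.chi ^ 2 := by nlinarith
  have c3 := mul_le_mul_of_nonneg_right (mul_le_mul m3 c2 (by norm_num) (by linarith))
    (sq_nonneg (M 5))
  have k4 : 0 ≤ nG G := by unfold nG; positivity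
  rw [nearB_mid d τ G J h1 h2 h3 h4, nM, h1, h2, h3, h4]
  linarith [hε J, sq_nonneg (M 5)]

theorem nearB_inn {d : Data} (h : d.Cert) {a : ℝ} (ha : a ∈ Icc (0 : ℝ) 1) {G M J z : ℕ → ℝ}
    (hz : ∀ j, 1 ≤ j → j ≤ 3 → G j = 15 * a * z j ∧ M j = (1 - a) * z j)
    (hp : 0 < nG G + nM M + (J 0 ^ 2 + J 1 ^ 2)) :
    0 < d.F1 (ev a 0 0) G M J 0 - 1 / 10 ^ 4 * (nG G + nM M) := by
  obtain ⟨ε, ε0, hε⟩ := h.lmi1
  refine lt_of_lt_of_le (mul_pos ε0 ?_) (le_sub_iff_add_le'.2 (hε a ha G M J z hz))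
  have k : ∀ j, 1 ≤ j → j ≤ 3 → G j ^ 2 + M j ^ 2 ≤ 226 * z j ^ 2 := fun j j1 j3 => by
    rw [(hz j j1 j3).1, (hz j j1 j3).2, mul_pow (15 * a), mul_pow (1 - a), ← add_mul]
    exact mul_le_mul_of_nonneg_right (by nlinarith [ha.1, ha.2]) (sq_nonneg _)
  unfold nG nM at hp
  linarith [k 1 le_rfl (by norm_num), k 2 (by norm_num) (by norm_num), k 3 (by norm_num) le_rfl,
    sq_nonneg (G 0), sq_nonneg (M 4), sq_nonneg (M 5), sq_nonneg (J 0), sq_nonneg (J 1)]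

theorem nearB_big {Y : Type} [TopologicalSpace Y] {K : Set Y} (hK : IsCompact K) {f g : Y → ℝ}
    (hf : Continuous f) (hg : Continuous g) (h0 : ∀ p ∈ K, 0 ≤ g p)
    (h : ∀ p ∈ K, g p = 0 → 0 < f p) : ∃ Λ : ℝ, ∀ p ∈ K, 0 < f p + Λ * g p := by
  obtain ⟨δ, δ0, hδ⟩ := near_cpt hK hf hg h0 h
  obtain ⟨B, hB⟩ := hK.bddBelow_image hf.continuousOn
  have b0 : 0 < (|B| + 1) / δ := by positivity
  refine ⟨(|B| + 1) / δ, fun p hp => ?_⟩
  rcases le_total (g p) δ with k | k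
  · exact add_pos_of_pos_of_nonneg (hδ p hp k) (mul_nonneg b0.le (h0 p hp))
  · have a := mul_le_mul_of_nonneg_left k b0.le
    rw [div_mul_cancel₀ _ δ0.ne'] at a
    linarith [hB (mem_image_of_mem f hp), neg_abs_le B]

/-- the first group of entries of a state -/
def nbG (s : ℝ) (z : Fin 8 → ℝ) (j : ℕ) : ℝ := (if j = 0 then 1 else 1 - s) * z (Fin.ofNat 8 j)

/-- the second group of entries of a state -/
def nbM (s : ℝ) (z : Fin 8 → ℝ) (j : ℕ) : ℝ := (if j ≤ 3 then s else 1) * z (Fin.ofNat 8 j)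

/-- the third group of entries of a state -/
def nbJ (z : Fin 8 → ℝ) (j : ℕ) : ℝ := z (Fin.ofNat 8 (j + 6))

/-- the form on states -/
def nbQ (d : Data) (Λ : ℝ) (p : (ℝ × ℝ × ℝ) × ℝ) (z : Fin 8 → ℝ) : ℝ :=
  d.F1 (ev p.1.1 p.1.2.1 p.1.2.2) (nbG p.2 z) (nbM p.2 z) (nbJ z) Λ -
    1 / 10 ^ 4 * (nG (nbG p.2 z) + nM (nbM p.2 z))

/-- the parameter set -/
def nbK : Set ((ℝ × ℝ × ℝ) × ℝ) := nearK ×ˢ Icc 0 1 ∩
  {p | p.2 * p.1.1 * (1 - p.1.2.1) = (1 - p.2) * ((1 - p.1.1 + 15 * p.1.2.2 * p.1.1) / 15)}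

theorem nearB_K : IsCompact nbK :=
  (near_K.prod isCompact_Icc).inter_right (isClosed_eq (by fun_prop) (by fun_prop))

theorem nearB_cQ (d : Data) (Λ : ℝ) :
    Continuous fun q : ((ℝ × ℝ × ℝ) × ℝ) × (Fin 8 → ℝ) => nbQ d Λ q.1 q.2 := by
  have hG : ∀ j, Continuous fun q : ((ℝ × ℝ × ℝ) × ℝ) × (Fin 8 → ℝ) => nbG q.1.2 q.2 j := fun j => by
    unfold nbG
    split_ifs <;> fun_prop
  have hM : ∀ j, Continuous fun q : ((ℝ × ℝ × ℝ) × ℝ) × (Fin 8 → ℝ) => nbM q.1.2 q.2 j := fun j => by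
    unfold nbM
    split_ifs <;> fun_prop
  exact (nearB_cF1 (fun F => (continuous_ev F).comp continuous_fst.fst) hG hM
    (fun j => (continuous_apply _).comp continuous_snd) d Λ).sub
    (((near_cnG hG).add (nearB_cnM hM)).const_mul _)

theorem nearB_hQ (d : Data) (Λ : ℝ) (p : (ℝ × ℝ × ℝ) × ℝ) (c : ℝ) (z : Fin 8 → ℝ) :
    nbQ d Λ p (c • z) = c ^ 2 * nbQ d Λ p z := by
  have hG : nbG p.2 (c • z) = fun j => c * nbG p.2 z j := funext fun j => mul_left_comm _ _ _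
  have hM : nbM p.2 (c • z) = fun j => c * nbM p.2 z j := funext fun j => mul_left_comm _ _ _
  have hJ : nbJ (c • z) = fun j => c * nbJ z j := rfl
  simp only [nbQ, hG, hM, hJ, nearB_hF1, nG, nM]
  ring

theorem nearB_pos (s : ℝ) {z : Fin 8 → ℝ} (hz : z ≠ 0) :
    0 < nG (nbG s z) + nM (nbM s z) + (nbJ z 0 ^ 2 + nbJ z 1 ^ 2) := by
  have h := near_pos hz
  rw [Fin.sum_univ_eight] at h
  change 0 < (1 * z 0) ^ 2 + ((1 - s) * z 1) ^ 2 + ((1 - s) * z 2) ^ 2 + ((1 - s) * z 3) ^ 2 +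
    ((s * z 1) ^ 2 + (s * z 2) ^ 2 + (s * z 3) ^ 2 + (1 * z 4) ^ 2 + (1 * z 5) ^ 2) +
    (z 6 ^ 2 + z 7 ^ 2)
  linarith [sq_nonneg ((1 - 2 * s) * z 1), sq_nonneg ((1 - 2 * s) * z 2),
    sq_nonneg ((1 - 2 * s) * z 3), sq_nonneg (z 0), sq_nonneg (z 4), sq_nonneg (z 5),
    sq_nonneg (z 6), sq_nonneg (z 7)]

theorem nearB_Qlam (d : Data) (Λ : ℝ) (p : (ℝ × ℝ × ℝ) × ℝ) (z : Fin 8 → ℝ) :
    nbQ d Λ p z = nbQ d 0 p z +
      2 * Λ * (p.1.2.1 * (1 - p.1.2.1)) * (nbM p.2 z 4 ^ 2 + nbM p.2 z 3 * nbM p.2 z 5) := by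
  rw [nbQ, nearB_lam, ev_t, nbQ]
  ring

theorem nearB_inQ {d : Data} (h : d.Cert) {a s : ℝ} (ha : a ∈ Icc (0 : ℝ) 1)
    (hs : s * a = (1 - s) * ((1 - a) / 15)) {z : Fin 8 → ℝ} (hz : z ≠ 0) :
    0 < nbQ d 0 ((a, 0, 0), s) z := by
  have a0 : 1 + 14 * a ≠ 0 := by linarith [ha.1]
  refine nearB_inn h ha (z := fun j => z (Fin.ofNat 8 j) / (1 + 14 * a)) (fun j j1 j3 => ?_)
    (nearB_pos s hz)
  simp only [nbG, nbM, if_neg (Nat.one_le_iff_ne_zero.1 j1), if_pos j3]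
  constructor <;> rw [← mul_div_assoc, eq_div_iff a0]
  · linear_combination (-15) * z (Fin.ofNat 8 j) * hs
  · linear_combination 15 * z (Fin.ofNat 8 j) * hs

theorem nearB_arcB {d : Data} (h : d.Cert) : ∃ Λ : ℝ, ∀ τ ∈ Icc (0 : ℝ) 1, ∀ z, z ≠ 0 →
    0 < nbQ d Λ ((1, τ, 0), 0) z := by
  obtain ⟨Λ, hΛ⟩ := nearB_big ((isCompact_Icc (a := (0 : ℝ)) (b := 1)).prod
    (isCompact_sphere (0 : Fin 8 → ℝ) 1)) (f := fun q => nbQ d 0 ((1, q.1, 0), 0) q.2)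
    (g := fun q => 2 * (q.1 * (1 - q.1)) * q.2 4 ^ 2)
    ((nearB_cQ d 0).comp (f := fun q : ℝ × (Fin 8 → ℝ) => (((1, q.1, 0), 0), q.2)) (by fun_prop))
    (by fun_prop) (fun q hq => by
      have := mul_nonneg hq.1.1 (sub_nonneg.2 hq.1.2)
      positivity) fun ⟨τ, z⟩ hq e => by
      have hz := near_ne hq.2
      simp only [mul_eq_zero, sub_eq_zero, OfNat.ofNat_ne_zero, false_or, pow_eq_zero_iff,
        ne_eq, not_false_eq_true] at e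
      rcases e with (rfl | rfl) | e
      · exact nearB_inQ h ⟨zero_le_one, le_rfl⟩ (by simp) hz
      · exact nearB_farP h (nearB_pos _ hz)
      · exact nearB_midP h hq.1 (zero_mul _) (zero_mul _) (zero_mul _) ((one_mul _).trans e)
          (nearB_pos _ hz)
  refine ⟨Λ, fun τ hτ z hz => ?_⟩
  obtain ⟨c, c0, w, hw, rfl⟩ := near_sph hz
  rw [nearB_hQ, nearB_Qlam]
  refine mul_pos (pow_pos c0 2) ((hΛ (τ, w) ⟨hτ, hw⟩).trans_eq ?_)
  change _ = _ + _ * ((1 * w 4) ^ 2 + 0 * w 3 * (1 * w 5))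
  ring

theorem Data.Cert.near_lmi1 {d : Data} (h : d.Cert) : ∃ l0 Λ : ℝ, 0 < l0 ∧
    ∀ l ∈ Ioc 0 l0, ∀ τ ∈ Icc (0 : ℝ) 1, ∀ G M J : ℕ → ℝ,
      (∀ j, 1 ≤ j → j ≤ 3 → l * G j = τ * (1 - τ) * M j) →
      1 / 10 ^ 4 * (nG G + nM M) ≤ d.F1 (evc l τ) G M J Λ := by
  obtain ⟨Λ, hΛ⟩ := nearB_arcB h
  obtain ⟨l0, a, k⟩ := near_form nearB_K (nearB_cQ d Λ) (nearB_hQ d Λ) (g := fun p => p.1.2.2)
    (by fun_prop) (fun p hp => hp.1.1.1.1.2.2) fun ⟨p, s⟩ hp e z hz => by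
      have hs := hp.2
      rcases near_arc hp.1.1 e with ⟨a, ha, rfl⟩ | ⟨τ, hτ, rfl⟩
      · rw [nearB_Qlam]
        simpa using nearB_inQ h ha (by simpa using hs) hz
      · have hs : s = 0 ∨ 1 - τ = 0 := by simpa using hs
        rcases hs with rfl | hs
        · exact hΛ τ hτ z hz
        · obtain rfl := sub_eq_zero.1 hs
          have : 0 < nbQ d 0 ((1, 1, 0), s) z := nearB_farP h (nearB_pos s hz)
          rw [nearB_Qlam]
          simpa using this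
  refine ⟨min l0 1, Λ, by positivity, fun l hl τ hτ G M J hG => sub_nonneg.1 ?_⟩
  have r0 : 0 < l + τ * (1 - τ) :=
    add_pos_of_pos_of_nonneg hl.1 (mul_nonneg hτ.1 (sub_nonneg.2 hτ.2))
  have key := k ((xx l τ, τ, l), l / (l + τ * (1 - τ))) ⟨⟨near_mem hl.1
    (hl.2.trans (min_le_right _ _)) hτ, div_nonneg hl.1.le r0.le, (div_le_one r0).2
    (le_add_of_nonneg_right (mul_nonneg hτ.1 (sub_nonneg.2 hτ.2)))⟩, ?_⟩
    (hl.2.trans (min_le_left _ _)) ![G 0, G 1 + M 1, G 2 + M 2, G 3 + M 3, M 4, M 5, J 0, J 1]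
  · have e1 : ∀ j, 1 ≤ j → j ≤ 3 → G j = (1 - l / (l + τ * (1 - τ))) * (G j + M j) :=
      fun j j1 j3 => by
        field_simp
        linear_combination hG j j1 j3
    have e2 : ∀ j, 1 ≤ j → j ≤ 3 → M j = l / (l + τ * (1 - τ)) * (G j + M j) := fun j j1 j3 => by
      field_simp
      linear_combination -hG j j1 j3
    refine key.trans_eq (nearB_congr d _ Λ (fun j hj => ?_) (fun j j1 j5 => ?_) fun j hj => ?_).symm
    · interval_cases j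
      exacts [(one_mul _).symm, e1 1 le_rfl (by norm_num), e1 2 one_le_two (by norm_num),
        e1 3 (by norm_num) le_rfl]
    · interval_cases j
      exacts [e2 1 le_rfl (by norm_num), e2 2 one_le_two (by norm_num),
        e2 3 (by norm_num) le_rfl, (one_mul _).symm, (one_mul _).symm]
    · interval_cases j <;> rfl
  · have := t_mul_y hl.1 hτ
    rw [evc, ev_y] at this
    change l / (l + τ * (1 - τ)) * xx l τ * (1 - τ) =
      (1 - l / (l + τ * (1 - τ))) * ((1 - xx l τ + 15 * l * xx l τ) / 15)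
    field_simp
    linear_combination (-15) * (1 - τ) * this

theorem Data.Cert.good {d : Data} (h : d.Cert) : ∃ l0, d.Good l0 := by
  obtain ⟨l1, h1, b1⟩ := h.near_bd
  obtain ⟨l2, h2, b2⟩ := h.near_lmi2
  obtain ⟨l3, Λ, h3, b3⟩ := h.near_lmi1
  refine ⟨min (min l1 l2) (min l3 (1 / 1000)), h.toStatic, by positivity,
    (min_le_right _ _).trans (min_le_right _ _), fun p hp l hl => b1 p hp l ⟨hl.1, ?_⟩,
    ⟨Λ, fun l hl => b3 l ⟨hl.1, ?_⟩⟩, fun l hl => b2 l ⟨hl.1, ?_⟩⟩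
  · exact hl.2.trans ((min_le_left _ _).trans (min_le_left _ _))
  · exact hl.2.trans ((min_le_right _ _).trans (min_le_left _ _))
  · exact hl.2.trans ((min_le_left _ _).trans (min_le_right _ _))

end Vale.Agent.P264
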