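import Vale.Agent.Lib.Brouwer

/-! The topological shooting argument. -/

open Set

noncomputable section

namespace Vale.Agent.P264

theorem shoot_time {ε : ℝ} {q : ℝ → ℝ} (hq : ContinuousOn q (Ici 0))
    (h : ∃ σ, 0 ≤ σ ∧ q σ ≤ -ε) :
    ∃ s, 0 ≤ s ∧ q s ≤ -ε ∧ ∀ σ, 0 ≤ σ → q σ ≤ -ε → s ≤ σ := by
  have hc : IsClosed (Ici (0 : ℝ) ∩ q ⁻¹' Iic (-ε)) :=
    hq.preimage_isClosed_of_isClosed isClosed_Ici isClosed_Iic
  have hb : BddBelow (Ici (0 : ℝ) ∩ q ⁻¹' Iic (-ε)) := ⟨0, fun _ h => h.1⟩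
  have := hc.csInf_mem h hb
  exact ⟨_, this.1, this.2, fun σ h1 h2 => csInf_le hb ⟨h1, h2⟩⟩

theorem shoot_room {ε s : ℝ} (hε : 0 < ε) {q : ℝ → ℝ} (hq : ContinuousOn q (Ici 0)) (hs : 0 ≤ s)
    (h0 : -ε ≤ q 0) (h : ∀ σ ∈ Ico 0 s, -ε < q σ) :
    ∃ ν, 0 < ν ∧ ∀ σ ∈ Icc 0 (s + ν), -(2 * ε) ≤ q σ := by
  have h1 : -ε ≤ q s := by
    rcases hs.eq_or_lt with rfl | hs'
    · exact h0
    · have hc : IsClosed (Ici (0 : ℝ) ∩ q ⁻¹' Ici (-ε)) :=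
        hq.preimage_isClosed_of_isClosed isClosed_Ici isClosed_Ici
      have := (hc.closure_subset_iff (s := Ico 0 s)).2 fun σ hσ => ⟨hσ.1, (h σ hσ).le⟩
      rw [closure_Ico hs'.ne] at this
      exact (this ⟨hs, le_rfl⟩).2
  obtain ⟨δ, hδ, h2⟩ := Metric.continuousWithinAt_iff.1 (hq s hs) ε hε
  refine ⟨δ / 2, by positivity, fun σ hσ => ?_⟩
  rcases lt_or_ge σ s with h3 | h3
  · linarith [h σ ⟨hσ.1, h3⟩]
  · have := h2 hσ.1 (show dist σ s < δ by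
      rw [Real.dist_eq, abs_of_nonneg (by linarith)]; linarith [hσ.2])
    rw [Real.dist_eq, abs_lt] at this
    linarith [this.1]

theorem shoot_gap {ε a : ℝ} {q : ℝ → ℝ} (hq : ContinuousOn q (Ici 0))
    (h : ∀ σ ∈ Icc 0 a, -ε < q σ) : ∃ θ, 0 < θ ∧ ∀ σ ∈ Icc 0 a, -ε + θ < q σ := by
  obtain ⟨m, hm, h1⟩ := (isCompact_Icc (a := (0 : ℝ)) (b := a)).exists_forall_le'
    (hq.mono Icc_subset_Ici_self) h
  exact ⟨(m + ε) / 2, by linarith, fun σ hσ => by linarith [h1 σ hσ]⟩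

theorem shoot_fix {R : ℝ} (hR : 0 < R) (F : ℝ × ℝ → ℝ × ℝ) (hF : ContinuousOn F {b | ‖b‖ ≤ R})
    (hne : ∀ b, ‖b‖ ≤ R → F b ≠ 0) : ∃ b, ‖b‖ = R ∧ b.1 * (F b).1 + b.2 * (F b).2 ≤ 0 := by
  let π : ℝ × ℝ → ℝ × ℝ := fun b => (max (-R) (min b.1 R), max (-R) (min b.2 R))
  have h1 : ∀ x : ℝ, |max (-R) (min x R)| ≤ R := fun x =>
    abs_le.2 ⟨le_max_left _ _, max_le (by linarith) (min_le_right _ _)⟩
  have h2 : ∀ x : ℝ, |x| ≤ R → max (-R) (min x R) = x := fun x hx => by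
    rw [min_eq_left (abs_le.1 hx).2, max_eq_right (abs_le.1 hx).1]
  have hπ : ∀ b, ‖π b‖ ≤ R := fun b => norm_prod_le_iff.2 ⟨h1 _, h1 _⟩
  have hc : Continuous fun b => F (π b) := hF.comp_continuous (by fun_prop) hπ
  have hn : ∀ b, ‖-(R / ‖F (π b)‖) • F (π b)‖ = R := fun b => by
    have := norm_pos_iff.2 (hne _ (hπ b))
    rw [norm_smul, norm_neg, Real.norm_of_nonneg (by positivity), div_mul_cancel₀ _ this.ne']
  obtain ⟨b, hb⟩ := Vale.Agent.Lib.Brouwer.exists_fixed (fun b => -(R / ‖F (π b)‖) • F (π b))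
    ((continuous_const.div hc.norm fun b => norm_ne_zero_iff.2 (hne _ (hπ b))).neg.smul hc) R
    fun b => (hn b).le
  have h3 : ‖b‖ = R := by rw [← hb]; exact hn b
  have h4 : π b = b :=
    Prod.ext (h2 _ ((norm_fst_le b).trans h3.le)) (h2 _ ((norm_snd_le b).trans h3.le))
  simp only [h4] at hb
  refine ⟨b, h3, ?_⟩
  have h5 : 0 ≤ R / ‖F b‖ := by positivity
  have e1 : b.1 = -(R / ‖F b‖) * (F b).1 := (congrArg Prod.fst hb).symm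
  have e2 : b.2 = -(R / ‖F b‖) * (F b).2 := (congrArg Prod.snd hb).symm
  generalize R / ‖F b‖ = t at *
  generalize F b = z at *
  rw [e1, e2]
  nlinarith [mul_nonneg h5 (mul_self_nonneg z.1), mul_nonneg h5 (mul_self_nonneg z.2)]

theorem shoot {R ε : ℝ} (hR : 0 < R) (hε : 0 < ε) (q : ℝ × ℝ → ℝ → ℝ) (l : ℝ × ℝ → ℝ → ℝ × ℝ)
    (hq : ∀ b, ‖b‖ ≤ R → ContinuousOn (q b) (Ici 0))
    (hl : ∀ b, ‖b‖ ≤ R → ContinuousOn (l b) (Ici 0))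
    (hexit : ∀ b, ‖b‖ ≤ R → ∃ σ, 0 ≤ σ ∧ q b σ ≤ -ε)
    (hne : ∀ b, ‖b‖ ≤ R → ∀ σ, 0 ≤ σ → q b σ ≤ -ε → l b σ ≠ 0)
    (htrans : ∀ b, ‖b‖ ≤ R → ∀ σ, 0 ≤ σ → (∀ s ∈ Ico 0 σ, -ε < q b s) → q b σ ≤ -ε →
      ∀ ν, 0 < ν → ∃ s ∈ Ioo σ (σ + ν), q b s < -ε)
    (hdep : ∀ b, ‖b‖ ≤ R → ∀ σ1, (∀ s ∈ Icc 0 σ1, -(2 * ε) ≤ q b s) → ∀ θ, 0 < θ →
      ∃ ν, 0 < ν ∧ ∀ b', ‖b'‖ ≤ R → ‖b' - b‖ ≤ ν → ∀ s ∈ Icc 0 σ1,
        |q b' s - q b s| ≤ θ ∧ ‖l b' s - l b s‖ ≤ θ)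
    (hq0 : ContinuousOn (fun b => q b 0) {b | ‖b‖ ≤ R})
    (hl0 : ContinuousOn (fun b => l b 0) {b | ‖b‖ ≤ R})
    (hbd : ∀ b, ‖b‖ = R → q b 0 ≤ -ε ∧ 0 < b.1 * (l b 0).1 + b.2 * (l b 0).2) : False := by
  choose! s hs0 hs1 hs2 using fun b hb => shoot_time (hq b hb) (hexit b hb)
  have hz : ∀ b, ‖b‖ ≤ R → q b 0 ≤ -ε → s b = 0 := fun b hb h =>
    (hs2 b hb 0 le_rfl h).antisymm (hs0 b hb)
  have hlt : ∀ b, ‖b‖ ≤ R → ∀ σ ∈ Ico 0 (s b), -ε < q b σ := fun b hb σ hσ =>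
    lt_of_not_ge fun h => (hs2 b hb σ hσ.1 h).not_gt hσ.2
  have hF : ContinuousOn (fun b => l b (s b)) {b | ‖b‖ ≤ R} := by
    intro b hb
    rcases lt_or_ge (q b 0) (-ε) with h | h
    · refine (hl0 b hb).congr_of_eventuallyEq ?_ (by simp only [hz b hb h.le])
      filter_upwards [(hq0 b hb).eventually_lt_const h, self_mem_nhdsWithin] with b' h1 h2
      simp only [hz b' h2 h1.le]
    · obtain ⟨ν₀, hν₀, h1⟩ := shoot_room hε (hq b hb) (hs0 b hb) h (hlt b hb)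
      refine Metric.continuousWithinAt_iff.2 fun η hη => ?_
      obtain ⟨δ, hδ, h2⟩ := Metric.continuousWithinAt_iff.1 (hl b hb _ (hs0 b hb)) (η / 2)
        (by positivity)
      have hν₁ : 0 < min ν₀ (δ / 2) := by positivity
      have l1 := min_le_left ν₀ (δ / 2)
      have l2 := min_le_right ν₀ (δ / 2)
      generalize min ν₀ (δ / 2) = ν₁ at hν₁ l1 l2
      obtain ⟨s₁, hs₁, h3⟩ := htrans b hb _ (hs0 b hb) (hlt b hb) (hs1 b hb) ν₁ hν₁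
      obtain ⟨θ₂, hθ₂, h4⟩ := shoot_gap (a := s b - ν₁) (hq b hb)
        fun σ hσ => hlt b hb σ ⟨hσ.1, by linarith [hσ.2]⟩
      have hθ : 0 < min (-ε - q b s₁) (min θ₂ (η / 2)) := lt_min (by linarith) (by positivity)
      have m1 := min_le_left (-ε - q b s₁) (min θ₂ (η / 2))
      have m2 := (min_le_right (-ε - q b s₁) _).trans (min_le_left θ₂ (η / 2))
      have m3 := (min_le_right (-ε - q b s₁) _).trans (min_le_right θ₂ (η / 2))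
      generalize min (-ε - q b s₁) (min θ₂ (η / 2)) = θ at hθ m1 m2 m3
      obtain ⟨ν, hν, h5⟩ := hdep b hb _ h1 θ hθ
      refine ⟨ν, hν, fun b' hb' hd => ?_⟩
      have h6 := h5 b' hb' (by rw [← dist_eq_norm]; exact hd.le)
      have p0 := hs0 b hb
      have p1 := hs0 b' hb'
      have h7 : s b' ≤ s₁ := hs2 b' hb' s₁ (by linarith [hs₁.1]) (by
        linarith [(abs_le.1 (h6 s₁ ⟨by linarith [hs₁.1], by linarith [hs₁.2]⟩).1).2])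
      have h8 := h6 (s b') ⟨p1, by linarith [hs₁.2]⟩
      have h9 : s b - ν₁ < s b' := lt_of_not_ge fun h9 => by
        linarith [h4 _ ⟨p1, h9⟩, hs1 b' hb', (abs_le.1 h8.1).1]
      have h10 := h2 p1 (show dist (s b') (s b) < δ by
        rw [Real.dist_eq, abs_lt]; constructor <;> linarith [hs₁.2])
      have h11 := dist_triangle (l b' (s b')) (l b (s b')) (l b (s b))
      rw [dist_eq_norm (l b' (s b')) (l b (s b'))] at h11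
      linarith [h8.2]
  obtain ⟨b, hb, h⟩ := shoot_fix hR _ hF fun b hb => hne b hb _ (hs0 b hb) (hs1 b hb)
  simp only [hz b hb.le (hbd b hb).1] at h
  exact h.not_gt (hbd b hb).2

end Vale.Agent.P264
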