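import Vale.Agent.P264.SolDefs

/-! The two-parameter family of initial data. -/

open scoped ContDiff
open Set Polynomial

noncomputable section

namespace Vale.Agent.P264

open Fl

/-- initial perturbation -/
def Data.ini (d : Data) (b : ℝ × ℝ) : Fl := (1 - x) * px (C b.1 * d.dir 0 + C b.2 * d.dir 1)

variable {l0 : ℝ} {d : Data}

theorem evc_contDiffAt (F : Fl) {l : ℝ} (hl : 0 < l) {τ : ℝ} (hτ : τ ∈ Icc (0 : ℝ) 1) :
    ContDiffAt ℝ ∞ (fun s => evc l s F) τ := by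
  have hx : ContDiffAt ℝ ∞ (fun s => xx l s) τ :=
    ContDiffAt.div (by fun_prop) (by fun_prop) (den_pos hl hτ).ne'
  induction F using MvPolynomial.induction_on with
  | C a => simpa [evc, ev] using contDiffAt_const
  | add p q hp hq =>
    simp only [map_add]
    exact hp.add hq
  | mul_X p i hp =>
    simp only [map_mul]
    refine hp.mul ?_
    obtain rfl | rfl | rfl : i = 0 ∨ i = 1 ∨ i = 2 := by omega
    · simpa [evc, ev] using hx
    · simpa [evc, ev] using contDiffAt_fun_id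
    · simpa [evc, ev] using contDiffAt_const

/-- the action of `D` on multiples of `1 - x` -/
def stOp (p : ℝ[X]) : ℝ[X] := X * (1 - X) * derivative p - X * p

theorem st_D (p : ℝ[X]) : D ((1 - x) * px p) = (1 - x) * px (stOp p) := by
  have : px (stOp p) = x * (1 - x) * px (derivative p) - x * px p := by simp [px, stOp]
  rw [this]
  simp [D]
  ring

theorem st_lin (j : ℕ) (a b : ℝ) (p q : ℝ[X]) :
    stOp^[j] (C a * p + C b * q) = C a * stOp^[j] p + C b * stOp^[j] q := by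
  induction j with
  | zero => rfl
  | succ j ih =>
    simp only [Function.iterate_succ_apply', ih, stOp, derivative_add, derivative_C_mul]
    ring

theorem st_bd (h : d.Good l0) (b : ℝ × ℝ) {j : ℕ} (hj : j ≤ 3) {a : ℝ} (ha : a ∈ Icc (0 : ℝ) 1) :
    |(stOp^[j] (C b.1 * d.dir 0 + C b.2 * d.dir 1)).eval a| ≤ 2 * 10 ^ 4 * ‖b‖ := by
  have h0 : |(stOp^[j] (d.dir 0)).eval a| ≤ 10 ^ 4 := h.dir 0 zero_le_one j hj a ha
  have h1 : |(stOp^[j] (d.dir 1)).eval a| ≤ 10 ^ 4 := h.dir 1 le_rfl j hj a ha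
  have b1 : |b.1| ≤ ‖b‖ := norm_fst_le b
  have b2 : |b.2| ≤ ‖b‖ := norm_snd_le b
  rw [st_lin, eval_add, eval_C_mul, eval_C_mul]
  refine (abs_add_le _ _).trans ?_
  rw [abs_mul, abs_mul]
  calc _ ≤ ‖b‖ * 10 ^ 4 + ‖b‖ * 10 ^ 4 := by gcongr
    _ = _ := by ring

theorem ini_om (h : d.Good l0) (b : ℝ × ℝ) {τ : ℝ} (hτ : τ ∈ Icc (0 : ℝ) 1) :
    |τ * (1 - τ) / l0 * evc l0 τ (d.ini b)| ≤ 10 ^ 6 * ‖b‖ := by
  have hl := h.pos
  have hx := xx_mem hl hτ
  have hb := st_bd h b (j := 0) (by norm_num) hx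
  have e : τ * (1 - τ) / l0 * evc l0 τ (d.ini b) = 15 * xx l0 τ * (1 - τ) ^ 2 *
      (C b.1 * d.dir 0 + C b.2 * d.dir 1).eval (xx l0 τ) := by
    rw [Data.ini, map_mul, map_sub, map_one, evc_x, evc_px, one_sub_xx hl hτ, div_mul_eq_mul_div,
      div_eq_iff hl.ne']
    linear_combination 15 * (1 - τ) ^ 2 * (C b.1 * d.dir 0 + C b.2 * d.dir 1).eval (xx l0 τ) *
      t_mul_y hl hτ
  have h1 : (1 - τ) ^ 2 ≤ 1 := pow_le_one₀ (sub_nonneg.2 hτ.2) (by linarith [hτ.1])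
  have h0 := hx.1
  rw [e, abs_mul, abs_of_nonneg (by positivity)]
  calc _ ≤ 15 * 1 * 1 * (2 * 10 ^ 4 * ‖b‖) := by gcongr; exacts [hx.2, hb]
    _ ≤ _ := by nlinarith [norm_nonneg b]

theorem st_G (hl : 0 < l0) (T : Tr l0) (p : ℝ[X])
    (hT : ∀ τ ∈ Icc (0 : ℝ) 1, T.G 0 0 τ = evc l0 τ ((1 - x) * px p)) (j : ℕ) :
    ∀ τ ∈ Ioo (0 : ℝ) 1, T.G j 0 τ = evc l0 τ ((1 - x) * px (stOp^[j] p)) := by
  induction j with
  | zero => exact fun τ hτ => hT τ (Ioo_subset_Icc_self hτ)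
  | succ j ih =>
    intro τ hτ
    have h1 := (T.dG' hl j le_rfl hτ).unique
      ((hasDerivAt_D ((1 - x) * px (stOp^[j] p)) hl hτ).congr_of_eventuallyEq
        (Filter.eventually_of_mem (isOpen_Ioo.mem_nhds hτ) ih))
    rw [div_left_inj' (mul_pos hτ.1 (sub_pos.2 hτ.2)).ne', st_D] at h1
    rw [h1, Function.iterate_succ_apply']

theorem ini_N (h : d.Good l0) (T : Tr l0) (b : ℝ × ℝ)
    (hT : ∀ τ ∈ Icc (0 : ℝ) 1, T.G 0 0 τ = evc l0 τ (d.ini b)) :
    T.N 0 ≤ 3 * 10 ^ 10 * ‖b‖ ^ 2 := by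
  have hl := h.pos
  have hG : ∀ j ≤ 3, ∀ τ ∈ Ioo (0 : ℝ) 1,
      T.G j 0 τ ^ 2 ≤ 9 * 10 ^ 10 * ‖b‖ ^ 2 * evc l0 τ y ^ 2 := fun j hj τ hτ => by
    have hτ' := Ioo_subset_Icc_self hτ
    have hb := st_bd h b hj (xx_mem hl hτ')
    have hy := y_pos hl hτ'
    have h1 : (1 - τ) ^ 2 ≤ 1 := pow_le_one₀ (sub_nonneg.2 hτ.2.le) (by linarith [hτ.1])
    rw [st_G hl T _ hT j τ hτ, map_mul, map_sub, map_one, evc_x, evc_px, one_sub_xx hl hτ',
      mul_pow, mul_pow, ← sq_abs (eval _ _)]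
    calc _ ≤ (15 * evc l0 τ y) ^ 2 * 1 * (2 * 10 ^ 4 * ‖b‖) ^ 2 := by gcongr
      _ = _ := by ring
  have c := fun j => (T.cG' j le_rfl).pow 2
  have := av_mono hl (f := fun τ => nG (T.g 0 τ))
    (g := fun τ => 36 * 10 ^ 10 * ‖b‖ ^ 2 * evc l0 τ y ^ 2)
    ((((c 0).add (c 1)).add (c 2)).add (c 3))
    (continuousOn_const.mul ((continuousOn_evc_slice y hl).pow 2)) fun τ hτ => by
      have h0 := hG 0 (by norm_num) τ hτ
      have h1 := hG 1 (by norm_num) τ hτ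
      have h2 := hG 2 (by norm_num) τ hτ
      have h3 := hG 3 (by norm_num) τ hτ
      simp only [nG, Tr.g]
      linarith
  rw [av_const_mul, av_y_sq hl] at this
  rw [Tr.N, lam_zero]
  nlinarith [sq_nonneg ‖b‖]

theorem st_av {l : ℝ} (hl : 0 < l) (q : ℝ[X]) :
    av l (fun s => 15 * evc l s y ^ 2 * q.eval (xx l s)) = ∫ a in (0 : ℝ)..1, q.eval a := by
  have h := intervalIntegral.integral_comp_mul_deriv (a := 0) (b := 1) (f := xx l)
    (f' := fun s => 15 * evc l s y ^ 2 / l) (g := fun a => q.eval a)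
    (fun s hs => hasDerivAt_xx hl (by rwa [uIcc_of_le zero_le_one] at hs))
    (by
      rw [uIcc_of_le zero_le_one]
      exact (continuousOn_const.mul ((continuousOn_evc_slice y hl).pow 2)).div_const l)
    q.continuous
  rw [xx_zero, xx_one] at h
  rw [← h, av, ← intervalIntegral.integral_const_mul]
  refine intervalIntegral.integral_congr fun s _ => ?_
  simp only [Function.comp]
  ring

theorem ini_ell (h : d.Good l0) : ∃ L : ℕ → ℕ → ℝ,
    (∀ k ≤ 1, ∀ i ≤ 1, |L k i - if k = i then 1 else 0| ≤ 1 / 10) ∧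
    ∀ (T : Tr l0) (b : ℝ × ℝ), (∀ τ ∈ Icc (0 : ℝ) 1, T.G 0 0 τ = evc l0 τ (d.ini b)) →
      ∀ k ≤ 1, T.ell d k 0 = L k 0 * b.1 + L k 1 * b.2 := by
  have hl := h.pos
  refine ⟨_, h.mom, fun T b hT k _ => ?_⟩
  rw [← st_av hl, ← st_av hl, mul_comm _ b.1, mul_comm _ b.2, ← av_const_mul, ← av_const_mul,
    ← av_add, Tr.ell, Tr.fn, lam_zero]
  · refine av_congr fun τ hτ => ?_
    rw [hT τ (Ioo_subset_Icc_self hτ)]
    simp only [Data.ini, Data.zeta, map_mul, map_sub, map_one, map_pow, map_ofNat, evc_x, evc_px,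
      eval_mul, eval_add, eval_sub, eval_pow, eval_one, eval_X, eval_C]
    ring
  all_goals
    have hx : ContinuousOn (xx l0) (Icc 0 1) := fun s hs =>
      (hasDerivAt_xx hl hs).continuousAt.continuousWithinAt
    exact continuousOn_const.mul ((continuousOn_const.mul
      ((continuousOn_evc_slice y hl).pow 2)).mul ((Polynomial.continuous _).comp_continuousOn hx))

theorem ini_sub (d : Data) (b b' : ℝ × ℝ) : d.ini (b' - b) = d.ini b' - d.ini b := by
  simp only [Data.ini, px, Prod.fst_sub, Prod.snd_sub, map_add, map_mul, map_sub]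
  ring

end Vale.Agent.P264
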