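import Vale.Agent.P264.Rem

/-! The remainder for the difference of two solutions. -/

open Set Polynomial

noncomputable section

namespace Vale.Agent.P264

open Fl

/-- sum of the squares of the coefficients of the lower order terms -/
def remBW (r e χ χ' p z q q' s0 s1 Y S R : ℝ) : ℝ :=
  (-(r * (2 * χ + r * s0) * Y) + p * q * (r * s0)) ^ 2 + (-(r * Y) + p * q) ^ 2 +
    (-(r * (2 * χ + r * s0) * R) - 2 * r * (χ * e + (e * (r * s0) + r * s1) + χ') * S +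
      z * (q * (e * (r * s0) + 2 * r * s1) + q' * (r * s0))) ^ 2 +
    (-(r * R) - 2 * e * r * S + z * (q * e + q')) ^ 2 + (-(2 * χ * r * S)) ^ 2 +
    (-(2 * r * S) + 2 * z * q) ^ 2

theorem remB_lin {a b ω : ℝ} (hω : |ω| ≤ 1) : (a + b * ω) ^ 2 ≤ 2 * (a ^ 2 + b ^ 2) := by
  have h1 : ω ^ 2 ≤ 1 := by
    rw [← sq_abs]
    exact pow_le_one₀ (abs_nonneg _) hω
  have h2 := mul_le_mul_of_nonneg_left h1 (sq_nonneg b)
  nlinarith [sq_nonneg (a - b * ω)]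

theorem remB_alg {u w a0 a1 b0 b1 c0 c1 ω h0 h1 : ℝ} (hω : |ω| ≤ 1) :
    (-u + (a0 + a1 * ω) * h0) ^ 2 + (-w + ((b0 + b1 * ω) * h0 + (c0 + c1 * ω) * h1)) ^ 2 ≤
      2 * (u ^ 2 + w ^ 2) +
        4 * (a0 ^ 2 + a1 ^ 2 + b0 ^ 2 + b1 ^ 2 + c0 ^ 2 + c1 ^ 2) * (h0 ^ 2 + h1 ^ 2) := by
  have k1 := remB_lin (a := a0) (b := a1) hω
  have k2 := remB_lin (a := b0) (b := b1) hω
  have k3 := remB_lin (a := c0) (b := c1) hω
  generalize a0 + a1 * ω = a at k1 ⊢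
  generalize b0 + b1 * ω = b at k2 ⊢
  generalize c0 + c1 * ω = c at k3 ⊢
  have k4 := mul_le_mul_of_nonneg_right (add_le_add (add_le_add k1 k2) k3)
    (add_nonneg (sq_nonneg h0) (sq_nonneg h1))
  nlinarith [sq_nonneg (u + a * h0), sq_nonneg (w + (b * h0 + c * h1)),
    sq_nonneg (b * h1 - c * h0), sq_nonneg (a * h1)]

theorem remB_c {α : Type} [TopologicalSpace α] {s : Set α} {v : α → Fl →ₐ[ℝ] ℝ}
    {G M : α → ℕ → ℝ} {r e : α → ℝ} (d : Data) (hv : ∀ F, ContinuousOn (fun p => v p F) s)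
    (hG : ∀ j, ContinuousOn (fun p => G p j) s) (hM : ∀ j, ContinuousOn (fun p => M p j) s)
    (hr : ContinuousOn r s) (he : ContinuousOn e s) :
    ContinuousOn (fun p => remBW (r p) (e p) (v p d.chi) (v p (D d.chi)) (v p (x * (1 - t) * y))
      (v p (x * (1 - t))) (v p (y * d.V2)) (v p (y * Dy 2 d.V2)) (G p 0) (G p 1)
      (YK (v p) (G p) (M p)) (SK (v p) (G p) (M p)) (RK (v p) (G p) (M p))) s := by
  obtain ⟨w, hw⟩ : ∃ w : Fl → α → ℝ, ∀ p F, v p F = w F p := ⟨fun F p => v p F, fun _ _ => rfl⟩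
  simp only [hw] at hv
  unfold remBW YK RK SK
  simp only [hw]
  fun_prop

theorem remB_pt {l0 : ℝ} {d : Data} {T S : Tr l0} (hT : T.IsSol d) (hS : S.IsSol d) {σ τ : ℝ}
    (hσ : 0 ≤ σ) (hτ : τ ∈ Ioo (0 : ℝ) 1) (hω : |T.om σ τ| ≤ 1) :
    (T.sub S).f0 d σ τ ^ 2 + (T.sub S).f1 d σ τ ^ 2 ≤ 2 * T.quasi (T.sub S) d σ τ +
      4 * remBW (τ * (1 - τ) / lam l0 σ) (1 - 2 * τ) (evc (lam l0 σ) τ d.chi)
        (evc (lam l0 σ) τ (D d.chi)) (evc (lam l0 σ) τ (x * (1 - t) * y))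
        (evc (lam l0 σ) τ (x * (1 - t))) (evc (lam l0 σ) τ (y * d.V2))
        (evc (lam l0 σ) τ (y * Dy 2 d.V2)) (S.g σ τ 0) (S.g σ τ 1)
        (YK (evc (lam l0 σ) τ) (S.g σ τ) (S.m σ τ)) (SK (evc (lam l0 σ) τ) (S.g σ τ) (S.m σ τ))
        (RK (evc (lam l0 σ) τ) (S.g σ τ) (S.m σ τ)) *
        ((T.G 0 σ τ - S.G 0 σ τ) ^ 2 + (T.G 1 σ τ - S.G 1 σ τ) ^ 2) := by
  have hY : YK (evc (lam l0 σ) τ) ((T.sub S).g σ τ) ((T.sub S).m σ τ) =
      YK (evc (lam l0 σ) τ) (T.g σ τ) (T.m σ τ) - YK (evc (lam l0 σ) τ) (S.g σ τ) (S.m σ τ) := by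
    simp only [YK, Tr.g, Tr.m, Tr.sub]
    ring
  have hK : SK (evc (lam l0 σ) τ) ((T.sub S).g σ τ) ((T.sub S).m σ τ) =
      SK (evc (lam l0 σ) τ) (T.g σ τ) (T.m σ τ) - SK (evc (lam l0 σ) τ) (S.g σ τ) (S.m σ τ) := by
    simp only [SK, Tr.g, Tr.m, Tr.sub]
    ring
  have hR : RK (evc (lam l0 σ) τ) ((T.sub S).g σ τ) ((T.sub S).m σ τ) =
      RK (evc (lam l0 σ) τ) (T.g σ τ) (T.m σ τ) - RK (evc (lam l0 σ) τ) (S.g σ τ) (S.m σ τ) := by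
    simp only [RK, Tr.g, Tr.m, Tr.sub]
    ring
  have h0 : (T.sub S).f0 d σ τ = T.f0 d σ τ - S.f0 d σ τ := by
    simp only [Tr.f0, Data.L0, hY]
    simp only [Tr.g, Tr.sub]
    ring
  have h1 : (T.sub S).f1 d σ τ = T.f1 d σ τ - S.f1 d σ τ := by
    simp only [Tr.f1, Data.L1, hK, hR]
    simp only [Tr.g, Tr.sub]
    ring
  rw [h0, h1, hT.f0 σ hσ τ hτ, hT.f1 σ hσ τ hτ, hS.f0 σ hσ τ hτ, hS.f1 σ hσ τ hτ, Tr.quasi, hY,
    hK, hR, remBW]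
  refine le_of_eq_of_le ?_ (remB_alg hω)
  simp only [Data.rem0, Data.rem1, Tr.om, Tr.g]
  congr 2 <;> ring

theorem Tr.Phi_sub {l0 : ℝ} {d : Data} (h : d.Good l0) {S : Tr l0} (hS : S.IsSol d) (σ1 : ℝ) :
    ∃ C : ℝ, 0 ≤ C ∧ ∀ T : Tr l0, T.IsSol d → ∀ σ ∈ Icc 0 σ1, T.Small σ → S.Small σ →
      (T.sub S).Phi d σ ≤
        1 / 10 ^ 32 * ((T.sub S).N σ + (T.sub S).Dd σ) + C * (T.sub S).N σ := by
  have hl := h.pos
  have hc := remB_c (s := Ici 0 ×ˢ Icc 0 1) (v := fun p : ℝ × ℝ => evc (lam l0 p.1) p.2)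
    (G := fun p => S.g p.1 p.2) (M := fun p => S.m p.1 p.2)
    (r := fun p => p.2 * (1 - p.2) / lam l0 p.1) (e := fun p => 1 - 2 * p.2) d (lyap_v hl) S.cG
    S.cM (ContinuousOn.div (by fun_prop) ((continuous_lam l0).comp continuous_fst).continuousOn
      fun p _ => (lam_pos hl p.1).ne') (by fun_prop)
  obtain ⟨B, hB⟩ := (isCompact_Icc.prod isCompact_Icc).exists_bound_of_continuousOn
    (hc.mono (prod_mono_left (Icc_subset_Ici_self : Icc 0 σ1 ⊆ Ici 0)))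
  refine ⟨4 * |B|, by positivity, fun T hT σ hσ hs _ => ?_⟩
  have h1 := T.quasi_cont (T.sub S) d hl hσ.1
  have h2 := (T.sub S).nG_cont hσ.1
  have h3 : (T.sub S).Phi d σ ≤ av (lam l0 σ) fun τ =>
      2 * T.quasi (T.sub S) d σ τ + 4 * |B| * nG ((T.sub S).g σ τ) := by
    refine av_mono (lam_pos hl σ) (((lyap_slice ((T.sub S).f0_cont d hl) hσ.1).pow 2).add
      ((lyap_slice ((T.sub S).f1_cont d hl) hσ.1).pow 2))
      ((continuousOn_const.mul h1).add (continuousOn_const.mul h2)) fun τ hτ => ?_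
    have hτ' := Ioo_subset_Icc_self hτ
    refine (remB_pt hT hS hσ.1 hτ ((hs.2 τ hτ').trans (by norm_num))).trans
      (add_le_add le_rfl (mul_le_mul (mul_le_mul_of_nonneg_left
        ((le_abs_self _).trans ((hB (σ, τ) ⟨hσ, hτ'⟩).trans (le_abs_self B))) (by norm_num)) ?_
        (by positivity) (by positivity)))
    simp only [nG, Tr.g, Tr.sub]
    linarith [sq_nonneg (T.G 2 σ τ - S.G 2 σ τ), sq_nonneg (T.G 3 σ τ - S.G 3 σ τ)]
  rw [av_add (h1.const_mul 2) (h2.const_mul (4 * |B|)), av_const_mul,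
    av_const_mul] at h3
  have h4 := Tr.quasi_le h T (T.sub S) hσ.1 hs
  have h5 := (T.sub S).N_nonneg hl σ
  have h6 := (T.sub S).Dd_nonneg hl σ
  have h7 : av (lam l0 σ) (fun τ => nG ((T.sub S).g σ τ)) = (T.sub S).N σ := rfl
  rw [h7] at h3
  linarith

end Vale.Agent.P264
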