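import Vale.Agent.P264.Trap
import Vale.Agent.P264.RemB

/-! Exit, transversality and continuous dependence. -/

open Set Polynomial

noncomputable section

namespace Vale.Agent.P264

open Fl

namespace TrapB

theorem gron {f : ℝ → ℝ} {K σ : ℝ} (hσ : 0 ≤ σ) (hc : ContinuousOn f (Icc 0 σ))
    (hd : ∀ s ∈ Ioo 0 σ, ∃ f', HasDerivAt f f' s ∧ f' ≤ K * f s) :
    f σ ≤ f 0 * Real.exp (K * σ) := by
  have he : ∀ s, HasDerivAt (fun s => Real.exp (-(K * s))) (Real.exp (-(K * s)) * -K) s :=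
    fun s => by simpa using ((hasDerivAt_id s).const_mul K).neg.exp
  have key : AntitoneOn (fun s => f s * Real.exp (-(K * s))) (Icc 0 σ) := by
    refine antitoneOn_of_deriv_nonpos (convex_Icc _ _) (hc.mul (by fun_prop)) ?_ ?_
    · intro s hs
      rw [interior_Icc] at hs
      obtain ⟨f', h1, -⟩ := hd s hs
      exact (h1.mul (he s)).differentiableAt.differentiableWithinAt
    · intro s hs
      rw [interior_Icc] at hs
      obtain ⟨f', h1, h2⟩ := hd s hs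
      have := (h1.mul (he s)).deriv
      rw [show (fun s => f s * Real.exp (-(K * s))) = f * fun s => Real.exp (-(K * s)) from rfl,
        this]
      have hp := Real.exp_pos (-(K * s))
      nlinarith
  have h1 := key (left_mem_Icc.2 hσ) (right_mem_Icc.2 hσ) hσ
  simp only [mul_zero, neg_zero, Real.exp_zero, mul_one] at h1
  have h2 : f σ = f σ * Real.exp (-(K * σ)) * Real.exp (K * σ) := by
    rw [mul_assoc, ← Real.exp_add]; simp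
  rw [h2]
  exact mul_le_mul_of_nonneg_right h1 (Real.exp_pos _).le

theorem lam_anti {l0 s σ : ℝ} (h : 0 < l0) (hs : s ≤ σ) : lam l0 σ ≤ lam l0 s :=
  mul_le_mul_of_nonneg_left (Real.exp_le_exp.2 (by linarith)) h.le

theorem lam_tendsto (l0 : ℝ) : Filter.Tendsto (lam l0) Filter.atTop (nhds 0) := by
  have h1 : Filter.Tendsto (fun σ : ℝ => -σ / 2) Filter.atTop Filter.atBot :=
    Filter.tendsto_neg_atTop_atBot.atBot_div_const two_pos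
  have h2 := (Real.tendsto_exp_atBot.comp h1).const_mul l0
  rw [mul_zero] at h2
  exact h2

theorem exists_x0 {U : ℝ[X]} (h : 1 / 5 ≤ U.eval 1) :
    ∃ a : ℝ, 0 < a ∧ a < 1 ∧ 3 / 20 < a * U.eval a := by
  have hc : ContinuousAt (fun a : ℝ => a * U.eval a) 1 := by fun_prop
  have h1 : ∀ᶠ a in nhds (1 : ℝ), 3 / 20 < a * U.eval a :=
    hc.eventually (lt_mem_nhds (by simp only [one_mul]; linarith))
  have h2 : ∀ᶠ a in nhds (1 : ℝ), 0 < a := lt_mem_nhds one_pos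
  have h3 : ∀ᶠ a in nhdsWithin (1 : ℝ) (Iio 1), a < 1 := self_mem_nhdsWithin
  obtain ⟨a, ⟨ha1, ha2⟩, ha3⟩ := (((h1.and h2).filter_mono nhdsWithin_le_nhds).and h3).exists
  exact ⟨a, ha2, ha3, ha1⟩

theorem small_of {l0 : ℝ} {T : Tr l0} {σ : ℝ}
    (h : T.N σ ≤ 1 / 10 ^ 81 ∧ ∀ τ ∈ Icc (0 : ℝ) 1, |T.om σ τ| ≤ 1 / 10 ^ 23) : T.Small σ :=
  ⟨h.1.trans (by norm_num), fun τ hτ => (h.2 τ hτ).trans (by norm_num)⟩

theorem om_sub {l0 : ℝ} (T S : Tr l0) (σ τ : ℝ) :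
    T.om σ τ = S.om σ τ + (T.sub S).om σ τ := by
  simp only [Tr.om, Tr.sub]; ring

theorem om_sq {l0 : ℝ} (hl : 0 < l0) (H : Tr l0) {σ τ : ℝ} (hσ : 0 ≤ σ)
    (hτ : τ ∈ Icc (0 : ℝ) 1) : lam l0 σ * H.om σ τ ^ 2 ≤ 2 * H.N σ := by
  have h1 := H.sob_G hl (j := 0) (by norm_num) hσ hτ
  have hp := lam_pos hl σ
  have hN := H.N_nonneg hl σ
  have h0 : 0 ≤ τ * (1 - τ) := mul_nonneg hτ.1 (sub_nonneg.2 hτ.2)
  have h2 : τ * (1 - τ) ≤ 1 := by nlinarith [hτ.1, hτ.2]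
  have e : lam l0 σ * H.om σ τ ^ 2
      = τ * (1 - τ) * (τ * (1 - τ) * H.G 0 σ τ ^ 2) / lam l0 σ := by
    unfold Tr.om; field_simp
  rw [e, div_le_iff₀ hp]
  calc _ ≤ 1 * (2 * lam l0 σ * H.N σ) :=
        mul_le_mul h2 h1 (mul_nonneg h0 (sq_nonneg _)) zero_le_one
    _ = _ := by ring

variable {l0 : ℝ} {d : Data}

/-- the positive energy -/
def Yp (H : Tr l0) (d : Data) (σ : ℝ) : ℝ :=
  H.Y d σ + 10 ^ 11 * (H.ell d 0 σ ^ 2 + H.ell d 1 σ ^ 2)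

theorem Yp_cont (hl : 0 < l0) (H : Tr l0) : ContinuousOn (Yp H d) (Ici 0) :=
  (H.Y_cont d hl).add (continuousOn_const.mul
    (((H.ell_cont d hl 0).pow 2).add ((H.ell_cont d hl 1).pow 2)))

theorem Yp_upper (h : d.Good l0) (H : Tr l0) {σ : ℝ} (hσ : 0 ≤ σ) :
    Yp H d σ ≤ 3 * 10 ^ 12 * H.N σ := by
  have h1 := (abs_le.1 (H.Y_abs h hσ)).2
  have h2 := H.ell_sq h (k := 0) (by norm_num) hσ
  have h3 := H.ell_sq h (k := 1) le_rfl hσ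
  have h4 := H.N_nonneg h.pos σ
  unfold Yp
  linarith

theorem term_le {a r g : ℝ} (hg : g ≤ 2) : 2 * a * (g * a + r) ≤ 5 * a ^ 2 + r ^ 2 := by
  nlinarith [sq_nonneg (a - r), mul_nonneg (sub_nonneg.2 hg) (sq_nonneg a)]

theorem Yp_deriv (h : d.Good l0) (H : Tr l0) {σ C : ℝ} (hσ : 0 < σ) (hC : 0 ≤ C)
    (hP : H.Phi d σ ≤ 1 / 10 ^ 32 * (H.N σ + H.Dd σ) + C * H.N σ) :
    ∃ f', HasDerivAt (Yp H d) f' σ ∧ f' ≤ 10 ^ 22 * (1 + C) * Yp H d σ := by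
  obtain ⟨Y', hY, bY⟩ := H.Y_deriv h hσ
  obtain ⟨r0, d0, b0⟩ := H.ell_deriv h (k := 0) (by norm_num) hσ
  obtain ⟨r1, d1, b1⟩ := H.ell_deriv h (k := 1) le_rfl hσ
  refine ⟨Y' + 10 ^ 11 * (2 * H.ell d 0 σ * (d.eig 0 * H.ell d 0 σ + r0) +
    2 * H.ell d 1 σ * (d.eig 1 * H.ell d 1 σ + r1)), ?_, ?_⟩
  · have := hY.add (((d0.pow 2).add (d1.pow 2)).const_mul (10 ^ 11))
    refine this.congr_deriv ?_
    simp
  · have t0 := term_le (a := H.ell d 0 σ) (r := r0) (h.eig 0 (by norm_num)).2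
    have t1 := term_le (a := H.ell d 1 σ) (r := r1) (h.eig 1 le_rfl).2
    have h2 := H.ell_sq h (k := 0) (by norm_num) hσ.le
    have h3 := H.ell_sq h (k := 1) le_rfl hσ.le
    have h4 := H.N_nonneg h.pos σ
    have h5 := H.Dd_nonneg h.pos σ
    have h6 : 1 / 10 ^ 4 * H.N σ ≤ Yp H d σ := H.Y_lower h hσ.le
    have h7 : 0 ≤ C * H.N σ := mul_nonneg hC h4
    have h8 : C * (1 / 10 ^ 4 * H.N σ) ≤ C * Yp H d σ := mul_le_mul_of_nonneg_left h6 hC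
    have h9 : 10 ^ 22 * (1 + C) * Yp H d σ = 10 ^ 22 * Yp H d σ + 10 ^ 22 * (C * Yp H d σ) := by
      ring
    have h10 : C * (1 / 10 ^ 4 * H.N σ) = 1 / 10 ^ 4 * (C * H.N σ) := by ring
    rw [h9]
    rw [h10] at h8
    linarith

theorem diff_small (h : d.Good l0) {S : Tr l0} (hS : S.IsSol d) {σ1 : ℝ}
    (hs : ∀ σ ∈ Icc 0 σ1, S.N σ ≤ 1 / 10 ^ 81 ∧ ∀ τ ∈ Icc (0 : ℝ) 1, |S.om σ τ| ≤ 1 / 10 ^ 23)
    {m : ℝ} (hm : 0 < m) : ∃ ν : ℝ, 0 < ν ∧ ∀ T : Tr l0, T.IsSol d → (T.sub S).N 0 ≤ ν →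
      ∀ σ ∈ Icc 0 σ1, (T.sub S).N σ ≤ m := by
  obtain ⟨C, hC, hP⟩ := Tr.Phi_sub h hS σ1
  have hl := h.pos
  have hp := lam_pos hl σ1
  obtain ⟨m', hm', m1, m2, m3⟩ : ∃ m', 0 < m' ∧ m' ≤ m ∧ m' ≤ 1 / 10 ^ 46 ∧
      2 * m' ≤ lam l0 σ1 * (1 / 10 ^ 23) ^ 2 := by
    refine ⟨min m (min (1 / 10 ^ 46) (lam l0 σ1 * (1 / 10 ^ 23) ^ 2 / 2)), by positivity,
      min_le_left _ _, (min_le_right _ _).trans (min_le_left _ _), ?_⟩
    have := (min_le_right m _).trans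
      (min_le_right (1 / 10 ^ 46 : ℝ) (lam l0 σ1 * (1 / 10 ^ 23) ^ 2 / 2))
    linarith
  set K : ℝ := 10 ^ 22 * (1 + C) with hK
  have hK0 : 0 ≤ K := by positivity
  set A : ℝ := 3 * 10 ^ 16 * Real.exp (K * σ1) with hA
  have hA0 : 0 < A := by positivity
  refine ⟨m' / A, by positivity, fun T hT h0 => ?_⟩
  -- Gronwall while `T` is small
  have key : ∀ σ ∈ Icc 0 σ1, (∀ s ∈ Ioo 0 σ, T.Small s) → (T.sub S).N σ ≤ m' := by
    intro σ hσ hsm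
    have g := gron (f := Yp (T.sub S) d) (K := K) hσ.1
      ((Yp_cont hl _).mono Icc_subset_Ici_self) fun s hs' =>
        have hs2 : s ∈ Icc 0 σ1 := ⟨hs'.1.le, hs'.2.le.trans hσ.2⟩
        Yp_deriv h _ hs'.1 hC (hP T hT s hs2 (hsm s hs') (small_of (hs s hs2)))
    have h6 : 1 / 10 ^ 4 * (T.sub S).N σ ≤ Yp (T.sub S) d σ := (T.sub S).Y_lower h hσ.1
    have h7 : Yp (T.sub S) d 0 ≤ 3 * 10 ^ 12 * (m' / A) :=
      (Yp_upper h _ le_rfl).trans (mul_le_mul_of_nonneg_left h0 (by norm_num))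
    have h8 : Yp (T.sub S) d 0 * Real.exp (K * σ)
        ≤ 3 * 10 ^ 12 * (m' / A) * Real.exp (K * σ1) :=
      mul_le_mul h7 (Real.exp_le_exp.2 (mul_le_mul_of_nonneg_left hσ.2 hK0))
        (Real.exp_pos _).le (by positivity)
    have h9 : 3 * 10 ^ 12 * (m' / A) * Real.exp (K * σ1) = 1 / 10 ^ 4 * m' := by
      rw [hA]; field_simp
    linarith
  have step : ∀ σ ∈ Icc 0 σ1, (T.sub S).N σ ≤ m' → ∀ τ ∈ Icc (0 : ℝ) 1,
      max (10 ^ 44 * T.N σ) (10 ^ 22 * |T.om σ τ|) ≤ 1 / 2 := by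
    intro σ hσ hN τ hτ
    have a1 := T.N_sub hl S hσ.1
    have a2 := (hs σ hσ).1
    have a3 := (hs σ hσ).2 τ hτ
    have a4 := om_sq hl (T.sub S) hσ.1 hτ
    have a5 : lam l0 σ1 * (T.sub S).om σ τ ^ 2 ≤ lam l0 σ1 * (1 / 10 ^ 23) ^ 2 := by
      have := mul_le_mul_of_nonneg_right (lam_anti hl hσ.2) (sq_nonneg ((T.sub S).om σ τ))
      linarith
    have a6 : |(T.sub S).om σ τ| ≤ 1 / 10 ^ 23 :=
      abs_le_of_sq_le_sq (le_of_mul_le_mul_left a5 hp) (by positivity)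
    have a7 := abs_add_le (S.om σ τ) ((T.sub S).om σ τ)
    rw [← om_sub] at a7
    refine max_le ?_ ?_
    · linarith
    · linarith
  have sm : ∀ σ, (∀ τ ∈ Icc (0 : ℝ) 1, max (10 ^ 44 * T.N σ) (10 ^ 22 * |T.om σ τ|) ≤ 1) →
      T.Small σ := by
    intro σ H
    refine ⟨?_, fun τ hτ => ?_⟩
    · have := (le_max_left _ _).trans (H 0 (left_mem_Icc.2 zero_le_one))
      linarith
    · have := (le_max_right _ _).trans (H τ hτ)
      linarith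
  intro σ hσ
  have hσ1 : (0 : ℝ) ∈ Icc 0 σ1 := left_mem_Icc.2 (hσ.1.trans hσ.2)
  have boot := bootstrap (K := Icc (0 : ℝ) 1) isCompact_Icc
    (f := fun s τ => max (10 ^ 44 * T.N s) (10 ^ 22 * |T.om s τ|)) (σ1 := σ1) (b := 1 / 2)
    (continuous_max.comp_continuousOn <| ContinuousOn.prodMk
      (continuousOn_const.mul ((T.N_cont hl).comp continuousOn_fst fun p hp => hp.1.1))
      (continuousOn_const.mul ((T.om_cont hl).mono
        (prod_mono Icc_subset_Ici_self subset_rfl)).abs))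
    (fun τ hτ => (step 0 hσ1 (key 0 hσ1 fun s hs' => absurd hs'.1 (not_lt.2 hs'.2.le)) τ hτ).trans
      (by norm_num)) (by norm_num)
    (fun s hs' H => step s hs' (key s hs' fun u hu => sm u (H u (Ioo_subset_Icc_self hu))))
  refine (key σ hσ fun s hs' => sm s fun τ hτ => ?_).trans m1
  exact (boot s ⟨hs'.1.le, hs'.2.le.trans hσ.2⟩ τ hτ).trans (by norm_num)

theorem sq_diff {a b η : ℝ} (hb : |b| ≤ 1) (hab : |a - b| ≤ η) (hη : η ≤ 1) :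
    |a ^ 2 - b ^ 2| ≤ 3 * η := by
  have e : a ^ 2 - b ^ 2 = (a - b) * (a - b + 2 * b) := by ring
  have h1 : |a - b + 2 * b| ≤ 3 := by
    have := abs_add_le (a - b) (2 * b)
    rw [abs_mul, abs_two] at this
    linarith
  rw [e, abs_mul, mul_comm]
  exact mul_le_mul h1 hab (abs_nonneg _) (by norm_num)

end TrapB

open TrapB

variable {l0 : ℝ} {d : Data}

theorem Tr.exit (h : d.Good l0) {T : Tr l0} (hT : T.IsSol d) (h0 : T.N 0 ≤ 3 / 10 ^ 112)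
    (h1 : ∀ τ ∈ Icc (0 : ℝ) 1, |T.om 0 τ| ≤ 1 / 10 ^ 50) :
    ∃ σ, 0 ≤ σ ∧ T.Q d σ ≤ -(1 / 10 ^ 105) := by
  by_contra hn
  push Not at hn
  have hom : ∀ σ, 0 ≤ σ → ∀ τ ∈ Icc (0 : ℝ) 1, |T.om σ τ| ≤ 1 / 10 ^ 23 := fun σ hσ =>
    (Tr.trapped h hT h0 h1 (σ1 := σ) (fun s hs => by have := hn s hs.1; linarith) σ
      (right_mem_Icc.2 hσ)).2
  obtain ⟨C, hC⟩ := hT.lim
  obtain ⟨a, ha0, ha1, haU⟩ := exists_x0 h.cone.1
  have hg : ContinuousAt (fun l : ℝ => 15 * l * a / (1 - a + 15 * l * a)) 0 :=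
    ContinuousAt.div (by fun_prop) (by fun_prop) (by simp; linarith)
  have ht := hg.tendsto.comp (lam_tendsto l0)
  simp only [mul_zero, zero_mul, zero_div] at ht
  have hpos : (0 : ℝ) < 1 / (100 * (|C| + 1)) := by positivity
  obtain ⟨σ, hσ1, hσ⟩ := ((ht.eventually (gt_mem_nhds hpos)).and
    (Filter.eventually_ge_atTop 0)).exists
  simp only [Function.comp] at hσ1
  have hp := lam_pos h.pos σ
  set l := lam l0 σ with hl
  have hden : 0 < 1 - a + 15 * l * a := by have := mul_pos hp ha0; linarith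
  set τ := 15 * l * a / (1 - a + 15 * l * a) with hτ
  have hτ0 : 0 ≤ τ := by positivity
  have hC1 : τ * (100 * (|C| + 1)) < 1 := (lt_div_iff₀ (by positivity)).1 hσ1
  have hC0 := mul_nonneg hτ0 (abs_nonneg C)
  have hτ1 : τ ≤ 1 / 100 := by nlinarith
  have hm : τ ∈ Icc (0 : ℝ) 1 := ⟨hτ0, by linarith⟩
  have hx : xx l τ = a := by
    have h2 := (den_pos hp hm).ne'
    rw [xx, div_eq_iff h2, hτ]
    field_simp
    ring
  have b1 := hC σ hσ τ hm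
  have b2 := hom σ hσ τ hm
  rw [← hl] at b1
  simp only [Data.chi, map_sub, map_mul, map_one, evc_x, evc_t, evc_px, hx] at b1
  have b3 := (abs_le.1 b1).1
  have b4 := (abs_le.1 b2).2
  have b5 : C * τ ≤ |C| * τ := mul_le_mul_of_nonneg_right (le_abs_self C) hτ0
  have b6 : (1 - τ) * (3 / 20) ≤ (1 - τ) * (a * d.U.eval a) :=
    mul_le_mul_of_nonneg_left haU.le (by linarith)
  nlinarith

theorem Tr.ell_ne (h : d.Good l0) (T : Tr l0) {σ : ℝ} (hσ : 0 ≤ σ) (hq : T.Q d σ < 0) :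
    (T.ell d 0 σ, T.ell d 1 σ) ≠ 0 := by
  intro hz
  simp only [Prod.mk_eq_zero] at hz
  have h1 := T.Y_lower h hσ
  have h2 := T.N_nonneg h.pos σ
  unfold Tr.Q at hq
  rw [hz.1, hz.2] at h1 hq
  linarith

theorem Tr.trans (h : d.Good l0) {T : Tr l0} (hT : T.IsSol d) (h0 : T.N 0 ≤ 3 / 10 ^ 112)
    (h1 : ∀ τ ∈ Icc (0 : ℝ) 1, |T.om 0 τ| ≤ 1 / 10 ^ 50) {σ : ℝ} (hσ : 0 ≤ σ)
    (hb : ∀ s ∈ Ico 0 σ, -(1 / 10 ^ 105) < T.Q d s) (he : T.Q d σ ≤ -(1 / 10 ^ 105)) {ν : ℝ}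
    (hν : 0 < ν) : ∃ s ∈ Ioo σ (σ + ν), T.Q d s < -(1 / 10 ^ 105) := by
  have hc : ContinuousWithinAt (T.Q d) (Ici σ) σ :=
    (Tr.Q_cont (d := d) T h.pos σ hσ).mono (Ici_subset_Ici.2 hσ)
  have hν' : ∀ᶠ s in nhdsWithin σ (Ici σ), s < σ + ν :=
    nhdsWithin_le_nhds (gt_mem_nhds (by linarith))
  rcases he.lt_or_eq with he | he
  · have e1 : ∀ᶠ s in nhdsWithin σ (Ici σ), T.Q d s < -(1 / 10 ^ 105) :=
      hc.eventually (gt_mem_nhds he)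
    have e2 : ∀ᶠ s in nhdsWithin σ (Ioi σ), σ < s := self_mem_nhdsWithin
    obtain ⟨s, ⟨a1, a2⟩, a3⟩ := (((e1.and hν').filter_mono
      (nhdsWithin_mono _ Ioi_subset_Ici_self)).and e2).exists
    exact ⟨s, ⟨a3, a2⟩, a1⟩
  · have e1 : ∀ᶠ s in nhdsWithin σ (Ici σ), T.Q d s < -(1 / 10 ^ 105 / 2) :=
      hc.eventually (gt_mem_nhds (by rw [he]; norm_num))
    have e2 : ∀ᶠ s in nhdsWithin σ (Ici σ), -(2 / 10 ^ 105) < T.Q d s :=
      hc.eventually (lt_mem_nhds (by rw [he]; norm_num))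
    obtain ⟨u, hu, H⟩ := mem_nhdsGE_iff_exists_Icc_subset.1 ((e1.and e2).and hν')
    have hq : ∀ s ∈ Icc 0 u, -(2 / 10 ^ 105) ≤ T.Q d s := by
      intro s hs
      rcases lt_or_ge s σ with h2 | h2
      · have := hb s ⟨hs.1, h2⟩
        linarith
      · exact (H ⟨h2, hs.2⟩).1.2.le
    have tr := Tr.trapped h hT h0 h1 hq
    have hd : ∀ s ∈ interior (Icc σ u), ∃ Q', HasDerivAt (T.Q d) Q' s ∧ Q' < 0 := by
      intro s hs
      rw [interior_Icc] at hs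
      have hs0 : 0 < s := hσ.trans_lt hs.1
      obtain ⟨Q', d1, d2⟩ := Tr.Q_deriv h hT hs0 (small_of (tr s ⟨hs0.le, hs.2.le⟩))
      refine ⟨Q', d1, ?_⟩
      have a1 : T.Q d s < -(1 / 10 ^ 105 / 2) := (H (Ioo_subset_Icc_self hs)).1.1
      have a2 := T.Y_lower h hs0.le
      have a3 := T.ell_sq h (k := 0) (by norm_num) hs0.le
      have a4 := T.ell_sq h (k := 1) le_rfl hs0.le
      have a5 := T.N_nonneg h.pos s
      have a6 := T.Dd_nonneg h.pos s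
      unfold Tr.Q at a1
      linarith
    have anti : StrictAntiOn (T.Q d) (Icc σ u) :=
      strictAntiOn_of_deriv_neg (convex_Icc _ _)
        ((Tr.Q_cont (d := d) T h.pos).mono fun s hs => hσ.trans hs.1) fun s hs => by
          obtain ⟨Q', d1, d2⟩ := hd s hs
          rwa [d1.deriv]
    refine ⟨u, ⟨hu, (H (right_mem_Icc.2 hu.le)).2⟩, ?_⟩
    rw [← he]
    exact anti (left_mem_Icc.2 hu.le) (right_mem_Icc.2 hu.le) hu

theorem Tr.depend (h : d.Good l0) {S : Tr l0} (hS : S.IsSol d) (h0 : S.N 0 ≤ 3 / 10 ^ 112)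
    (h1 : ∀ τ ∈ Icc (0 : ℝ) 1, |S.om 0 τ| ≤ 1 / 10 ^ 50) {σ1 : ℝ}
    (hq : ∀ s ∈ Icc 0 σ1, -(2 / 10 ^ 105) ≤ S.Q d s) {θ : ℝ} (hθ : 0 < θ) :
    ∃ ν : ℝ, 0 < ν ∧ ∀ T : Tr l0, T.IsSol d → (T.sub S).N 0 ≤ ν → ∀ σ ∈ Icc 0 σ1,
      |T.Q d σ - S.Q d σ| ≤ θ ∧ |T.ell d 0 σ - S.ell d 0 σ| ≤ θ ∧
        |T.ell d 1 σ - S.ell d 1 σ| ≤ θ := by
  have tr := Tr.trapped h hS h0 h1 hq
  obtain ⟨η, hη, η1, η2⟩ : ∃ η : ℝ, 0 < η ∧ η ≤ 1 ∧ η ≤ θ / (12 * 10 ^ 18) :=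
    ⟨min 1 (θ / (12 * 10 ^ 18)), by positivity, min_le_left _ _, min_le_right _ _⟩
  obtain ⟨m, hm, m1, m2⟩ : ∃ m : ℝ, 0 < m ∧ m ≤ η ^ 2 / 10 ∧
      m ≤ θ / (4 * 10 ^ 6) / (1 + θ⁻¹) :=
    ⟨min (η ^ 2 / 10) (θ / (4 * 10 ^ 6) / (1 + θ⁻¹)), by positivity, min_le_left _ _,
      min_le_right _ _⟩
  obtain ⟨ν, hν, H⟩ := diff_small h hS tr hm
  refine ⟨ν, hν, fun T hT hN σ hσ => ?_⟩
  have a1 := H T hT hN σ hσ
  have a2 := (tr σ hσ).1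
  have el : ∀ k ≤ 1, |T.ell d k σ - S.ell d k σ| ≤ η ∧ |S.ell d k σ| ≤ 1 := by
    intro k hk
    have b1 := (T.sub S).ell_sq h hk hσ.1
    have b2 := S.ell_sq h hk hσ.1
    rw [T.ell_sub h.pos S k hσ.1] at b1
    exact ⟨abs_le_of_sq_le_sq (by linarith) hη.le,
      abs_le_of_sq_le_sq (by linarith) zero_le_one⟩
  obtain ⟨e0, s0⟩ := el 0 (by norm_num)
  obtain ⟨e1, s1⟩ := el 1 le_rfl
  have hηθ : η ≤ θ := by linarith
  refine ⟨?_, e0.trans hηθ, e1.trans hηθ⟩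
  have c0 := abs_le.1 (sq_diff s0 e0 η1)
  have c1 := abs_le.1 (sq_diff s1 e1 η1)
  have c2 := T.Y_sub h S hσ.1 hθ
  have c3 : θ * S.N σ ≤ θ * (1 / 10 ^ 81) := mul_le_mul_of_nonneg_left a2 hθ.le
  have c4 : (1 + θ⁻¹) * (T.sub S).N σ ≤ θ / (4 * 10 ^ 6) := by
    rw [mul_comm, ← le_div_iff₀ (by positivity)]
    exact a1.trans m2
  have c5 : |T.Y d σ - S.Y d σ| ≤ θ / 2 := by linarith
  have c6 := abs_le.1 c5
  unfold Tr.Q
  rw [abs_le]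
  constructor <;> linarith

end Vale.Agent.P264
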