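import Vale.Agent.P264.SolTr
import Vale.Agent.P264.TrapB
import Vale.Agent.P264.Shoot
import Vale.Agent.P264.Start
import Vale.Agent.P264.NearB
import Vale.Agent.P264.CertMain

/-! The one-dimensional equation has smooth initial data without a global solution. -/

open scoped ContDiff
open Set

noncomputable section

namespace Vale.Agent.P264

open Fl

theorem oneD_form {p q r s u v : ℝ} (hp : |p - 1| ≤ 1 / 10) (hq : |q - 0| ≤ 1 / 10)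
    (hr : |r - 0| ≤ 1 / 10) (hs : |s - 1| ≤ 1 / 10) :
    4 / 5 * (u ^ 2 + v ^ 2) ≤ u * (p * u + q * v) + v * (r * u + s * v) ∧
      16 / 25 * (u ^ 2 + v ^ 2) ≤ (p * u + q * v) ^ 2 + (r * u + s * v) ^ 2 := by
  rw [abs_le] at hp hq hr hs
  have h1 : 4 / 5 * (u ^ 2 + v ^ 2) ≤ u * (p * u + q * v) + v * (r * u + s * v) := by
    have a1 : 0 ≤ (p - 9 / 10) * u ^ 2 := mul_nonneg (by linarith [hp.1]) (sq_nonneg u)
    have a2 : 0 ≤ (s - 9 / 10) * v ^ 2 := mul_nonneg (by linarith [hs.1]) (sq_nonneg v)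
    have a3 : 0 ≤ (1 / 5 + (q + r)) * (u + v) ^ 2 :=
      mul_nonneg (by linarith [hq.1, hr.1]) (sq_nonneg _)
    have a4 : 0 ≤ (1 / 5 - (q + r)) * (u - v) ^ 2 :=
      mul_nonneg (by linarith [hq.2, hr.2]) (sq_nonneg _)
    nlinarith
  refine ⟨h1, ?_⟩
  nlinarith [sq_nonneg (p * u + q * v - 4 / 5 * u), sq_nonneg (r * u + s * v - 4 / 5 * v)]

theorem oneD_sq (b : ℝ × ℝ) : ‖b‖ ^ 2 ≤ b.1 ^ 2 + b.2 ^ 2 := by
  rw [Prod.norm_def, Real.norm_eq_abs, Real.norm_eq_abs]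
  rcases le_total |b.1| |b.2| with h | h
  · rw [max_eq_right h, sq_abs]; nlinarith [sq_nonneg b.1]
  · rw [max_eq_left h, sq_abs]; nlinarith [sq_nonneg b.2]

theorem oneD_tr {l0 : ℝ} {d : Data} (h : d.Good l0)
    (H : ∀ g0 : ℝ → ℝ, (∀ τ ∈ Icc (0 : ℝ) 1, ContDiffAt ℝ ∞ g0 τ) →
      (∀ τ ∈ Icc (0 : ℝ) 1, 0 < 1 + τ * (1 - τ) * g0 τ) →
      ∃ g, Sol g ∧ ∀ τ ∈ Icc (0 : ℝ) 1, g 0 0 τ = g0 τ)
    (b : ℝ × ℝ) (hb : ‖b‖ ≤ 1 / 10 ^ 61) :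
    ∃ T : Tr l0, T.IsSol d ∧ ∀ τ ∈ Icc (0 : ℝ) 1, T.G 0 0 τ = evc l0 τ (d.ini b) := by
  have hl := h.pos
  obtain ⟨g, hg, hg0⟩ := H (fun τ => evc l0 τ (d.ini b + d.Gs) / l0)
    (fun τ hτ => (evc_contDiffAt _ hl hτ).div_const l0) (fun τ hτ => by
      have h1 := chi_eq d hl hτ
      have h2 := ini_om h b hτ
      have h3 := h.bd (d.chi - c (21 / 20), 19 / 20) (by simp [Data.bounds]) l0 ⟨hl, le_rfl⟩ τ hτ
      have h4 : evc l0 τ (d.chi - c (21 / 20)) = evc l0 τ d.chi - 21 / 20 := by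
        simp [c, evc, ev]
      simp only [h4] at h3
      rw [abs_le] at h2 h3
      have h5 : 1 + τ * (1 - τ) * (evc l0 τ (d.ini b + d.Gs) / l0) =
          evc l0 τ d.chi + τ * (1 - τ) / l0 * evc l0 τ (d.ini b) := by
        rw [h1, map_add]; ring
      rw [h5]
      have h6 : (10 : ℝ) ^ 6 * ‖b‖ ≤ 1 / 100 := by
        have : (10 : ℝ) ^ 6 * ‖b‖ ≤ 10 ^ 6 * (1 / 10 ^ 61) := by gcongr
        exact this.trans (by norm_num)
      linarith [h2.1, h3.1])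
  obtain ⟨T, hT, hT0⟩ := hg.exists_tr d hl
  refine ⟨T, hT, fun τ hτ => ?_⟩
  rw [hT0 τ hτ, hg0 τ hτ, map_add]
  field_simp
  ring

theorem oneD : ¬ ∀ g0 : ℝ → ℝ, (∀ τ ∈ Icc (0 : ℝ) 1, ContDiffAt ℝ ∞ g0 τ) →
    (∀ τ ∈ Icc (0 : ℝ) 1, 0 < 1 + τ * (1 - τ) * g0 τ) →
    ∃ g, Sol g ∧ ∀ τ ∈ Icc (0 : ℝ) 1, g 0 0 τ = g0 τ := by
  intro H
  obtain ⟨d, hc⟩ := exists_cert
  obtain ⟨l0, h⟩ := hc.good
  have hl := h.pos
  have key := oneD_tr h H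
  have : Nonempty (Tr l0) := ⟨(key 0 (by simp)).choose⟩
  choose! T hT hT0 using key
  obtain ⟨L, hL, hLe⟩ := ini_ell h
  have hN' : ∀ b, ‖b‖ ≤ 1 / 10 ^ 61 → (T b).N 0 ≤ 3 * 10 ^ 10 * ‖b‖ ^ 2 := fun b hb =>
    ini_N h (T b) b (hT0 b hb)
  have hN : ∀ b, ‖b‖ ≤ 1 / 10 ^ 61 → (T b).N 0 ≤ 3 / 10 ^ 112 := fun b hb => by
    refine (hN' b hb).trans ?_
    have : (3 : ℝ) * 10 ^ 10 * ‖b‖ ^ 2 ≤ 3 * 10 ^ 10 * (1 / 10 ^ 61) ^ 2 := by gcongr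
    exact this.trans (by norm_num)
  have hom : ∀ b, ‖b‖ ≤ 1 / 10 ^ 61 → ∀ τ ∈ Icc (0 : ℝ) 1, |(T b).om 0 τ| ≤ 1 / 10 ^ 50 :=
    fun b hb τ hτ => by
      rw [Tr.om, lam_zero, hT0 b hb τ hτ]
      refine (ini_om h b hτ).trans ?_
      have : (10 : ℝ) ^ 6 * ‖b‖ ≤ 10 ^ 6 * (1 / 10 ^ 61) := by gcongr
      exact this.trans (by norm_num)
  have hsub : ∀ b b', ‖b‖ ≤ 1 / 10 ^ 61 → ‖b'‖ ≤ 1 / 10 ^ 61 →
      ((T b').sub (T b)).N 0 ≤ 3 * 10 ^ 10 * ‖b' - b‖ ^ 2 := fun b b' hb hb' => by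
    refine ini_N h _ _ fun τ hτ => ?_
    rw [ini_sub, map_sub, ← hT0 b hb τ hτ, ← hT0 b' hb' τ hτ]
    rfl
  have hell : ∀ b, ‖b‖ ≤ 1 / 10 ^ 61 → (T b).ell d 0 0 = L 0 0 * b.1 + L 0 1 * b.2 ∧
      (T b).ell d 1 0 = L 1 0 * b.1 + L 1 1 * b.2 := fun b hb =>
    ⟨hLe _ b (hT0 b hb) 0 zero_le_one, hLe _ b (hT0 b hb) 1 le_rfl⟩
  have hc0 : ContinuousOn (fun b => (T b).ell d 0 0) {b : ℝ × ℝ | ‖b‖ ≤ 1 / 10 ^ 61} :=
    ContinuousOn.congr (f := fun b : ℝ × ℝ => L 0 0 * b.1 + L 0 1 * b.2) (by fun_prop)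
      fun b hb => (hell b hb).1
  have hc1 : ContinuousOn (fun b => (T b).ell d 1 0) {b : ℝ × ℝ | ‖b‖ ≤ 1 / 10 ^ 61} :=
    ContinuousOn.congr (f := fun b : ℝ × ℝ => L 1 0 * b.1 + L 1 1 * b.2) (by fun_prop)
      fun b hb => (hell b hb).2
  have hcY : ContinuousOn (fun b => (T b).Y d 0) {b : ℝ × ℝ | ‖b‖ ≤ 1 / 10 ^ 61} := by
    refine (LipschitzOnWith.of_dist_le_mul (K := (10 : NNReal) ^ 17) fun b' hb' b hb => ?_).continuousOn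
    rw [Real.dist_eq, dist_eq_norm]
    rcases (norm_nonneg (b' - b)).eq_or_lt with h0 | h0
    · have : b' = b := sub_eq_zero.1 (norm_eq_zero.1 h0.symm)
      subst this
      simp
    · have h1 := (T b').Y_sub h (T b) le_rfl h0
      have h2 := hsub b b' hb hb'
      have h3 : (T b).N 0 ≤ 1 := (hN b hb).trans (by norm_num)
      have h4 : ‖b' - b‖ ≤ 1 := by
        have hb1 : ‖b‖ ≤ 1 / 10 ^ 61 := hb
        have hb2 : ‖b'‖ ≤ 1 / 10 ^ 61 := hb'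
        have := norm_sub_le b' b
        have h5 : (1 : ℝ) / 10 ^ 61 ≤ 1 / 2 := by norm_num
        linarith
      set θ := ‖b' - b‖
      have h5 : (1 + θ⁻¹) * ((T b').sub (T b)).N 0 ≤ (1 + θ⁻¹) * (3 * 10 ^ 10 * θ ^ 2) := by
        gcongr
      have h6 : (1 + θ⁻¹) * (3 * 10 ^ 10 * θ ^ 2) = 3 * 10 ^ 10 * (θ * θ + θ) := by
        field_simp
      have h7 : θ * (T b).N 0 ≤ θ := mul_le_of_le_one_right h0.le h3
      have h8 : θ * θ ≤ θ := mul_le_of_le_one_right h0.le h4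
      push_cast
      linarith
  refine shoot (R := 1 / 10 ^ 61) (ε := 1 / 10 ^ 105) (by positivity) (by positivity)
    (fun b => (T b).Q d) (fun b σ => ((T b).ell d 0 σ, (T b).ell d 1 σ))
    (fun b _ => (T b).Q_cont hl)
    (fun b _ => ((T b).ell_cont d hl 0).prodMk ((T b).ell_cont d hl 1))
    (fun b hb => Tr.exit h (hT b hb) (hN b hb) (hom b hb))
    (fun b _ σ hσ hq => Tr.ell_ne h (T b) hσ (lt_of_le_of_lt hq (by norm_num)))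
    (fun b hb σ hσ h1 h2 ν hν => Tr.trans h (hT b hb) (hN b hb) (hom b hb) hσ h1 h2 hν)
    (fun b hb σ1 h1 θ hθ => ?_) ?_ (hc0.prodMk hc1) (fun b hb => ?_)
  · obtain ⟨ν, hν, hd⟩ := Tr.depend h (hT b hb) (hN b hb) (hom b hb) (σ1 := σ1)
      (fun s hs => by
        have := h1 s hs
        have h2 : (2 : ℝ) * (1 / 10 ^ 105) = 2 / 10 ^ 105 := by ring
        rwa [h2] at this) hθ
    refine ⟨min 1 (ν / (3 * 10 ^ 10)), by positivity, fun b' hb' hbb s hs => ?_⟩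
    have h2 : ‖b' - b‖ ≤ 1 := hbb.trans (min_le_left _ _)
    have h3 : ‖b' - b‖ ≤ ν / (3 * 10 ^ 10) := hbb.trans (min_le_right _ _)
    have h4 : ((T b').sub (T b)).N 0 ≤ ν := by
      refine (hsub b b' hb hb').trans ?_
      rw [le_div_iff₀ (by positivity)] at h3
      have h5 : ‖b' - b‖ * ‖b' - b‖ ≤ ‖b' - b‖ := mul_le_of_le_one_right (norm_nonneg _) h2
      nlinarith
    obtain ⟨a1, a2, a3⟩ := hd (T b') (hT b' hb') h4 s hs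
    refine ⟨a1, ?_⟩
    rw [Prod.norm_def]
    exact max_le a2 a3
  · exact hcY.sub (((hc0.pow 2).add (hc1.pow 2)).const_mul _)
  · have hb' : ‖b‖ ≤ 1 / 10 ^ 61 := hb.le
    obtain ⟨e0, e1⟩ := hell b hb'
    have l00 := hL 0 zero_le_one 0 zero_le_one
    have l01 := hL 0 zero_le_one 1 le_rfl
    have l10 := hL 1 le_rfl 0 zero_le_one
    have l11 := hL 1 le_rfl 1 le_rfl
    rw [if_pos rfl] at l00 l11
    rw [if_neg (by norm_num)] at l01 l10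
    obtain ⟨f1, f2⟩ := oneD_form (u := b.1) (v := b.2) l00 l01 l10 l11
    have hs := oneD_sq b
    have hY := (abs_le.1 ((T b).Y_abs h le_rfl)).2
    have hn := hN b hb'
    rw [hb] at hs
    have hs' : (1 : ℝ) / 10 ^ 122 ≤ b.1 ^ 2 + b.2 ^ 2 := le_trans (by norm_num) hs
    constructor
    · show (T b).Y d 0 - 10 ^ 18 * ((T b).ell d 0 0 ^ 2 + (T b).ell d 1 0 ^ 2) ≤ _
      rw [e0, e1]
      linarith
    · show 0 < b.1 * (T b).ell d 0 0 + b.2 * (T b).ell d 1 0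
      rw [e0, e1]
      have : (0 : ℝ) < 1 / 10 ^ 122 := by positivity
      linarith

end Vale.Agent.P264
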