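import Vale.Agent.P264.Ring

/-! Complex Hessians of radial functions. -/

open scoped ContDiff ComplexConjugate Topology ComplexOrder
open Set Complex Matrix

noncomputable section

namespace Vale.Agent.P264

/-- the Euler derivative `q d/dq` -/
def eul (P : ℝ → ℝ) (q : ℝ) : ℝ := q * deriv P q

variable {m : ℕ}

theorem rad_pos {w : Fin m → ℂ} (hw : w ≠ 0) : 0 < ∑ a, ‖w a‖ ^ 2 := by
  obtain ⟨a, ha⟩ := Function.ne_iff.1 hw
  exact Finset.sum_pos' (fun _ _ => by positivity)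
    ⟨a, Finset.mem_univ a, pow_pos (norm_pos_iff.2 ha) 2⟩

theorem rad_dot (w : Fin m → ℂ) : w ⬝ᵥ (fun a => conj (w a)) = ((∑ a, ‖w a‖ ^ 2 : ℝ) : ℂ) := by
  simp [dotProduct, mul_conj']

theorem radial_ddbar {P : ℝ → ℝ} (hP : ContDiffOn ℝ ∞ P (Ioi 0)) {Φ : (Fin m → ℂ) → ℝ}
    (hΦ : ∀ w, w ≠ 0 → Φ w = P (∑ a, ‖w a‖ ^ 2)) {w : Fin m → ℂ} (hw : w ≠ 0) (a b : Fin m) :
    ddbar Φ w a b = (if a = b then ((deriv P (∑ a, ‖w a‖ ^ 2) : ℝ) : ℂ) else 0) +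
      (deriv (deriv P) (∑ a, ‖w a‖ ^ 2) : ℝ) * conj (w a) * w b := by
  set n : Sm m := ∑ a, Sm.z a * Sm.zb a with hn
  have e1 : ∀ p : Om m, (Sm.ev p n).re = ∑ a, ‖p.1.2 a‖ ^ 2 := fun p => by
    rw [← ofReal_re (∑ a, _), ← rad_dot]
    simp [hn, dotProduct]
  have c1 : Sm.cj n = n := by simp [hn, Sm.zb, Sm.cj_cj, mul_comm]
  have d1 : Sm.d a n = Sm.zb a := by simp [hn, Sm.d_z, Sm.d_zb]
  have d2 : Sm.db b n = Sm.z b := by simp [hn, Sm.db_z, Sm.db_zb]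
  have h : ∀ p, ContDiffAt ℝ ∞ P (Sm.ev p n).re := fun p =>
    hP.contDiffAt (Ioi_mem_nhds (e1 p ▸ rad_pos p.2))
  have hp : ((0, w) : VV m) ∈ Om m := hw
  rw [ddbar_slice (Sm.compR P n h) 0 hw ((eventually_ne_nhds hw).mono fun W hW => by
    rw [Sm.val_eq _ (show ((0, W) : VV m) ∈ Om m from hW), Sm.ev_compR, e1, hΦ W hW]),
    Sm.db_compR _ c1, d2, Derivation.leibniz, Sm.d_compR _ c1, d1, Sm.d_z, Sm.val_eq _ hp]
  simp only [smul_eq_mul, map_add, map_mul, Sm.ev_compR, e1, Sm.ev_z, Sm.ev_zb]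
  split_ifs <;> simp [mul_comm]

theorem rad_mat {P : ℝ → ℝ} (hP : ContDiffOn ℝ ∞ P (Ioi 0)) {Φ : (Fin m → ℂ) → ℝ}
    (hΦ : ∀ w, w ≠ 0 → Φ w = P (∑ a, ‖w a‖ ^ 2)) {w : Fin m → ℂ} (hw : w ≠ 0) :
    ddbar Φ w = ((deriv P (∑ a, ‖w a‖ ^ 2) : ℝ) : ℂ) • (1 : Matrix _ _ ℂ) +
      ((deriv (deriv P) (∑ a, ‖w a‖ ^ 2) : ℝ) : ℂ) • vecMulVec (fun a => conj (w a)) w := by
  ext a b
  rw [radial_ddbar hP hΦ hw]
  simp [one_apply, vecMulVec_apply, mul_assoc]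

theorem rad_deriv {P : ℝ → ℝ} (hP : ContDiffOn ℝ ∞ P (Ioi 0)) :
    ContDiffOn ℝ ∞ (deriv P) (Ioi 0) := hP.deriv_of_isOpen isOpen_Ioi (by simp)

theorem rad_has {P : ℝ → ℝ} (hP : ContDiffOn ℝ ∞ P (Ioi 0)) {q : ℝ} (hq : 0 < q) :
    HasDerivAt P (deriv P q) q :=
  ((hP.contDiffAt (Ioi_mem_nhds hq)).differentiableAt (by simp)).hasDerivAt

theorem rad_eul {P : ℝ → ℝ} (hP : ContDiffOn ℝ ∞ P (Ioi 0)) : ContDiffOn ℝ ∞ (eul P) (Ioi 0) :=
  contDiffOn_id.mul (rad_deriv hP)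

theorem rad_eul2 {P : ℝ → ℝ} (hP : ContDiffOn ℝ ∞ P (Ioi 0)) {q : ℝ} (hq : 0 < q) :
    eul (eul P) q = q * (deriv P q + deriv (deriv P) q * q) := by
  have := ((hasDerivAt_id' q).mul (rad_has (rad_deriv hP) hq)).deriv
  rw [one_mul, mul_comm q (deriv _ _)] at this
  exact congrArg (q * ·) this

theorem radial_pos {P : ℝ → ℝ} (hP : ContDiffOn ℝ ∞ P (Ioi 0)) {Φ : (Fin (m + 2) → ℂ) → ℝ}
    (hΦ : ∀ w, w ≠ 0 → Φ w = P (∑ a, ‖w a‖ ^ 2)) (hpos : ∀ w, w ≠ 0 → (ddbar Φ w).PosDef)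
    {q : ℝ} (hq : 0 < q) : 0 < eul P q ∧ 0 < eul (eul P) q := by
  set w : Fin (m + 2) → ℂ := Pi.single 0 (√q : ℝ) with hw
  have w0 : w ≠ 0 := fun h => (Real.sqrt_pos.2 hq).ne' (by simpa [hw] using congrFun h 0)
  have w1 : ∑ a, ‖w a‖ ^ 2 = q := by
    simp [hw, Fin.sum_univ_succ, Real.sq_sqrt hq.le]
  have h0 := (hpos w w0).diag_pos (i := 0)
  have h1 := (hpos w w0).diag_pos (i := 1)
  rw [radial_ddbar hP hΦ w0, w1, if_pos rfl] at h0 h1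
  rw [hw, Pi.single_eq_same, conj_ofReal, mul_assoc, ← ofReal_mul, Real.mul_self_sqrt hq.le,
    ← ofReal_mul, ← ofReal_add, zero_lt_real] at h0
  rw [hw, Pi.single_eq_of_ne one_ne_zero, mul_zero, add_zero, zero_lt_real] at h1
  exact ⟨mul_pos hq h1, rad_eul2 hP hq ▸ mul_pos hq h0⟩

theorem rad_det {A B : ℂ} (hA : A ≠ 0) (u v : Fin (m + 2) → ℂ) :
    (A • (1 : Matrix _ _ ℂ) + B • vecMulVec u v).det = A ^ (m + 1) * (A + B * (v ⬝ᵥ u)) := by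
  rw [show A • (1 : Matrix _ _ ℂ) + B • vecMulVec u v = A • (1 + vecMulVec ((B / A) • u) v) by
    rw [smul_vecMulVec, smul_add, smul_smul, mul_div_cancel₀ _ hA], det_smul, vecMulVec_eq Unit,
    det_one_add_replicateCol_mul_replicateRow, dotProduct_smul, Fintype.card_fin, smul_eq_mul]
  field_simp
  ring

theorem rad_tr {A B C D q : ℂ} (hA : A ≠ 0) {u v : Fin (m + 2) → ℂ} (hq : v ⬝ᵥ u = q)
    (hB : A + B * q ≠ 0) : ((A • (1 : Matrix _ _ ℂ) + B • vecMulVec u v)⁻¹ *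
      -(C • (1 : Matrix _ _ ℂ) + D • vecMulVec u v)).trace =
      -((m + 1) * C / A) - (C + D * q) / (A + B * q) := by
  have h1 : vecMulVec u v * vecMulVec u v = q • vecMulVec u v := by
    rw [vecMulVec_mul_vecMulVec, hq, vecMulVec_smul]
  have h2 : (vecMulVec u v).trace = q := by rw [trace_vecMulVec, dotProduct_comm, hq]
  generalize vecMulVec u v = V at h1 h2
  rw [inv_eq_right_inv (B := A⁻¹ • 1 + (-(B / (A * (A + B * q)))) • V) (by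
    simp only [mul_add, add_mul, mul_smul_comm, smul_mul_assoc, mul_one, one_mul, h1]
    match_scalars <;> (field_simp; try ring))]
  simp only [mul_neg, mul_add, add_mul, mul_smul_comm, smul_mul_assoc, mul_one, one_mul, h1,
    trace_neg, trace_add, trace_smul, trace_one, h2, smul_eq_mul, Fintype.card_fin]
  push_cast
  field_simp
  ring

/-- Scalar curvature of a radial metric. -/
theorem radial_scal {P : ℝ → ℝ} (hP : ContDiffOn ℝ ∞ P (Ioi 0)) {Φ : (Fin (m + 2) → ℂ) → ℝ}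
    (hΦ : ∀ w, w ≠ 0 → Φ w = P (∑ a, ‖w a‖ ^ 2)) (hpos : ∀ w, w ≠ 0 → (ddbar Φ w).PosDef)
    {w : Fin (m + 2) → ℂ} (hw : w ≠ 0) {R : ℝ → ℝ}
    (hR : ∀ q, 0 < q → R q = (m + 1) * eul (eul P) q / eul P q +
      eul (eul (eul P)) q / eul (eul P) q - (m + 2)) :
    ((ddbar Φ w)⁻¹ * -ddbar (fun v => Real.log (ddbar Φ v).det.re) w).trace.re =
      -((m + 1) * R (∑ a, ‖w a‖ ^ 2) / eul P (∑ a, ‖w a‖ ^ 2)) -
        eul R (∑ a, ‖w a‖ ^ 2) / eul (eul P) (∑ a, ‖w a‖ ^ 2) := by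
  have p1 : ∀ q, 0 < q → 0 < eul P q := fun q hq => (radial_pos hP hΦ hpos hq).1
  have p2 : ∀ q, 0 < q → 0 < eul (eul P) q := fun q hq => (radial_pos hP hΦ hpos hq).2
  have p3 : ∀ q, 0 < q → 0 < deriv P q := fun q hq => (mul_pos_iff_of_pos_left hq).1 (p1 q hq)
  have p4 : ∀ q, 0 < q → 0 < deriv P q + deriv (deriv P) q * q := fun q hq =>
    (mul_pos_iff_of_pos_left hq).1 (rad_eul2 hP hq ▸ p2 q hq)
  set S : ℝ → ℝ := fun q => (m + 1) * Real.log (eul P q) + Real.log (eul (eul P) q) -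
    (m + 2) * Real.log q with hS
  have s1 : ContDiffOn ℝ ∞ S (Ioi 0) :=
    ((contDiffOn_const.mul ((rad_eul hP).log fun q hq => (p1 q hq).ne')).add
      ((rad_eul (rad_eul hP)).log fun q hq => (p2 q hq).ne')).sub
      (contDiffOn_const.mul (contDiffOn_id.log fun q hq => ne_of_gt hq))
  have s2 : ∀ q, 0 < q → R q = eul S q := fun q hq => by
    have := (((((rad_has (rad_eul hP) hq).log (p1 q hq).ne').const_mul (m + 1 : ℝ)).add
      ((rad_has (rad_eul (rad_eul hP)) hq).log (p2 q hq).ne')).sub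
      ((Real.hasDerivAt_log hq.ne').const_mul (m + 2 : ℝ))).deriv
    rw [hR q hq, eul.eq_1 S, show deriv S q = _ from this, eul.eq_1 (eul (eul P)),
      mul_div_assoc _ (eul (eul P) q), div_eq_mul_inv (eul (eul P) q) (eul P q),
      show eul (eul P) q * (eul P q)⁻¹ = q * deriv (eul P) q * (eul P q)⁻¹ from rfl]
    field_simp
  have s3 : ∀ v, v ≠ 0 → Real.log (ddbar Φ v).det.re = S (∑ a, ‖v a‖ ^ 2) := fun v hv => by
    have hq := rad_pos hv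
    rw [rad_mat hP hΦ hv, rad_det (ofReal_ne_zero.2 (p3 _ hq).ne'), rad_dot, hS]
    norm_cast
    beta_reduce
    rw [rad_eul2 hP hq, eul, Real.log_mul (pow_pos (p3 _ hq) _).ne' (p4 _ hq).ne', Real.log_pow,
      Real.log_mul hq.ne' (p3 _ hq).ne', Real.log_mul hq.ne' (p4 _ hq).ne']
    push_cast
    ring
  have hq := rad_pos hw
  have s4 : eul R (∑ a, ‖w a‖ ^ 2) = eul (eul S) (∑ a, ‖w a‖ ^ 2) := congrArg (_ * ·)
    (Filter.EventuallyEq.deriv_eq (Filter.eventually_of_mem (Ioi_mem_nhds hq) s2))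
  rw [rad_mat hP hΦ hw, rad_mat s1 s3 hw, rad_tr (ofReal_ne_zero.2 (p3 _ hq).ne') (rad_dot w)
    (by exact_mod_cast (p4 _ hq).ne'), s4, s2 _ hq, rad_eul2 hP hq, rad_eul2 s1 hq, eul, eul,
    mul_div_mul_left _ _ hq.ne', mul_left_comm, mul_div_mul_left _ _ hq.ne']
  norm_cast

theorem rad_line {E : Type*} [NormedAddCommGroup E] [NormedSpace ℝ E] {Φ : E → ℝ}
    (hΦ : ContDiffAt ℝ 2 Φ 0) (e : E) :
    deriv (deriv fun x : ℝ => Φ (x • e)) 0 = fderiv ℝ (fderiv ℝ Φ) 0 e e := by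
  have l1 : ∀ x : ℝ, HasDerivAt (fun x : ℝ => x • e) e x := fun x => by
    simpa using (hasDerivAt_id' x).smul_const e
  have l2 : Filter.Tendsto (fun x : ℝ => x • e) (𝓝 0) (𝓝 0) := by
    simpa using (l1 0).continuousAt.tendsto
  have h1 : deriv (fun x : ℝ => Φ (x • e)) =ᶠ[𝓝 0] fun x => fderiv ℝ Φ (x • e) e :=
    (l2.eventually (hΦ.eventually (by simp))).mono fun x hx =>
      ((hx.differentiableAt (by simp)).hasFDerivAt.comp_hasDerivAt x (l1 x)).deriv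
  have h2 := ((hΦ.fderiv_right (m := 1) (by norm_num)).differentiableAt (by simp)).hasFDerivAt
  have h3 := (h2.comp_hasDerivAt_of_eq 0 (l1 0) (zero_smul ℝ e).symm).clm_apply
    (hasDerivAt_const 0 e)
  rw [h1.deriv_eq]
  simpa using h3.deriv

/-- A diagonal entry of the complex Hessian at the origin. -/
theorem ddbar_diag_zero {Φ : (Fin m → ℂ) → ℝ} (hΦ : ContDiffAt ℝ 2 Φ 0) (a : Fin m) {p : ℝ → ℝ}
    (h1 : ∀ x : ℝ, Φ (Pi.single a (x : ℂ)) = p x) (h2 : ∀ x : ℝ, Φ (Pi.single a (x * I)) = p x) :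
    ddbar Φ 0 a a = ((deriv (deriv p) 0 / 2 : ℝ) : ℂ) := by
  have e1 := rad_line hΦ (Pi.single a 1)
  have e2 := rad_line hΦ (Pi.single a I)
  simp only [← Pi.single_smul', real_smul, mul_one, h1, h2] at e1 e2
  have e3 := (hΦ.isSymmSndFDerivAt (by simp)).eq (Pi.single a 1) (Pi.single a I)
  have e4 : dzb a (fun w => (Φ w : ℂ)) =ᶠ[𝓝 0] fun w =>
      ((fderiv ℝ Φ w (Pi.single a 1) : ℝ) + I * (fderiv ℝ Φ w (Pi.single a I) : ℝ)) / 2 :=
    (hΦ.eventually (by simp)).mono fun w hw => by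
      rw [dzb, show fderiv ℝ (fun w => (Φ w : ℂ)) w = _ from
        (ofRealCLM.hasFDerivAt.comp w (hw.differentiableAt (by simp)).hasFDerivAt).fderiv]
      rfl
  have e5 := ((hΦ.fderiv_right (m := 1) (by norm_num)).differentiableAt (by simp)).hasFDerivAt
  have e6 := fun e => ofRealCLM.hasFDerivAt.comp 0 (e5.clm_apply (hasFDerivAt_const e 0))
  have e7 := (((e6 (Pi.single a 1)).add ((e6 (Pi.single a I)).const_mul I)).mul_const
    (2⁻¹ : ℂ)).fderiv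
  rw [ddbar, of_apply, dz_congr e4, dz]
  refine Eq.trans (congrArg (fun L : (Fin m → ℂ) →L[ℝ] ℂ =>
    (L (Pi.single a 1) - I * L (Pi.single a I)) / 2) e7) ?_
  simp [← e1, ← e2, e3]
  linear_combination (-(deriv (deriv p) 0 : ℝ) / 2 : ℂ) * I_sq

end Vale.Agent.P264
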