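import Vale.Agent.P264.EvDefs

/-! Passing to the moment variable. -/

open scoped ContDiff Topology Real
open Set

noncomputable section

namespace Vale.Agent.P264

theorem redB_jet {R : Type} [CommRing R] [Algebra ℝ R] (D : Derivation ℝ R R) {t : R}
    (ht : D t = 1) (h : R) :
    D (D (t ^ 2 * D (D ((1 - t) ^ 2 * h)) + 22 * t * D ((1 - t) ^ 2 * h) +
      110 * ((1 - t) ^ 2 * h))) =
    t ^ 2 * (1 - t) ^ 2 * D (D (D (D h))) + (26 * t * (1 - t) ^ 2 - 8 * t ^ 2 * (1 - t)) *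
      D (D (D h)) + (12 * t ^ 2 - 156 * t * (1 - t) + 156 * (1 - t) ^ 2) * D (D h) +
      (156 * t - 624 * (1 - t)) * D h + 312 * h := by
  have h22 : D 22 = 0 := D.map_natCast 22
  have h110 : D 110 = 0 := D.map_natCast 110
  simp only [sq, map_add, map_sub, Derivation.leibniz, smul_eq_mul, ht, h22, h110,
    Derivation.map_one_eq_zero, map_zero, mul_zero, zero_sub, map_neg, mul_one, add_zero,
    mul_neg, neg_zero]
  ring

namespace Ev

theorem redB_inv {f : Ev} (hf : ∀ p, 0 < ev p f) : Ring.inverse f * f = 1 :=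
  Ring.inverse_mul_cancel _ (isUnit_of_ne fun s θ _ => (hf (s, θ)).ne')

theorem redB_dtau (F f : Ev) : dtau F f = Ring.inverse (dX (tau F)) * dX f := rfl

theorem redB_del (F f : Ev) : del F f = ds f - ds (tau F) * dtau F f := rfl

theorem redB_dX {F : Ev} {c : ℝ} (h : Rad F c) (f : Ev) : dX f = dX (tau F) * dtau F f := by
  rw [redB_dtau, ← mul_assoc, mul_comm (dX (tau F)), redB_inv h.posC, one_mul]

theorem redB_one {F : Ev} {c : ℝ} (h : Rad F c) : dtau F (tau F) = 1 := redB_inv h.posC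

theorem redB_rho (F : Ev) : tau F * (1 - tau F) = X * (1 - X) * (qA F * qB F) := by
  simp only [tau, qA, qB]
  ring

theorem redB_T {F : Ev} {c : ℝ} (h : Rad F c) :
    dX (tau F) = qA F * qB F * (1 + tau F * (1 - tau F) * gg F) := by
  have h1 : Ring.inverse ((qA F * qB F) ^ 2) * (qA F * qB F) ^ 2 = 1 :=
    redB_inv fun p => by
      rw [map_pow, map_mul]
      exact pow_pos (mul_pos (h.posA p) (h.posB p)) 2
  have h2 : dX (tau F) = qA F * qB F + X * (1 - X) * (dX (dX F) + dX F ^ 2) := by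
    simp only [tau, qA, qB, map_add, map_sub, Derivation.leibniz, smul_eq_mul, dX_X,
      Derivation.map_one_eq_zero]
    ring
  rw [h2, redB_rho, gg]
  linear_combination (-(X * (1 - X) * (dX (dX F) + dX F ^ 2))) * h1

theorem redB_ring {F : Ev} {c : ℝ} (h : Rad F c) :
    (tau F * (1 - tau F)) ^ 2 * del F (gg F) = (tau F * (1 - tau F)) ^ 2 *
      -(2 * S * ((1 + tau F * (1 - tau F) * gg F) ^ 2 * dtau F (dtau F (zop F (gg F))))) := by
  obtain ⟨Θ, hΘ⟩ : ∃ Θ, Θ = X * (1 - X) * dX (tau F) := ⟨_, rfl⟩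
  have h0 : Θ = tau F * (1 - tau F) * (1 + tau F * (1 - tau F) * gg F) := by
    rw [hΘ, redB_T h, ← mul_assoc, ← redB_rho]
  have h1 : ∀ f, ds (X * (1 - X) * dX f) = Θ * dtau F (ds f) := fun f => by
    simp only [Derivation.leibniz, map_sub, ds_X, Derivation.map_one_eq_zero, smul_eq_mul,
      ds_dX]
    rw [redB_dX h (ds f), hΘ]
    ring
  have hS : dtau F S = 0 := by rw [redB_dtau, dX_S, mul_zero]
  have h2' : dtau F 2 = 0 := (dtau F).map_natCast 2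
  have h2 : ds (tau F) = Θ * -(2 * S * dtau F (zop F (gg F))) := by
    have h3 : ds (tau F) = ds X + ds (X * (1 - X) * dX F) := map_add ds _ _
    rw [h3, h1, h.eq, ds_X]
    simp only [Derivation.leibniz, map_sub, Derivation.map_algebraMap, smul_eq_mul, hS, h2']
    ring
  have h3 : del F Θ = Θ ^ 2 * -(2 * S * dtau F (dtau F (zop F (gg F)))) := by
    have h4 : ds Θ = Θ * dtau F (ds (tau F)) := by
      rw [← h1, ← hΘ]
    rw [redB_del, h4, h2]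
    simp only [Derivation.leibniz, map_neg, smul_eq_mul, hS, h2']
    ring
  have h4 : del F (tau F) = 0 := by rw [redB_del, redB_one h, mul_one, sub_self]
  have h5 : del F Θ = (tau F * (1 - tau F)) ^ 2 * del F (gg F) := by
    rw [h0]
    simp only [Derivation.leibniz, map_sub, map_add, Derivation.map_one_eq_zero, smul_eq_mul, h4]
    ring
  rw [← h5, h3, h0]
  ring

theorem redB_mem {F : Ev} {c : ℝ} (h : Rad F c) (s : ℝ) {θ : ℝ} (hθ : θ ∈ Ioo 0 (π / 2)) :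
    0 < ev (s, θ) (tau F) * (1 - ev (s, θ) (tau F)) := by
  have h1 := congrArg (ev (s, θ)) (redB_rho F)
  simp only [map_mul, map_sub, map_one, ev_X] at h1
  rw [h1, ← Real.cos_sq']
  have h2 : 0 < Real.sin θ := Real.sin_pos_of_pos_of_lt_pi hθ.1 (by linarith [hθ.2, Real.pi_pos])
  have h3 : 0 < Real.cos θ := Real.cos_pos_of_mem_Ioo ⟨by linarith [hθ.1, Real.pi_pos], hθ.2⟩
  exact mul_pos (by positivity) (mul_pos (h.posA _) (h.posB _))

/-- The evolution of `gg`, away from the end points. -/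
theorem Rad.del_gg {F : Ev} {c : ℝ} (h : Rad F c) (s : ℝ) {θ : ℝ} (hθ : θ ∈ Ioo 0 (π / 2)) :
    ev (s, θ) (del F (gg F)) = -(2 * s * ((1 + ev (s, θ) (tau F) * (1 - ev (s, θ) (tau F)) *
      ev (s, θ) (gg F)) ^ 2 * opK (ev (s, θ) (tau F)) fun j => ev (s, θ) ((dtau F)^[j] (gg F)))) := by
  have h1 := congrArg (ev (s, θ)) (redB_ring h)
  rw [zop, redB_jet _ (redB_one h)] at h1
  simp only [map_mul, map_sub, map_add, map_one, map_pow, map_neg, map_ofNat, ev_S] at h1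
  exact mul_left_cancel₀ (pow_pos (redB_mem h s hθ) 2).ne' h1

theorem Rad.chi_pos {F : Ev} {c : ℝ} (h : Rad F c) (p : ℝ × ℝ) :
    0 < 1 + ev p (tau F) * (1 - ev p (tau F)) * ev p (gg F) := by
  have h1 := h.posC p
  rw [redB_T h] at h1
  simp only [map_mul, map_sub, map_add, map_one] at h1
  exact (mul_pos_iff_of_pos_left (mul_pos (h.posA p) (h.posB p))).1 h1

theorem redB_mono {F : Ev} {c : ℝ} (h : Rad F c) (s : ℝ) :
    StrictMonoOn (fun x => ev (s, x) (tau F)) (Icc 0 (π / 2)) := by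
  refine strictMonoOn_of_deriv_pos (convex_Icc _ _) (had_line _ s).continuousOn fun x hx => ?_
  rw [interior_Icc] at hx
  rw [(hasDerivAt_dX (tau F) s x).deriv]
  exact mul_pos (had_sin hx) (h.posC _)

theorem redB_zero (F : Ev) (s : ℝ) : ev (s, 0) (tau F) = 0 := by
  simp [tau]

theorem redB_top (F : Ev) (s : ℝ) : ev (s, π / 2) (tau F) = 1 := by
  simp [tau]

theorem redB_der {F : Ev} {c : ℝ} (h : Rad F c) {θ : ℝ → ℝ → ℝ} {s τ : ℝ}
    (hc : ContinuousAt (fun p : ℝ × ℝ => θ p.1 p.2) (s, τ))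
    (he : ∀ᶠ p : ℝ × ℝ in 𝓝 (s, τ), ev (p.1, θ p.1 p.2) (tau F) = p.2)
    (hm : θ s τ ∈ Ioo 0 (π / 2)) (f : Ev) :
    HasFDerivAt (fun p : ℝ × ℝ => ev (p.1, θ p.1 p.2) f)
      (ev (s, θ s τ) (del F f) • ContinuousLinearMap.fst ℝ ℝ ℝ +
        ev (s, θ s τ) (dtau F f) • ContinuousLinearMap.snd ℝ ℝ ℝ) (s, τ) := by
  obtain ⟨a, ha⟩ : ∃ a, a = ev (s, θ s τ) (ds (tau F)) := ⟨_, rfl⟩
  obtain ⟨b, hb⟩ : ∃ b, b = Real.sin (2 * θ s τ) * ev (s, θ s τ) (dX (tau F)) := ⟨_, rfl⟩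
  have hb0 : b ≠ 0 := hb ▸ (mul_pos (had_sin hm) (h.posC _)).ne'
  let L : (ℝ × ℝ) ≃L[ℝ] ℝ × ℝ := ContinuousLinearEquiv.equivOfInverse
    ((ContinuousLinearMap.fst ℝ ℝ ℝ).prod
      (a • ContinuousLinearMap.fst ℝ ℝ ℝ + b • ContinuousLinearMap.snd ℝ ℝ ℝ))
    ((ContinuousLinearMap.fst ℝ ℝ ℝ).prod
      (b⁻¹ • (ContinuousLinearMap.snd ℝ ℝ ℝ - a • ContinuousLinearMap.fst ℝ ℝ ℝ)))
    (fun v => by
      ext
      · simp
      · simp [hb0])
    (fun v => by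
      ext
      · simp
      · simp [hb0])
  have h1 : HasFDerivAt (fun p : ℝ × ℝ => (p.1, ev p (tau F))) (L : (ℝ × ℝ) →L[ℝ] ℝ × ℝ)
      (s, θ s τ) := by
    have h2 := hasFDerivAt (tau F) s (θ s τ)
    rw [← ha, ← hb] at h2
    exact hasFDerivAt_fst.prodMk h2
  have h2 : HasFDerivAt (fun p : ℝ × ℝ => (p.1, θ p.1 p.2)) (L.symm : (ℝ × ℝ) →L[ℝ] ℝ × ℝ)
      (s, τ) :=
    HasFDerivAt.of_local_left_inverse (f := fun p : ℝ × ℝ => (p.1, ev p (tau F)))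
      (continuousAt_fst.prodMk hc) h1 (he.mono fun p hp => Prod.ext rfl hp)
  have h3 := HasFDerivAt.comp (g := fun p => ev p f) (f := fun p : ℝ × ℝ => (p.1, θ p.1 p.2))
    (s, τ) (hasFDerivAt f s (θ s τ)) h2
  refine h3.congr_fderiv (ContinuousLinearMap.ext fun v => ?_)
  have h4 : (L.symm : (ℝ × ℝ) →L[ℝ] ℝ × ℝ) v = (v.1, b⁻¹ * (v.2 - a * v.1)) := rfl
  have h5 : Real.sin (2 * θ s τ) * ev (s, θ s τ) (dX f) = b * ev (s, θ s τ) (dtau F f) := by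
    rw [redB_dX h f, map_mul, hb, mul_assoc]
  rw [ContinuousLinearMap.comp_apply, h4, h5, redB_del, map_sub, map_mul, ← ha]
  simp only [add_apply, smul_apply, ContinuousLinearMap.coe_fst', ContinuousLinearMap.coe_snd',
    smul_eq_mul]
  field_simp
  ring

/-- The inverse of the moment map. -/
theorem Rad.exists_inv {F : Ev} {c : ℝ} (h : Rad F c) : ∃ θ : ℝ → ℝ → ℝ,
    (∀ s, ∀ τ ∈ Icc (0 : ℝ) 1, θ s τ ∈ Icc 0 (π / 2) ∧ ev (s, θ s τ) (tau F) = τ) ∧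
    (∀ s, ∀ τ ∈ Ioo (0 : ℝ) 1, θ s τ ∈ Ioo 0 (π / 2)) ∧
    (∀ s, ∀ x ∈ Icc 0 (π / 2), ev (s, x) (tau F) ∈ Icc (0 : ℝ) 1 ∧ θ s (ev (s, x) (tau F)) = x) ∧
    ContinuousOn (fun p : ℝ × ℝ => θ p.1 p.2) (univ ×ˢ Icc 0 1) ∧
    (∀ (f : Ev) s, ∀ τ ∈ Ioo (0 : ℝ) 1,
      HasDerivAt (fun x => ev (s, θ s x) f) (ev (s, θ s τ) (dtau F f)) τ) ∧
    ∀ (f : Ev) s, ∀ τ ∈ Ioo (0 : ℝ) 1,
      HasDerivAt (fun r => ev (r, θ r τ) f) (ev (s, θ s τ) (del F f)) s := by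
  have hp : (0 : ℝ) ≤ π / 2 := by positivity
  have hex : ∀ s τ : ℝ, ∃ x, τ ∈ Icc (0 : ℝ) 1 → x ∈ Icc 0 (π / 2) ∧ ev (s, x) (tau F) = τ :=
    fun s τ => by
      by_cases hτ : τ ∈ Icc (0 : ℝ) 1
      · have h1 := intermediate_value_Icc hp (had_line (tau F) s).continuousOn
        simp only [redB_zero, redB_top] at h1
        obtain ⟨x, hx⟩ := h1 hτ
        exact ⟨x, fun _ => hx⟩
      · exact ⟨0, fun h1 => absurd h1 hτ⟩
  choose θ hθ using hex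
  have h2 : ∀ s, ∀ τ ∈ Ioo (0 : ℝ) 1, θ s τ ∈ Ioo 0 (π / 2) := fun s τ hτ => by
    obtain ⟨h1, h3⟩ := hθ s τ (Ioo_subset_Icc_self hτ)
    refine ⟨h1.1.lt_of_ne fun h4 => ?_, h1.2.lt_of_ne fun h4 => ?_⟩
    · rw [← h4, redB_zero] at h3
      exact hτ.1.ne h3
    · rw [h4, redB_top] at h3
      exact hτ.2.ne' h3
  have hc : ContinuousOn (fun p : ℝ × ℝ => θ p.1 p.2) (univ ×ˢ Icc 0 1) := fun p hp' => by
    obtain ⟨h1, h3⟩ := hθ p.1 p.2 hp'.2
    have h4 : ∀ a : ℝ, Continuous fun q : ℝ × ℝ => ev (q.1, a) (tau F) := fun a =>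
      (smooth (tau F)).continuous.comp (by fun_prop)
    refine tendsto_order.2 ⟨fun a ha => ?_, fun a ha => ?_⟩
    · rcases lt_or_ge a 0 with h5 | h5
      · filter_upwards [self_mem_nhdsWithin] with q hq using h5.trans_le (hθ q.1 q.2 hq.2).1.1
      · have h6 : a ∈ Icc 0 (π / 2) := ⟨h5, ha.le.trans h1.2⟩
        have h7 : ev (p.1, a) (tau F) < p.2 := (redB_mono h p.1 h6 h1 ha).trans_eq h3
        filter_upwards [self_mem_nhdsWithin, nhdsWithin_le_nhds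
          ((h4 a).continuousAt.eventually_lt continuousAt_snd h7)] with q hq h8
        obtain ⟨h9, h10⟩ := hθ q.1 q.2 hq.2
        exact ((redB_mono h q.1).lt_iff_lt h6 h9).1 (lt_of_lt_of_eq h8 h10.symm)
    · rcases lt_or_ge (π / 2) a with h5 | h5
      · filter_upwards [self_mem_nhdsWithin] with q hq using (hθ q.1 q.2 hq.2).1.2.trans_lt h5
      · have h6 : a ∈ Icc 0 (π / 2) := ⟨h1.1.trans ha.le, h5⟩
        have h7 : p.2 < ev (p.1, a) (tau F) := h3.symm.trans_lt (redB_mono h p.1 h1 h6 ha)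
        filter_upwards [self_mem_nhdsWithin, nhdsWithin_le_nhds
          (continuousAt_snd.eventually_lt (h4 a).continuousAt h7)] with q hq h8
        obtain ⟨h9, h10⟩ := hθ q.1 q.2 hq.2
        exact ((redB_mono h q.1).lt_iff_lt h9 h6).1 (lt_of_eq_of_lt h10 h8)
  have hd : ∀ (f : Ev) s, ∀ τ ∈ Ioo (0 : ℝ) 1, HasFDerivAt (fun p : ℝ × ℝ => ev (p.1, θ p.1 p.2) f)
      (ev (s, θ s τ) (del F f) • ContinuousLinearMap.fst ℝ ℝ ℝ +
        ev (s, θ s τ) (dtau F f) • ContinuousLinearMap.snd ℝ ℝ ℝ) (s, τ) := fun f s τ hτ => by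
    have h1 : (univ ×ˢ Icc 0 1 : Set (ℝ × ℝ)) ∈ 𝓝 (s, τ) :=
      prod_mem_nhds Filter.univ_mem (Icc_mem_nhds hτ.1 hτ.2)
    exact redB_der h (hc.continuousAt h1)
      (Filter.mem_of_superset h1 fun q hq => (hθ q.1 q.2 hq.2).2) (h2 s τ hτ) f
  refine ⟨θ, hθ, h2, fun s x hx => ?_, hc, fun f s τ hτ => ?_, fun f s τ hτ => ?_⟩
  · have h1 : ev (s, x) (tau F) ∈ Icc (0 : ℝ) 1 := by
      constructor
      · rw [← redB_zero F s]
        exact (redB_mono h s).monotoneOn ⟨le_rfl, hp⟩ hx hx.1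
      · rw [← redB_top F s]
        exact (redB_mono h s).monotoneOn hx ⟨hp, le_rfl⟩ hx.2
    exact ⟨h1, (redB_mono h s).injOn (hθ s _ h1).1 hx (hθ s _ h1).2⟩
  · have l2 : HasDerivAt (fun x : ℝ => (s, x)) (0, 1) τ :=
      (hasDerivAt_const τ s).prodMk (hasDerivAt_id τ)
    refine (HasFDerivAt.comp_hasDerivAt (f := fun x : ℝ => (s, x)) τ (hd f s τ hτ)
      l2).congr_deriv ?_
    simp
  · have l1 : HasDerivAt (fun r : ℝ => (r, τ)) (1, 0) s :=
      (hasDerivAt_id s).prodMk (hasDerivAt_const s τ)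
    refine (HasFDerivAt.comp_hasDerivAt (f := fun r : ℝ => (r, τ)) s (hd f s τ hτ)
      l1).congr_deriv ?_
    simp

theorem Rad.sol {F : Ev} {c : ℝ} (h : Rad F c) : ∃ g, Sol g ∧
    (∀ τ ∈ Icc (0 : ℝ) 1, ∃ x ∈ Icc 0 (π / 2), ev (0, x) (tau F) = τ) ∧
    ∀ x ∈ Icc 0 (π / 2), g 0 0 (ev (0, x) (tau F)) = ev (0, x) (gg F) := by
  obtain ⟨θ, h1, h2, h3, h4, h5, h6⟩ := h.exists_inv
  refine ⟨fun j t τ => ev (√t, θ (√t) τ) ((dtau F)^[j] (gg F)), ⟨fun j => ?_, fun j t _ τ hτ => ?_,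
    fun t _ τ hτ => ?_, fun t ht τ hτ => ?_⟩, fun τ hτ => ⟨_, h1 0 τ hτ⟩, fun x hx => ?_⟩
  · have h7 : ContinuousOn (fun p : ℝ × ℝ => θ (√p.1) p.2) (Ici 0 ×ˢ Icc 0 1) :=
      ContinuousOn.comp (g := fun p : ℝ × ℝ => θ p.1 p.2) (f := fun p : ℝ × ℝ => (√p.1, p.2)) h4
        (by fun_prop) fun p hp => ⟨mem_univ _, hp.2⟩
    exact (smooth _).continuous.comp_continuousOn
      (ContinuousOn.prodMk (by fun_prop) h7)
  · rw [Function.iterate_succ_apply']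
    exact h5 _ _ τ hτ
  · have h7 := h.chi_pos (√t, θ (√t) τ)
    rw [(h1 _ τ hτ).2] at h7
    exact h7
  · have h7 := (h6 (gg F) (√t) τ hτ).comp t (Real.hasDerivAt_sqrt ht.ne')
    rw [h.del_gg _ (h2 _ τ hτ), (h1 _ τ (Ioo_subset_Icc_self hτ)).2] at h7
    refine h7.congr_deriv ?_
    have h8 : √t ≠ 0 := (Real.sqrt_pos.2 ht).ne'
    simp only [Function.iterate_zero_apply]
    field_simp
  · simp only [Real.sqrt_zero, Function.iterate_zero_apply, (h3 0 x hx).2]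

end Ev

end Vale.Agent.P264
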