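import Vale.Agent.P264.ReduceA
import Vale.Agent.P264.ReduceB

/-! A Calabi flow with invariant initial data solves the one-dimensional equation. -/

open scoped ContDiff Topology Real
open Set

noncomputable section

namespace Vale.Agent.P264

theorem reduce_mem (x : ℝ) : Real.sin x ^ 2 ∈ Icc (0 : ℝ) 1 :=
  ⟨sq_nonneg _, Real.sin_sq_le_one x⟩

theorem reduce_dX {G : Ev} {u : ℝ → ℝ} (hu : ∀ X ∈ Icc (0 : ℝ) 1, ContDiffAt ℝ ∞ u X)
    (h : ∀ x, Ev.ev (0, x) G = u (Real.sin x ^ 2)) (x : ℝ) :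
    Ev.ev (0, x) (Ev.dX G) = deriv u (Real.sin x ^ 2) := by
  have hc : Set.Countable {x : ℝ | Real.sin (2 * x) = 0} := by
    refine (Set.countable_range fun n : ℤ => (n : ℝ) * π / 2).mono fun x hx => ?_
    obtain ⟨n, hn⟩ := Real.sin_eq_zero_iff.1 hx
    exact ⟨n, by simp only [hn]; ring⟩
  have h1 : Continuous fun x : ℝ => Ev.ev (0, x) (Ev.dX G) :=
    (Ev.smooth _).continuous.comp (by fun_prop)
  have h2 : Continuous fun x : ℝ => deriv u (Real.sin x ^ 2) :=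
    continuous_iff_continuousAt.2 fun x => ContinuousAt.comp (g := deriv u)
      ((hu _ (reduce_mem x)).derivWithin (m := ∞) (by simp)).continuousAt (by fun_prop)
  refine congrFun (Continuous.ext_on (hc.dense_compl ℝ) h1 h2 fun x hx => ?_) x
  have h3 := Ev.hasDerivAt_dX G 0 x
  have h4 := HasDerivAt.comp (h₂ := u) (h := fun x => Real.sin x ^ 2) x
    ((hu _ (reduce_mem x)).differentiableAt (by simp)).hasDerivAt
    ((Real.hasDerivAt_sin x).pow 2)
  rw [funext h] at h3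
  have h5 := h3.unique h4
  refine mul_left_cancel₀ hx (h5.trans ?_)
  rw [Real.sin_two_mul]
  simp
  ring

theorem reduce_inv {G : Ev} (hG : IsUnit G) (p : ℝ × ℝ) :
    Ev.ev p (Ring.inverse G) = (Ev.ev p G)⁻¹ := by
  refine eq_inv_of_mul_eq_one_left ?_
  rw [← map_mul, Ring.inverse_mul_cancel _ hG, map_one]

theorem Flow.sol {ψ : ℝ → (Fin (10 + 1) → ℂ) → ℝ} {c : ℝ} (h : Flow ψ c) {f g0 : ℝ → ℝ}
    (hf : Pot f g0) (h0 : ∀ Z, Z ≠ 0 → ψ 0 Z = f (XX Z)) :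
    ∃ g, Sol g ∧ ∀ τ ∈ Icc (0 : ℝ) 1, g 0 0 τ = g0 τ := by
  obtain ⟨F, hF, hR⟩ := h.rad fun s Z W hZ hW hX => h.symm (by norm_num)
    (fun X hX => (hf.smooth X hX).differentiableAt (by simp)) h0 s hZ hW hX
  obtain ⟨g, h1, h2, h3⟩ := hR.sol
  refine ⟨g, h1, fun τ hτ => ?_⟩
  obtain ⟨x, hx, rfl⟩ := h2 τ hτ
  have e0 : ∀ x, Ev.ev (0, x) F = f (Real.sin x ^ 2) := fun x => by
    rw [hF, h0 _ (curve_ne x), XX_curve]
  have e1 := reduce_dX hf.smooth e0
  have e2 := reduce_dX (fun X hX => (hf.smooth X hX).derivWithin (m := ∞) (by simp)) e1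
  have hu : IsUnit ((Ev.qA F * Ev.qB F) ^ 2) := Ev.isUnit_of_ne fun s θ _ => by
    rw [map_pow, map_mul]
    exact (pow_pos (mul_pos (hR.posA _) (hR.posB _)) 2).ne'
  have a := hf.posA _ (reduce_mem x)
  have b := hf.posB _ (reduce_mem x)
  rw [h3 x hx, Ev.gg, map_mul, reduce_inv hu]
  simp only [Ev.tau, Ev.qA, Ev.qB, map_add, map_mul, map_sub, map_pow, map_one, Ev.ev_X, e1, e2]
  rw [hf.eq _ (reduce_mem x)]
  field_simp

/-- A global Calabi flow gives a flow in the square root of time. -/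
theorem flow_of {n : ℕ} {ψ₀ : (Fin (n + 1) → ℂ) → ℝ} (h1 : ContDiffOn ℝ ∞ ψ₀ {0}ᶜ)
    (h2 : Invariant ψ₀) {c : ℝ} {φ : ℝ → (Fin (n + 1) → ℂ) → ℝ}
    (hs : ContDiffOn ℝ ∞ (fun p : ℝ × (Fin (n + 1) → ℂ) => φ p.1 p.2) (Ici 0 ×ˢ {0}ᶜ))
    (hi : ∀ t, 0 ≤ t → Invariant (φ t)) (hk : ∀ t, 0 ≤ t → IsKahler (ψ₀ + φ t))
    (he : ∀ t, 0 < t → ∀ j w,
      HasDerivAt (fun s => φ s (chart j w)) (scal (ψ₀ + φ t) j w - c) t) :
    Flow (fun s => ψ₀ + φ (s ^ 2)) c := by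
  have hsm : ContDiffOn ℝ ∞ (fun p : VV (n + 1) => φ (p.1 ^ 2) p.2) (Om (n + 1)) :=
    hs.comp (f := fun p : VV (n + 1) => (p.1 ^ 2, p.2)) (by fun_prop)
      fun p hp => ⟨sq_nonneg p.1, hp⟩
  refine ⟨⟨(h1.comp contDiffOn_snd fun p hp => hp).add hsm, fun s c Z hc hZ => ?_⟩,
    fun s => hk _ (sq_nonneg s), fun s j w => ?_⟩
  · simp only [Pi.add_apply, h2 c Z hc hZ, hi _ (sq_nonneg s) c Z hc hZ]
  · rcases eq_or_ne s 0 with rfl | hs0
    · have hZ : chart j w ≠ 0 := fun h => by simpa [chart] using congrFun h j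
      have h3 : DifferentiableAt ℝ (fun r : ℝ => φ (r ^ 2) (chart j w)) 0 :=
        ((hsm.contDiffAt (isOpen_Om.mem_nhds (x := (0, chart j w)) hZ)).differentiableAt
          (by simp)).comp (f := fun r : ℝ => (r, chart j w)) 0 (by fun_prop)
      have h4 := h3.hasDerivAt
      have h5 := HasDerivAt.comp_of_eq (0 : ℝ) h4 (hasDerivAt_neg (0 : ℝ)) neg_zero.symm
      have e : (fun r : ℝ => φ (r ^ 2) (chart j w)) ∘ Neg.neg =
          fun r : ℝ => φ (r ^ 2) (chart j w) := funext fun r => by simp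
      rw [e] at h5
      have h6 := h4.unique h5
      have h7 : deriv (fun r : ℝ => φ (r ^ 2) (chart j w)) 0 = 0 := by linarith
      rw [h7] at h4
      simpa using h4.const_add (ψ₀ (chart j w))
    · have h3 := HasDerivAt.comp (h := fun r : ℝ => r ^ 2) s (he _ (sq_pos_of_ne_zero hs0) j w)
        (hasDerivAt_pow 2 s)
      exact (h3.const_add (ψ₀ (chart j w))).congr_deriv (by simp; ring)

end Vale.Agent.P264
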