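import Vale.Agent.P264.Sphere
import Vale.Agent.P264.Radial
import Vale.Agent.P264.EvDefs

/-! An invariant Calabi flow on `ℂP^10` restricted to a real line. -/

open scoped ContDiff ComplexConjugate Topology ComplexOrder Real
open Set Complex Matrix

noncomputable section

namespace Vale.Agent.P264

/-- a real projective line -/
def curve (θ : ℝ) : Fin (10 + 1) → ℂ :=
  Fin.cons (α := fun _ => ℂ) (Real.cos θ : ℂ) (Pi.single 0 (Real.sin θ : ℂ))

theorem rda_sum_single {n : ℕ} (a : Fin n) (z : ℂ) :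
    ∑ b, ‖(Pi.single a z : Fin n → ℂ) b‖ ^ 2 = ‖z‖ ^ 2 := by
  rw [Finset.sum_eq_single a (fun b _ hb => by simp [hb]) (by simp), Pi.single_eq_same]

theorem rda_curve_sum (θ : ℝ) : ∑ a : Fin 10, ‖curve θ a.succ‖ ^ 2 = Real.sin θ ^ 2 := by
  simp only [curve, Fin.cons_succ]
  rw [rda_sum_single, norm_real, Real.norm_eq_abs, sq_abs]

theorem rda_curve_nrm (θ : ℝ) : ∑ a, ‖curve θ a‖ ^ 2 = 1 := by
  rw [Fin.sum_univ_succ, rda_curve_sum, curve, Fin.cons_zero, norm_real, Real.norm_eq_abs, sq_abs,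
    Real.cos_sq_add_sin_sq]

theorem curve_ne (θ : ℝ) : curve θ ≠ 0 := by
  intro h
  have := rda_curve_nrm θ
  rw [h] at this
  simp at this

theorem XX_curve (θ : ℝ) : XX (curve θ) = Real.sin θ ^ 2 := by
  rw [XX, rda_curve_sum, rda_curve_nrm, div_one]

theorem rda_curve_smooth : ContDiff ℝ ∞ curve := by
  refine contDiff_pi.2 fun i => ?_
  refine Fin.cases ?_ (fun a => ?_) i
  · exact ofRealCLM.contDiff.comp Real.contDiff_cos
  · simp only [curve, Fin.cons_succ]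
    by_cases ha : a = 0
    · subst ha
      simp only [Pi.single_eq_same]
      exact ofRealCLM.contDiff.comp Real.contDiff_sin
    · simp only [Pi.single_eq_of_ne ha]
      exact contDiff_const

section chart

variable {n : ℕ}

theorem rda_chart_ne (j : Fin (n + 1)) (w : Fin n → ℂ) : chart j w ≠ 0 := by
  intro h
  have := congrFun h j
  simp [chart] at this

theorem rda_chart_nrm (j : Fin (n + 1)) (w : Fin n → ℂ) :
    ∑ a, ‖chart j w a‖ ^ 2 = 1 + ∑ a, ‖w a‖ ^ 2 := by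
  rw [Fin.sum_univ_succAbove _ j]
  simp [chart]

theorem rda_chart_smooth (j : Fin (n + 1)) : ContDiff ℝ ∞ (chart j) := by
  refine contDiff_pi.2 fun i => ?_
  refine Fin.succAboveCases j ?_ (fun a => ?_) i
  · simp only [chart, Fin.insertNth_apply_same]
    exact contDiff_const
  · simp only [chart, Fin.insertNth_apply_succAbove]
    exact contDiff_apply ℝ ℂ a

theorem rda_XX_chart (j : Fin (n + 1)) (w : Fin n → ℂ) :
    XX (chart j w) = 1 - ‖chart j w 0‖ ^ 2 / (1 + ∑ a, ‖w a‖ ^ 2) := by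
  have h := rda_chart_nrm j w
  have h0 : 0 < 1 + ∑ a, ‖w a‖ ^ 2 := by positivity
  rw [XX, h, eq_sub_iff_add_eq, ← add_div, div_eq_one_iff_eq h0.ne', ← h, Fin.sum_univ_succ,
    add_comm]

theorem rda_XX_zero (w : Fin n → ℂ) :
    XX (chart 0 w) = (∑ a, ‖w a‖ ^ 2) / (1 + ∑ a, ‖w a‖ ^ 2) := by
  have h0 : 0 < 1 + ∑ a, ‖w a‖ ^ 2 := by positivity
  rw [rda_XX_chart, chart, Fin.insertNth_apply_same]
  field_simp
  simp

theorem rda_XX_one (z : ℂ) :
    XX (chart (n := n + 1) 1 (Pi.single 0 z)) = 1 / (1 + ‖z‖ ^ 2) := by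
  have h1 : chart (n := n + 1) 1 (Pi.single 0 z) 0 = z := by
    have h := Fin.insertNth_apply_succAbove (α := fun _ => ℂ) (1 : Fin (n + 1 + 1)) 1
      (Pi.single 0 z) 0
    rwa [Fin.one_succAbove_zero, Pi.single_eq_same] at h
  rw [rda_XX_chart, h1, rda_sum_single]
  field_simp
  ring

theorem rda_pot_smooth {ψ : ℝ → (Fin (n + 1) → ℂ) → ℝ} (h : Fam ψ) (s : ℝ) (j : Fin (n + 1)) :
    ContDiff ℝ ∞ fun v : Fin n → ℂ => Real.log (1 + ∑ a, ‖v a‖ ^ 2) + ψ s (chart j v) := by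
  refine ContDiff.add (ContDiff.log (contDiff_const.add (ContDiff.sum fun a _ =>
    (contDiff_norm_sq ℝ).comp (contDiff_apply ℝ ℂ a))) fun v => by positivity) ?_
  exact h.smooth.comp_contDiff (f := fun v => (s, chart j v))
    (contDiff_const.prodMk (rda_chart_smooth j)) fun v => rda_chart_ne j v

end chart

theorem rda_sin_two (x : ℝ) : Real.sin (2 * Real.arctan x) = 2 * x / (1 + x ^ 2) := by
  have h0 : 0 < 1 + x ^ 2 := by positivity
  rw [Real.sin_two_mul, Real.sin_arctan, Real.cos_arctan, mul_assoc, div_mul_div_comm,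
    Real.mul_self_sqrt h0.le]
  ring

/-- Second derivative at the origin of a function with derivative `x * G x`. -/
theorem rda_second {p G : ℝ → ℝ} (h : ∀ x, HasDerivAt p (x * G x) x) (hG : ContDiff ℝ ∞ G) :
    deriv (deriv p) 0 = G 0 := by
  have h1 : deriv p = fun x => x * G x := funext fun x => (h x).deriv
  have h2 := (hasDerivAt_id' (0 : ℝ)).fun_mul (hG.differentiable (by simp) 0).hasDerivAt
  rw [h1]
  simpa using h2.deriv

theorem rda_log (x : ℝ) : HasDerivAt (fun y : ℝ => Real.log (1 + y ^ 2)) (2 * x / (1 + x ^ 2)) x := by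
  simpa using ((hasDerivAt_pow 2 x).const_add 1).log (by positivity)

namespace Ev

/-- a function in the radial variable -/
def rdaQ (s : ℝ) (h : Ev) (q : ℝ) : ℝ := ev (s, Real.arctan √q) h

theorem rdaQ_smooth (s : ℝ) (h : Ev) : ContDiffOn ℝ ∞ (rdaQ s h) (Ioi 0) := fun _ hq =>
  ((smooth h).contDiffAt.comp _ (contDiffAt_const.prodMk
    (Real.contDiff_arctan.contDiffAt.comp _ (Real.contDiffAt_sqrt (ne_of_gt hq))))).contDiffWithinAt

theorem rdaQ_X (s : ℝ) {q : ℝ} (hq : 0 ≤ q) : ev (s, Real.arctan √q) X = q / (1 + q) := by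
  rw [ev_X, Real.sin_sq_arctan, Real.sq_sqrt hq]

theorem rdaQ_deriv (s : ℝ) (h : Ev) {q : ℝ} (hq : 0 < q) :
    HasDerivAt (rdaQ s h) (rdaQ s (X * (1 - X) * dX h) q / q) q := by
  have h1 := (hasDerivAt_dX h s (Real.arctan √q)).comp q
    ((Real.hasDerivAt_arctan √q).comp q (Real.hasDerivAt_sqrt hq.ne'))
  refine h1.congr_deriv ?_
  have h2 : 0 < √q := Real.sqrt_pos.2 hq
  rw [rdaQ, map_mul, map_mul, map_sub, map_one, rdaQ_X s hq.le, rda_sin_two, Real.sq_sqrt hq.le]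
  field_simp
  ring

theorem rdaQ_eul {s : ℝ} {h : Ev} {A : ℝ → ℝ} (hA : ∀ q, 0 < q → A q = rdaQ s h q) {q : ℝ}
    (hq : 0 < q) : eul A q = rdaQ s (X * (1 - X) * dX h) q := by
  have h1 : A =ᶠ[𝓝 q] rdaQ s h := (eventually_gt_nhds hq).mono hA
  rw [eul, h1.deriv_eq, (rdaQ_deriv s h hq).deriv, mul_div_cancel₀ _ hq.ne']

theorem rda_eulP (s : ℝ) (F : Ev) {q : ℝ} (hq : 0 < q) :
    eul (fun x => Real.log (1 + x) + rdaQ s F x) q = rdaQ s (tau F) q := by
  have h1 := (((hasDerivAt_id' q).const_add 1).log (by positivity)).fun_add (rdaQ_deriv s F hq)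
  rw [eul, h1.deriv, tau, rdaQ, rdaQ, map_add, rdaQ_X s hq.le]
  field_simp

theorem rdaQ_tan (s : ℝ) (h : Ev) {θ : ℝ} (hθ : θ ∈ Ioo 0 (π / 2)) :
    rdaQ s h (Real.tan θ ^ 2) = ev (s, θ) h := by
  rw [rdaQ, Real.sqrt_sq (Real.tan_pos_of_pos_of_lt_pi_div_two hθ.1 hθ.2).le,
    Real.arctan_tan (by linarith [hθ.1, Real.pi_pos]) hθ.2]

theorem rda_X_mem (s : ℝ) {θ : ℝ} (hθ : θ ∈ Ioo 0 (π / 2)) :
    0 < ev (s, θ) X ∧ 0 < 1 - ev (s, θ) X := by
  have h1 := Real.sin_pos_of_pos_of_lt_pi hθ.1 (by linarith [hθ.2, Real.pi_pos])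
  have h2 := Real.cos_pos_of_mem_Ioo ⟨by linarith [hθ.1, Real.pi_pos], hθ.2⟩
  rw [ev_X, ← Real.cos_sq']
  exact ⟨by positivity, by positivity⟩

theorem rda_dX_tau (F : Ev) :
    dX (tau F) = qA F * qB F + X * (1 - X) * (dX (dX F) + dX F ^ 2) := by
  simp only [tau, qA, qB, map_add, map_sub, Derivation.leibniz, Derivation.map_one_eq_zero, dX_X,
    smul_eq_mul]
  ring

theorem rda_pos {f : Ev} (h0 : ∀ s, 0 < ev (s, 0) f) (h1 : ∀ s, 0 < ev (s, π / 2) f)
    (h : ∀ s, ∀ θ ∈ Ioo 0 (π / 2), 0 < ev (s, θ) f) (p : ℝ × ℝ) : 0 < ev p f := by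
  obtain ⟨s, θ⟩ := p
  obtain ⟨θ', hθ, e⟩ := exists_mem θ
  rw [e]
  rcases hθ.1.eq_or_lt with rfl | h2
  · exact h0 s
  rcases hθ.2.eq_or_lt with rfl | h3
  · exact h1 s
  exact h s θ' ⟨h2, h3⟩

theorem rda_tau_lt {F : Ev} {s : ℝ} (h : ∀ θ ∈ Ioo 0 (π / 2), 0 < ev (s, θ) (dX (tau F)))
    {θ : ℝ} (hθ : θ ∈ Ioo 0 (π / 2)) : ev (s, θ) (tau F) < 1 := by
  have hm : StrictMonoOn (fun x => ev (s, x) (tau F)) (Icc 0 (π / 2)) := by
    refine strictMonoOn_of_deriv_pos (convex_Icc _ _)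
      (fun x _ => (hasDerivAt_dX _ s x).continuousAt.continuousWithinAt) fun x hx => ?_
    rw [interior_Icc] at hx
    rw [(hasDerivAt_dX _ s x).deriv]
    exact mul_pos (Real.sin_pos_of_pos_of_lt_pi (by linarith [hx.1]) (by linarith [hx.2])) (h x hx)
  have h1 := hm (Ioo_subset_Icc_self hθ) (right_mem_Icc.2 (by positivity)) hθ.2
  have h2 : ev (s, π / 2) (tau F) = 1 := by simp [tau]
  exact h1.trans_eq h2

section ring

variable {F : Ev} (hA : IsUnit (qA F * qB F)) (hC : IsUnit (dX (tau F)))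

include hC in
theorem rda_dX_eq (h : Ev) : dX h = dX (tau F) * dtau F h := by
  rw [dtau, Derivation.smul_apply, smul_eq_mul, Ring.mul_inverse_cancel_left _ _ hC]

include hC in
theorem rda_dtau_tau : dtau F (tau F) = 1 := by
  rw [dtau, Derivation.smul_apply, smul_eq_mul, Ring.inverse_mul_cancel _ hC]

include hA in
theorem rda_theta : X * (1 - X) * dX (tau F) =
    tau F * (1 - tau F + tau F * ((1 - tau F) ^ 2 * gg F)) := by
  have h1 := Ring.mul_inverse_cancel _ (hA.pow 2)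
  have h2 : tau F = X * qA F := by rw [tau, qA]; ring
  have h3 : 1 - tau F = (1 - X) * qB F := by rw [tau, qB]; ring
  rw [rda_dX_tau, h3, gg, h2]
  linear_combination (-(X * (1 - X)) ^ 2 * (dX (dX F) + dX F ^ 2)) * h1

end ring

end Ev

open Ev

section main

variable {ψ : ℝ → (Fin (10 + 1) → ℂ) → ℝ} {c : ℝ} (h : Flow ψ c) {F : Ev}
  (hF : ∀ s θ Z, Z ≠ 0 → XX Z = Real.sin θ ^ 2 → ψ s Z = ev (s, θ) F)

include hF in
theorem rda_Phi (s : ℝ) (w : Fin 10 → ℂ) :
    Real.log (1 + ∑ a, ‖w a‖ ^ 2) + ψ s (chart 0 w) =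
      (fun x => Real.log (1 + x) + rdaQ s F x) (∑ a, ‖w a‖ ^ 2) := by
  rw [hF s (Real.arctan √(∑ a, ‖w a‖ ^ 2)) _ (rda_chart_ne 0 w)]
  · rfl
  · rw [rda_XX_zero, Real.sin_sq_arctan, Real.sq_sqrt (by positivity)]

theorem rda_P_smooth (s : ℝ) (F : Ev) :
    ContDiffOn ℝ ∞ (fun x => Real.log (1 + x) + rdaQ s F x) (Ioi 0) :=
  ((contDiffOn_const.add contDiffOn_id).log fun _ hx =>
    (add_pos one_pos (mem_Ioi.1 hx)).ne').add (rdaQ_smooth s F)

include h hF in
theorem rda_inside (s : ℝ) {q : ℝ} (hq : 0 < q) :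
    0 < rdaQ s (tau F) q ∧ 0 < rdaQ s (X * (1 - X) * dX (tau F)) q := by
  have h1 := radial_pos (m := 8) (rda_P_smooth s F) (fun w _ => rda_Phi hF s w)
    (fun w _ => h.pos s 0 w) hq
  rwa [rda_eulP s F hq, rdaQ_eul (fun q hq => rda_eulP s F hq) hq] at h1

include h in
theorem rda_diag (s : ℝ) (j : Fin (10 + 1)) {p : ℝ → ℝ}
    (hp : ∀ (x : ℝ) (z : ℂ), ‖z‖ ^ 2 = x ^ 2 →
      Real.log (1 + x ^ 2) + ψ s (chart j (Pi.single 0 z)) = p x) : 0 < deriv (deriv p) 0 := by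
  have h1 := ddbar_diag_zero ((rda_pot_smooth h.toFam s j).contDiffAt.of_le (m := 2) (by
      exact ENat.LEInfty.out)) 0 (p := p)
    (fun x => by
      have e : ‖(x : ℂ)‖ ^ 2 = x ^ 2 := by simp
      rw [rda_sum_single, e, hp x _ e])
    (fun x => by
      have e : ‖(x : ℂ) * I‖ ^ 2 = x ^ 2 := by simp
      rw [rda_sum_single, e, hp x _ e])
  have h2 : 0 < metric (ψ s) j 0 0 0 := (h.pos s j 0).diag_pos
  rw [metric, h1, zero_lt_real] at h2
  linarith

include h hF in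
theorem rda_zero (s : ℝ) : 0 < 1 + ev (s, 0) (dX F) := by
  have h1 := rda_diag h s 0 (p := fun x => Real.log (1 + x ^ 2) + ev (s, Real.arctan x) F)
    fun x z hz => by
      rw [hF s (Real.arctan x) _ (rda_chart_ne _ _)
        (by rw [rda_XX_zero, rda_sum_single, hz, Real.sin_sq_arctan])]
  rw [rda_second (G := fun x => 2 / (1 + x ^ 2) + 2 / (1 + x ^ 2) ^ 2 * ev (s, Real.arctan x) (dX F))]
    at h1
  · simp at h1
    linarith
  · intro x
    refine ((rda_log x).fun_add ((hasDerivAt_dX F s (Real.arctan x)).comp x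
      (Real.hasDerivAt_arctan x))).congr_deriv ?_
    rw [rda_sin_two]
    field_simp
  · refine ContDiff.add (contDiff_const.div (by fun_prop) fun x => by positivity)
      ((contDiff_const.div (by fun_prop) fun x => by positivity).mul ?_)
    exact (smooth _).comp (contDiff_const.prodMk Real.contDiff_arctan)

include h hF in
theorem rda_half (s : ℝ) : 0 < 1 - ev (s, π / 2) (dX F) := by
  have h1 := rda_diag h s 1 (p := fun x => Real.log (1 + x ^ 2) + ev (s, π / 2 - Real.arctan x) F)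
    fun x z hz => by
      rw [hF s (π / 2 - Real.arctan x) _ (rda_chart_ne _ _)
        (by rw [rda_XX_one, hz, Real.sin_pi_div_two_sub, Real.cos_sq_arctan])]
  rw [rda_second (G := fun x => 2 / (1 + x ^ 2) -
    2 / (1 + x ^ 2) ^ 2 * ev (s, π / 2 - Real.arctan x) (dX F))] at h1
  · simp at h1
    linarith
  · intro x
    refine ((rda_log x).fun_add ((hasDerivAt_dX F s (π / 2 - Real.arctan x)).comp x
      ((Real.hasDerivAt_arctan x).const_sub _))).congr_deriv ?_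
    rw [mul_sub, mul_div_cancel₀ _ two_ne_zero, Real.sin_pi_sub, rda_sin_two]
    field_simp
    ring
  · refine ContDiff.sub (contDiff_const.div (by fun_prop) fun x => by positivity)
      ((contDiff_const.div (by fun_prop) fun x => by positivity).mul ?_)
    exact (smooth _).comp (contDiff_const.prodMk (contDiff_const.sub Real.contDiff_arctan))

include h hF in
theorem rda_scal (hA : IsUnit (qA F * qB F)) (hC : IsUnit (dX (tau F))) (s : ℝ) {w : Fin 10 → ℂ}
    (hw : w ≠ 0) (hq : 0 < ∑ a, ‖w a‖ ^ 2) :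
    scal (ψ s) 0 w = 110 - rdaQ s (zop F (gg F)) (∑ a, ‖w a‖ ^ 2) := by
  have hD := rda_dtau_tau hC
  have hT := rda_theta hA
  generalize hu : (1 - tau F) ^ 2 * gg F = u at hT
  have e1 : ∀ q, 0 < q → eul (fun x => Real.log (1 + x) + rdaQ s F x) q = rdaQ s (tau F) q :=
    fun q hq => rda_eulP s F hq
  have e2 := fun q (hq : 0 < q) => rdaQ_eul e1 hq
  have e3 := fun q (hq : 0 < q) => rdaQ_eul e2 hq
  have hE : ∀ g : Ev, X * (1 - X) * dX g = X * (1 - X) * dX (tau F) * dtau F g := fun g => by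
    rw [rda_dX_eq hC g, ← mul_assoc]
  have h11 : dtau F 11 = 0 := by exact_mod_cast (dtau F).map_natCast 11
  have hD1 : dtau F (X * (1 - X) * dX (tau F)) =
      1 - 2 * tau F + 2 * tau F * u + tau F ^ 2 * dtau F u := by
    rw [hT]
    simp only [map_add, map_sub, Derivation.leibniz, Derivation.map_one_eq_zero, hD, smul_eq_mul]
    ring
  have hD2 : dtau F (tau F * (11 * u - 11 + tau F * dtau F u)) =
      11 * u - 11 + 13 * tau F * dtau F u + tau F ^ 2 * dtau F (dtau F u) := by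
    simp only [map_add, map_sub, Derivation.leibniz, hD, h11, smul_eq_mul]
    ring
  have h1 := radial_scal (m := 8) (rda_P_smooth s F) (fun w _ => rda_Phi hF s w)
    (fun w _ => h.pos s 0 w) hw (R := rdaQ s (tau F * (11 * u - 11 + tau F * dtau F u)))
    fun q hq => by
      obtain ⟨p1, p2⟩ := rda_inside h hF s hq
      rw [e1 q hq, e2 q hq, e3 q hq, hE (X * (1 - X) * dX (tau F)), hD1]
      simp only [rdaQ] at p1 p2 ⊢
      rw [map_mul _ (X * (1 - X) * dX (tau F)), mul_div_cancel_left₀ _ p2.ne', hT, map_mul,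
        map_mul, mul_left_comm, mul_div_cancel_left₀ _ p1.ne']
      simp only [map_add, map_sub, map_mul, map_pow, map_one, map_ofNat]
      push_cast
      ring
  refine Eq.trans h1 ?_
  obtain ⟨p1, p2⟩ := rda_inside h hF s hq
  rw [e1 _ hq, e2 _ hq, rdaQ_eul (fun _ _ => rfl) hq, hE (tau F * _), hD2, zop, hu]
  simp only [rdaQ] at p1 p2 ⊢
  rw [map_mul _ (X * (1 - X) * dX (tau F)), mul_div_cancel_left₀ _ p2.ne', map_mul, mul_left_comm,
    mul_div_cancel_left₀ _ p1.ne']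
  simp only [map_add, map_sub, map_mul, map_pow, map_ofNat]
  push_cast
  ring

include h hF in
theorem rda_rad : Rad F c := by
  have hin : ∀ s, ∀ θ ∈ Ioo 0 (π / 2), 0 < ev (s, θ) (tau F) ∧ 0 < ev (s, θ) (dX (tau F)) := by
    intro s θ hθ
    obtain ⟨h1, h2⟩ := rda_inside h hF s
      (pow_pos (Real.tan_pos_of_pos_of_lt_pi_div_two hθ.1 hθ.2) 2)
    rw [rdaQ_tan _ _ hθ] at h1 h2
    rw [map_mul, map_mul, map_sub, map_one] at h2
    exact ⟨h1, (mul_pos_iff_of_pos_left (mul_pos (rda_X_mem s hθ).1 (rda_X_mem s hθ).2)).1 h2⟩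
  have hA : ∀ p, 0 < ev p (qA F) := by
    refine rda_pos (fun s => ?_) (fun s => ?_) fun s θ hθ => ?_
    · simpa [qA] using rda_zero h hF s
    · simp [qA]
    · have h1 := (hin s θ hθ).1
      rw [show tau F = X * qA F by rw [tau, qA]; ring, map_mul] at h1
      exact (mul_pos_iff_of_pos_left (rda_X_mem s hθ).1).1 h1
  have hB : ∀ p, 0 < ev p (qB F) := by
    refine rda_pos (fun s => ?_) (fun s => ?_) fun s θ hθ => ?_
    · simp [qB]
    · simpa [qB] using rda_half h hF s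
    · have h1 := sub_pos.2 (rda_tau_lt (fun θ hθ => (hin s θ hθ).2) hθ)
      have h2 := congrArg (ev (s, θ)) (show 1 - tau F = (1 - X) * qB F by rw [tau, qB]; ring)
      rw [map_sub, map_one, map_mul, map_sub, map_one] at h2
      exact (mul_pos_iff_of_pos_left (rda_X_mem s hθ).2).1 (h2 ▸ h1)
  have hC : ∀ p, 0 < ev p (dX (tau F)) := by
    refine rda_pos (fun s => ?_) (fun s => ?_) fun s θ hθ => (hin s θ hθ).2
    · simpa [rda_dX_tau] using mul_pos (hA (s, 0)) (hB (s, 0))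
    · simpa [rda_dX_tau] using mul_pos (hA (s, π / 2)) (hB (s, π / 2))
  refine ⟨hA, hB, hC, ext_open fun s θ hθ => ?_⟩
  have ht := Real.tan_pos_of_pos_of_lt_pi_div_two hθ.1 hθ.2
  have hc := Real.cos_pos_of_mem_Ioo ⟨by linarith [hθ.1, Real.pi_pos], hθ.2⟩
  have hn : ∑ a, ‖(Pi.single 0 (Real.tan θ : ℂ) : Fin 10 → ℂ) a‖ ^ 2 = Real.tan θ ^ 2 := by
    rw [rda_sum_single, norm_real, Real.norm_eq_abs, sq_abs]
  have h1 := h.eq s 0 (Pi.single 0 (Real.tan θ : ℂ))
  rw [rda_scal h hF (isUnit_of_ne fun s θ _ => by rw [map_mul]; exact (mul_pos (hA _) (hB _)).ne')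
    (isUnit_of_ne fun s θ _ => (hC _).ne') s
    (by rw [Ne, Pi.single_eq_zero_iff]; exact ofReal_ne_zero.2 ht.ne') (by rw [hn]; positivity),
    hn, rdaQ_tan _ _ hθ] at h1
  have h2 : (fun r => ψ r (chart 0 (Pi.single 0 (Real.tan θ : ℂ)))) = fun r => ev (r, θ) F :=
    funext fun r => hF r θ _ (rda_chart_ne _ _)
      (by rw [rda_XX_zero, hn, Real.tan_sq_div_one_add_tan_sq hc.ne'])
  rw [h2] at h1
  rw [(hasDerivAt_ds F s θ).unique h1]
  simp only [map_mul, map_sub, map_ofNat, ev_S, AlgHom.commutes, Algebra.algebraMap_self,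
    RingHom.id_apply]
  ring

end main

theorem Flow.rad {ψ : ℝ → (Fin (10 + 1) → ℂ) → ℝ} {c : ℝ} (h : Flow ψ c)
    (hs : ∀ s Z W, Z ≠ 0 → W ≠ 0 → XX Z = XX W → ψ s Z = ψ s W) :
    ∃ F : Ev, (∀ s θ, Ev.ev (s, θ) F = ψ s (curve θ)) ∧ Ev.Rad F c := by
  refine ⟨Ev.mk (fun p => ψ p.1 (curve p.2)) ?_ (fun s θ => ?_) fun s θ => ?_, fun _ _ => rfl,
    rda_rad h fun s θ Z hZ hX => hs s _ _ hZ (curve_ne θ) (hX.trans (XX_curve θ).symm)⟩
  · exact h.smooth.comp_contDiff (f := fun p : ℝ × ℝ => (p.1, curve p.2))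
      (contDiff_fst.prodMk (rda_curve_smooth.comp contDiff_snd)) fun p => curve_ne p.2
  · exact hs s _ _ (curve_ne _) (curve_ne _) (by simp [XX_curve])
  · exact hs s _ _ (curve_ne _) (curve_ne _) (by simp [XX_curve])

end Vale.Agent.P264
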