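import Vale.Agent.P264.SolDefs

/-! Bounds for the nonlinear remainder. -/

open Set Polynomial

noncomputable section

namespace Vale.Agent.P264

open Fl

variable {l0 : ℝ} {d : Data}

theorem cK_aux (v : Fl →ₐ[ℝ] ℝ) (hv : v t ∈ Icc (0 : ℝ) 1) (F : Fl) (h1 : |v F| ≤ 1000)
    (h2 : |v (D F)| ≤ 1000) : |v F| ≤ 1000 ∧ |v (D F - 2 * e * F)| ≤ 3000 := by
  refine ⟨h1, ?_⟩
  have he : |v e| ≤ 1 := by
    have : v e = 1 - 2 * v t := by simp [e, map_ofNat]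
    rw [this, abs_le]; constructor <;> linarith [hv.1, hv.2]
  have h3 : |v e * v F| ≤ 1 * 1000 := by
    rw [abs_mul]; exact mul_le_mul he h1 (abs_nonneg _) zero_le_one
  have : v (D F - 2 * e * F) = v (D F) - 2 * (v e * v F) := by
    simp only [map_sub, map_mul, map_ofNat]; ring
  rw [this, abs_le]
  rw [abs_le] at h2 h3
  constructor <;> linarith [h2.1, h2.2, h3.1, h3.2]

theorem cK_bound (v : Fl →ₐ[ℝ] ℝ) (hv : v t ∈ Icc (0 : ℝ) 1) (j : ℕ) :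
    |v (cK j)| ≤ 1000 ∧ |v (D (cK j) - 2 * e * cK j)| ≤ 3000 := by
  obtain ⟨h0, h1⟩ := hv
  have h2 : v t ^ 2 ≤ 1 := pow_le_one₀ h0 h1
  have h3 : v t ^ 3 ≤ 1 := pow_le_one₀ h0 h1
  have h4 : v t ^ 4 ≤ 1 := pow_le_one₀ h0 h1
  have h2' : 0 ≤ v t ^ 2 := by positivity
  have h3' : 0 ≤ v t ^ 3 := by positivity
  have h4' : 0 ≤ v t ^ 4 := by positivity
  have hρ : 0 ≤ v t * (1 - v t) := mul_nonneg h0 (by linarith)
  have hρ' : v t * (1 - v t) ≤ 1 / 4 := by nlinarith [sq_nonneg (v t - 1 / 2)]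
  refine cK_aux v ⟨h0, h1⟩ _ ?_ ?_
  · match j with
    | 0 => simp [cK]
    | 1 =>
      have : v (cK 1) = -110 - 44 * v t + 468 * v t ^ 2 - 312 * v t ^ 3 := by
        simp [cK, map_ofNat]
      rw [this, abs_le]; constructor <;> linarith
    | 2 =>
      have : v (cK 2) = 89 - 246 * v t + 156 * v t ^ 2 := by
        simp [cK, map_ofNat]
      rw [this, abs_le]; constructor <;> linarith
    | 3 =>
      have : v (cK 3) = 20 - 22 * v t := by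
        simp [cK, map_ofNat]
      rw [this, abs_le]; constructor <;> linarith
    | (k + 4) => simp [cK]
  · match j with
    | 0 => simp [cK]
    | 1 =>
      have : v (D (cK 1)) = -44 * (v t * (1 - v t)) + 936 * (v t * (1 - v t)) ^ 2 := by
        simp [cK, D, map_ofNat]; ring
      have h5 : (v t * (1 - v t)) ^ 2 ≤ 1 := pow_le_one₀ hρ (by linarith)
      rw [this, abs_le]; constructor <;> nlinarith [sq_nonneg (v t * (1 - v t))]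
    | 2 =>
      have : v (D (cK 2)) = -246 * v t + 558 * v t ^ 2 - 312 * v t ^ 3 := by
        simp [cK, D, map_ofNat]; ring
      rw [this, abs_le]; constructor <;> linarith
    | 3 =>
      have : v (D (cK 3)) = -22 * (v t * (1 - v t)) := by
        simp [cK, D, map_ofNat]; ring
      rw [this, abs_le]; constructor <;> linarith
    | (k + 4) => simp [cK]

/-- the quasilinear part of the remainder of `T`, applied to the trajectory `H` -/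
def Tr.quasi (T H : Tr l0) (d : Data) (σ τ : ℝ) : ℝ :=
  (T.om σ τ * (2 * evc (lam l0 σ) τ d.chi + T.om σ τ) *
      YK (evc (lam l0 σ) τ) (H.g σ τ) (H.m σ τ)) ^ 2 +
    (T.om σ τ * (2 * evc (lam l0 σ) τ d.chi + T.om σ τ) *
        RK (evc (lam l0 σ) τ) (H.g σ τ) (H.m σ τ) +
      (2 * (evc (lam l0 σ) τ d.chi + T.om σ τ) *
          ((1 - 2 * τ) * T.om σ τ + τ * (1 - τ) / lam l0 σ * T.G 1 σ τ) +
        2 * T.om σ τ * evc (lam l0 σ) τ (D d.chi)) *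
        SK (evc (lam l0 σ) τ) (H.g σ τ) (H.m σ τ)) ^ 2

theorem sq_mul_le {a z C : ℝ} (h : |a| ≤ C) : (a * z) ^ 2 ≤ C ^ 2 * z ^ 2 := by
  rw [mul_pow]
  exact mul_le_mul_of_nonneg_right (by rw [← sq_abs]; exact pow_le_pow_left₀ (abs_nonneg _) h 2)
    (sq_nonneg _)

theorem abs_mul_le' {a b A B : ℝ} (ha : |a| ≤ A) (hb : |b| ≤ B) : |a * b| ≤ A * B := by
  rw [abs_mul]; exact mul_le_mul ha hb (abs_nonneg _) ((abs_nonneg _).trans ha)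

theorem abs_add_le' {a b A B : ℝ} (ha : |a| ≤ A) (hb : |b| ≤ B) : |a + b| ≤ A + B :=
  (abs_add_le a b).trans (add_le_add ha hb)

theorem sum2_sq (a b : ℝ) : (a + b) ^ 2 ≤ 2 * (a ^ 2 + b ^ 2) := by
  nlinarith [sq_nonneg (a - b)]

theorem sum3_sq (a b c : ℝ) : (a + b + c) ^ 2 ≤ 3 * (a ^ 2 + b ^ 2 + c ^ 2) := by
  nlinarith [sq_nonneg (a - b), sq_nonneg (a - c), sq_nonneg (b - c)]

theorem sum5_sq (a b c d f : ℝ) :
    (a + b + c + d + f) ^ 2 ≤ 5 * (a ^ 2 + b ^ 2 + c ^ 2 + d ^ 2 + f ^ 2) := by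
  nlinarith [sq_nonneg (a - b), sq_nonneg (a - c), sq_nonneg (a - d), sq_nonneg (a - f),
    sq_nonneg (b - c), sq_nonneg (b - d), sq_nonneg (b - f), sq_nonneg (c - d),
    sq_nonneg (c - f), sq_nonneg (d - f)]

theorem sum6_sq (a b c d f g : ℝ) :
    (a + b + c + d + f + g) ^ 2 ≤ 10 * (a ^ 2 + b ^ 2 + c ^ 2 + d ^ 2 + f ^ 2 + g ^ 2) := by
  have h1 := sum2_sq (a + b + c + d + f) g
  have h2 := sum5_sq a b c d f
  linarith [sq_nonneg g]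

theorem nG_nonneg (G : ℕ → ℝ) : 0 ≤ nG G := by unfold nG; positivity

theorem nM_nonneg (M : ℕ → ℝ) : 0 ≤ nM M := by unfold nM; positivity

section Pt

variable {l τ : ℝ}

theorem rho_mem (hτ : τ ∈ Icc (0 : ℝ) 1) : 0 ≤ τ * (1 - τ) ∧ τ * (1 - τ) ≤ 1 / 4 :=
  ⟨mul_nonneg hτ.1 (sub_nonneg.2 hτ.2), by nlinarith [sq_nonneg (τ - 1 / 2)]⟩

theorem cK_evc (hτ : τ ∈ Icc (0 : ℝ) 1) (j : ℕ) :
    |evc l τ (cK j)| ≤ 1000 ∧ |evc l τ (D (cK j) - 2 * e * cK j)| ≤ 3000 :=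
  cK_bound _ (by rwa [evc_t]) j

theorem xt_abs (hl : 0 < l) (hτ : τ ∈ Icc (0 : ℝ) 1) : |evc l τ (x * (1 - t))| ≤ 1 := by
  have h := xx_mem hl hτ
  simp only [map_mul, map_sub, map_one, evc_x, evc_t]
  rw [abs_of_nonneg (mul_nonneg h.1 (sub_nonneg.2 hτ.2))]
  exact mul_le_one₀ h.2 (sub_nonneg.2 hτ.2) (by linarith [hτ.1])

theorem y_abs (hl : 0 < l) (hl' : l ≤ 1 / 1000) (hτ : τ ∈ Icc (0 : ℝ) 1) :
    |evc l τ y| ≤ 1 / 15 := by
  rw [abs_of_pos (y_pos hl hτ)]; exact y_le hl (by linarith) hτ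

theorem lrho_abs (hl : 0 < l) (hl' : l ≤ 1 / 1000) (hτ : τ ∈ Icc (0 : ℝ) 1) :
    |312 * evc l τ (Fl.l * t * (1 - t))| ≤ 1 := by
  obtain ⟨h0, h1⟩ := rho_mem hτ
  have : evc l τ (Fl.l * t * (1 - t)) = l * (τ * (1 - τ)) := by
    simp only [map_mul, map_sub, map_one, evc_l, evc_t]; ring
  have h2 : l * (τ * (1 - τ)) ≤ 1 / 1000 * (1 / 4) := mul_le_mul hl' h1 h0 (by norm_num)
  rw [this, abs_of_nonneg (by positivity)]
  linarith

theorem YK_sq (hl : 0 < l) (hl' : l ≤ 1 / 1000) (hτ : τ ∈ Icc (0 : ℝ) 1) (G M : ℕ → ℝ) :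
    YK (evc l τ) G M ^ 2 ≤ 10 ^ 5 * (nG G + nM M) := by
  have hy := y_abs hl hl' hτ
  have hc : ∀ j, |evc l τ y * evc l τ (cK j)| ≤ 100 := fun j =>
    (abs_mul_le' hy (cK_evc hτ j).1).trans (by norm_num)
  have hk : |312 * evc l τ (Fl.l ^ 2 * x * (1 - t))| ≤ 1 := by
    have h1 : evc l τ (Fl.l ^ 2 * x * (1 - t)) = l * l * evc l τ (x * (1 - t)) := by
      simp only [map_mul, map_pow, evc_l]; ring
    have h2 : |l| ≤ 1 / 1000 := by rwa [abs_of_pos hl]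
    have h3 := abs_mul_le' (abs_mul_le' h2 h2) (xt_abs hl hτ)
    rw [h1, abs_mul, abs_of_pos (by norm_num : (0 : ℝ) < 312)]
    linarith
  have e1 : YK (evc l τ) G M = evc l τ y * evc l τ (cK 1) * M 1 +
      evc l τ y * evc l τ (cK 2) * M 2 + evc l τ y * evc l τ (cK 3) * M 3 +
      evc l τ y * evc l τ (cK 4) * M 4 + 312 * evc l τ (Fl.l ^ 2 * x * (1 - t)) * G 0 := by
    unfold YK; ring
  rw [e1]
  refine (sum5_sq _ _ _ _ _).trans ?_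
  have h1 := sq_mul_le (z := M 1) (hc 1)
  have h2 := sq_mul_le (z := M 2) (hc 2)
  have h3 := sq_mul_le (z := M 3) (hc 3)
  have h4 := sq_mul_le (z := M 4) (hc 4)
  have h5 := sq_mul_le (z := G 0) hk
  unfold nG nM
  linarith [sq_nonneg (G 0), sq_nonneg (G 1), sq_nonneg (G 2), sq_nonneg (G 3), sq_nonneg (M 1),
    sq_nonneg (M 2), sq_nonneg (M 3), sq_nonneg (M 4), sq_nonneg (M 5)]

theorem SK_sq' (hl : 0 < l) (hl' : l ≤ 1 / 1000) (hτ : τ ∈ Icc (0 : ℝ) 1) (G M : ℕ → ℝ) :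
    SK (evc l τ) G M ^ 2 ≤
      5 * (10 ^ 6 * (M 1 ^ 2 + M 2 ^ 2 + M 3 ^ 2 + M 4 ^ 2) + G 0 ^ 2) := by
  unfold SK
  refine (sum5_sq _ _ _ _ _).trans ?_
  have h1 := sq_mul_le (z := M 1) (cK_evc (l := l) hτ 1).1
  have h2 := sq_mul_le (z := M 2) (cK_evc (l := l) hτ 2).1
  have h3 := sq_mul_le (z := M 3) (cK_evc (l := l) hτ 3).1
  have h4 := sq_mul_le (z := M 4) (cK_evc (l := l) hτ 4).1
  have h5 := sq_mul_le (z := G 0) (lrho_abs hl hl' hτ)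
  linarith

theorem SK_sq (hl : 0 < l) (hl' : l ≤ 1 / 1000) (hτ : τ ∈ Icc (0 : ℝ) 1) (G M : ℕ → ℝ) :
    SK (evc l τ) G M ^ 2 ≤ 5 * 10 ^ 6 * (nG G + nM M) := by
  refine (SK_sq' hl hl' hτ G M).trans ?_
  unfold nG nM
  linarith [sq_nonneg (G 0), sq_nonneg (G 1), sq_nonneg (G 2), sq_nonneg (G 3), sq_nonneg (M 1),
    sq_nonneg (M 2), sq_nonneg (M 3), sq_nonneg (M 4), sq_nonneg (M 5)]

theorem RK_sq (hl : 0 < l) (hl' : l ≤ 1 / 1000) (hτ : τ ∈ Icc (0 : ℝ) 1) (G M : ℕ → ℝ) :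
    RK (evc l τ) G M ^ 2 ≤ 2 * 10 ^ 8 * (nG G + nM M) := by
  have e1 : RK (evc l τ) G M = evc l τ (D (cK 1) - 2 * e * cK 1) * M 1 +
      (evc l τ (cK 1) + evc l τ (D (cK 2) - 2 * e * cK 2)) * M 2 +
      (evc l τ (cK 2) + evc l τ (D (cK 3) - 2 * e * cK 3)) * M 3 +
      (evc l τ (cK 3) + evc l τ (D (cK 4) - 2 * e * cK 4)) * M 4 +
      evc l τ (cK 4) * M 5 + 312 * evc l τ (Fl.l * t * (1 - t)) * G 1 := by
    unfold RK; ring
  rw [e1]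
  refine (sum6_sq _ _ _ _ _ _).trans ?_
  have h1 := sq_mul_le (z := M 1) (cK_evc (l := l) hτ 1).2
  have h2 := sq_mul_le (z := M 2) (abs_add_le' (cK_evc (l := l) hτ 1).1 (cK_evc (l := l) hτ 2).2)
  have h3 := sq_mul_le (z := M 3) (abs_add_le' (cK_evc (l := l) hτ 2).1 (cK_evc (l := l) hτ 3).2)
  have h4 := sq_mul_le (z := M 4) (abs_add_le' (cK_evc (l := l) hτ 3).1 (cK_evc (l := l) hτ 4).2)
  have h5 := sq_mul_le (z := M 5) (cK_evc (l := l) hτ 4).1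
  have h6 := sq_mul_le (z := G 1) (lrho_abs hl hl' hτ)
  unfold nG nM
  linarith [sq_nonneg (G 0), sq_nonneg (G 1), sq_nonneg (G 2), sq_nonneg (G 3), sq_nonneg (M 1),
    sq_nonneg (M 2), sq_nonneg (M 3), sq_nonneg (M 4), sq_nonneg (M 5)]

/-- the delicate term -/
theorem del_sq (hl : 0 < l) (hl' : l ≤ 1 / 1000) (hτ : τ ∈ Ioo (0 : ℝ) 1) (G M : ℕ → ℝ)
    (hGM : ∀ j, l * G (j + 1) = τ * (1 - τ) * M (j + 1)) {s n : ℝ} (hn : 0 ≤ n)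
    (hs : τ * (1 - τ) * s ^ 2 ≤ 2 * l * n) :
    (τ * (1 - τ) / l * s * SK (evc l τ) G M) ^ 2 ≤
      10 ^ 7 * n * (G 1 * M 1 + G 2 * M 2 + G 3 * M 3 + G 4 * M 4 + G 0 ^ 2) := by
  have hτ' := Ioo_subset_Icc_self hτ
  have hρ : 0 < τ * (1 - τ) := mul_pos hτ.1 (sub_pos.2 hτ.2)
  have hρ' := (rho_mem hτ').2
  have ek : evc l τ (Fl.l * t * (1 - t)) = l * (τ * (1 - τ)) := by
    simp only [map_mul, map_sub, map_one, evc_l, evc_t]; ring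
  set ρ := τ * (1 - τ) with hρd
  have hG : ∀ j, G (j + 1) = ρ / l * M (j + 1) := fun j => by
    have := hGM j
    field_simp
    linarith
  have key : ∀ j, (s * G (j + 1)) ^ 2 ≤ 2 * n * (G (j + 1) * M (j + 1)) := fun j => by
    have h1 : (s * G (j + 1)) ^ 2 = ρ * s ^ 2 * (ρ / l ^ 2 * M (j + 1) ^ 2) := by
      rw [hG j]; field_simp
    have h2 : 2 * n * (G (j + 1) * M (j + 1)) = 2 * l * n * (ρ / l ^ 2 * M (j + 1) ^ 2) := by
      rw [hG j]; field_simp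
    rw [h1, h2]
    exact mul_le_mul_of_nonneg_right hs (by positivity)
  have key0 : (312 * ρ ^ 2 * s * G 0) ^ 2 ≤ 2 * 10 ^ 6 * n * G 0 ^ 2 := by
    have h1 : (312 * ρ ^ 2 * s * G 0) ^ 2 = 312 ^ 2 * ρ ^ 3 * (ρ * s ^ 2) * G 0 ^ 2 := by ring
    have h2 : ρ ^ 3 ≤ 1 := pow_le_one₀ hρ.le (by linarith)
    have h3 : ρ * s ^ 2 ≤ n := by nlinarith
    have h4 : ρ ^ 3 * (ρ * s ^ 2) ≤ 1 * n := mul_le_mul h2 h3 (by positivity) zero_le_one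
    rw [h1]
    refine mul_le_mul_of_nonneg_right ?_ (sq_nonneg _)
    linarith
  have e1 : ρ / l * s * SK (evc l τ) G M = evc l τ (cK 1) * (s * G 1) +
      evc l τ (cK 2) * (s * G 2) + evc l τ (cK 3) * (s * G 3) + evc l τ (cK 4) * (s * G 4) +
      312 * ρ ^ 2 * s * G 0 := by
    unfold SK
    rw [ek, hG 0, hG 1, hG 2, hG 3]
    field_simp
  rw [e1]
  refine (sum5_sq _ _ _ _ _).trans ?_
  have h1 := sq_mul_le (z := s * G 1) (cK_evc (l := l) hτ' 1).1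
  have h2 := sq_mul_le (z := s * G 2) (cK_evc (l := l) hτ' 2).1
  have h3 := sq_mul_le (z := s * G 3) (cK_evc (l := l) hτ' 3).1
  have h4 := sq_mul_le (z := s * G 4) (cK_evc (l := l) hτ' 4).1
  have k1 := key 0
  have k2 := key 1
  have k3 := key 2
  have k4 := key 3
  norm_num at k1 k2 k3 k4
  linarith

/-- pointwise bound of the quasilinear part -/
theorem quasi_pt (hl : 0 < l) (hl' : l ≤ 1 / 1000) (hτ : τ ∈ Ioo (0 : ℝ) 1) (G M : ℕ → ℝ)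
    (hGM : ∀ j, l * G (j + 1) = τ * (1 - τ) * M (j + 1)) {s n ω χ χ' : ℝ} (hn : 0 ≤ n)
    (hn' : n ≤ 1 / 10 ^ 44) (hs : τ * (1 - τ) * s ^ 2 ≤ 2 * l * n) (hω : |ω| ≤ 1 / 10 ^ 22)
    (hχ : |χ| ≤ 2) (hχ' : |χ'| ≤ 10) :
    (ω * (2 * χ + ω) * YK (evc l τ) G M) ^ 2 + (ω * (2 * χ + ω) * RK (evc l τ) G M +
      (2 * (χ + ω) * ((1 - 2 * τ) * ω + τ * (1 - τ) / l * s) + 2 * ω * χ') *
        SK (evc l τ) G M) ^ 2 ≤
      5 / 10 ^ 34 * (nG G + nM M) +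
        1 / 10 ^ 34 * (G 1 * M 1 + G 2 * M 2 + G 3 * M 3 + G 4 * M 4) := by
  have hτ' := Ioo_subset_Icc_self hτ
  have h2 : |(2 : ℝ)| ≤ 2 := by norm_num
  have he : |1 - 2 * τ| ≤ 1 := by rw [abs_le]; constructor <;> linarith [hτ.1, hτ.2]
  have hp : |ω * (2 * χ + ω)| ≤ 5 / 10 ^ 22 :=
    (abs_mul_le' hω (abs_add_le' (abs_mul_le' h2 hχ) hω)).trans (by norm_num)
  have hc : |2 * (χ + ω)| ≤ 5 := (abs_mul_le' h2 (abs_add_le' hχ hω)).trans (by norm_num)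
  have hq : |2 * (χ + ω) * ((1 - 2 * τ) * ω) + 2 * ω * χ'| ≤ 25 / 10 ^ 22 :=
    (abs_add_le' (abs_mul_le' hc (abs_mul_le' he hω))
      (abs_mul_le' (abs_mul_le' h2 hω) hχ')).trans (by norm_num)
  have a1 := sq_mul_le (z := YK (evc l τ) G M) hp
  have a2 := sq_mul_le (z := RK (evc l τ) G M) hp
  have a3 := sq_mul_le (z := SK (evc l τ) G M) hq
  have a4 := sq_mul_le (z := τ * (1 - τ) / l * s * SK (evc l τ) G M) hc
  have b1 := YK_sq hl hl' hτ' G M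
  have b2 := RK_sq hl hl' hτ' G M
  have b3 := SK_sq hl hl' hτ' G M
  have b4 := del_sq hl hl' hτ G M hGM hn hs
  have hpos : ∀ j, 0 ≤ G (j + 1) * M (j + 1) := fun j => by
    have h1 : 0 ≤ l * (G (j + 1) * M (j + 1)) := by
      rw [← mul_assoc, hGM j, mul_assoc]
      exact mul_nonneg (rho_mem hτ').1 (mul_self_nonneg _)
    exact (mul_nonneg_iff_of_pos_left hl).1 h1
  have p1 := hpos 0
  have p2 := hpos 1
  have p3 := hpos 2
  have p4 := hpos 3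
  norm_num at p1 p2 p3 p4
  have b5 : 10 ^ 7 * n * (G 1 * M 1 + G 2 * M 2 + G 3 * M 3 + G 4 * M 4 + G 0 ^ 2) ≤
      10 ^ 7 * (1 / 10 ^ 44) * (G 1 * M 1 + G 2 * M 2 + G 3 * M 3 + G 4 * M 4 + G 0 ^ 2) :=
    mul_le_mul_of_nonneg_right (by linarith) (by linarith [sq_nonneg (G 0)])
  have b6 : G 0 ^ 2 ≤ nG G := by
    unfold nG; linarith [sq_nonneg (G 1), sq_nonneg (G 2), sq_nonneg (G 3)]
  have e1 : ω * (2 * χ + ω) * RK (evc l τ) G M +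
      (2 * (χ + ω) * ((1 - 2 * τ) * ω + τ * (1 - τ) / l * s) + 2 * ω * χ') *
        SK (evc l τ) G M = ω * (2 * χ + ω) * RK (evc l τ) G M +
      (2 * (χ + ω) * ((1 - 2 * τ) * ω) + 2 * ω * χ') * SK (evc l τ) G M +
      2 * (χ + ω) * (τ * (1 - τ) / l * s * SK (evc l τ) G M) := by ring
  have c1 := sum3_sq (ω * (2 * χ + ω) * RK (evc l τ) G M)
    ((2 * (χ + ω) * ((1 - 2 * τ) * ω) + 2 * ω * χ') * SK (evc l τ) G M)
    (2 * (χ + ω) * (τ * (1 - τ) / l * s * SK (evc l τ) G M))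
  rw [e1]
  have g1 := nG_nonneg G
  have g2 := nM_nonneg M
  generalize (ω * (2 * χ + ω) * YK (evc l τ) G M) ^ 2 = A1 at *
  generalize (ω * (2 * χ + ω) * RK (evc l τ) G M +
      (2 * (χ + ω) * ((1 - 2 * τ) * ω) + 2 * ω * χ') * SK (evc l τ) G M +
      2 * (χ + ω) * (τ * (1 - τ) / l * s * SK (evc l τ) G M)) ^ 2 = A0 at *
  generalize (ω * (2 * χ + ω) * RK (evc l τ) G M) ^ 2 = A2 at *
  generalize ((2 * (χ + ω) * ((1 - 2 * τ) * ω) + 2 * ω * χ') * SK (evc l τ) G M) ^ 2 = A3 at *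
  generalize (2 * (χ + ω) * (τ * (1 - τ) / l * s * SK (evc l τ) G M)) ^ 2 = A4 at *
  generalize (τ * (1 - τ) / l * s * SK (evc l τ) G M) ^ 2 = B4 at *
  generalize YK (evc l τ) G M ^ 2 = B1 at *
  generalize RK (evc l τ) G M ^ 2 = B2 at *
  generalize SK (evc l τ) G M ^ 2 = B3 at *
  linarith

end Pt

theorem Data.Good.lam_mem (h : d.Good l0) {σ : ℝ} (hσ : 0 ≤ σ) : lam l0 σ ∈ Ioc 0 l0 :=
  ⟨lam_pos h.pos σ, lam_le h.pos hσ⟩

theorem Data.Good.lam_small (h : d.Good l0) {σ : ℝ} (hσ : 0 ≤ σ) : lam l0 σ ≤ 1 / 1000 :=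
  (lam_le h.pos hσ).trans h.small

theorem Data.Good.chi_mem (h : d.Good l0) {σ : ℝ} (hσ : 0 ≤ σ) {τ : ℝ} (hτ : τ ∈ Icc (0 : ℝ) 1) :
    1 / 10 ≤ evc (lam l0 σ) τ d.chi ∧ evc (lam l0 σ) τ d.chi ≤ 2 := by
  have h1 := h.bd (d.chi - c (21 / 20), 19 / 20) (by simp [Data.bounds]) _ (h.lam_mem hσ) τ hτ
  simp only [map_sub, evc_c] at h1
  rw [abs_le] at h1
  constructor <;> linarith [h1.1, h1.2]

theorem Tr.om_cont' (T : Tr l0) {σ : ℝ} (hσ : 0 ≤ σ) : ContinuousOn (T.om σ) (Icc 0 1) := by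
  have h0 := T.cG' 0 hσ
  unfold Tr.om
  fun_prop

theorem Tr.quasi_cont (T H : Tr l0) (d : Data) (hl : 0 < l0) {σ : ℝ} (hσ : 0 ≤ σ) :
    ContinuousOn (T.quasi H d σ) (Icc 0 1) := by
  have hv : ∀ F : Fl, ContinuousOn (fun τ => evc (lam l0 σ) τ F) (Icc 0 1) := fun F =>
    continuousOn_evc_slice F (lam_pos hl σ)
  have hG : ∀ j, ContinuousOn (fun τ => H.G j σ τ) (Icc 0 1) := fun j => H.cG' j hσ
  have hM : ∀ j, ContinuousOn (fun τ => H.M j σ τ) (Icc 0 1) := fun j => H.cM' j hσ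
  have h1 : ContinuousOn (fun τ => T.G 1 σ τ) (Icc 0 1) := T.cG' 1 hσ
  have ho : ContinuousOn (fun τ => T.om σ τ) (Icc 0 1) := T.om_cont' hσ
  have hY : ContinuousOn (fun τ => YK (evc (lam l0 σ) τ) (H.g σ τ) (H.m σ τ)) (Icc 0 1) := by
    unfold YK Tr.g Tr.m
    exact ((hv _).mul (((((hv _).mul (hM 1)).add ((hv _).mul (hM 2))).add
      ((hv _).mul (hM 3))).add ((hv _).mul (hM 4)))).add
      ((continuousOn_const.mul (hv _)).mul (hG 0))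
  have hS : ContinuousOn (fun τ => SK (evc (lam l0 σ) τ) (H.g σ τ) (H.m σ τ)) (Icc 0 1) := by
    unfold SK Tr.g Tr.m
    exact (((((hv _).mul (hM 1)).add ((hv _).mul (hM 2))).add
      ((hv _).mul (hM 3))).add ((hv _).mul (hM 4))).add
      ((continuousOn_const.mul (hv _)).mul (hG 0))
  have hR : ContinuousOn (fun τ => RK (evc (lam l0 σ) τ) (H.g σ τ) (H.m σ τ)) (Icc 0 1) := by
    unfold RK Tr.g Tr.m
    exact ((((((hv _).mul (hM 1)).add ((hv _).mul (hM 2))).add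
      (((hv _).mul (hM 2)).add ((hv _).mul (hM 3)))).add
      (((hv _).mul (hM 3)).add ((hv _).mul (hM 4)))).add
      (((hv _).mul (hM 4)).add ((hv _).mul (hM 5)))).add
      ((continuousOn_const.mul (hv _)).mul (hG 1))
  have hc := hv d.chi
  have hc' := hv (D d.chi)
  unfold Tr.quasi
  fun_prop

theorem Tr.quasi_le (h : d.Good l0) (T H : Tr l0) {σ : ℝ} (hσ : 0 ≤ σ) (hs : T.Small σ) :
    av (lam l0 σ) (T.quasi H d σ) ≤ 1 / 10 ^ 33 * (H.N σ + H.Dd σ) := by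
  have hl := lam_pos h.pos σ
  have hG : ∀ j, ContinuousOn (fun τ => H.G j σ τ * H.M j σ τ) (Icc 0 1) := fun j =>
    (H.cG' j hσ).mul (H.cM' j hσ)
  have c1 := H.nG_cont hσ
  have c2 := H.nM_cont hσ
  have c3 : ContinuousOn (fun τ => nG (H.g σ τ) + nM (H.m σ τ)) (Icc 0 1) := c1.add c2
  have c4 : ContinuousOn (fun τ => H.G 1 σ τ * H.M 1 σ τ + H.G 2 σ τ * H.M 2 σ τ) (Icc 0 1) :=
    (hG 1).add (hG 2)
  have c5 : ContinuousOn (fun τ => H.G 1 σ τ * H.M 1 σ τ + H.G 2 σ τ * H.M 2 σ τ +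
    H.G 3 σ τ * H.M 3 σ τ) (Icc 0 1) := c4.add (hG 3)
  have c6 : ContinuousOn (fun τ => H.G 1 σ τ * H.M 1 σ τ + H.G 2 σ τ * H.M 2 σ τ +
    H.G 3 σ τ * H.M 3 σ τ + H.G 4 σ τ * H.M 4 σ τ) (Icc 0 1) := c5.add (hG 4)
  have c7 : ContinuousOn (fun τ => 5 / 10 ^ 34 * (nG (H.g σ τ) + nM (H.m σ τ))) (Icc 0 1) :=
    continuousOn_const.mul c3
  have c8 : ContinuousOn (fun τ => 1 / 10 ^ 34 * (H.G 1 σ τ * H.M 1 σ τ + H.G 2 σ τ * H.M 2 σ τ +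
    H.G 3 σ τ * H.M 3 σ τ + H.G 4 σ τ * H.M 4 σ τ)) (Icc 0 1) := continuousOn_const.mul c6
  have key : av (lam l0 σ) (T.quasi H d σ) ≤ av (lam l0 σ) (fun τ =>
      5 / 10 ^ 34 * (nG (H.g σ τ) + nM (H.m σ τ)) +
      1 / 10 ^ 34 * (H.G 1 σ τ * H.M 1 σ τ + H.G 2 σ τ * H.M 2 σ τ +
        H.G 3 σ τ * H.M 3 σ τ + H.G 4 σ τ * H.M 4 σ τ)) := by
    refine av_mono hl (T.quasi_cont H d h.pos hσ) (c7.add c8) fun τ hτ => ?_
    have hτ' := Ioo_subset_Icc_self hτ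
    have hχ := h.chi_mem hσ hτ'
    exact quasi_pt hl (h.lam_small hσ) hτ (H.g σ τ) (H.m σ τ) (fun j => H.GM j σ hσ τ hτ')
      (T.N_nonneg h.pos σ) hs.1 (T.sob_G h.pos (by norm_num) hσ hτ') (hs.2 τ hτ')
      (by rw [abs_le]; constructor <;> linarith [hχ.1, hχ.2])
      (h.bd (D d.chi, 10) (by simp [Data.bounds]) _ (h.lam_mem hσ) τ hτ')
  rw [av_add c7 c8, av_const_mul, av_const_mul, av_add c1 c2, av_add c5 (hG 4), av_add c4 (hG 3),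
    av_add (hG 1) (hG 2)] at key
  have i1 := H.interp h.pos (j := 1) (by norm_num) (by norm_num) hσ
  have i2 := H.interp h.pos (j := 2) (by norm_num) (by norm_num) hσ
  have i3 := H.interp h.pos (j := 3) (by norm_num) (by norm_num) hσ
  have i4 := H.interp h.pos (j := 4) (by norm_num) (by norm_num) hσ
  have n1 := H.N_nonneg h.pos σ
  have n2 := H.Dd_nonneg h.pos σ
  change _ ≤ 5 / 10 ^ 34 * (H.N σ + H.Dd σ) + _ at key
  linarith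

theorem rem_pt {Y Q1 X y0 a b A A' ω ee G0 G1 r : ℝ} (hX : |X| ≤ 1) (hy : |y0| ≤ 1 / 15)
    (ha : |a| ≤ 10 ^ 4) (hb : |b| ≤ 10 ^ 4) (hA : |A| ≤ 1 / 10 ^ 85) (hA' : |A'| ≤ 1 / 10 ^ 85)
    (hω : |ω| ≤ 1 / 10 ^ 22) (he : |ee| ≤ 1) (hr : ω = r * G0) :
    (-Y + X * y0 * (a * ω * G0) + X * y0 * (y0 * A)) ^ 2 +
      (-Q1 + X * (a * ((ee * ω + r * G1) * G0 + ω * G1) + b * ω * G0) + X * (y0 * A')) ^ 2 ≤
      3 * (Y ^ 2 + Q1 ^ 2) + 1 / 10 ^ 34 * (G0 ^ 2 + G1 ^ 2) + 4 / 10 ^ 170 * y0 ^ 2 := by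
  have h2 : |(2 : ℝ)| ≤ 2 := by norm_num
  have e1 : -Y + X * y0 * (a * ω * G0) + X * y0 * (y0 * A) =
      -Y + X * y0 * a * ω * G0 + X * y0 * A * y0 := by ring
  have e2 : -Q1 + X * (a * ((ee * ω + r * G1) * G0 + ω * G1) + b * ω * G0) + X * (y0 * A') =
      -Q1 + ((X * ω * (a * ee + b)) * G0 + (2 * (X * ω * a)) * G1) + X * A' * y0 := by
    rw [hr]; ring
  rw [e1, e2]
  have c1 := sum3_sq (-Y) (X * y0 * a * ω * G0) (X * y0 * A * y0)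
  have c2 := sum3_sq (-Q1) ((X * ω * (a * ee + b)) * G0 + (2 * (X * ω * a)) * G1) (X * A' * y0)
  have c3 := sum2_sq ((X * ω * (a * ee + b)) * G0) ((2 * (X * ω * a)) * G1)
  have a1 := sq_mul_le (z := G0) (abs_mul_le' (abs_mul_le' (abs_mul_le' hX hy) ha) hω)
  have a2 := sq_mul_le (z := y0) (abs_mul_le' (abs_mul_le' hX hy) hA)
  have a3 := sq_mul_le (z := G0) (abs_mul_le' (abs_mul_le' hX hω)
    (abs_add_le' (abs_mul_le' ha he) hb))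
  have a4 := sq_mul_le (z := G1) (abs_mul_le' h2 (abs_mul_le' (abs_mul_le' hX hω) ha))
  have a5 := sq_mul_le (z := y0) (abs_mul_le' hX hA')
  rw [neg_sq] at c1 c2
  have g0 := sq_nonneg G0
  have g1 := sq_nonneg G1
  have g2 := sq_nonneg y0
  generalize (-Y + X * y0 * a * ω * G0 + X * y0 * A * y0) ^ 2 = A0 at *
  generalize (-Q1 + ((X * ω * (a * ee + b)) * G0 + (2 * (X * ω * a)) * G1) + X * A' * y0) ^ 2 = A1
    at *
  generalize ((X * ω * (a * ee + b)) * G0 + (2 * (X * ω * a)) * G1) ^ 2 = A2 at *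
  generalize (X * y0 * a * ω * G0) ^ 2 = B1 at *
  generalize (X * y0 * A * y0) ^ 2 = B2 at *
  generalize (X * ω * (a * ee + b) * G0) ^ 2 = B3 at *
  generalize (2 * (X * ω * a) * G1) ^ 2 = B4 at *
  generalize (X * A' * y0) ^ 2 = B5 at *
  generalize G0 ^ 2 = u0 at *
  generalize G1 ^ 2 = u1 at *
  generalize y0 ^ 2 = u2 at *
  linarith

theorem Tr.Phi_le (h : d.Good l0) {T : Tr l0} (hT : T.IsSol d) {σ : ℝ} (hσ : 0 ≤ σ)
    (hs : T.Small σ) : T.Phi d σ ≤ 1 / 10 ^ 32 * (T.N σ + T.Dd σ) + 1 / 10 ^ 170 := by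
  have hl := lam_pos h.pos σ
  have hl' := h.lam_small hσ
  have sl : ∀ {F : ℝ × ℝ → ℝ}, ContinuousOn F (Ici 0 ×ˢ Icc 0 1) →
      ContinuousOn (fun τ => F (σ, τ)) (Icc 0 1) := fun hF =>
    hF.comp (f := fun τ : ℝ => (σ, τ)) (by fun_prop) fun τ hτ => ⟨hσ, hτ⟩
  have f0c : ContinuousOn (fun τ => T.f0 d σ τ) (Icc 0 1) := sl (T.f0_cont d h.pos)
  have f1c : ContinuousOn (fun τ => T.f1 d σ τ) (Icc 0 1) := sl (T.f1_cont d h.pos)
  have c0 : ContinuousOn (fun τ => T.f0 d σ τ ^ 2 + T.f1 d σ τ ^ 2) (Icc 0 1) :=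
    (f0c.pow 2).add (f1c.pow 2)
  have c1 : ContinuousOn (fun τ => 3 * T.quasi T d σ τ) (Icc 0 1) :=
    continuousOn_const.mul (T.quasi_cont T d h.pos hσ)
  have c2 : ContinuousOn (fun τ => 1 / 10 ^ 34 * nG (T.g σ τ)) (Icc 0 1) :=
    continuousOn_const.mul (T.nG_cont hσ)
  have c3 : ContinuousOn (fun τ => 4 / 10 ^ 170 * evc (lam l0 σ) τ y ^ 2) (Icc 0 1) :=
    continuousOn_const.mul ((continuousOn_evc_slice y hl).pow 2)
  have c4 : ContinuousOn (fun τ => 3 * T.quasi T d σ τ + 1 / 10 ^ 34 * nG (T.g σ τ)) (Icc 0 1) :=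
    c1.add c2
  have key : T.Phi d σ ≤ av (lam l0 σ) (fun τ => 3 * T.quasi T d σ τ +
      1 / 10 ^ 34 * nG (T.g σ τ) + 4 / 10 ^ 170 * evc (lam l0 σ) τ y ^ 2) := by
    refine av_mono hl c0 (c4.add c3) fun τ hτ => ?_
    have hτ' := Ioo_subset_Icc_self hτ
    have hm := h.lam_mem hσ
    have k := rem_pt
      (Y := T.om σ τ * (2 * evc (lam l0 σ) τ d.chi + T.om σ τ) *
        YK (evc (lam l0 σ) τ) (T.g σ τ) (T.m σ τ))
      (Q1 := T.om σ τ * (2 * evc (lam l0 σ) τ d.chi + T.om σ τ) *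
        RK (evc (lam l0 σ) τ) (T.g σ τ) (T.m σ τ) +
      (2 * (evc (lam l0 σ) τ d.chi + T.om σ τ) *
          ((1 - 2 * τ) * T.om σ τ + τ * (1 - τ) / lam l0 σ * T.G 1 σ τ) +
        2 * T.om σ τ * evc (lam l0 σ) τ (D d.chi)) *
        SK (evc (lam l0 σ) τ) (T.g σ τ) (T.m σ τ))
      (ee := 1 - 2 * τ) (G0 := T.G 0 σ τ) (G1 := T.G 1 σ τ) (r := τ * (1 - τ) / lam l0 σ)
      (xt_abs hl hτ') (y_abs hl hl' hτ')
      (h.bd (y * d.V2, 10 ^ 4) (by simp [Data.bounds]) _ hm τ hτ')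
      (h.bd (y * Dy 2 d.V2, 10 ^ 4) (by simp [Data.bounds]) _ hm τ hτ')
      (h.bd (d.A, 1 / 10 ^ 85) (by simp [Data.bounds]) _ hm τ hτ')
      (h.bd (Dy 2 d.A, 1 / 10 ^ 85) (by simp [Data.bounds]) _ hm τ hτ')
      (hs.2 τ hτ') (by rw [abs_le]; constructor <;> linarith [hτ.1, hτ.2]) rfl
    have b6 : T.G 0 σ τ ^ 2 + T.G 1 σ τ ^ 2 ≤ nG (T.g σ τ) := by
      unfold nG Tr.g; linarith [sq_nonneg (T.G 2 σ τ), sq_nonneg (T.G 3 σ τ)]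
    have e0 : T.f0 d σ τ = -(T.om σ τ * (2 * evc (lam l0 σ) τ d.chi + T.om σ τ) *
        YK (evc (lam l0 σ) τ) (T.g σ τ) (T.m σ τ)) +
        evc (lam l0 σ) τ (x * (1 - t)) * evc (lam l0 σ) τ y *
          (evc (lam l0 σ) τ (y * d.V2) * T.om σ τ * T.G 0 σ τ) +
        evc (lam l0 σ) τ (x * (1 - t)) * evc (lam l0 σ) τ y *
          (evc (lam l0 σ) τ y * evc (lam l0 σ) τ d.A) := by
      rw [hT.f0 σ hσ τ hτ, Data.rem0, map_mul _ (x * (1 - t)) y]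
      rfl
    have e1 : T.f1 d σ τ = -(T.om σ τ * (2 * evc (lam l0 σ) τ d.chi + T.om σ τ) *
        RK (evc (lam l0 σ) τ) (T.g σ τ) (T.m σ τ) +
      (2 * (evc (lam l0 σ) τ d.chi + T.om σ τ) *
          ((1 - 2 * τ) * T.om σ τ + τ * (1 - τ) / lam l0 σ * T.G 1 σ τ) +
        2 * T.om σ τ * evc (lam l0 σ) τ (D d.chi)) *
        SK (evc (lam l0 σ) τ) (T.g σ τ) (T.m σ τ)) +
        evc (lam l0 σ) τ (x * (1 - t)) * (evc (lam l0 σ) τ (y * d.V2) *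
          (((1 - 2 * τ) * T.om σ τ + τ * (1 - τ) / lam l0 σ * T.G 1 σ τ) * T.G 0 σ τ +
            T.om σ τ * T.G 1 σ τ) + evc (lam l0 σ) τ (y * Dy 2 d.V2) * T.om σ τ * T.G 0 σ τ) +
        evc (lam l0 σ) τ (x * (1 - t)) *
          (evc (lam l0 σ) τ y * evc (lam l0 σ) τ (Dy 2 d.A)) := by
      rw [hT.f1 σ hσ τ hτ, Data.rem1, neg_add, ← sub_eq_add_neg]
      rfl
    rw [e0, e1]
    refine k.trans ?_
    change 3 * T.quasi T d σ τ + _ + _ ≤ _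
    linarith
  rw [av_add c4 c3, av_add c1 c2, av_const_mul, av_const_mul, av_const_mul, av_y_sq hl] at key
  have q := Tr.quasi_le h T T hσ hs
  have n1 := T.N_nonneg h.pos σ
  have n2 := T.Dd_nonneg h.pos σ
  change _ ≤ 3 * av (lam l0 σ) (T.quasi T d σ) + 1 / 10 ^ 34 * T.N σ + _ at key
  linarith

theorem Tr.W_sq (h : d.Good l0) (T : Tr l0) {σ : ℝ} (hσ : 0 ≤ σ) {τ : ℝ}
    (hτ : τ ∈ Ioo (0 : ℝ) 1) (hr : lam l0 σ ≤ τ * (1 - τ)) :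
    (SK (evc (lam l0 σ) τ) (T.g σ τ) (T.m σ τ) -
        evc (lam l0 σ) τ (x * (1 - t) * y * d.A) / evc (lam l0 σ) τ d.chi ^ 2) ^ 2 ≤
      lam l0 σ / (τ * (1 - τ)) * (10 ^ 8 * (T.N σ + T.Dd σ + 1 / 10 ^ 170)) := by
  have hl := lam_pos h.pos σ
  have hl' := h.lam_small hσ
  have hτ' := Ioo_subset_Icc_self hτ
  have hρ : 0 < τ * (1 - τ) := mul_pos hτ.1 (sub_pos.2 hτ.2)
  have dv : ∀ {u w : ℝ}, τ * (1 - τ) * u ≤ 2 * lam l0 σ * w →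
      u ≤ 2 * (lam l0 σ / (τ * (1 - τ)) * w) := fun {u w} huw => by
    have : 2 * (lam l0 σ / (τ * (1 - τ)) * w) = 2 * lam l0 σ * w / (τ * (1 - τ)) := by ring
    rw [this, le_div_iff₀ hρ]; linarith
  have m1 := dv (T.sob_M h.pos (j := 1) (by norm_num) (by norm_num) hσ hτ')
  have m2 := dv (T.sob_M h.pos (j := 2) (by norm_num) (by norm_num) hσ hτ')
  have m3 := dv (T.sob_M h.pos (j := 3) (by norm_num) (by norm_num) hσ hτ')
  have m4 := dv (T.sob_M h.pos (j := 4) (by norm_num) (by norm_num) hσ hτ')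
  have g0 := dv (T.sob_G h.pos (j := 0) (by norm_num) hσ hτ')
  have s1 := SK_sq' hl hl' hτ' (T.g σ τ) (T.m σ τ)
  have hχ := h.chi_mem hσ hτ'
  have hy0 := y_pos hl hτ'
  have hy1 : evc (lam l0 σ) τ y ≤ lam l0 σ / (τ * (1 - τ)) := by
    rw [le_div_iff₀ hρ]
    have h1 := t_mul_y hl hτ'
    have h2 := xx_mem hl hτ'
    have h3 : xx (lam l0 σ) τ * (1 - τ) ≤ 1 :=
      mul_le_one₀ h2.2 (sub_nonneg.2 hτ'.2) (by linarith [hτ.1])
    have h4 : evc (lam l0 σ) τ y * (τ * (1 - τ)) = lam l0 σ * (xx (lam l0 σ) τ * (1 - τ)) := by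
      linear_combination (1 - τ) * h1
    rw [h4]
    exact mul_le_of_le_one_right hl.le h3
  have hy2 : evc (lam l0 σ) τ y ^ 2 ≤ lam l0 σ / (τ * (1 - τ)) := by
    have h1 := y_le hl (by linarith) hτ'
    nlinarith
  have hi : |(evc (lam l0 σ) τ d.chi ^ 2)⁻¹| ≤ 100 := by
    have h1 : 1 / 100 ≤ evc (lam l0 σ) τ d.chi ^ 2 := by nlinarith [hχ.1]
    rw [abs_of_nonneg (by positivity)]
    exact (inv_le_comm₀ (by linarith) (by norm_num)).2 (by linarith)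
  have a1 := sq_mul_le (z := evc (lam l0 σ) τ y) (abs_mul_le' (abs_mul_le' (xt_abs hl hτ')
    (h.bd (d.A, 1 / 10 ^ 85) (by simp [Data.bounds]) _ (h.lam_mem hσ) τ hτ')) hi)
  have e1 : SK (evc (lam l0 σ) τ) (T.g σ τ) (T.m σ τ) -
      evc (lam l0 σ) τ (x * (1 - t) * y * d.A) / evc (lam l0 σ) τ d.chi ^ 2 =
      SK (evc (lam l0 σ) τ) (T.g σ τ) (T.m σ τ) + -(evc (lam l0 σ) τ (x * (1 - t)) *
        evc (lam l0 σ) τ d.A * (evc (lam l0 σ) τ d.chi ^ 2)⁻¹ * evc (lam l0 σ) τ y) := by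
    rw [map_mul _ _ d.A, map_mul _ _ y]; ring
  rw [e1]
  refine (sum2_sq _ _).trans ?_
  rw [neg_sq]
  have p0 : 0 ≤ lam l0 σ / (τ * (1 - τ)) := by positivity
  have p1 := mul_nonneg p0 (T.N_nonneg h.pos σ)
  have p2 := mul_nonneg p0 (T.Dd_nonneg h.pos σ)
  have e2 : lam l0 σ / (τ * (1 - τ)) * (10 ^ 8 * (T.N σ + T.Dd σ + 1 / 10 ^ 170)) =
      10 ^ 8 * (lam l0 σ / (τ * (1 - τ)) * T.N σ) + 10 ^ 8 * (lam l0 σ / (τ * (1 - τ)) * T.Dd σ) +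
        1 / 10 ^ 162 * (lam l0 σ / (τ * (1 - τ))) := by ring
  rw [e2]
  simp only [Tr.g, Tr.m] at s1 ⊢
  dsimp only at a1
  generalize lam l0 σ / (τ * (1 - τ)) * T.N σ = u1 at *
  generalize lam l0 σ / (τ * (1 - τ)) * T.Dd σ = u2 at *
  generalize lam l0 σ / (τ * (1 - τ)) = u0 at *
  linarith

end Vale.Agent.P264
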