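import Vale.Agent.P264.Defs

/-! The ring of smooth functions on `ℝ × (ℂ^N ∖ 0)` with its derivations. -/

open scoped ContDiff ComplexConjugate Topology
open Set Complex

noncomputable section

namespace Vale.Agent.P264

/-- time times homogeneous coordinates -/
abbrev VV (N : ℕ) : Type := ℝ × (Fin N → ℂ)

/-- the open set of points with nonzero coordinates -/
def Om (N : ℕ) : Set (VV N) := {p | p.2 ≠ 0}

variable {N : ℕ}

theorem isOpen_Om : IsOpen (Om N) := isOpen_ne_fun continuous_snd continuous_const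

open Classical in
/-- extension by zero -/
def ext0 (f : Om N → ℂ) (p : VV N) : ℂ := if h : p ∈ Om N then f ⟨p, h⟩ else 0

theorem ext0_of_mem (f : Om N → ℂ) {p : VV N} (h : p ∈ Om N) : ext0 f p = f ⟨p, h⟩ := dif_pos h

/-- smooth functions on `Om N`, as a subalgebra -/
def SmA (N : ℕ) : Subalgebra ℂ (Om N → ℂ) where
  carrier := {f | ContDiffOn ℝ ∞ (ext0 f) (Om N)}
  mul_mem' {a b} (ha : ContDiffOn ℝ ∞ _ _) (hb : ContDiffOn ℝ ∞ _ _) :=
    (ha.mul hb).congr fun p hp => by simp [ext0_of_mem _ hp]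
  add_mem' {a b} (ha : ContDiffOn ℝ ∞ _ _) (hb : ContDiffOn ℝ ∞ _ _) :=
    (ha.add hb).congr fun p hp => by simp [ext0_of_mem _ hp]
  algebraMap_mem' c := (contDiffOn_const (c := c)).congr fun p hp => by simp [ext0_of_mem _ hp]

/-- smooth functions on `Om N` -/
def Sm (N : ℕ) : Type := SmA N

instance : CommRing (Sm N) := inferInstanceAs (CommRing (SmA N))

instance : Algebra ℂ (Sm N) := inferInstanceAs (Algebra ℂ (SmA N))

namespace Sm

/-- the function on the whole space (zero off `Om N`) -/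
def val (f : Sm N) : VV N → ℂ := ext0 (Subtype.val f)

theorem smooth (f : Sm N) : ContDiffOn ℝ ∞ f.val (Om N) := Subtype.property f

theorem smoothAt (f : Sm N) {p : VV N} (hp : p ∈ Om N) : ContDiffAt ℝ ∞ f.val p :=
  f.smooth.contDiffAt (isOpen_Om.mem_nhds hp)

theorem val_of_notMem (f : Sm N) {p : VV N} (hp : p ∉ Om N) : f.val p = 0 := dif_neg hp

/-- restriction of a function smooth on `Om N` -/
def mk (F : VV N → ℂ) (hF : ContDiffOn ℝ ∞ F (Om N)) : Sm N :=
  ⟨fun p => F p, hF.congr fun _ hp => ext0_of_mem _ hp⟩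

/-- evaluation at a point -/
def ev (p : Om N) : Sm N →ₐ[ℂ] ℂ := (Pi.evalAlgHom ℂ (fun _ => ℂ) p).comp (SmA N).val

theorem ev_eq (p : Om N) (f : Sm N) : ev p f = f.val p := (ext0_of_mem (Subtype.val f) p.2).symm

theorem val_eq (f : Sm N) {p : VV N} (hp : p ∈ Om N) : f.val p = ev ⟨p, hp⟩ f :=
  (ev_eq ⟨p, hp⟩ f).symm

@[simp] theorem ev_mk (p : Om N) (F : VV N → ℂ) (hF) : ev p (mk F hF) = F p := rfl

theorem val_mk (F : VV N → ℂ) (hF) {p : VV N} (hp : p ∈ Om N) : (mk F hF).val p = F p :=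
  ext0_of_mem _ hp

theorem val_mk_ev (F : VV N → ℂ) (hF) {p : VV N} (hp : p ∈ Om N) : (mk F hF).val =ᶠ[𝓝 p] F :=
  Filter.eventually_of_mem (isOpen_Om.mem_nhds hp) fun _ hq => val_mk F hF hq

theorem ext_ev {f g : Sm N} (h : ∀ p, ev p f = ev p g) : f = g := Subtype.ext (funext h)

theorem diffAt (f : Sm N) {p : VV N} (hp : p ∈ Om N) : DifferentiableAt ℝ f.val p :=
  (f.smoothAt hp).differentiableAt (by simp)

theorem smooth_fderiv (f : Sm N) (v : VV N) :
    ContDiffOn ℝ ∞ (fun p => fderiv ℝ f.val p v) (Om N) := fun _ hp =>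
  (((f.smoothAt hp).fderiv_right (m := ∞) (by simp)).clm_apply contDiffAt_const).contDiffWithinAt

theorem val_ev_congr {f : Sm N} {F : VV N → ℂ} (h : ∀ q : Om N, ev q f = F q) {p : VV N}
    (hp : p ∈ Om N) : f.val =ᶠ[𝓝 p] F :=
  Filter.eventually_of_mem (isOpen_Om.mem_nhds hp) fun q hq => (val_eq f hq).trans (h ⟨q, hq⟩)

/-- directional derivative -/
def DD (v : VV N) : Derivation ℂ (Sm N) (Sm N) :=
  Derivation.mk'
    { toFun := fun f => mk _ (f.smooth_fderiv v)
      map_add' := fun f g => ext_ev fun p => by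
        have h : (f + g).val =ᶠ[𝓝 p.1] f.val + g.val :=
          val_ev_congr (fun q => by simp [ev_eq q f, ev_eq q g]) p.2
        simp only [ev_mk, map_add]
        rw [h.fderiv_eq, fderiv_add (f.diffAt p.2) (g.diffAt p.2)]
        rfl
      map_smul' := fun c f => ext_ev fun p => by
        have h : (c • f).val =ᶠ[𝓝 p.1] c • f.val :=
          val_ev_congr (fun q => by simp [ev_eq q f]) p.2
        simp only [ev_mk, map_smul, RingHom.id_apply]
        rw [h.fderiv_eq, fderiv_const_smul (f.diffAt p.2)]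
        rfl }
    fun f g => ext_ev fun p => by
      have h : (f * g).val =ᶠ[𝓝 p.1] f.val * g.val :=
        val_ev_congr (fun q => by simp [ev_eq q f, ev_eq q g]) p.2
      simp only [LinearMap.coe_mk, AddHom.coe_mk, ev_mk, map_add, smul_eq_mul, map_mul]
      rw [h.fderiv_eq, fderiv_mul (f.diffAt p.2) (g.diffAt p.2), ev_eq p f, ev_eq p g]
      rfl

theorem ev_DD (v : VV N) (p : Om N) (f : Sm N) : ev p (DD v f) = fderiv ℝ f.val p v := rfl

theorem DD_comm (v w : VV N) (f : Sm N) : DD v (DD w f) = DD w (DD v f) := by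
  refine ext_ev fun p => ?_
  have h2 : IsSymmSndFDerivAt ℝ f.val p := (f.smoothAt p.2).isSymmSndFDerivAt (by
    rw [minSmoothness_of_isRCLikeNormedField]; exact ENat.LEInfty.out)
  have h1 : DifferentiableAt ℝ (fderiv ℝ f.val) p :=
    ((f.smoothAt p.2).fderiv_right (m := ∞) (by simp)).differentiableAt (by simp)
  have key : ∀ a b : VV N, ev p (DD a (DD b f)) = fderiv ℝ (fderiv ℝ f.val) p a b := by
    intro a b
    have h : (DD b f).val =ᶠ[𝓝 p.1] fun y => fderiv ℝ f.val y b :=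
      val_ev_congr (fun q => ev_DD b q f) p.2
    rw [ev_DD, h.fderiv_eq, fderiv_clm_apply h1 (differentiableAt_const _)]
    simp
  rw [key, key, h2.eq]

/-- holomorphic Wirtinger derivative -/
def d (a : Fin N) : Derivation ℂ (Sm N) (Sm N) :=
  (1 / 2 : ℂ) • (DD (0, Pi.single a 1) - I • DD (0, Pi.single a I))

/-- antiholomorphic Wirtinger derivative -/
def db (a : Fin N) : Derivation ℂ (Sm N) (Sm N) :=
  (1 / 2 : ℂ) • (DD (0, Pi.single a 1) + I • DD (0, Pi.single a I))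

/-- time derivative -/
def dt : Derivation ℂ (Sm N) (Sm N) := DD (1, 0)

theorem smooth_conj (f : Sm N) : ContDiffOn ℝ ∞ (fun p => conj (f.val p)) (Om N) :=
  conjCLE.contDiff.comp_contDiffOn f.smooth

/-- complex conjugation -/
def cj : Sm N →+* Sm N where
  toFun f := mk (fun p => conj (f.val p)) f.smooth_conj
  map_one' := ext_ev fun p => by simp [← ev_eq]
  map_mul' f g := ext_ev fun p => by simp [← ev_eq]
  map_zero' := ext_ev fun p => by simp [← ev_eq]
  map_add' f g := ext_ev fun p => by simp [← ev_eq]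

@[simp] theorem ev_cj (p : Om N) (f : Sm N) : ev p (cj f) = conj (ev p f) := by
  rw [ev_eq p f]; rfl

/-- coordinates -/
def z (a : Fin N) : Sm N := mk (fun p => p.2 a) (by fun_prop)

/-- conjugate coordinates -/
def zb (a : Fin N) : Sm N := cj (z a)

/-- the time coordinate -/
def tt : Sm N := mk (fun p => (p.1 : ℂ)) (ofRealCLM.contDiff.comp contDiff_fst).contDiffOn

@[simp] theorem ev_z (p : Om N) (a : Fin N) : ev p (z a) = p.1.2 a := rfl

@[simp] theorem ev_zb (p : Om N) (a : Fin N) : ev p (zb a) = conj (p.1.2 a) := ev_cj p _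

@[simp] theorem ev_tt (p : Om N) : ev p tt = (p.1.1 : ℂ) := rfl

/-- composition of a real function with (the real part of) a smooth function -/
def compR (β : ℝ → ℝ) (f : Sm N) (h : ∀ p, ContDiffAt ℝ ∞ β (ev p f).re) : Sm N :=
  mk (fun p => (β (f.val p).re : ℂ)) fun p hp => by
    have h1 : ContDiffAt ℝ ∞ (fun q => (f.val q).re) p :=
      reCLM.contDiff.contDiffAt.comp p (f.smoothAt hp)
    have h2 : ContDiffAt ℝ ∞ β (f.val p).re := by rw [val_eq f hp]; exact h _
    exact (ofRealCLM.contDiff.contDiffAt.comp p (h2.comp p h1)).contDiffWithinAt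

@[simp] theorem ev_compR (β : ℝ → ℝ) (f : Sm N) (h) (p : Om N) :
    ev p (compR β f h) = (β (ev p f).re : ℂ) := by rw [ev_eq p f]; rfl

theorem compR_deriv {β : ℝ → ℝ} {f : Sm N} (h : ∀ p, ContDiffAt ℝ ∞ β (ev p f).re) (p : Om N) :
    ContDiffAt ℝ ∞ (deriv β) (ev p f).re := (h p).derivWithin (by simp)

/-- homogeneity of bidegree k, l -/
def Hom (k l : ℤ) (f : Sm N) : Prop :=
  ∀ (s : ℝ) (Z : Fin N → ℂ) (c : ℂ), c ≠ 0 → Z ≠ 0 →
    f.val (s, c • Z) = c ^ k * conj c ^ l * f.val (s, Z)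

theorem cj_cj (f : Sm N) : cj (cj f) = f := ext_ev fun p => by simp

theorem cj_smul (c : ℂ) (f : Sm N) : cj (c • f) = conj c • cj f := ext_ev fun p => by simp

theorem DD_add (v w : VV N) (f : Sm N) : DD (v + w) f = DD v f + DD w f :=
  ext_ev fun p => by simp [ev_DD]

theorem DD_smul (c : ℝ) (v : VV N) (f : Sm N) : DD (c • v) f = (c : ℂ) • DD v f :=
  ext_ev fun p => by rw [map_smul, ev_DD, ev_DD]; simp

theorem cj_DD (v : VV N) (f : Sm N) : cj (DD v f) = DD v (cj f) := by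
  refine ext_ev fun p => ?_
  have h : (cj f).val =ᶠ[𝓝 p.1] conjCLE ∘ f.val :=
    val_ev_congr (fun q => by simp [ev_eq q f]) p.2
  rw [ev_cj, ev_DD, ev_DD, h.fderiv_eq, conjCLE.comp_fderiv]
  rfl

theorem d_apply (a : Fin N) (f : Sm N) :
    d a f = (1 / 2 : ℂ) • (DD (0, Pi.single a 1) f - I • DD (0, Pi.single a I) f) := rfl

theorem db_apply (a : Fin N) (f : Sm N) :
    db a f = (1 / 2 : ℂ) • (DD (0, Pi.single a 1) f + I • DD (0, Pi.single a I) f) := rfl

theorem cj_d (a : Fin N) (f : Sm N) : cj (d a f) = db a (cj f) := by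
  simp [d_apply, db_apply, cj_smul, cj_DD, map_ofNat]

theorem cj_db (a : Fin N) (f : Sm N) : cj (db a f) = d a (cj f) := by
  simp [d_apply, db_apply, cj_smul, cj_DD, sub_eq_add_neg, map_ofNat]

theorem cj_dt (f : Sm N) : cj (dt f) = dt (cj f) := cj_DD _ f

theorem DD_d (v : VV N) (a : Fin N) (f : Sm N) : DD v (d a f) = d a (DD v f) := by
  simp [d_apply, DD_comm v]

theorem DD_db (v : VV N) (a : Fin N) (f : Sm N) : DD v (db a f) = db a (DD v f) := by
  simp [db_apply, DD_comm v]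

theorem d_d (a b : Fin N) (f : Sm N) : d a (d b f) = d b (d a f) := by
  rw [d_apply a, DD_d, DD_d, d_apply a f]; simp

theorem d_db (a b : Fin N) (f : Sm N) : d a (db b f) = db b (d a f) := by
  rw [d_apply a, DD_db, DD_db, d_apply a f]; simp

theorem db_db (a b : Fin N) (f : Sm N) : db a (db b f) = db b (db a f) := by
  rw [db_apply a, DD_db, DD_db, db_apply a f]; simp

theorem dt_d (a : Fin N) (f : Sm N) : dt (d a f) = d a (dt f) := DD_d _ a f

theorem dt_db (a : Fin N) (f : Sm N) : dt (db a f) = db a (dt f) := DD_db _ a f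

theorem DD_clm (L : VV N →L[ℝ] ℂ) (v : VV N) (h) : DD v (mk L h) = algebraMap ℂ _ (L v) := by
  refine ext_ev fun p => ?_
  rw [ev_DD, (val_mk_ev _ h p.2).fderiv_eq, L.fderiv]
  simp

theorem DD_z (v : VV N) (a : Fin N) : DD v (z a) = algebraMap ℂ _ (v.2 a) :=
  DD_clm ((ContinuousLinearMap.proj a).comp (ContinuousLinearMap.snd ℝ ℝ (Fin N → ℂ))) v _

theorem DD_tt (v : VV N) : DD v tt = algebraMap ℂ _ (v.1 : ℂ) :=
  DD_clm (ofRealCLM.comp (ContinuousLinearMap.fst ℝ ℝ (Fin N → ℂ))) v _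

theorem d_z (a b : Fin N) : d a (z b) = if a = b then 1 else 0 := by
  refine ext_ev fun p => ?_
  by_cases h : a = b
  · subst h; simp [d_apply, DD_z]; norm_num
  · simp [d_apply, DD_z, h, Ne.symm h]

theorem db_z (a b : Fin N) : db a (z b) = 0 := by
  refine ext_ev fun p => ?_
  by_cases h : a = b
  · subst h; simp [db_apply, DD_z]
  · simp [db_apply, DD_z, Ne.symm h]

theorem d_zb (a b : Fin N) : d a (zb b) = 0 := by rw [zb, ← cj_db, db_z, map_zero]

theorem db_zb (a b : Fin N) : db a (zb b) = if a = b then 1 else 0 := by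
  rw [zb, ← cj_d, d_z]; split_ifs <;> simp

theorem dt_z (a : Fin N) : dt (z a) = 0 := by simp [dt, DD_z]

theorem dt_zb (a : Fin N) : dt (zb a) = 0 := by rw [zb, ← cj_dt, dt_z, map_zero]

theorem d_tt (a : Fin N) : d a tt = 0 := by simp [d_apply, DD_tt]

theorem db_tt (a : Fin N) : db a tt = 0 := by simp [db_apply, DD_tt]

theorem dt_tt : dt (tt : Sm N) = 1 := by simp [dt, DD_tt]

theorem isUnit_of_ne {f : Sm N} (h : ∀ p, ev p f ≠ 0) : IsUnit f := by
  refine IsUnit.of_mul_eq_one (mk (fun p => (f.val p)⁻¹)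
    (f.smooth.inv fun p hp => by rw [val_eq f hp]; exact h _)) (ext_ev fun p => ?_)
  rw [map_mul, map_one, ev_eq p f]
  exact mul_inv_cancel₀ (by rw [← ev_eq]; exact h p)

theorem DD_compR (v : VV N) {β : ℝ → ℝ} {f : Sm N} (hf : cj f = f) (h) :
    DD v (compR β f h) = compR (deriv β) f (compR_deriv h) * DD v f := by
  refine ext_ev fun p => ?_
  have h1 : (compR β f h).val =ᶠ[𝓝 p.1] fun q => (β (f.val q).re : ℂ) := val_mk_ev _ _ p.2
  have h2 : HasFDerivAt (fun q => (f.val q).re) (reCLM.comp (fderiv ℝ f.val p)) p :=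
    reCLM.hasFDerivAt.comp p.1 (f.diffAt p.2).hasFDerivAt
  have h3 : HasDerivAt β (deriv β (f.val p).re) (f.val p).re := by
    rw [← ev_eq]; exact ((h p).differentiableAt (by simp)).hasDerivAt
  have h4 := (ofRealCLM.hasFDerivAt.comp p.1 (h3.comp_hasFDerivAt p.1 h2)).fderiv
  have h5 : conj (ev p (DD v f)) = ev p (DD v f) := by rw [← ev_cj, cj_DD, hf]
  rw [map_mul, ev_compR, ev_DD, h1.fderiv_eq, ev_eq p f, ← conj_eq_iff_re.1 h5, ev_DD]
  refine (congrArg (fun L => L v) h4).trans ?_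
  simp

theorem d_compR (a : Fin N) {β : ℝ → ℝ} {f : Sm N} (hf : cj f = f) (h) :
    d a (compR β f h) = compR (deriv β) f (compR_deriv h) * d a f := by
  simp [d_apply, DD_compR _ hf, mul_sub]

theorem db_compR (a : Fin N) {β : ℝ → ℝ} {f : Sm N} (hf : cj f = f) (h) :
    db a (compR β f h) = compR (deriv β) f (compR_deriv h) * db a f := by
  simp [db_apply, DD_compR _ hf, mul_add]

theorem dt_compR {β : ℝ → ℝ} {f : Sm N} (hf : cj f = f) (h) :
    dt (compR β f h) = compR (deriv β) f (compR_deriv h) * dt f := DD_compR _ hf h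

theorem cj_compR (β : ℝ → ℝ) (f : Sm N) (h) : cj (compR β f h) = compR β f h :=
  ext_ev fun p => by simp

theorem hasDerivAt_time (f : Sm N) (s : ℝ) {Z : Fin N → ℂ} (hZ : Z ≠ 0) :
    HasDerivAt (fun r => f.val (r, Z)) ((dt f).val (s, Z)) s := by
  have hp : ((s, Z) : VV N) ∈ Om N := hZ
  rw [val_eq (dt f) hp, dt, ev_DD]
  exact (f.diffAt hp).hasFDerivAt.comp_hasDerivAt s
    ((hasDerivAt_id s).prodMk (hasDerivAt_const s Z))

theorem fderiv_slice (f : Sm N) (s : ℝ) {Z : Fin N → ℂ} (hZ : Z ≠ 0) (ξ : Fin N → ℂ) :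
    fderiv ℝ (fun W => f.val (s, W)) Z ξ = (DD (0, ξ) f).val (s, Z) := by
  have hp : ((s, Z) : VV N) ∈ Om N := hZ
  rw [val_eq (DD _ f) hp, ev_DD]
  have h := ((f.diffAt hp).hasFDerivAt.comp Z (hasFDerivAt_prodMk_right s Z)).fderiv
  exact congrArg (fun L => L ξ) h

theorem dz_slice (f : Sm N) (s : ℝ) {Z : Fin N → ℂ} (hZ : Z ≠ 0) (a : Fin N) :
    dz a (fun W => f.val (s, W)) Z = (d a f).val (s, Z) := by
  have hp : ((s, Z) : VV N) ∈ Om N := hZ
  rw [dz, fderiv_slice f s hZ, fderiv_slice f s hZ, val_eq _ hp, val_eq _ hp, val_eq _ hp, d_apply]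
  simp only [map_smul, map_sub, smul_eq_mul]
  ring

theorem dzb_slice (f : Sm N) (s : ℝ) {Z : Fin N → ℂ} (hZ : Z ≠ 0) (a : Fin N) :
    dzb a (fun W => f.val (s, W)) Z = (db a f).val (s, Z) := by
  have hp : ((s, Z) : VV N) ∈ Om N := hZ
  rw [dzb, fderiv_slice f s hZ, fderiv_slice f s hZ, val_eq _ hp, val_eq _ hp, val_eq _ hp,
    db_apply]
  simp only [map_smul, map_add, smul_eq_mul]
  ring

end Sm

theorem dz_congr {a : Fin N} {u v : (Fin N → ℂ) → ℂ} {Z : Fin N → ℂ} (h : u =ᶠ[𝓝 Z] v) :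
    dz a u Z = dz a v Z := by rw [dz, dz, h.fderiv_eq]

theorem dzb_congr {a : Fin N} {u v : (Fin N → ℂ) → ℂ} {Z : Fin N → ℂ} (h : u =ᶠ[𝓝 Z] v) :
    dzb a u =ᶠ[𝓝 Z] dzb a v :=
  h.eventuallyEq_nhds.mono fun _ hW => by rw [dzb, dzb, hW.fderiv_eq]

theorem ddbar_congr {u v : (Fin N → ℂ) → ℝ} {Z : Fin N → ℂ} (h : u =ᶠ[𝓝 Z] v) :
    ddbar u Z = ddbar v Z := by
  ext a b
  exact dz_congr (dzb_congr (h.mono fun W hW => congrArg (fun x : ℝ => (x : ℂ)) hW))

/-- The complex Hessian of a slice of a ring element. -/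
theorem ddbar_slice (f : Sm N) (s : ℝ) {Z : Fin N → ℂ} (hZ : Z ≠ 0) {u : (Fin N → ℂ) → ℝ}
    (h : ∀ᶠ W in 𝓝 Z, (u W : ℂ) = f.val (s, W)) (a b : Fin N) :
    ddbar u Z a b = (Sm.d a (Sm.db b f)).val (s, Z) := by
  have h1 : dzb b (fun W => (u W : ℂ)) =ᶠ[𝓝 Z] fun W => (Sm.db b f).val (s, W) :=
    (dzb_congr h).trans ((eventually_ne_nhds hZ).mono fun W hW =>
      Sm.dzb_slice f s hW b)
  exact (dz_congr h1).trans (Sm.dz_slice _ s hZ a)

end Vale.Agent.P264
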