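import Vale.Agent.P264.Lyap

/-! Trajectories that come from solutions of the nonlinear equation. -/

open Set Polynomial

noncomputable section

namespace Vale.Agent.P264

open Fl

/-- nonlinear remainder -/
def Data.rem0 (d : Data) (v : Fl →ₐ[ℝ] ℝ) (G M : ℕ → ℝ) (ω : ℝ) : ℝ :=
  -(ω * (2 * v d.chi + ω) * YK v G M) + v (x * (1 - t) * y) * (v (y * d.V2) * ω * G 0) +
    v (x * (1 - t) * y) * (v y * v d.A)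

/-- derivative of the nonlinear remainder; `ω'` is `D ω` -/
def Data.rem1 (d : Data) (v : Fl →ₐ[ℝ] ℝ) (G M : ℕ → ℝ) (ω ω' : ℝ) : ℝ :=
  -(ω * (2 * v d.chi + ω) * RK v G M) -
    (2 * (v d.chi + ω) * ω' + 2 * ω * v (D d.chi)) * SK v G M +
    v (x * (1 - t)) * (v (y * d.V2) * (ω' * G 0 + ω * G 1) + v (y * Dy 2 d.V2) * ω * G 0) +
    v (x * (1 - t)) * (v y * v (Dy 2 d.A))

/-- `T` is the difference of a solution and the approximate solution. -/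
structure Tr.IsSol {l0 : ℝ} (T : Tr l0) (d : Data) : Prop where
  f0 : ∀ σ, 0 ≤ σ → ∀ τ ∈ Ioo (0 : ℝ) 1, T.f0 d σ τ =
    d.rem0 (evc (lam l0 σ) τ) (T.g σ τ) (T.m σ τ) (T.om σ τ)
  f1 : ∀ σ, 0 ≤ σ → ∀ τ ∈ Ioo (0 : ℝ) 1, T.f1 d σ τ =
    d.rem1 (evc (lam l0 σ) τ) (T.g σ τ) (T.m σ τ) (T.om σ τ)
      ((1 - 2 * τ) * T.om σ τ + τ * (1 - τ) / lam l0 σ * T.G 1 σ τ)
  pos : ∀ σ, 0 ≤ σ → ∀ τ ∈ Icc (0 : ℝ) 1, 0 < evc (lam l0 σ) τ d.chi + T.om σ τ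
  lim : ∃ C : ℝ, ∀ σ, 0 ≤ σ → ∀ τ ∈ Icc (0 : ℝ) 1,
    |evc (lam l0 σ) τ d.chi + T.om σ τ - 1| ≤ C * τ
  dW : ∀ σ, 0 < σ → ∀ τ ∈ Ioo (0 : ℝ) 1, evc (lam l0 σ) τ d.chi ≠ 0 →
    HasDerivAt (fun s => (evc (lam l0 s) τ d.chi + T.om s τ)⁻¹ - (evc (lam l0 s) τ d.chi)⁻¹)
      (SK (evc (lam l0 σ) τ) (T.g σ τ) (T.m σ τ) -
        evc (lam l0 σ) τ (x * (1 - t) * y * d.A) / evc (lam l0 σ) τ d.chi ^ 2) σ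

/-- the small regime -/
def Tr.Small {l0 : ℝ} (T : Tr l0) (σ : ℝ) : Prop :=
  T.N σ ≤ 1 / 10 ^ 44 ∧ ∀ τ ∈ Icc (0 : ℝ) 1, |T.om σ τ| ≤ 1 / 10 ^ 22

/-- the indefinite Lyapunov functional -/
def Tr.Q {l0 : ℝ} (T : Tr l0) (d : Data) (σ : ℝ) : ℝ :=
  T.Y d σ - 10 ^ 18 * (T.ell d 0 σ ^ 2 + T.ell d 1 σ ^ 2)

end Vale.Agent.P264
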