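import Vale.Agent.P264.Jets
import Vale.Agent.P264.SolDefs

/-! A solution in self-similar variables. -/

open Set Polynomial

noncomputable section

namespace Vale.Agent.P264

open Fl

/-- jet families with their time derivatives -/
structure SolTrFam (a k : ℕ → ℝ → ℝ → ℝ) : Prop where
  ca : ∀ j, ContinuousOn (fun p : ℝ × ℝ => a j p.1 p.2) (Ici 0 ×ˢ Icc 0 1)
  ck : ∀ j, ContinuousOn (fun p : ℝ × ℝ => k j p.1 p.2) (Ici 0 ×ˢ Icc 0 1)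
  ja : ∀ s, 0 ≤ s → Jet fun j => a j s
  jk : ∀ s, 0 ≤ s → Jet fun j => k j s
  dt : ∀ j s, 0 < s → ∀ τ ∈ Ioo (0 : ℝ) 1, HasDerivAt (fun r => a j r τ) (k j s τ) s

theorem solTr_cont {a : ℕ → ℝ → ℝ → ℝ}
    (h : ∀ j, ContinuousOn (fun p : ℝ × ℝ => a j p.1 p.2) (Ici 0 ×ˢ Icc 0 1)) (j : ℕ) :
    ContinuousOn (fun p : ℝ × ℝ => DJ p.2 (fun i => a i p.1 p.2) j) (Ici 0 ×ˢ Icc 0 1) :=
  (((by fun_prop : ContinuousOn (fun p : ℝ × ℝ => p.2 * (1 - p.2)) _).mul (h (j + 1))).add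
    ((by fun_prop : ContinuousOn (fun p : ℝ × ℝ => (j : ℝ) * (1 - 2 * p.2)) _).mul (h j))).sub
    (continuousOn_const.mul (h (j - 1)))

theorem SolTrFam.iter {a k : ℕ → ℝ → ℝ → ℝ} (h : SolTrFam a k) (n : ℕ) :
    SolTrFam (fun j s τ => (DJ τ)^[n] (fun i => a i s τ) j)
      fun j s τ => (DJ τ)^[n] (fun i => k i s τ) j := by
  induction n with
  | zero => exact h
  | succ n ih =>
    simp only [Function.iterate_succ_apply']
    exact ⟨solTr_cont (a := fun j s τ => (DJ τ)^[n] (fun i => a i s τ) j) ih.ca,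
      solTr_cont (a := fun j s τ => (DJ τ)^[n] (fun i => k i s τ) j) ih.ck,
      fun s hs => (ih.ja s hs).DJ,
      fun s hs => (ih.jk s hs).DJ, fun j s hs τ hτ => (((ih.dt (j + 1) s hs τ hτ).const_mul _).add
        ((ih.dt j s hs τ hτ).const_mul _)).sub ((ih.dt (j - 1) s hs τ hτ).const_mul _)⟩

/-- the trajectory of a jet family -/
def SolTrFam.tr {a k : ℕ → ℝ → ℝ → ℝ} (h : SolTrFam a k) {l0 : ℝ} (hl : 0 < l0) : Tr l0 where
  G j s τ := (DJ τ)^[j] (fun i => a i s τ) 0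
  M j s τ := lam l0 s * (DJ τ)^[j - 1] (fun i => a i s τ) 1
  E j s τ := (DJ τ)^[j] (fun i => k i s τ) 0
  cG j := (h.iter j).ca 0
  cM j := ((continuous_lam l0).comp continuous_fst).continuousOn.mul ((h.iter (j - 1)).ca 1)
  cE j := (h.iter j).ck 0
  dG j s hs τ hτ := ((h.iter j).ja s hs 0 τ hτ).congr_deriv
    (mul_div_cancel_left₀ _ (lam_pos hl s).ne').symm
  GM j s _ τ _ := by
    rw [Function.iterate_succ_apply', DJ_zero, Nat.add_sub_cancel]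
    ring
  dE j s hs τ hτ := ((h.iter j).jk s hs 0 τ hτ).congr_deriv (by
    rw [Function.iterate_succ_apply', DJ_zero,
      mul_div_cancel_left₀ _ (mul_pos hτ.1 (sub_pos.2 hτ.2)).ne'])
  dt j := (h.iter j).dt 0

theorem SolTrFam.SK {a k : ℕ → ℝ → ℝ → ℝ} (h : SolTrFam a k) {l0 : ℝ} (hl : 0 < l0) (s τ : ℝ) :
    SK (evc (lam l0 s) τ) ((h.tr hl).g s τ) ((h.tr hl).m s τ) =
      lam l0 s * (τ * (1 - τ) * opK τ fun i => a i s τ) := by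
  rw [opK_DJ (evc (lam l0 s) τ) τ evc_t]
  simp only [P264.SK, Tr.g, Tr.m, SolTrFam.tr, map_mul, map_sub, map_one, evc_l, evc_t,
    Nat.sub_self, Function.iterate_zero_apply, Nat.add_one_sub_one, Function.iterate_one]
  ring

variable {l0 : ℝ}

theorem solTr_dSK (T : Tr l0) (hl : 0 < l0) {σ : ℝ} (hσ : 0 ≤ σ) {τ : ℝ}
    (hτ : τ ∈ Ioo (0 : ℝ) 1) :
    HasDerivAt (fun s => SK (evc (lam l0 σ) s) (T.g σ s) (T.m σ s))
      ((RK (evc (lam l0 σ) τ) (T.g σ τ) (T.m σ τ) +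
        (1 - 2 * τ) * SK (evc (lam l0 σ) τ) (T.g σ τ) (T.m σ τ)) / (τ * (1 - τ))) τ := by
  have h1 := fun j => (hasDerivAt_D (cK (j + 1)) (lam_pos hl σ) hτ).mul (T.dM hl j hσ hτ)
  have h2 := ((((hasDerivAt_id τ).const_mul (lam l0 σ)).mul
    ((hasDerivAt_id τ).const_sub 1)).const_mul 312).mul (T.dG' hl 0 hσ hτ)
  have h3 : τ ≠ 0 := hτ.1.ne'
  have h4 : 1 - τ ≠ 0 := (sub_pos.2 hτ.2).ne'
  simp only [SK, RK, Tr.g, Tr.m, map_mul, map_sub, map_one, evc_l, evc_t, evc_e, map_ofNat]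
  refine (((((h1 0).add (h1 1)).add (h1 2)).add (h1 3)).add h2).congr_deriv ?_
  simp only [id, Pi.mul_apply, Nat.reduceAdd]
  field_simp
  ring

theorem solTr_f (T : Tr l0) (d : Data) (hl : 0 < l0) {σ : ℝ} (hσ : 0 ≤ σ)
    (H : ∀ τ ∈ Ioo (0 : ℝ) 1, T.E 0 σ τ + T.G 0 σ τ / 2 =
      -((evc (lam l0 σ) τ d.chi + T.om σ τ) ^ 2 *
        (SK (evc (lam l0 σ) τ) (T.g σ τ) (T.m σ τ) * (lam l0 σ / (τ * (1 - τ))))) +
      evc (lam l0 σ) τ (y ^ 2 * d.V) * T.G 0 σ τ +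
      evc (lam l0 σ) τ (y ^ 2 * d.V2) * T.G 0 σ τ * T.om σ τ + evc (lam l0 σ) τ (y ^ 2 * d.A))
    {τ : ℝ} (hτ : τ ∈ Ioo (0 : ℝ) 1) :
    T.f0 d σ τ = d.rem0 (evc (lam l0 σ) τ) (T.g σ τ) (T.m σ τ) (T.om σ τ) ∧
    T.f1 d σ τ = d.rem1 (evc (lam l0 σ) τ) (T.g σ τ) (T.m σ τ) (T.om σ τ)
      ((1 - 2 * τ) * T.om σ τ + τ * (1 - τ) / lam l0 σ * T.G 1 σ τ) := by
  have hL := lam_pos hl σ
  have h3 : τ ≠ 0 := hτ.1.ne'
  have h4 : 1 - τ ≠ 0 := (sub_pos.2 hτ.2).ne'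
  have hτ' := Ioo_subset_Icc_self hτ
  have hx : xx (lam l0 σ) τ = τ * evc (lam l0 σ) τ y / lam l0 σ := by
    rw [t_mul_y hL hτ', mul_div_cancel_left₀ _ hL.ne']
  constructor
  · rw [Tr.f0, H τ hτ]
    simp only [Data.rem0, Data.L0, YK, SK, Tr.g, map_mul, map_sub, map_one, map_pow, evc_l, evc_t,
      evc_x, hx]
    field_simp
    ring
  have hρ : HasDerivAt (fun s : ℝ => s * (1 - s)) (1 - 2 * τ) τ :=
    ((hasDerivAt_id τ).mul ((hasDerivAt_id τ).const_sub 1)).congr_deriv (by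
      simp only [id]
      ring)
  obtain ⟨ω', hω'⟩ : ∃ ω', ω' = (1 - 2 * τ) * T.om σ τ + τ * (1 - τ) / lam l0 σ * T.G 1 σ τ :=
    ⟨_, rfl⟩
  have hG := T.dG' hl 0 hσ hτ
  have hω : HasDerivAt (T.om σ) (ω' / (τ * (1 - τ))) τ := by
    refine ((hρ.div_const (lam l0 σ)).mul hG).congr_deriv ?_
    rw [hω', Tr.om]
    field_simp
  have h5 := (T.dE 0 σ hσ τ hτ).add (hG.div_const 2)
  have h6 := ((((((hasDerivAt_D d.chi hL hτ).add hω).pow 2).mul ((solTr_dSK T hl hσ hτ).mul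
    ((hasDerivAt_const τ (lam l0 σ)).div hρ (mul_ne_zero h3 h4)))).neg.add
    ((hasDerivAt_D (y ^ 2 * d.V) hL hτ).mul hG)).add
    (((hasDerivAt_D (y ^ 2 * d.V2) hL hτ).mul hG).mul hω)).add (hasDerivAt_D (y ^ 2 * d.A) hL hτ)
  have h7 := h5.unique (h6.congr_of_eventuallyEq
    (Filter.mem_of_superset (Ioo_mem_nhds hτ.1 hτ.2) fun s hs => H s hs))
  have h8 : T.E 1 σ τ + T.G 1 σ τ / 2 = τ * (1 - τ) *
      (T.E (0 + 1) σ τ / (τ * (1 - τ)) + T.G (0 + 1) σ τ / (τ * (1 - τ)) / 2) := by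
    field_simp
  have h9 : evc (lam l0 σ) τ (D (d.chi ^ 2)) =
      2 * evc (lam l0 σ) τ d.chi * evc (lam l0 σ) τ (D d.chi) := by
    rw [sq, Derivation.leibniz]
    simp only [smul_eq_mul, map_add, map_mul]
    ring
  rw [Tr.f1, h8, h7, ← hω']
  simp only [evc_D_ypow 2 _ hL hτ', Data.rem1, Data.L1, h9, Tr.g, map_mul, map_sub, map_one,
    map_pow, evc_t, evc_x, hx, Pi.mul_apply, Pi.add_apply, Pi.pow_apply, Pi.div_apply,
    Nat.reduceAdd, Nat.cast_ofNat, Nat.add_one_sub_one, pow_one]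
  field_simp
  ring

theorem solTr_opK (τ b : ℝ) (u w : ℕ → ℝ) :
    opK τ (fun j => b * u j - w j) = b * opK τ u - opK τ w := by
  simp only [opK]
  ring

theorem Sol.exists_tr {g : ℕ → ℝ → ℝ → ℝ} (h : Sol g) (d : Data) {l0 : ℝ} (hl : 0 < l0) :
    ∃ T : Tr l0, T.IsSol d ∧
      ∀ τ ∈ Icc (0 : ℝ) 1, T.G 0 0 τ = l0 * g 0 0 τ - evc l0 τ d.Gs := by
  obtain ⟨k, k1, k2, k3, k4⟩ := h.exists_dt
  have hL := lam_pos hl
  obtain ⟨u, hu⟩ : ∃ u : ℝ → ℝ, u = fun s => l0 ^ 2 - lam l0 s ^ 2 := ⟨_, rfl⟩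
  have u0 : ∀ s, 0 ≤ s → 0 ≤ u s := fun s hs => by
    rw [hu]
    exact sub_nonneg.2 (pow_le_pow_left₀ (hL s).le (lam_le hl hs) 2)
  have u1 : ∀ s, 0 < s → 0 < u s := fun s hs => by
    rw [hu]
    refine sub_pos.2 (pow_lt_pow_left₀ ?_ (hL s).le two_ne_zero)
    exact mul_lt_of_lt_one_right hl (Real.exp_lt_one_iff.2 (by linarith))
  have ud : ∀ s, HasDerivAt u (lam l0 s ^ 2) s := fun s => by
    rw [hu]
    refine (((hasDerivAt_lam l0 s).pow 2).const_sub _).congr_deriv ?_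
    simp only [Nat.cast_ofNat, Nat.add_one_sub_one, pow_one]
    ring
  have uc : Continuous u := continuous_iff_continuousAt.2 fun s => (ud s).continuousAt
  have hc : ∀ b : ℝ → ℝ → ℝ, ContinuousOn (fun p : ℝ × ℝ => b p.1 p.2) (Ici 0 ×ˢ Icc 0 1) →
      ContinuousOn (fun p : ℝ × ℝ => b (u p.1) p.2) (Ici 0 ×ˢ Icc 0 1) := fun b hb =>
    ContinuousOn.comp (g := fun p : ℝ × ℝ => b p.1 p.2) (f := fun p : ℝ × ℝ => (u p.1, p.2)) hb
      (by fun_prop) fun p hp => ⟨u0 _ hp.1, hp.2⟩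
  have hlc : ContinuousOn (fun p : ℝ × ℝ => lam l0 p.1) (Ici 0 ×ˢ Icc 0 1) :=
    ((continuous_lam l0).comp continuous_fst).continuousOn
  have hF : ∀ (F : Fl) (j : ℕ), ContinuousOn (fun p : ℝ × ℝ =>
      evc (lam l0 p.1) p.2 ((Dh)^[j] F) / lam l0 p.1 ^ j) (Ici 0 ×ˢ Icc 0 1) := fun F j =>
    ((continuousOn_evc_lam _ hl).mono (prod_mono_left (subset_univ _))).div (hlc.pow j)
      fun p _ => (pow_pos (hL _) j).ne'
  have ca := fun j => (hlc.mul (hc _ (h.cont j))).sub (hF d.Gs j)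
  have ck := fun j => (((hlc.div_const 2).neg.mul (hc _ (h.cont j))).add
    ((hlc.pow 3).mul (hc _ (k1 j)))).sub (hF (dot d.Gs) j)
  have ja : ∀ s, 0 ≤ s → Jet fun j τ => lam l0 s * g j (u s) τ -
      evc (lam l0 s) τ ((Dh)^[j] d.Gs) / lam l0 s ^ j := fun s hs j τ hτ =>
    ((h.dτ j _ (u0 s hs) τ hτ).const_mul _).sub (jet_field d.Gs (hL s) j τ hτ)
  have jk : ∀ s, 0 ≤ s → Jet fun j τ => -(lam l0 s / 2) * g j (u s) τ +
      lam l0 s ^ 3 * k j (u s) τ - evc (lam l0 s) τ ((Dh)^[j] (dot d.Gs)) / lam l0 s ^ j :=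
    fun s hs j τ hτ => (((h.dτ j _ (u0 s hs) τ hτ).const_mul _).add
      ((k2 _ (u0 s hs) j τ hτ).const_mul _)).sub (jet_field (dot d.Gs) (hL s) j τ hτ)
  have hg : ∀ s, 0 < s → ∀ τ ∈ Ioo (0 : ℝ) 1,
      HasDerivAt (fun r => g 0 (u r) τ) (k 0 (u s) τ * lam l0 s ^ 2) s := fun s hs τ hτ =>
    HasDerivAt.comp (h₂ := fun r => g 0 r τ) s (k4 0 _ (u1 s hs) τ hτ) (ud s)
  have fam : SolTrFam (fun j s τ => lam l0 s * g j (u s) τ -
      evc (lam l0 s) τ ((Dh)^[j] d.Gs) / lam l0 s ^ j) fun j s τ => -(lam l0 s / 2) * g j (u s) τ +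
      lam l0 s ^ 3 * k j (u s) τ - evc (lam l0 s) τ ((Dh)^[j] (dot d.Gs)) / lam l0 s ^ j :=
    ⟨ca, ck, ja, jk, jet_dt ca ck ja jk fun s hs τ hτ => by
      simp only [Function.iterate_zero_apply, pow_zero, div_one]
      refine (((hasDerivAt_lam l0 s).mul (hg s hs τ hτ)).sub
        (hasDerivAt_dot d.Gs hl s (Ioo_subset_Icc_self hτ))).congr_deriv ?_
      ring⟩
  have hG : ∀ s τ, (fam.tr hl).G 0 s τ = lam l0 s * g 0 (u s) τ - evc (lam l0 s) τ d.Gs :=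
    fun s τ => by simp only [SolTrFam.tr, Function.iterate_zero_apply, pow_zero, div_one]
  have hE : ∀ s τ, (fam.tr hl).E 0 s τ = -(lam l0 s / 2) * g 0 (u s) τ +
      lam l0 s ^ 3 * k 0 (u s) τ - evc (lam l0 s) τ (dot d.Gs) :=
    fun s τ => by simp only [SolTrFam.tr, Function.iterate_zero_apply, pow_zero, div_one]
  have hS : ∀ s, ∀ τ ∈ Ioo (0 : ℝ) 1,
      SK (evc (lam l0 s) τ) ((fam.tr hl).g s τ) ((fam.tr hl).m s τ) = τ * (1 - τ) / lam l0 s *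
        (lam l0 s ^ 3 * opK τ (fun j => g j (u s) τ) -
          evc (lam l0 s) τ y ^ 3 * evc (lam l0 s) τ d.F3) := fun s τ hτ => by
    rw [fam.SK hl, solTr_opK, ← opK_Gs d (hL s) hτ]
    have := (hL s).ne'
    field_simp
  generalize fam.tr hl = T at hG hE hS
  have hχ : ∀ s, ∀ τ ∈ Icc (0 : ℝ) 1, evc (lam l0 s) τ d.chi + T.om s τ =
      1 + τ * (1 - τ) * g 0 (u s) τ := fun s τ hτ => by
    rw [chi_eq d (hL s) hτ, Tr.om, hG]
    have := (hL s).ne'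
    field_simp
    ring
  have hx : ∀ s, ∀ τ ∈ Icc (0 : ℝ) 1, xx (lam l0 s) τ = τ * evc (lam l0 s) τ y / lam l0 s :=
    fun s τ hτ => by rw [t_mul_y (hL s) hτ, mul_div_cancel_left₀ _ (hL s).ne']
  have hf := fun σ (hσ : 0 ≤ σ) τ (hτ : τ ∈ Ioo (0 : ℝ) 1) => solTr_f T d hl hσ (fun τ hτ => by
    have hτ' := Ioo_subset_Icc_self hτ
    have h1 := dot_Gs d (hL σ) hτ'
    have h2 : T.E 0 σ τ + T.G 0 σ τ / 2 = lam l0 σ ^ 3 * k 0 (u σ) τ -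
        (evc (lam l0 σ) τ (dot d.Gs) + evc (lam l0 σ) τ d.Gs / 2) := by
      rw [hE, hG]
      ring
    have h3 : τ ≠ 0 := hτ.1.ne'
    have h4 : 1 - τ ≠ 0 := (sub_pos.2 hτ.2).ne'
    have h5 := (hL σ).ne'
    rw [h2, h1, k3, ← hχ σ τ hτ', hS σ τ hτ]
    simp only [Data.V, Data.V2, Tr.om, map_mul, map_neg, map_sub, map_one, map_pow, map_ofNat,
      evc_x, evc_t, hx σ τ hτ']
    field_simp
    ring) hτ
  refine ⟨T, ⟨fun σ hσ τ hτ => (hf σ hσ τ hτ).1, fun σ hσ τ hτ => (hf σ hσ τ hτ).2,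
    fun σ hσ τ hτ => ?_, ?_, fun σ hσ τ hτ hne => ?_⟩, fun τ _ => ?_⟩
  · rw [hχ σ τ hτ]
    exact h.pos _ (u0 σ hσ) τ hτ
  · obtain ⟨C, hC⟩ := (isCompact_Icc.prod isCompact_Icc).exists_bound_of_continuousOn
      ((h.cont 0).mono (prod_mono_left (Icc_subset_Ici_self : Icc 0 (l0 ^ 2) ⊆ Ici 0)))
    refine ⟨C, fun σ hσ τ hτ => ?_⟩
    have h1 : |g 0 (u σ) τ| ≤ C := hC (u σ, τ) ⟨⟨u0 σ hσ, by
      rw [hu]
      exact sub_le_self _ (sq_nonneg _)⟩, hτ⟩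
    have h2 : 0 ≤ 1 - τ := sub_nonneg.2 hτ.2
    rw [hχ σ τ hτ, add_sub_cancel_left, abs_mul, abs_of_nonneg (mul_nonneg hτ.1 h2), mul_comm]
    exact mul_le_mul h1 (mul_le_of_le_one_right hτ.1 (by linarith [hτ.1]))
      (mul_nonneg hτ.1 h2) ((abs_nonneg _).trans h1)
  · have hτ' := Ioo_subset_Icc_self hτ
    have h1 := h.pos _ (u0 σ hσ.le) τ hτ'
    have h5 := (hL σ).ne'
    have h2 : HasDerivAt (fun s => evc (lam l0 s) τ d.chi) (τ * (1 - τ) / lam l0 σ *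
        (evc (lam l0 σ) τ (dot d.Gs) + evc (lam l0 σ) τ d.Gs / 2)) σ := by
      simp only [fun s => chi_eq d (hL s) hτ']
      refine ((((hasDerivAt_const σ (τ * (1 - τ))).div (hasDerivAt_lam l0 σ) h5).mul
        (hasDerivAt_dot d.Gs hl σ hτ')).const_add 1).congr_deriv ?_
      simp only [Pi.div_apply]
      field_simp
      ring
    simp only [fun s => hχ s τ hτ']
    refine (((((hg σ hσ τ hτ).const_mul (τ * (1 - τ))).const_add 1).inv h1.ne').sub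
      (h2.inv hne)).congr_deriv ?_
    have h6 := h1.ne'
    rw [dot_Gs d (hL σ) hτ', k3, hS σ τ hτ]
    simp only [map_mul, map_sub, map_one, evc_x, evc_t, hx σ τ hτ']
    field_simp
    ring
  · rw [hG, hu]
    simp only [lam_zero, sub_self]

end Vale.Agent.P264
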