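import Vale.Agent.P264.Energy

/-! The flow preserves unitary symmetry. -/

open scoped ContDiff ComplexConjugate Topology ComplexOrder
open Set Complex Matrix

noncomputable section

namespace Vale.Agent.P264

variable {n : ℕ}

/-- the invariant of the unitary group acting on the last `n` coordinates -/
def XX (Z : Fin (n + 1) → ℂ) : ℝ := (∑ a : Fin n, ‖Z a.succ‖ ^ 2) / ∑ a, ‖Z a‖ ^ 2

theorem sph_pos {N : ℕ} {Z : Fin N → ℂ} (hZ : Z ≠ 0) : 0 < ∑ a, ‖Z a‖ ^ 2 := by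
  obtain ⟨a, ha⟩ := Function.ne_iff.1 hZ
  exact Finset.sum_pos' (fun _ _ => sq_nonneg _)
    ⟨a, Finset.mem_univ _, pow_pos (norm_pos_iff.2 ha) 2⟩

theorem sph_smul {N : ℕ} (c : ℂ) (Z : Fin N → ℂ) :
    ∑ a, ‖(c • Z) a‖ ^ 2 = ‖c‖ ^ 2 * ∑ a, ‖Z a‖ ^ 2 := by
  simp only [Pi.smul_apply, norm_smul, mul_pow, Finset.mul_sum]

theorem sph_smooth {N : ℕ} : ContDiff ℝ ∞ fun Z : Fin N → ℂ => ∑ a, ‖Z a‖ ^ 2 :=
  ContDiff.sum fun a _ => (contDiff_apply ℝ ℂ a).norm_sq ℝ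

theorem XX_mem (Z : Fin (n + 1) → ℂ) : XX Z ∈ Icc (0 : ℝ) 1 := by
  have h1 : 0 ≤ ∑ a : Fin n, ‖Z a.succ‖ ^ 2 := Finset.sum_nonneg fun _ _ => sq_nonneg _
  rw [XX, Fin.sum_univ_succ]
  exact ⟨by positivity, div_le_one_of_le₀ (le_add_of_nonneg_left (sq_nonneg _)) (by positivity)⟩

theorem XX_smooth : ContDiffOn ℝ ∞ (XX (n := n)) {0}ᶜ := by
  exact (ContDiff.sum fun a _ => (contDiff_apply ℝ ℂ (Fin.succ a)).norm_sq ℝ).contDiffOn.div
    sph_smooth.contDiffOn fun Z hZ => (sph_pos hZ).ne'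

theorem XX_smul (c : ℂ) (Z : Fin (n + 1) → ℂ) (hc : c ≠ 0) : XX (c • Z) = XX Z := by
  rw [XX, XX, sph_smul, show ∑ a : Fin n, ‖(c • Z) a.succ‖ ^ 2 = _ from
    sph_smul c fun a => Z a.succ, mul_div_mul_left _ _ (pow_pos (norm_pos_iff.2 hc) 2).ne']

open Sm

/-- linear vector fields -/
def rot {N : ℕ} (A : Matrix (Fin N) (Fin N) ℂ) : Derivation ℂ (Sm N) (Sm N) :=
  ∑ c, ((∑ e, A c e • z e) • d c + (∑ e, conj (A c e) • zb e) • db c)

theorem rot_apply {N : ℕ} (A : Matrix (Fin N) (Fin N) ℂ) (f : Sm N) : rot A f =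
    ∑ c, ((∑ e, A c e • z e) * d c f + (∑ e, conj (A c e) • zb e) * db c f) := by
  have h := map_sum Derivation.coeFnAddMonoidHom
    (fun c => (∑ e, A c e • z e) • d c + (∑ e, conj (A c e) • zb e) • db c) Finset.univ
  exact (congrFun h f).trans (Finset.sum_apply _ _ _)

theorem ev_rot {N : ℕ} (A : Matrix (Fin N) (Fin N) ℂ) (f : Sm N) (p : Om N) :
    ev p (rot A f) = ev p (DD (0, A *ᵥ p.1.2) f) := by
  simp only [rot_apply, DD_eq, map_sum, map_add, map_mul, map_smul, ev_z, ev_zb, smul_eq_mul,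
    mulVec, dotProduct]

theorem rot_d {N : ℕ} (A : Matrix (Fin N) (Fin N) ℂ) (a : Fin N) (f : Sm N) :
    d a (rot A f) = rot A (d a f) + ∑ c, A c a • d c f := by
  simp only [rot_apply, map_sum, map_add, alg_mul, Derivation.map_smul, d_z, d_zb, smul_zero,
    Finset.sum_const_zero, mul_zero, add_zero, smul_ite, Finset.sum_ite_eq, Finset.mem_univ, if_true,
    d_d a, d_db a, ← Finset.sum_add_distrib, mul_smul_comm, mul_one]
  exact Finset.sum_congr rfl fun c _ => add_right_comm _ _ _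

theorem rot_db {N : ℕ} (A : Matrix (Fin N) (Fin N) ℂ) (a : Fin N) (f : Sm N) :
    db a (rot A f) = rot A (db a f) + ∑ c, conj (A c a) • db c f := by
  simp only [rot_apply, map_sum, map_add, alg_mul, Derivation.map_smul, db_z, db_zb, smul_zero,
    Finset.sum_const_zero, mul_zero, add_zero, smul_ite, Finset.sum_ite_eq, Finset.mem_univ, if_true,
    db_db a, d_db _ a, ← Finset.sum_add_distrib, mul_smul_comm, mul_one, add_assoc]

theorem rot_dt {N : ℕ} (A : Matrix (Fin N) (Fin N) ℂ) (f : Sm N) : dt (rot A f) = rot A (dt f) := by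
  simp only [rot_apply, map_sum, map_add, alg_mul, Derivation.map_smul, dt_z, dt_zb, smul_zero,
    Finset.sum_const_zero, mul_zero, add_zero, dt_d, dt_db]

theorem sph_der {ι : Type} [Fintype ι] {γ : ℝ → ι → ℂ} {η : ι → ℂ} {t : ℝ}
    (h : ∀ a, HasDerivAt (fun x => γ x a) (η a) t) :
    HasDerivAt (fun x => ∑ a, ‖γ x a‖ ^ 2) (2 * (star (γ t) ⬝ᵥ η).re) t := by
  refine (HasDerivAt.fun_sum fun a _ => (h a).norm_sq).congr_deriv ?_
  simp only [dotProduct, re_sum, Finset.mul_sum, Complex.inner, Pi.star_apply, star_def, mul_comm]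

theorem sph_skew {N : ℕ} {A : Matrix (Fin N) (Fin N) ℂ} (hA : Aᴴ = -A) (Z : Fin N → ℂ) :
    star Z ⬝ᵥ A *ᵥ Z + star (star Z ⬝ᵥ A *ᵥ Z) = 0 := by
  rw [← star_dotProduct, star_mulVec, hA, vecMul_neg, neg_dotProduct,
    dotProduct_mulVec, add_neg_cancel]

theorem sph_init {ψ : ℝ → (Fin (n + 1) → ℂ) → ℝ} (h : Fam ψ) {f : ℝ → ℝ}
    (hf : ∀ X ∈ Icc (0 : ℝ) 1, DifferentiableAt ℝ f X) (h0 : ∀ Z, Z ≠ 0 → ψ 0 Z = f (XX Z))
    {Z η : Fin (n + 1) → ℂ} (hZ : Z ≠ 0) (h1 : η 0 = 0) (h2 : (star Z ⬝ᵥ η).re = 0) :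
    (DD (0, η) h.Ψ).val (0, Z) = 0 := by
  have hγ : HasDerivAt (fun x : ℝ => Z + x • η) η 0 := by
    simpa using ((hasDerivAt_id (0 : ℝ)).smul_const η).const_add Z
  have e : Z + (0 : ℝ) • η = Z := by simp
  have a1 := sph_der (hasDerivAt_pi.1 hγ)
  have a2 := sph_der (γ := fun x a => (Z + x • η) (Fin.succ a)) fun a => hasDerivAt_pi.1 hγ a.succ
  have a3 : (star (fun a : Fin n => Z a.succ) ⬝ᵥ fun a => η a.succ).re = 0 := by
    rw [← h2, dotProduct, dotProduct, Fin.sum_univ_succ, h1, mul_zero, zero_add]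
    rfl
  simp only [e, h2, a3, mul_zero] at a1 a2
  have a4 := (((hf _ (XX_mem (Z + (0 : ℝ) • η))).hasDerivAt.comp (0 : ℝ) (a2.div a1
    (by rw [e]; exact (sph_pos hZ).ne'))).ofReal_comp).congr_of_eventuallyEq
    (f₁ := fun x : ℝ => h.Ψ.val (0, Z + x • η))
    ((hγ.continuousAt.eventually_ne (e.trans_ne hZ)).mono fun x hx =>
      (val_mk _ _ hx).trans (congrArg _ (h0 _ hx)))
  have a5 := HasFDerivAt.comp_hasDerivAt_of_eq (0 : ℝ)
    (h.Ψ.diffAt (p := (0, Z)) hZ).hasFDerivAt ((hasDerivAt_const (0 : ℝ) (0 : ℝ)).prodMk hγ)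
    (by rw [e])
  rw [val_eq _ (p := (0, Z)) hZ, ev_DD]
  exact (a5.unique a4).trans (by simp)

theorem Flow.rot_zero {ψ : ℝ → (Fin (n + 1) → ℂ) → ℝ} {c : ℝ} (h : Flow ψ c) {f : ℝ → ℝ}
    (hf : ∀ X ∈ Icc (0 : ℝ) 1, DifferentiableAt ℝ f X) (h0 : ∀ Z, Z ≠ 0 → ψ 0 Z = f (XX Z))
    {A : Matrix (Fin (n + 1)) (Fin (n + 1)) ℂ} (hA : Aᴴ = -A) (hA0 : ∀ e, A 0 e = 0)
    (p : Om (n + 1)) (hp : 0 ≤ p.1.1) : ev p (rot A h.toFam.Ψ) = 0 := by
  have hv : Hom 0 0 (rot A h.toFam.Ψ) := hom_of fun p q c hc e => by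
    rw [ev_rot, ev_rot, ← h.toFam.hom_Ψ.ev_DD hc e, e, mulVec_smul]
  have hn : rot A (nrm : Sm (n + 1)) = 0 := ext_ev fun p => by
    rw [ev_rot, map_zero, ← sph_skew hA p.1.2]
    simp only [nrm, map_sum, alg_mul, zb, ← cj_DD, DD_z, map_add, map_mul, ev_cj, ev_z,
      AlgHom.commutes, Algebra.algebraMap_self_apply, dotProduct, Pi.star_apply, star_def,
      ← Finset.sum_add_distrib, conj_conj, add_comm]
  have hρ : rot A h.cone.ρ = h.cone.ρ * rot A h.toFam.Ψ := by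
    show rot A (_ * _) = _ * _ * _
    rw [alg_mul, hn, mul_zero, add_zero, mul_assoc]
    refine congrArg _ (ext_ev fun p => ?_)
    rw [map_mul, ev_rot, ev_rot, DD_compR _ h.toFam.cj_Ψ, map_mul, ev_compR, ev_compR,
      Real.deriv_exp]
  have hL := h.cone.lin_scal (δ := rot A) (A := A) (A' := A.map conj) ⟨rot_d A, rot_db A⟩ (by
      rw [← trace_transpose (A.map _), show (A.map conj)ᵀ = Aᴴ from rfl, hA, trace_neg,
        add_neg_cancel]) hρ (h.inv_of_hom hv) (h.inv_of_hom h.hom_Λ) (ext_ev fun p => by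
      rw [map_mul, ev_rot, ev_rot, ← map_mul, h.DD_Λ])
  refine h.lin_unique (ext_ev fun p => by rw [ev_cj, ev_rot, ← ev_cj, cj_DD, h.toFam.cj_Ψ]) hv ?_
    (fun p hp => ?_) p hp
  · have ht : rot A (2 * tt : Sm (n + 1)) = 0 := by
      simp only [two_mul, map_add, rot_apply, d_tt, db_tt, mul_zero, add_zero, Finset.sum_const_zero]
    rw [rot_dt, h.cone_eq, alg_mul, ht, map_sub, Derivation.map_algebraMap, hL, Fintype.card_fin]
    ring
  · rw [ev_rot, ev_eq, show p.1 = (0, p.1.2) from Prod.ext hp rfl]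
    refine sph_init h.toFam hf h0 p.2 (by simp [mulVec, dotProduct, hA0]) ?_
    have h1 := congrArg re (sph_skew hA p.1.2)
    rw [add_re, star_def, conj_re, zero_re] at h1
    linarith

theorem sph_mat {Z η : Fin (n + 1) → ℂ} (hZ : (fun a : Fin n => Z a.succ) ≠ 0) (h1 : η 0 = 0)
    (h2 : (star Z ⬝ᵥ η).re = 0) :
    ∃ A : Matrix (Fin (n + 1)) (Fin (n + 1)) ℂ, Aᴴ = -A ∧ (∀ e, A 0 e = 0) ∧ A *ᵥ Z = η := by
  obtain ⟨Y, hY⟩ : ∃ Y : Fin (n + 1) → ℂ, Y = Fin.cons 0 fun a : Fin n => Z a.succ := ⟨_, rfl⟩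
  obtain ⟨q, hq⟩ : ∃ q : ℝ, q = ∑ a : Fin n, ‖Z a.succ‖ ^ 2 := ⟨_, rfl⟩
  have hq0 : (q : ℂ) ≠ 0 := ofReal_ne_zero.2 (hq ▸ (sph_pos hZ).ne')
  have hYZ : star Y ⬝ᵥ Z = q := by
    simp [hY, hq, dotProduct, Fin.sum_univ_succ, conj_mul']
  have h3 : conj (star η ⬝ᵥ Z) = -(star η ⬝ᵥ Z) := by
    rw [star_dotProduct, star_def, conj_conj, ← add_eq_zero_iff_eq_neg, add_conj, h2, mul_zero,
      ofReal_zero]
  refine ⟨(q : ℂ)⁻¹ • (vecMulVec η (star Y) - vecMulVec Y (star η) +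
    (star η ⬝ᵥ Z / q) • vecMulVec Y (star Y)), ?_, fun e => ?_, ?_⟩
  · ext a b
    simp only [conjTranspose_apply, Matrix.smul_apply, Matrix.add_apply, Matrix.sub_apply,
      Matrix.neg_apply, vecMulVec_apply, Pi.star_apply, star_def, smul_eq_mul, map_mul, map_add,
      map_sub, map_inv₀, map_div₀, conj_ofReal, conj_conj, h3]
    ring
  · simp [hY, h1, vecMulVec_apply]
  · rw [smul_mulVec, add_mulVec, sub_mulVec, smul_mulVec, vecMulVec_mulVec, vecMulVec_mulVec,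
      vecMulVec_mulVec, hYZ]
    funext a
    simp only [Pi.smul_apply, Pi.add_apply, Pi.sub_apply, MulOpposite.smul_eq_mul_unop,
      MulOpposite.unop_op, smul_eq_mul]
    field_simp
    ring

theorem Flow.sphere {ψ : ℝ → (Fin (n + 1) → ℂ) → ℝ} {c : ℝ} (h : Flow ψ c) (hn : 1 ≤ n) {f : ℝ → ℝ}
    (hf : ∀ X ∈ Icc (0 : ℝ) 1, DifferentiableAt ℝ f X) (h0 : ∀ Z, Z ≠ 0 → ψ 0 Z = f (XX Z))
    {s : ℝ} (hs : 0 ≤ s) (u : ℂ) {V W : Fin n → ℂ} (hV : V ≠ 0)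
    (e : ∑ a, ‖V a‖ ^ 2 = ∑ a, ‖W a‖ ^ 2) : ψ s (Fin.cons u V) = ψ s (Fin.cons u W) := by
  have hr := sph_pos hV
  have hW : W ≠ 0 := fun h => hr.ne' (by simp [e, h])
  generalize hq : ∑ a, ‖V a‖ ^ 2 = q at e hr
  let φ : (Fin n → ℂ) → Fin (n + 1) → ℂ := fun X =>
    Fin.cons u (((√(q / ∑ a, ‖X a‖ ^ 2) : ℝ) : ℂ) • X)
  have h1 : ∀ X, X ≠ 0 → (fun a : Fin n => φ X a.succ) ≠ 0 := fun X hX =>
    smul_ne_zero (ofReal_ne_zero.2 (Real.sqrt_pos.2 (div_pos hr (sph_pos hX))).ne') hX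
  have h2 : ∀ X, X ≠ 0 → φ X ≠ 0 := fun X hX h => h1 X hX (funext fun a => congrFun h a.succ)
  have h3 : ∀ X, X ≠ 0 → DifferentiableAt ℝ φ X := fun X hX =>
    differentiableAt_pi.2 (Fin.cases (differentiableAt_const u) fun a =>
      (ofRealCLM.differentiableAt.comp X (((contDiffAt_const.div sph_smooth.contDiffAt
        (sph_pos hX).ne').differentiableAt (by simp)).sqrt
          (div_pos hr (sph_pos hX)).ne')).mul (differentiableAt_apply a X))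
  have h4 : ∀ X, X ≠ 0 → DifferentiableAt ℝ (fun W => h.toFam.Ψ.val (s, W)) X := fun X hX =>
    (h.toFam.Ψ.diffAt (p := (s, X)) hX).comp X (differentiableAt_const s |>.prodMk differentiableAt_id)
  have h5 : ∀ X, ∑ a, ‖X a‖ ^ 2 = q → φ X = Fin.cons u X := fun X hX => by
    simp only [φ, hX, div_self hr.ne', Real.sqrt_one, ofReal_one, one_smul]
  have key := isOpen_compl_singleton.is_const_of_fderiv_eq_zero (𝕜 := ℝ)
    (f := (fun W => h.toFam.Ψ.val (s, W)) ∘ φ)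
    (isConnected_compl_singleton_of_one_lt_rank (Module.one_lt_rank_of_one_lt_finrank (by
      rw [Module.finrank_pi_fintype, Finset.sum_const, finrank_real_complex, Finset.card_univ,
        Fintype.card_fin, smul_eq_mul]
      omega)) 0).isPreconnected
    (fun X hX => ((h4 _ (h2 X hX)).comp X (h3 X hX)).differentiableWithinAt) (fun X hX => ?_) hV hW
  · rw [Function.comp, Function.comp, val_eq _ (p := (s, φ V)) (h2 V hV),
      val_eq _ (p := (s, φ W)) (h2 W hW), Fam.ev_Ψ, Fam.ev_Ψ, ofReal_inj] at key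
    rw [← h5 V hq, ← h5 W e.symm]
    exact key
  ext ξ
  have hl : HasDerivAt (fun x : ℝ => X + x • ξ) ξ 0 := by
    simpa using ((hasDerivAt_id (0 : ℝ)).smul_const ξ).const_add X
  have e0 : X + (0 : ℝ) • ξ = X := by simp
  have hγ := hasDerivAt_pi.1 (HasFDerivAt.comp_hasDerivAt_of_eq (0 : ℝ) (h3 X hX).hasFDerivAt hl
    e0.symm)
  have a1 := (sph_der hγ).unique ((hasDerivAt_const (0 : ℝ) (‖u‖ ^ 2 + q)).congr_of_eventuallyEq
    ((hl.continuousAt.eventually_ne (e0.trans_ne hX)).mono fun x hx => by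
      have a2 := sph_pos hx
      simp only [Function.comp, φ, Fin.sum_univ_succ, Fin.cons_zero, Fin.cons_succ]
      rw [sph_smul, norm_real, Real.norm_eq_abs, sq_abs, Real.sq_sqrt (div_pos hr a2).le,
        div_mul_cancel₀ _ a2.ne']))
  rw [Function.comp, e0] at a1
  obtain ⟨A, hA, hA0, hAZ⟩ := sph_mat (h1 X hX) ((hγ 0).unique (hasDerivAt_const (0 : ℝ) u))
    (by linarith)
  have a3 := h.rot_zero hf h0 hA hA0 ⟨(s, φ X), h2 X hX⟩ hs
  rw [ev_rot, hAZ, ev_eq, ← fderiv_slice _ s (h2 X hX)] at a3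
  rw [fderiv_comp X (h4 _ (h2 X hX)) (h3 X hX)]
  exact a3

theorem Flow.rev {ψ : ℝ → (Fin (n + 1) → ℂ) → ℝ} {c : ℝ} (h : Flow ψ c) :
    Flow (fun s => ψ (-s)) c where
  smooth := h.smooth.comp (f := fun p : VV (n + 1) => (-p.1, p.2)) (by fun_prop) fun _ hp => hp
  inv s := h.inv _
  pos s := h.pos _
  eq s j w := ((h.eq (-s) j w).comp s (hasDerivAt_neg s)).congr_deriv (by ring)

theorem sph_match {Z W : Fin (n + 1) → ℂ} (hZ : Z ≠ 0) (hW : W ≠ 0) (hX : XX Z = XX W) :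
    ∃ c : ℂ, c ≠ 0 ∧ (c • W) 0 = Z 0 ∧
      ∑ a : Fin n, ‖Z a.succ‖ ^ 2 = ∑ a : Fin n, ‖(c • W) a.succ‖ ^ 2 := by
  have a1 := sph_pos hZ
  have a2 := sph_pos hW
  obtain ⟨t, ht, ht2⟩ : ∃ t : ℝ, 0 < t ∧ t ^ 2 * ∑ a, ‖W a‖ ^ 2 = ∑ a, ‖Z a‖ ^ 2 :=
    ⟨√_, Real.sqrt_pos.2 (div_pos a1 a2), by
      rw [Real.sq_sqrt (div_pos a1 a2).le, div_mul_cancel₀ _ a2.ne']⟩
  have a3 : ∑ a : Fin n, ‖Z a.succ‖ ^ 2 = t ^ 2 * ∑ a : Fin n, ‖W a.succ‖ ^ 2 := by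
    rw [XX, XX, ← ht2, div_eq_div_iff (by positivity) a2.ne'] at hX
    exact mul_right_cancel₀ a2.ne' (by linarith)
  have a4 : t * ‖W 0‖ = ‖Z 0‖ := by
    rw [Fin.sum_univ_succ, Fin.sum_univ_succ, a3] at ht2
    exact (pow_left_inj₀ (by positivity) (norm_nonneg _) two_ne_zero).1 (by linarith)
  obtain ⟨c, hc, hc0⟩ : ∃ c : ℂ, ‖c‖ = t ∧ c * W 0 = Z 0 := by
    by_cases hw : W 0 = 0
    · refine ⟨t, Complex.norm_of_nonneg ht.le, ?_⟩
      rw [hw, norm_zero, mul_zero, eq_comm, norm_eq_zero] at a4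
      rw [hw, a4, mul_zero]
    · exact ⟨Z 0 / W 0, by rw [norm_div, ← a4, mul_div_cancel_right₀ _ (norm_ne_zero_iff.2 hw)],
        div_mul_cancel₀ _ hw⟩
  exact ⟨c, norm_pos_iff.1 (hc ▸ ht), hc0, a3.trans (hc ▸ (sph_smul c fun a => W a.succ).symm)⟩

theorem Flow.symm {ψ : ℝ → (Fin (n + 1) → ℂ) → ℝ} {c : ℝ} (h : Flow ψ c) (hn : 1 ≤ n) {f : ℝ → ℝ}
    (hf : ∀ X ∈ Icc (0 : ℝ) 1, DifferentiableAt ℝ f X) (h0 : ∀ Z, Z ≠ 0 → ψ 0 Z = f (XX Z))
    (s : ℝ) {Z W : Fin (n + 1) → ℂ} (hZ : Z ≠ 0) (hW : W ≠ 0) (hX : XX Z = XX W) :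
    ψ s Z = ψ s W := by
  wlog hs : 0 ≤ s generalizing ψ s
  · have := this (ψ := fun s => ψ (-s)) h.rev (by simpa using h0) (-s) (by linarith)
    simpa using this
  obtain ⟨a, ha, h1, h2⟩ := sph_match hZ hW hX
  rw [← h.inv s a W ha hW, ← Fin.cons_self_tail Z, ← Fin.cons_self_tail (a • W), h1]
  by_cases hT : Fin.tail Z = 0
  · have h3 : Fin.tail (a • W) = 0 := by
      by_contra h4
      refine (sph_pos h4).ne (Eq.trans ?_ h2)
      simp [show ∀ b : Fin n, Z b.succ = 0 from congrFun hT]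
    rw [hT, h3]
  · exact h.sphere hn hf h0 hs _ hT h2

end Vale.Agent.P264
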