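import Vale.Agent.P264.Data

/-! Trajectories of perturbations, weighted norms, Sobolev inequalities. -/

open Set Polynomial

noncomputable section

namespace Vale.Agent.P264

open Fl

/-- A time dependent function with its `D`-jets `G`, rescaled jets `M` and time derivatives `E`. -/
structure Tr (l0 : ℝ) where
  /-- jets -/
  G : ℕ → ℝ → ℝ → ℝ
  /-- jets divided by `τ (1 - τ) / l` -/
  M : ℕ → ℝ → ℝ → ℝ
  /-- time derivatives of the jets -/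
  E : ℕ → ℝ → ℝ → ℝ
  cG : ∀ j, ContinuousOn (fun p : ℝ × ℝ => G j p.1 p.2) (Ici 0 ×ˢ Icc 0 1)
  cM : ∀ j, ContinuousOn (fun p : ℝ × ℝ => M j p.1 p.2) (Ici 0 ×ˢ Icc 0 1)
  cE : ∀ j, ContinuousOn (fun p : ℝ × ℝ => E j p.1 p.2) (Ici 0 ×ˢ Icc 0 1)
  dG : ∀ j σ, 0 ≤ σ → ∀ τ ∈ Ioo (0 : ℝ) 1, HasDerivAt (G j σ) (M (j + 1) σ τ / lam l0 σ) τ
  GM : ∀ j σ, 0 ≤ σ → ∀ τ ∈ Icc (0 : ℝ) 1,
    lam l0 σ * G (j + 1) σ τ = τ * (1 - τ) * M (j + 1) σ τ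
  dE : ∀ j σ, 0 ≤ σ → ∀ τ ∈ Ioo (0 : ℝ) 1, HasDerivAt (E j σ) (E (j + 1) σ τ / (τ * (1 - τ))) τ
  dt : ∀ j σ, 0 < σ → ∀ τ ∈ Ioo (0 : ℝ) 1, HasDerivAt (fun s => G j s τ) (E j σ τ) σ

/-- rescaled integral -/
def av (l : ℝ) (h : ℝ → ℝ) : ℝ := l⁻¹ * ∫ τ in (0 : ℝ)..1, h τ

/-- Integration by parts for `D`. -/
theorem ibp_D {a a' : ℝ → ℝ} (ha : ContinuousOn a (Icc 0 1)) (ha' : ContinuousOn a' (Icc 0 1))
    (hd : ∀ τ ∈ Ioo (0 : ℝ) 1, HasDerivAt a (a' τ / (τ * (1 - τ))) τ) {τ0 : ℝ}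
    (h0 : τ0 ∈ Icc (0 : ℝ) 1) :
    ∫ τ in (0 : ℝ)..τ0, (a' τ + (1 - 2 * τ) * a τ) = τ0 * (1 - τ0) * a τ0 := by
  have hsub : Icc (0 : ℝ) τ0 ⊆ Icc 0 1 := Icc_subset_Icc_right h0.2
  have h := intervalIntegral.integral_eq_sub_of_hasDerivAt_of_le
    (f := fun τ => τ * (1 - τ) * a τ) (f' := fun τ => a' τ + (1 - 2 * τ) * a τ) h0.1
    (ContinuousOn.mul (by fun_prop) (ha.mono hsub)) (by
      intro τ hτ
      have hτ' : τ ∈ Ioo (0 : ℝ) 1 := ⟨hτ.1, hτ.2.trans_le h0.2⟩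
      have h1 := hτ'.1.ne'
      have h2 := (sub_pos.2 hτ'.2).ne'
      refine (((hasDerivAt_id τ).mul ((hasDerivAt_id τ).const_sub 1)).mul
        (hd τ hτ')).congr_deriv ?_
      simp only [id, Pi.mul_apply]
      field_simp
      ring)
    (ContinuousOn.intervalIntegrable_of_Icc h0.1
      ((ha'.mono hsub).add (ContinuousOn.mul (by fun_prop) (ha.mono hsub))))
  rw [h]
  ring

theorem av_add {l : ℝ} {f g : ℝ → ℝ} (hf : ContinuousOn f (Icc 0 1))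
    (hg : ContinuousOn g (Icc 0 1)) : av l (fun τ => f τ + g τ) = av l f + av l g := by
  unfold av
  rw [intervalIntegral.integral_add (hf.intervalIntegrable_of_Icc zero_le_one)
    (hg.intervalIntegrable_of_Icc zero_le_one), mul_add]

theorem av_const_mul (l b : ℝ) (f : ℝ → ℝ) : av l (fun τ => b * f τ) = b * av l f := by
  unfold av
  rw [intervalIntegral.integral_const_mul]
  ring

theorem av_congr {l : ℝ} {f g : ℝ → ℝ} (h : ∀ τ ∈ Ioo (0 : ℝ) 1, f τ = g τ) :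
    av l f = av l g := by
  unfold av
  rw [intervalIntegral.integral_of_le zero_le_one, intervalIntegral.integral_of_le zero_le_one,
    MeasureTheory.integral_Ioc_eq_integral_Ioo, MeasureTheory.integral_Ioc_eq_integral_Ioo,
    MeasureTheory.setIntegral_congr_fun measurableSet_Ioo h]

theorem av_mono {l : ℝ} (hl : 0 < l) {f g : ℝ → ℝ} (hf : ContinuousOn f (Icc 0 1))
    (hg : ContinuousOn g (Icc 0 1)) (h : ∀ τ ∈ Ioo (0 : ℝ) 1, f τ ≤ g τ) : av l f ≤ av l g := by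
  unfold av
  exact mul_le_mul_of_nonneg_left (intervalIntegral.integral_mono_on_of_le_Ioo zero_le_one
    (hf.intervalIntegrable_of_Icc zero_le_one) (hg.intervalIntegrable_of_Icc zero_le_one) h)
    (inv_nonneg.2 hl.le)

theorem av_y_sq {l : ℝ} (hl : 0 < l) : av l (fun τ => evc l τ y ^ 2) = 1 / 15 := by
  have hc : ContinuousOn (fun τ => 15 * evc l τ y ^ 2 / l) (Icc 0 1) :=
    (((continuousOn_evc_slice y hl).pow 2).const_mul 15).div_const l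
  have h := intervalIntegral.integral_eq_sub_of_hasDerivAt_of_le
    (f := xx l) (f' := fun τ => 15 * evc l τ y ^ 2 / l) zero_le_one
    (fun τ hτ => (hasDerivAt_xx hl hτ).continuousAt.continuousWithinAt)
    (fun τ hτ => hasDerivAt_xx hl (Ioo_subset_Icc_self hτ))
    (hc.intervalIntegrable_of_Icc zero_le_one)
  rw [xx_one, xx_zero, intervalIntegral.integral_div, intervalIntegral.integral_const_mul] at h
  unfold av
  field_simp at h ⊢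
  linarith

theorem av_cs {l : ℝ} (hl : 0 < l) {h : ℝ → ℝ} (hh : ContinuousOn h (Icc 0 1)) :
    av l (fun τ => evc l τ y * h τ) ^ 2 ≤ av l (fun τ => h τ ^ 2) / 15 := by
  have hy := continuousOn_evc_slice y hl
  obtain ⟨u, hu⟩ : ∃ u, u = av l (fun τ => evc l τ y * h τ) := ⟨_, rfl⟩
  have h1 : av l (fun τ => u * (evc l τ y * h τ)) ≤
      av l (fun τ => (15 * u ^ 2 / 2) * evc l τ y ^ 2 + (1 / 30) * h τ ^ 2) := by
    refine av_mono hl ((hy.mul hh).const_mul u)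
      (((hy.pow 2).const_mul _).add ((hh.pow 2).const_mul _)) fun τ _ => ?_
    nlinarith [sq_nonneg (15 * u * evc l τ y - h τ)]
  rw [av_add (f := fun τ => (15 * u ^ 2 / 2) * evc l τ y ^ 2) (g := fun τ => (1 / 30) * h τ ^ 2)
    ((hy.pow 2).const_mul _) ((hh.pow 2).const_mul _), av_const_mul, av_const_mul,
    av_const_mul, av_y_sq hl, ← hu] at h1
  rw [← hu]
  nlinarith

theorem av_continuousOn {l0 : ℝ} (hl : 0 < l0) {h : ℝ → ℝ → ℝ}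
    (hh : ContinuousOn (fun p : ℝ × ℝ => h p.1 p.2) (Ici 0 ×ˢ Icc 0 1)) :
    ContinuousOn (fun σ => av (lam l0 σ) (h σ)) (Ici 0) := by
  have hc : Continuous fun p : ℝ × ℝ => h (max p.1 0) (max 0 (min p.2 1)) :=
    hh.comp_continuous (f := fun p : ℝ × ℝ => (max p.1 0, max 0 (min p.2 1))) (by fun_prop)
      fun p => ⟨mem_Ici.2 (le_max_right _ _), le_max_left _ _,
        max_le zero_le_one (min_le_right _ _)⟩
  have h1 := intervalIntegral.continuous_parametric_intervalIntegral_of_continuous'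
    (μ := MeasureTheory.volume) (f := fun σ τ => h (max σ 0) (max 0 (min τ 1))) hc 0 1
  have h2 : Continuous fun σ => (lam l0 σ)⁻¹ :=
    (continuous_lam l0).inv₀ fun σ => (lam_pos hl σ).ne'
  refine (h2.mul h1).continuousOn.congr fun σ hσ => ?_
  have e : av (lam l0 σ) (h σ) = av (lam l0 σ) fun τ => h (max σ 0) (max 0 (min τ 1)) :=
    av_congr fun τ hτ => by
      rw [max_eq_left (show (0 : ℝ) ≤ σ from hσ), min_eq_left hτ.2.le, max_eq_right hτ.1.le]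
  exact e

theorem av_hasDerivAt {l0 : ℝ} (hl : 0 < l0) {h h' : ℝ → ℝ → ℝ}
    (hh : ContinuousOn (fun p : ℝ × ℝ => h p.1 p.2) (Ici 0 ×ˢ Icc 0 1))
    (hh' : ContinuousOn (fun p : ℝ × ℝ => h' p.1 p.2) (Ici 0 ×ˢ Icc 0 1))
    (hd : ∀ σ, 0 < σ → ∀ τ ∈ Ioo (0 : ℝ) 1, HasDerivAt (fun s => h s τ) (h' σ τ) σ) {σ : ℝ}
    (hσ : 0 < σ) : HasDerivAt (fun s => av (lam l0 s) (h s))
      (av (lam l0 σ) fun τ => h σ τ / 2 + h' σ τ) σ := by
  have sl : ∀ {k : ℝ → ℝ → ℝ}, ContinuousOn (fun p : ℝ × ℝ => k p.1 p.2) (Ici 0 ×ˢ Icc 0 1) →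
      ∀ s, 0 ≤ s → ContinuousOn (k s) (Icc 0 1) := fun hk s hs =>
    hk.comp (f := fun τ => (s, τ)) (by fun_prop) fun τ hτ => ⟨hs, hτ⟩
  have ms : ∀ {k : ℝ → ℝ}, ContinuousOn k (Icc 0 1) → MeasureTheory.AEStronglyMeasurable k
      (MeasureTheory.volume.restrict (uIoc (0 : ℝ) 1)) := fun hk => by
    rw [uIoc_of_le zero_le_one]
    exact (hk.mono Ioc_subset_Icc_self).aestronglyMeasurable measurableSet_Ioc
  obtain ⟨C, hC⟩ := (isCompact_Icc.prod isCompact_Icc :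
      IsCompact (Icc (0 : ℝ) (σ + 1) ×ˢ Icc (0 : ℝ) 1)).exists_bound_of_continuousOn
    (hh'.mono (prod_mono Icc_subset_Ici_self subset_rfl))
  have hn : Ioo 0 (σ + 1) ∈ nhds σ := Ioo_mem_nhds hσ (by linarith)
  have h1 := (intervalIntegral.hasDerivAt_integral_of_dominated_loc_of_deriv_le
    (μ := MeasureTheory.volume) (a := 0) (b := 1) (F := h) (F' := h') (bound := fun _ => C) hn
    (Filter.mem_of_superset hn fun s hs => ms (sl hh s hs.1.le))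
    ((sl hh σ hσ.le).intervalIntegrable_of_Icc zero_le_one) (ms (sl hh' σ hσ.le))
    (Filter.Eventually.of_forall fun τ hτ s hs => by
      rw [uIoc_of_le zero_le_one] at hτ
      exact hC (s, τ) ⟨Ioo_subset_Icc_self hs, Ioc_subset_Icc_self hτ⟩)
    intervalIntegrable_const (by
      have : ∀ᵐ τ : ℝ ∂MeasureTheory.volume, τ ≠ 1 := by simp [MeasureTheory.ae_iff]
      filter_upwards [this] with τ h1 hτ s hs
      rw [uIoc_of_le zero_le_one] at hτ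
      exact hd s hs.1 τ ⟨hτ.1, lt_of_le_of_ne hτ.2 h1⟩)).2
  have h0 := (lam_pos hl σ).ne'
  refine (((hasDerivAt_lam l0 σ).inv h0).mul h1).congr_deriv ?_
  rw [av_add ((sl hh σ hσ.le).div_const 2) (sl hh' σ hσ.le)]
  unfold av
  rw [intervalIntegral.integral_div]
  simp only [Pi.inv_apply]
  field_simp

theorem traj_sob {l : ℝ} (hl : 0 < l) {a a' w : ℝ → ℝ} (ha : ContinuousOn a (Icc 0 1))
    (ha' : ContinuousOn a' (Icc 0 1)) (hw : ContinuousOn w (Icc 0 1))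
    (hd : ∀ τ ∈ Ioo (0 : ℝ) 1, HasDerivAt a (a' τ / (τ * (1 - τ))) τ)
    (hw0 : ∀ τ ∈ Ioc (0 : ℝ) 1, 0 ≤ w τ)
    (hle : ∀ τ ∈ Ioo (0 : ℝ) 1, a' τ + (1 - 2 * τ) * a τ ≤ 2 * w τ) {τ0 : ℝ}
    (h0 : τ0 ∈ Icc (0 : ℝ) 1) : τ0 * (1 - τ0) * a τ0 ≤ 2 * l * av l w := by
  have hsub : Icc (0 : ℝ) τ0 ⊆ Icc 0 1 := Icc_subset_Icc_right h0.2
  rw [← ibp_D ha ha' hd h0]
  have h1 := intervalIntegral.integral_mono_on_of_le_Ioo (μ := MeasureTheory.volume)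
    (f := fun τ => a' τ + (1 - 2 * τ) * a τ) (g := fun τ => 2 * w τ) h0.1
    (ContinuousOn.intervalIntegrable_of_Icc h0.1
      ((ha'.mono hsub).add (ContinuousOn.mul (by fun_prop) (ha.mono hsub))))
    (((hw.mono hsub).const_mul 2).intervalIntegrable_of_Icc h0.1)
    fun τ hτ => hle τ ⟨hτ.1, hτ.2.trans_le h0.2⟩
  have h2 := intervalIntegral.integral_mono_interval (μ := MeasureTheory.volume) (f := w)
    (le_refl (0 : ℝ)) h0.1 h0.2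
    (MeasureTheory.ae_restrict_of_forall_mem measurableSet_Ioc hw0)
    (hw.intervalIntegrable_of_Icc zero_le_one)
  rw [intervalIntegral.integral_const_mul] at h1
  unfold av
  rw [mul_assoc, mul_inv_cancel_left₀ hl.ne']
  linarith

namespace Tr

variable {l0 : ℝ} (T : Tr l0)

/-- the jets at a point -/
def g (σ τ : ℝ) : ℕ → ℝ := fun j => T.G j σ τ

/-- the rescaled jets at a point -/
def m (σ τ : ℝ) : ℕ → ℝ := fun j => T.M j σ τ

/-- energy norm -/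
def N (σ : ℝ) : ℝ := av (lam l0 σ) fun τ => nG (T.g σ τ)

/-- dissipation norm -/
def Dd (σ : ℝ) : ℝ := av (lam l0 σ) fun τ => nM (T.m σ τ)

/-- the perturbation of the momentum profile -/
def om (σ τ : ℝ) : ℝ := τ * (1 - τ) / lam l0 σ * T.G 0 σ τ

/-- difference of trajectories -/
def sub (S : Tr l0) : Tr l0 where
  G j σ τ := T.G j σ τ - S.G j σ τ
  M j σ τ := T.M j σ τ - S.M j σ τ
  E j σ τ := T.E j σ τ - S.E j σ τ
  cG j := (T.cG j).sub (S.cG j)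
  cM j := (T.cM j).sub (S.cM j)
  cE j := (T.cE j).sub (S.cE j)
  dG j σ hσ τ hτ := ((T.dG j σ hσ τ hτ).sub (S.dG j σ hσ τ hτ)).congr_deriv (by ring)
  GM j σ hσ τ hτ := by linear_combination T.GM j σ hσ τ hτ - S.GM j σ hσ τ hτ
  dE j σ hσ τ hτ := ((T.dE j σ hσ τ hτ).sub (S.dE j σ hσ τ hτ)).congr_deriv (by ring)
  dt j σ hσ τ hτ := (T.dt j σ hσ τ hτ).sub (S.dt j σ hσ τ hτ)

theorem cG' (j : ℕ) {σ : ℝ} (hσ : 0 ≤ σ) : ContinuousOn (T.G j σ) (Icc 0 1) := by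
  exact (T.cG j).comp (f := fun τ => (σ, τ)) (by fun_prop) fun τ hτ => ⟨hσ, hτ⟩

theorem cM' (j : ℕ) {σ : ℝ} (hσ : 0 ≤ σ) : ContinuousOn (T.M j σ) (Icc 0 1) := by
  exact (T.cM j).comp (f := fun τ => (σ, τ)) (by fun_prop) fun τ hτ => ⟨hσ, hτ⟩

theorem cE' (j : ℕ) {σ : ℝ} (hσ : 0 ≤ σ) : ContinuousOn (T.E j σ) (Icc 0 1) := by
  exact (T.cE j).comp (f := fun τ => (σ, τ)) (by fun_prop) fun τ hτ => ⟨hσ, hτ⟩

theorem dG' (hl : 0 < l0) (j : ℕ) {σ : ℝ} (hσ : 0 ≤ σ) {τ : ℝ} (hτ : τ ∈ Ioo (0 : ℝ) 1) :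
    HasDerivAt (T.G j σ) (T.G (j + 1) σ τ / (τ * (1 - τ))) τ := by
  refine (T.dG j σ hσ τ hτ).congr_deriv ?_
  rw [div_eq_div_iff (lam_pos hl σ).ne' (mul_pos hτ.1 (sub_pos.2 hτ.2)).ne']
  linear_combination -T.GM j σ hσ τ (Ioo_subset_Icc_self hτ)

theorem dM (hl : 0 < l0) (j : ℕ) {σ : ℝ} (hσ : 0 ≤ σ) {τ : ℝ} (hτ : τ ∈ Ioo (0 : ℝ) 1) :
    HasDerivAt (T.M (j + 1) σ)
      ((T.M (j + 2) σ τ - (1 - 2 * τ) * T.M (j + 1) σ τ) / (τ * (1 - τ))) τ := by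
  have h1 := hτ.1.ne'
  have h2 := (sub_pos.2 hτ.2).ne'
  have h3 := (lam_pos hl σ).ne'
  have h4 := ((T.dG (j + 1) σ hσ τ hτ).const_mul (lam l0 σ)).div
    ((hasDerivAt_id τ).mul ((hasDerivAt_id τ).const_sub 1)) (mul_ne_zero h1 h2)
  refine (h4.congr_of_eventuallyEq ?_).congr_deriv ?_
  · filter_upwards [Ioo_mem_nhds hτ.1 hτ.2] with s hs
    simp only [Pi.div_apply, Pi.mul_apply, id]
    rw [T.GM j σ hσ s (Ioo_subset_Icc_self hs),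
      mul_div_cancel_left₀ _ (mul_pos hs.1 (sub_pos.2 hs.2)).ne']
  · simp only [Pi.mul_apply, id]
    rw [T.GM j σ hσ τ (Ioo_subset_Icc_self hτ)]
    field_simp
    ring

theorem N_nonneg (hl : 0 < l0) (σ : ℝ) : 0 ≤ T.N σ := by
  exact mul_nonneg (inv_nonneg.2 (lam_pos hl σ).le)
    (intervalIntegral.integral_nonneg zero_le_one fun τ _ => by unfold nG; positivity)

theorem Dd_nonneg (hl : 0 < l0) (σ : ℝ) : 0 ≤ T.Dd σ := by
  exact mul_nonneg (inv_nonneg.2 (lam_pos hl σ).le)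
    (intervalIntegral.integral_nonneg zero_le_one fun τ _ => by unfold nM; positivity)

theorem N_cont (hl : 0 < l0) : ContinuousOn T.N (Ici 0) := by
  exact av_continuousOn hl (h := fun σ τ => nG (T.g σ τ))
    (((((T.cG 0).pow 2).add ((T.cG 1).pow 2)).add ((T.cG 2).pow 2)).add ((T.cG 3).pow 2))

theorem om_cont (hl : 0 < l0) :
    ContinuousOn (fun p : ℝ × ℝ => T.om p.1 p.2) (Ici 0 ×ˢ Icc 0 1) := by
  refine ContinuousOn.mul (Continuous.continuousOn ?_) (T.cG 0)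
  exact Continuous.div (by fun_prop) ((continuous_lam l0).comp continuous_fst)
    fun p => (lam_pos hl _).ne'

theorem nG_cont {σ : ℝ} (hσ : 0 ≤ σ) : ContinuousOn (fun τ => nG (T.g σ τ)) (Icc 0 1) :=
  ((((T.cG' 0 hσ).pow 2).add ((T.cG' 1 hσ).pow 2)).add ((T.cG' 2 hσ).pow 2)).add
    ((T.cG' 3 hσ).pow 2)

theorem nM_cont {σ : ℝ} (hσ : 0 ≤ σ) : ContinuousOn (fun τ => nM (T.m σ τ)) (Icc 0 1) :=
  (((((T.cM' 1 hσ).pow 2).add ((T.cM' 2 hσ).pow 2)).add ((T.cM' 3 hσ).pow 2)).add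
    ((T.cM' 4 hσ).pow 2)).add ((T.cM' 5 hσ).pow 2)

theorem sob_G (hl : 0 < l0) {j : ℕ} (hj : j ≤ 2) {σ : ℝ} (hσ : 0 ≤ σ) {τ : ℝ}
    (hτ : τ ∈ Icc (0 : ℝ) 1) : τ * (1 - τ) * T.G j σ τ ^ 2 ≤ 2 * lam l0 σ * T.N σ := by
  refine traj_sob (lam_pos hl σ) (a := fun τ => T.G j σ τ ^ 2)
    (a' := fun τ => 2 * T.G j σ τ * T.G (j + 1) σ τ) ((T.cG' j hσ).pow 2)
    (((T.cG' j hσ).const_mul 2).mul (T.cG' (j + 1) hσ)) (T.nG_cont hσ) (fun s hs => ?_)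
    (fun s _ => by unfold nG; positivity) (fun s hs => ?_) hτ
  · refine ((T.dG' hl j hσ hs).pow 2).congr_deriv ?_
    simp only [Nat.cast_ofNat, Nat.add_one_sub_one, pow_one]
    ring
  · have h1 : T.G j σ s ^ 2 + T.G (j + 1) σ s ^ 2 ≤ nG (T.g σ s) := by
      unfold nG g
      obtain rfl | rfl | rfl : j = 0 ∨ j = 1 ∨ j = 2 := by omega
      all_goals
        norm_num
        nlinarith [sq_nonneg (T.G 0 σ s), sq_nonneg (T.G 1 σ s), sq_nonneg (T.G 2 σ s),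
          sq_nonneg (T.G 3 σ s)]
    nlinarith [sq_nonneg (T.G j σ s - T.G (j + 1) σ s), sq_nonneg (T.G (j + 1) σ s),
      mul_nonneg hs.1.le (sq_nonneg (T.G j σ s))]

theorem sob_M (hl : 0 < l0) {j : ℕ} (hj : 1 ≤ j) (hj' : j ≤ 4) {σ : ℝ} (hσ : 0 ≤ σ) {τ : ℝ}
    (hτ : τ ∈ Icc (0 : ℝ) 1) : τ * (1 - τ) * T.M j σ τ ^ 2 ≤ 2 * lam l0 σ * T.Dd σ := by
  obtain ⟨i, rfl⟩ : ∃ i, j = i + 1 := ⟨j - 1, by omega⟩
  refine traj_sob (lam_pos hl σ) (a := fun τ => T.M (i + 1) σ τ ^ 2)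
    (a' := fun τ => 2 * T.M (i + 1) σ τ * (T.M (i + 2) σ τ - (1 - 2 * τ) * T.M (i + 1) σ τ))
    ((T.cM' _ hσ).pow 2)
    (((T.cM' _ hσ).const_mul 2).mul ((T.cM' _ hσ).sub
      (ContinuousOn.mul (by fun_prop) (T.cM' _ hσ)))) (T.nM_cont hσ) (fun s hs => ?_)
    (fun s _ => by unfold nM; positivity) (fun s hs => ?_) hτ
  · refine ((T.dM hl i hσ hs).pow 2).congr_deriv ?_
    simp only [Nat.cast_ofNat, Nat.add_one_sub_one, pow_one]
    ring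
  · have h1 : T.M (i + 1) σ s ^ 2 + T.M (i + 2) σ s ^ 2 ≤ nM (T.m σ s) := by
      unfold nM m
      obtain rfl | rfl | rfl | rfl : i = 0 ∨ i = 1 ∨ i = 2 ∨ i = 3 := by omega
      all_goals
        norm_num
        nlinarith [sq_nonneg (T.M 1 σ s), sq_nonneg (T.M 2 σ s), sq_nonneg (T.M 3 σ s),
          sq_nonneg (T.M 4 σ s), sq_nonneg (T.M 5 σ s)]
    nlinarith [sq_nonneg (T.M (i + 1) σ s - T.M (i + 2) σ s), sq_nonneg (T.M (i + 2) σ s),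
      mul_nonneg (sub_pos.2 hs.2).le (sq_nonneg (T.M (i + 1) σ s))]

theorem interp (hl : 0 < l0) {j : ℕ} (hj : 1 ≤ j) (hj' : j ≤ 4) {σ : ℝ} (hσ : 0 ≤ σ) :
    av (lam l0 σ) (fun τ => T.G j σ τ * T.M j σ τ) ≤ T.N σ + T.Dd σ := by
  have hl' := lam_pos hl σ
  have key : ∀ a b : ℕ, a ≤ 3 → 1 ≤ b → b ≤ 5 → ∀ u : ℝ, u ^ 2 = 1 →
      av (lam l0 σ) (fun τ => u * (T.G a σ τ * T.M b σ τ)) ≤ T.N σ + T.Dd σ := by
    intro a b ha hb hb' u hu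
    unfold N Dd
    rw [← av_add (T.nG_cont hσ) (T.nM_cont hσ)]
    refine av_mono hl' (((T.cG' a hσ).mul (T.cM' b hσ)).const_mul u)
      ((T.nG_cont hσ).add (T.nM_cont hσ)) fun s _ => ?_
    have h1 : T.G a σ s ^ 2 ≤ nG (T.g σ s) := by
      unfold nG g
      obtain rfl | rfl | rfl | rfl : a = 0 ∨ a = 1 ∨ a = 2 ∨ a = 3 := by omega
      all_goals
        nlinarith [sq_nonneg (T.G 0 σ s), sq_nonneg (T.G 1 σ s), sq_nonneg (T.G 2 σ s),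
          sq_nonneg (T.G 3 σ s)]
    have h2 : T.M b σ s ^ 2 ≤ nM (T.m σ s) := by
      unfold nM m
      obtain rfl | rfl | rfl | rfl | rfl : b = 1 ∨ b = 2 ∨ b = 3 ∨ b = 4 ∨ b = 5 := by omega
      all_goals
        nlinarith [sq_nonneg (T.M 1 σ s), sq_nonneg (T.M 2 σ s), sq_nonneg (T.M 3 σ s),
          sq_nonneg (T.M 4 σ s), sq_nonneg (T.M 5 σ s)]
    have h3 : (u * T.G a σ s) ^ 2 = T.G a σ s ^ 2 := by rw [mul_pow, hu, one_mul]
    nlinarith [sq_nonneg (u * T.G a σ s - T.M b σ s), sq_nonneg (T.G a σ s),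
      sq_nonneg (T.M b σ s)]
  rcases Nat.lt_or_ge j 4 with h4 | h4
  · simpa using key j j (by omega) hj (by omega) 1 (by norm_num)
  obtain rfl : j = 4 := by omega
  have h1 := ibp_D (a := fun τ => T.G 3 σ τ * T.M 4 σ τ)
    (a' := fun τ => T.G 4 σ τ * T.M 4 σ τ + T.G 3 σ τ * (T.M 5 σ τ - (1 - 2 * τ) * T.M 4 σ τ))
    ((T.cG' 3 hσ).mul (T.cM' 4 hσ))
    (((T.cG' 4 hσ).mul (T.cM' 4 hσ)).add ((T.cG' 3 hσ).mul ((T.cM' 5 hσ).sub
      (ContinuousOn.mul (by fun_prop) (T.cM' 4 hσ)))))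
    (fun s hs => ((T.dG' hl 3 hσ hs).mul (T.dM hl 3 hσ hs)).congr_deriv (by ring))
    (τ0 := 1) ⟨zero_le_one, le_rfl⟩
  have h2 : av (lam l0 σ) (fun τ => T.G 4 σ τ * T.M 4 σ τ + T.G 3 σ τ * T.M 5 σ τ) = 0 := by
    rw [av_congr (g := fun τ => T.G 4 σ τ * T.M 4 σ τ +
      T.G 3 σ τ * (T.M 5 σ τ - (1 - 2 * τ) * T.M 4 σ τ) + (1 - 2 * τ) * (T.G 3 σ τ * T.M 4 σ τ))
      fun τ _ => by ring]
    unfold av
    rw [h1]
    ring
  rw [av_add (f := fun τ => T.G 4 σ τ * T.M 4 σ τ) (g := fun τ => T.G 3 σ τ * T.M 5 σ τ)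
    ((T.cG' 4 hσ).mul (T.cM' 4 hσ)) ((T.cG' 3 hσ).mul (T.cM' 5 hσ))] at h2
  have h3 := key 3 5 le_rfl (by norm_num) le_rfl (-1) (by norm_num)
  rw [av_const_mul] at h3
  linarith

end Tr

end Vale.Agent.P264
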