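import Vale.Agent.P264.Rem
import Vale.Agent.P264.Adj

/-! A priori estimates while the Lyapunov functional stays above a threshold. -/

open Set Polynomial

noncomputable section

namespace Vale.Agent.P264

open Fl

/-- Continuous induction. -/
theorem bootstrap {K : Set ℝ} (hK : IsCompact K) {f : ℝ → ℝ → ℝ} {σ1 : ℝ}
    (hf : ContinuousOn (fun p : ℝ × ℝ => f p.1 p.2) (Icc 0 σ1 ×ˢ K)) (h0 : ∀ τ ∈ K, f 0 τ ≤ 1)
    {b : ℝ} (hb : b < 1) (hs : ∀ σ ∈ Icc 0 σ1, (∀ s ∈ Icc 0 σ, ∀ τ ∈ K, f s τ ≤ 1) →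
      ∀ τ ∈ K, f σ τ ≤ b) : ∀ σ ∈ Icc 0 σ1, ∀ τ ∈ K, f σ τ ≤ b := by
  have key : Icc 0 σ1 ⊆ {σ | ∀ τ ∈ K, f σ τ ≤ 1} := by
    refine IsClosed.Icc_subset_of_forall_mem_nhdsGT_of_Icc_subset
      (isClosed_of_closure_subset fun σ hσ => ?_) h0 fun s hs' hsub => ?_
    · have h1 : σ ∈ Icc 0 σ1 := closure_minimal inter_subset_right isClosed_Icc hσ
      refine ⟨fun τ hτ => ?_, h1⟩
      have h2 : ContinuousOn (fun s => f s τ) (Icc 0 σ1) :=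
        ContinuousOn.comp (g := fun p : ℝ × ℝ => f p.1 p.2) (f := fun s => (s, τ)) hf
          (by fun_prop) fun s h3 => ⟨h3, hτ⟩
      exact ContinuousWithinAt.closure_le hσ ((h2 σ h1).mono inter_subset_right)
        continuousWithinAt_const fun s h3 => h3.1 τ hτ
    · have h1 := Ico_subset_Icc_self hs'
      have h2 := hK.eventually_forall_of_forall_eventually (x₀ := s)
        (P := fun a τ => (a, τ) ∈ Icc 0 σ1 ×ˢ K → f a τ < 1) fun τ hτ =>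
          eventually_nhdsWithin_iff.1 ((hf (s, τ) ⟨h1, hτ⟩).eventually
            (gt_mem_nhds ((hs s h1 (fun a ha => hsub ha) τ hτ).trans_lt hb)))
      filter_upwards [nhdsWithin_le_nhds h2, Ioc_mem_nhdsGT hs'.2] with a h3 h4 τ hτ
      exact (h3 τ hτ ⟨⟨hs'.1.trans h4.1.le, h4.2⟩, hτ⟩).le
  exact fun σ hσ => hs σ hσ fun s h1 => key ⟨h1.1, h1.2.trans hσ.2⟩

theorem trap_anti {P : ℝ → ℝ} {a b : ℝ} (h : a ≤ b) (hc : ContinuousOn P (Icc a b))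
    (hd : ∀ s ∈ Ioo a b, ∃ P', HasDerivAt P P' s ∧ P' ≤ 0) : P b ≤ P a := by
  refine antitoneOn_of_deriv_nonpos (convex_Icc a b) hc (fun s hs => ?_) (fun s hs => ?_)
    ⟨le_rfl, h⟩ ⟨h, le_rfl⟩ h
  · rw [interior_Icc] at hs
    obtain ⟨_, h1, -⟩ := hd s hs
    exact h1.differentiableAt.differentiableWithinAt
  · rw [interior_Icc] at hs
    obtain ⟨_, h1, h2⟩ := hd s hs
    rw [h1.deriv]
    exact h2

theorem trap_gron {P : ℝ → ℝ} {a b σ : ℝ} (hσ : 0 ≤ σ) (h0 : P 0 ≤ b)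
    (hc : ContinuousOn P (Icc 0 σ))
    (hd : ∀ s ∈ Ioo 0 σ, ∃ P', HasDerivAt P P' s ∧ P' ≤ -(a * (P s - b))) : P σ ≤ b := by
  have h1 := trap_anti (P := fun s => (P s - b) * Real.exp (a * s)) hσ
    ((hc.sub continuousOn_const).mul (by fun_prop)) fun s hs => by
      obtain ⟨P', h2, h3⟩ := hd s hs
      refine ⟨_, (h2.sub_const b).mul ((hasDerivAt_id s).const_mul a).exp, ?_⟩
      have h4 := mul_le_mul_of_nonneg_right h3 (Real.exp_pos (a * s)).le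
      simp only [id, mul_one]
      linarith
  simp only [mul_zero, Real.exp_zero, mul_one] at h1
  by_contra h2
  have h3 := mul_pos (sub_pos.2 (not_le.1 h2)) (Real.exp_pos (a * σ))
  linarith

theorem trap_sq {e a r : ℝ} (h1 : 1 / 2 ≤ e) (h2 : e ≤ 2) :
    a ^ 2 / 2 - 2 * r ^ 2 ≤ 2 * a * (e * a + r) ∧ 2 * a * (e * a + r) ≤ 5 * a ^ 2 + r ^ 2 := by
  have h3 := mul_le_mul_of_nonneg_right h1 (sq_nonneg a)
  have h4 := mul_le_mul_of_nonneg_right h2 (sq_nonneg a)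
  constructor
  · nlinarith [sq_nonneg (a + 2 * r)]
  · nlinarith [sq_nonneg (a - r)]

variable {l0 : ℝ} {d : Data}

theorem Tr.Q_cont (T : Tr l0) (hl : 0 < l0) : ContinuousOn (T.Q d) (Ici 0) :=
  (T.Y_cont d hl).sub (continuousOn_const.mul
    (((T.ell_cont d hl 0).pow 2).add ((T.ell_cont d hl 1).pow 2)))

theorem trap_ell (h : d.Good l0) (T : Tr l0) {σ : ℝ} (hσ : 0 < σ) : ∃ L',
    HasDerivAt (fun s => T.ell d 0 s ^ 2 + T.ell d 1 s ^ 2) L' σ ∧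
      (T.ell d 0 σ ^ 2 + T.ell d 1 σ ^ 2) / 2 - (2 / 10 ^ 30 * T.N σ + 200 * T.Phi d σ) ≤ L' ∧
      L' ≤ 101 * T.N σ + 100 * T.Phi d σ := by
  obtain ⟨r0, h1, h2⟩ := T.ell_deriv h (k := 0) zero_le_one hσ
  obtain ⟨r1, h3, h4⟩ := T.ell_deriv h (k := 1) le_rfl hσ
  obtain ⟨h5, h6⟩ := trap_sq (a := T.ell d 0 σ) (r := r0) (h.eig 0 zero_le_one).1
    (h.eig 0 zero_le_one).2
  obtain ⟨h7, h8⟩ := trap_sq (a := T.ell d 1 σ) (r := r1) (h.eig 1 le_rfl).1 (h.eig 1 le_rfl).2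
  have h9 := T.ell_sq h (k := 0) zero_le_one hσ.le
  have h10 := T.ell_sq h (k := 1) le_rfl hσ.le
  have h11 := T.N_nonneg h.pos σ
  refine ⟨2 * T.ell d 0 σ * (d.eig 0 * T.ell d 0 σ + r0) +
    2 * T.ell d 1 σ * (d.eig 1 * T.ell d 1 σ + r1), ((h1.pow 2).add (h3.pow 2)).congr_deriv ?_,
    by linarith, by linarith⟩
  simp

theorem Tr.Q_deriv (h : d.Good l0) {T : Tr l0} (hT : T.IsSol d) {σ : ℝ} (hσ : 0 < σ)
    (hs : T.Small σ) : ∃ Q', HasDerivAt (T.Q d) Q' σ ∧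
      Q' ≤ -(1 / (4 * 10 ^ 4) * (T.N σ + T.Dd σ)) + 1 / 10 ^ 149 := by
  obtain ⟨Y', h1, h2⟩ := T.Y_deriv h hσ
  obtain ⟨L', h3, h4, -⟩ := trap_ell h T hσ
  have h5 := Tr.Phi_le h hT hσ.le hs
  have h6 := T.N_nonneg h.pos σ
  have h7 := T.Dd_nonneg h.pos σ
  have h8 : 0 ≤ T.ell d 0 σ ^ 2 + T.ell d 1 σ ^ 2 := by positivity
  exact ⟨_, h1.sub (h3.const_mul (10 ^ 18)), by linarith⟩

theorem trap_Q_le (h : d.Good l0) (T : Tr l0) {σ : ℝ} (hσ : 0 ≤ σ) :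
    T.Q d σ ≤ 10 ^ 6 * T.N σ := by
  have h1 := (abs_le.1 (T.Y_abs h hσ)).2
  have h2 : 0 ≤ T.ell d 0 σ ^ 2 + T.ell d 1 σ ^ 2 := by positivity
  rw [Tr.Q]
  linarith

theorem Tr.N_small (h : d.Good l0) {T : Tr l0} (hT : T.IsSol d) (h0 : T.N 0 ≤ 3 / 10 ^ 112)
    {σ : ℝ} (hσ : 0 ≤ σ) (hs : ∀ s ∈ Icc 0 σ, T.Small s) (hq : -(2 / 10 ^ 105) ≤ T.Q d σ) :
    T.N σ ≤ 1 / 10 ^ 81 := by
  have hP : ∀ s, 0 ≤ s → T.Y d s + 10 ^ 11 * (T.ell d 0 s ^ 2 + T.ell d 1 s ^ 2) +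
      10 ^ 19 * T.Q d s ≤ 2 * 10 ^ 25 * T.N s := fun s h1 => by
    have h2 := (abs_le.1 (T.Y_abs h h1)).2
    have h3 := trap_Q_le h T h1
    have h4 := T.ell_sq h (k := 0) zero_le_one h1
    have h5 := T.ell_sq h (k := 1) le_rfl h1
    have h6 := T.N_nonneg h.pos s
    linarith
  have h1 := trap_gron (P := fun s => T.Y d s + 10 ^ 11 * (T.ell d 0 s ^ 2 + T.ell d 1 s ^ 2) +
      10 ^ 19 * T.Q d s) (a := 1 / (2 * 10 ^ 25)) (b := 6 / 10 ^ 87) hσ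
    (by linarith [hP 0 le_rfl])
    ((((T.Y_cont d h.pos).add (continuousOn_const.mul (((T.ell_cont d h.pos 0).pow 2).add
      ((T.ell_cont d h.pos 1).pow 2)))).add (continuousOn_const.mul (T.Q_cont h.pos))).mono
      Icc_subset_Ici_self) fun s hs' => by
      obtain ⟨Y', h1, h2⟩ := T.Y_deriv h hs'.1
      obtain ⟨L', h3, -, h4⟩ := trap_ell h T hs'.1
      obtain ⟨Q', h5, h6⟩ := Tr.Q_deriv h hT hs'.1 (hs s (Ioo_subset_Icc_self hs'))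
      have h7 := Tr.Phi_le h hT hs'.1.le (hs s (Ioo_subset_Icc_self hs'))
      have h8 := T.N_nonneg h.pos s
      have h9 := T.Dd_nonneg h.pos s
      have h10 := T.ell_sq h (k := 0) zero_le_one hs'.1.le
      have h11 := T.ell_sq h (k := 1) le_rfl hs'.1.le
      have h12 := hP s hs'.1.le
      exact ⟨_, (h1.add (h3.const_mul (10 ^ 11))).add (h5.const_mul (10 ^ 19)), by linarith⟩
  have h2 := T.Y_lower h hσ
  linarith

theorem trap_om (hl : 0 < l0) (T : Tr l0) {σ : ℝ} (hσ : 0 ≤ σ) (hN : T.N σ ≤ 1 / 10 ^ 81) {τ : ℝ}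
    (hτ : τ ∈ Icc (0 : ℝ) 1) (hr : τ * (1 - τ) ≤ lam l0 σ) : |T.om σ τ| ≤ 1 / 10 ^ 40 := by
  have h1 := T.sob_G hl (j := 0) (by norm_num) hσ hτ
  have h2 := lam_pos hl σ
  have h3 : 0 ≤ τ * (1 - τ) := mul_nonneg hτ.1 (sub_nonneg.2 hτ.2)
  have h4 : τ * (1 - τ) / lam l0 σ ≤ 1 := (div_le_one h2).2 hr
  have h5 : τ * (1 - τ) / lam l0 σ * T.G 0 σ τ ^ 2 ≤ 2 * T.N σ := by
    rw [div_mul_eq_mul_div, div_le_iff₀ h2]
    linarith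
  have h6 : T.om σ τ ^ 2 = τ * (1 - τ) / lam l0 σ * (τ * (1 - τ) / lam l0 σ * T.G 0 σ τ ^ 2) := by
    rw [Tr.om]
    ring
  refine abs_le_of_sq_le_sq ?_ (by positivity)
  rw [h6]
  have h7 := mul_le_of_le_one_left (b := τ * (1 - τ) / lam l0 σ * T.G 0 σ τ ^ 2)
    (by positivity) h4
  linarith

theorem trap_w {c ω : ℝ} (hc : |c - 21 / 20| ≤ 19 / 20) (hω : |ω| ≤ 1 / 10 ^ 22) :
    c ≠ 0 ∧ c + ω ≠ 0 ∧ |(c + ω)⁻¹ - c⁻¹| ≤ 200 * |ω| ∧ |ω| ≤ 6 * |(c + ω)⁻¹ - c⁻¹| := by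
  obtain ⟨h1, h2⟩ := abs_le.1 hc
  obtain ⟨h3, h4⟩ := abs_le.1 hω
  have h5 : 0 < c := by linarith
  have h6 : 0 < c + ω := by linarith
  have h7 : |ω| = |(c + ω)⁻¹ - c⁻¹| * (c * (c + ω)) := by
    rw [← abs_of_pos (mul_pos h5 h6), ← abs_mul, ← abs_neg]
    congr 1
    field_simp
    ring
  have h8 : 1 / 200 ≤ c * (c + ω) := by nlinarith
  have h9 : c * (c + ω) ≤ 6 := by nlinarith
  have h10 := abs_nonneg ((c + ω)⁻¹ - c⁻¹)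
  have h11 := mul_le_mul_of_nonneg_left h8 h10
  have h12 := mul_le_mul_of_nonneg_left h9 h10
  exact ⟨h5.ne', h6.ne', by linarith, by linarith⟩

theorem trap_amgm {W ν X θ : ℝ} (hν : 0 < ν) (hθ : 0 < θ) (h : W ^ 2 ≤ ν ^ 2 * X) :
    |W| ≤ ν * (θ + X / (4 * θ)) := by
  have h1 : ν * (θ + X / (4 * θ)) = (4 * θ ^ 2 * ν ^ 2 + ν ^ 2 * X) / (4 * θ * ν) := by
    field_simp
  rw [h1, le_div_iff₀ (by positivity)]
  nlinarith [sq_nonneg (|W| - 2 * θ * ν), sq_abs W]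

theorem Tr.om_small (h : d.Good l0) {T : Tr l0} (hT : T.IsSol d)
    (h0 : ∀ τ ∈ Icc (0 : ℝ) 1, |T.om 0 τ| ≤ 1 / 10 ^ 50) {σ : ℝ} (hσ : 0 ≤ σ)
    (hs : ∀ s ∈ Icc 0 σ, T.Small s) (hq : ∀ s ∈ Icc 0 σ, -(2 / 10 ^ 105) ≤ T.Q d s)
    (hN : ∀ s ∈ Icc 0 σ, T.N s ≤ 1 / 10 ^ 81) {τ : ℝ} (hτ : τ ∈ Icc (0 : ℝ) 1) :
    |T.om σ τ| ≤ 1 / 10 ^ 23 := by
  have hl := h.pos
  rcases le_or_gt (τ * (1 - τ)) (lam l0 σ) with hr | hr
  · exact (trap_om hl T hσ (hN σ ⟨hσ, le_rfl⟩) hτ hr).trans (by norm_num)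
  have hρ : 0 < τ * (1 - τ) := (lam_pos hl σ).trans hr
  have hτ' : τ ∈ Ioo (0 : ℝ) 1 := by
    refine ⟨hτ.1.lt_of_ne fun h1 => ?_, hτ.2.lt_of_ne fun h1 => ?_⟩
    · simp [← h1] at hρ
    · simp [h1] at hρ
  obtain ⟨s0, hs0, h1, h2⟩ : ∃ s0 ∈ Icc 0 σ, lam l0 s0 ≤ τ * (1 - τ) ∧
      |T.om s0 τ| ≤ 1 / 10 ^ 40 := by
    rcases le_or_gt l0 (τ * (1 - τ)) with h1 | h1
    · exact ⟨0, ⟨le_rfl, hσ⟩, (lam_zero l0).trans_le h1, (h0 τ hτ).trans (by norm_num)⟩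
    · obtain ⟨s0, h2, h3⟩ := intermediate_value_Icc' hσ (continuous_lam l0).continuousOn
        (show τ * (1 - τ) ∈ Icc (lam l0 σ) (lam l0 0) from ⟨hr.le, by rw [lam_zero]; exact h1.le⟩)
      exact ⟨s0, h2, h3.le, trap_om hl T h2.1 (hN s0 h2) hτ h3.ge⟩
  have hmono : ∀ s, s0 ≤ s → lam l0 s ≤ τ * (1 - τ) := fun s h3 => by
    refine le_trans ?_ h1
    exact mul_le_mul_of_nonneg_left (Real.exp_le_exp.2 (by linarith)) hl.le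
  obtain ⟨ν, hν⟩ : ∃ ν : ℝ → ℝ, ν = fun s => √(l0 / (τ * (1 - τ))) * Real.exp (-s / 4) := ⟨_, rfl⟩
  have hν0 : ∀ s, 0 < ν s := fun s => by
    rw [hν]
    exact mul_pos (Real.sqrt_pos.2 (div_pos hl hρ)) (Real.exp_pos _)
  have hν2 : ∀ s, ν s ^ 2 = lam l0 s / (τ * (1 - τ)) := fun s => by
    rw [hν, mul_pow, Real.sq_sqrt (div_pos hl hρ).le, ← Real.exp_nat_mul, lam,
      show ((2 : ℕ) : ℝ) * (-s / 4) = -s / 2 by push_cast; ring]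
    ring
  have hνd : ∀ s, HasDerivAt ν (-(ν s / 4)) s := fun s => by
    rw [hν]
    refine (((hasDerivAt_id s).neg.div_const 4).exp.const_mul _).congr_deriv ?_
    simp only [id, Pi.neg_apply]
    ring
  have hν1 : ν s0 ≤ 1 := by
    refine (abs_le_of_sq_le_sq' ?_ zero_le_one).2
    rw [hν2, one_pow]
    exact (div_le_one hρ).2 h1
  obtain ⟨w, hw⟩ : ∃ w : ℝ → ℝ, w = fun s => (evc (lam l0 s) τ d.chi + T.om s τ)⁻¹ -
    (evc (lam l0 s) τ d.chi)⁻¹ := ⟨_, rfl⟩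
  have hw1 : ∀ s ∈ Icc 0 σ, evc (lam l0 s) τ d.chi ≠ 0 ∧ evc (lam l0 s) τ d.chi + T.om s τ ≠ 0 ∧
      |w s| ≤ 200 * |T.om s τ| ∧ |T.om s τ| ≤ 6 * |w s| := fun s h3 => by
    have h4 := h.bd (d.chi - c (21 / 20), 19 / 20) (by simp [Data.bounds]) (lam l0 s)
      ⟨lam_pos hl s, lam_le hl h3.1⟩ τ hτ
    rw [map_sub, evc_c] at h4
    rw [hw]
    exact trap_w h4 ((hs s h3).2 τ hτ)
  have hsub : Icc s0 σ ⊆ Icc 0 σ := Icc_subset_Icc_left hs0.1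
  have hwc : ContinuousOn w (Icc s0 σ) := by
    have h3 : ContinuousOn (fun s => evc (lam l0 s) τ d.chi) (Icc s0 σ) :=
      ContinuousOn.comp (g := fun p : ℝ × ℝ => evc (lam l0 p.1) p.2 d.chi) (f := fun s => (s, τ))
        (continuousOn_evc_lam d.chi hl) (by fun_prop) fun s _ => ⟨mem_univ _, hτ⟩
    have h4 : ContinuousOn (fun s => T.om s τ) (Icc s0 σ) :=
      ContinuousOn.comp (g := fun p : ℝ × ℝ => T.om p.1 p.2) (f := fun s => (s, τ))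
        (T.om_cont hl) (by fun_prop) fun s h5 => ⟨(hsub h5).1, hτ⟩
    rw [hw]
    exact ((h3.add h4).inv₀ fun s h5 => (hw1 s (hsub h5)).2.1).sub
      (h3.inv₀ fun s h5 => (hw1 s (hsub h5)).1)
  have hνc : Continuous ν := continuous_iff_continuousAt.2 fun s => (hνd s).continuousAt
  have key : ∀ ε : ℝ, |ε| = 1 → ε * w σ ≤ 1 / 10 ^ 24 := fun ε hε => by
    have h3 := trap_anti (P := fun s => ε * w s + 10 ^ 37 * (ν s * (T.Q d s + 2 / 10 ^ 105)) +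
        4 * (1 / 10 ^ 25 + 1 / 10 ^ 100) * ν s) hs0.2
      (((continuousOn_const.mul hwc).add (continuousOn_const.mul (hνc.continuousOn.mul
        (((T.Q_cont hl).mono (hsub.trans Icc_subset_Ici_self)).add continuousOn_const)))).add
        (continuousOn_const.mul hνc.continuousOn)) fun s h3 => by
        have h4 := hsub (Ioo_subset_Icc_self h3)
        have h5 : 0 < s := hs0.1.trans_lt h3.1
        obtain ⟨Q', h6, h7⟩ := Tr.Q_deriv h hT h5 (hs s h4)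
        have h8 := hT.dW s h5 τ hτ' (hw1 s h4).1
        have h9 := Tr.W_sq h T h5.le hτ' (hmono s h3.1.le)
        rw [← hw] at h8
        rw [← hν2] at h9
        have h10 := trap_amgm (θ := 1 / 10 ^ 25) (hν0 s) (by positivity) h9
        refine ⟨_, ((h8.const_mul ε).add (((hνd s).mul (h6.add_const _)).const_mul _)).add
          ((hνd s).const_mul _), ?_⟩
        generalize SK (evc (lam l0 s) τ) (T.g s τ) (T.m s τ) -
          evc (lam l0 s) τ (x * (1 - t) * y * d.A) / evc (lam l0 s) τ d.chi ^ 2 = W at h10 ⊢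
        have h11 : ε * W ≤ |W| := by
          rw [← one_mul |W|, ← hε, ← abs_mul]
          exact le_abs_self _
        have h12 := mul_nonneg (hν0 s).le (show 0 ≤ T.Q d s + 2 / 10 ^ 105 by linarith [hq s h4])
        have h15 : 10 ^ 8 * (T.N s + T.Dd s + 1 / 10 ^ 170) / (4 * (1 / 10 ^ 25)) =
            25 * 10 ^ 31 * (T.N s + T.Dd s + 1 / 10 ^ 170) := by ring
        rw [h15] at h10
        have h13 : 1 / 10 ^ 25 + 25 * 10 ^ 31 * (T.N s + T.Dd s + 1 / 10 ^ 170) +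
            10 ^ 37 * Q' - (1 / 10 ^ 25 + 1 / 10 ^ 100) ≤ 0 := by linarith
        have h14 := mul_le_mul_of_nonneg_left h13 (hν0 s).le
        linarith
    have h4 := mul_nonneg (hν0 σ).le (show 0 ≤ T.Q d σ + 2 / 10 ^ 105 by
      linarith [hq σ ⟨hσ, le_rfl⟩])
    have h5 := (hν0 σ).le
    have h6 : ε * w s0 ≤ |w s0| := by
      rw [← one_mul |w s0|, ← hε, ← abs_mul]
      exact le_abs_self _
    have h7 := (hw1 s0 hs0).2.2.1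
    have h8 := mul_le_of_le_one_left (show 0 ≤ T.Q d s0 + 2 / 10 ^ 105 by linarith [hq s0 hs0]) hν1
    have h9 := trap_Q_le h T hs0.1
    have h10 := hN s0 hs0
    linarith
  have h3 := key 1 abs_one
  have h4 := key (-1) (by simp)
  have h5 : |w σ| ≤ 1 / 10 ^ 24 := abs_le.2 ⟨by linarith, by linarith⟩
  have h6 := (hw1 σ ⟨hσ, le_rfl⟩).2.2.2
  linarith

theorem Tr.trapped (h : d.Good l0) {T : Tr l0} (hT : T.IsSol d) (h0 : T.N 0 ≤ 3 / 10 ^ 112)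
    (h1 : ∀ τ ∈ Icc (0 : ℝ) 1, |T.om 0 τ| ≤ 1 / 10 ^ 50) {σ1 : ℝ}
    (hq : ∀ s ∈ Icc 0 σ1, -(2 / 10 ^ 105) ≤ T.Q d s) :
    ∀ σ ∈ Icc 0 σ1, T.N σ ≤ 1 / 10 ^ 81 ∧ ∀ τ ∈ Icc (0 : ℝ) 1, |T.om σ τ| ≤ 1 / 10 ^ 23 := by
  have key : ∀ σ ∈ Icc 0 σ1, (∀ s ∈ Icc 0 σ, ∀ τ ∈ Icc (0 : ℝ) 1,
      max (10 ^ 44 * T.N s) (10 ^ 22 * |T.om s τ|) ≤ 1) →
      T.N σ ≤ 1 / 10 ^ 81 ∧ ∀ τ ∈ Icc (0 : ℝ) 1, |T.om σ τ| ≤ 1 / 10 ^ 23 := fun σ hσ h2 => by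
    have h3 : ∀ s ∈ Icc 0 σ, T.Small s := fun s hs =>
      ⟨by linarith [(max_le_iff.1 (h2 s hs 0 ⟨le_rfl, zero_le_one⟩)).1], fun τ hτ => by
        linarith [(max_le_iff.1 (h2 s hs τ hτ)).2]⟩
    have h4 : ∀ s ∈ Icc 0 σ, -(2 / 10 ^ 105) ≤ T.Q d s := fun s hs =>
      hq s ⟨hs.1, hs.2.trans hσ.2⟩
    have h5 : ∀ s ∈ Icc 0 σ, T.N s ≤ 1 / 10 ^ 81 := fun s hs =>
      Tr.N_small h hT h0 hs.1 (fun a ha => h3 a ⟨ha.1, ha.2.trans hs.2⟩) (h4 s hs)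
    exact ⟨h5 σ ⟨hσ.1, le_rfl⟩, fun τ hτ => Tr.om_small h hT h1 hσ.1 h3 h4 h5 hτ⟩
  have hsub : Icc 0 σ1 ×ˢ Icc (0 : ℝ) 1 ⊆ Ici 0 ×ˢ Icc 0 1 := prod_mono_left Icc_subset_Ici_self
  have hc : ContinuousOn (fun p : ℝ × ℝ => T.N p.1) (Icc 0 σ1 ×ˢ Icc (0 : ℝ) 1) :=
    (T.N_cont h.pos).comp continuousOn_fst fun p hp => hp.1.1
  have h2 := bootstrap isCompact_Icc
    (f := fun s τ => max (10 ^ 44 * T.N s) (10 ^ 22 * |T.om s τ|)) (σ1 := σ1)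
    ((continuousOn_const.mul hc).sup (continuousOn_const.mul ((T.om_cont h.pos).mono hsub).abs))
    (fun τ hτ => max_le (by linarith) (by linarith [h1 τ hτ])) (b := 1 / 10) (by norm_num)
    fun σ hσ h2 τ hτ => max_le (by linarith [(key σ hσ h2).1])
      (by linarith [(key σ hσ h2).2 τ hτ])
  exact fun σ hσ => key σ hσ fun s hs τ hτ =>
    (h2 s ⟨hs.1, hs.2.trans hσ.2⟩ τ hτ).trans (by norm_num)

end Vale.Agent.P264
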